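import Mathlib

/-!
# Thorp shuffle (S0222): common definitions

`Deck L` is a recursive model of `2^L` slots, `Deck (L+1) = Bool × Deck L` (top bit first).
`tau L ω` is the butterfly permutation (one pass, `L` Thorp shuffles), `pi L ω` the Benes-type
permutation whose law is that of `τ'⁻¹ ∘ τ`.  Tokens are a finite type `K`; functions on token tuples
are `Fn K L = (K → Deck L) → ℝ` (injectively supported ones model `V^{(K)}`).
See `BLUEPRINT.md` in this directory.
-/

set_option autoImplicit false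

namespace Crest.Agent.Thorp

/-- The deck with `2^L` slots. -/
def Deck : ℕ → Type
  | 0 => Unit
  | L + 1 => Bool × Deck L

instance instFintypeDeck : ∀ L, Fintype (Deck L)
  | 0 => inferInstanceAs (Fintype Unit)
  | L + 1 =>
      haveI := instFintypeDeck L
      inferInstanceAs (Fintype (Bool × Deck L))

instance instDecEqDeck : ∀ L, DecidableEq (Deck L)
  | 0 => inferInstanceAs (DecidableEq Unit)
  | L + 1 =>
      haveI := instDecEqDeck L
      inferInstanceAs (DecidableEq (Bool × Deck L))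

instance instNonemptyDeck : ∀ L, Nonempty (Deck L)
  | 0 => inferInstanceAs (Nonempty Unit)
  | L + 1 =>
      haveI := instNonemptyDeck L
      inferInstanceAs (Nonempty (Bool × Deck L))

theorem card_deck : ∀ L, Fintype.card (Deck L) = 2 ^ L
  | 0 => by
      change Fintype.card Unit = 1
      simp
  | L + 1 => by
      have h := card_deck L
      change Fintype.card (Bool × Deck L) = 2 ^ (L + 1)
      rw [Fintype.card_prod, Fintype.card_bool, h, pow_succ]
      ring

/-- Flip pattern at the sites of the next-to-top level. -/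
abbrev Flips (L : ℕ) := Deck L → Bool

instance (L : ℕ) : Fintype (Flips L) := inferInstance

/-- `flipPerm f : (b, u) ↦ (xor b (f u), u)`; an involution. -/
def flipPerm {L : ℕ} (f : Flips L) : Equiv.Perm (Deck (L + 1)) where
  toFun p := (xor p.1 (f p.2), p.2)
  invFun p := (xor p.1 (f p.2), p.2)
  left_inv p := by
    rcases p with ⟨b, u⟩
    change (xor (xor b (f u)) (f u), u) = (b, u)
    simp
  right_inv p := by
    rcases p with ⟨b, u⟩
    change (xor (xor b (f u)) (f u), u) = (b, u)
    simp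

@[simp] theorem flipPerm_apply {L : ℕ} (f : Flips L) (b : Bool) (u : Deck L) :
    flipPerm f (b, u) = (xor b (f u), u) := rfl

@[simp] theorem flipPerm_inv {L : ℕ} (f : Flips L) : (flipPerm f)⁻¹ = flipPerm f := by
  ext p <;> rfl

/-- `blockPerm σ₀ σ₁ : (b, u) ↦ (b, σ_b u)`. -/
def blockPerm {L : ℕ} (σ0 σ1 : Equiv.Perm (Deck L)) : Equiv.Perm (Deck (L + 1)) where
  toFun p := (p.1, if p.1 then σ1 p.2 else σ0 p.2)
  invFun p := (p.1, if p.1 then σ1⁻¹ p.2 else σ0⁻¹ p.2)
  left_inv p := by
    rcases p with ⟨b, u⟩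
    cases b <;> simp <;> rfl
  right_inv p := by
    rcases p with ⟨b, u⟩
    cases b <;> simp <;> rfl

@[simp] theorem blockPerm_apply {L : ℕ} (σ0 σ1 : Equiv.Perm (Deck L)) (b : Bool) (u : Deck L) :
    blockPerm σ0 σ1 (b, u) = (b, if b then σ1 u else σ0 u) := rfl

theorem blockPerm_inv {L : ℕ} (σ0 σ1 : Equiv.Perm (Deck L)) :
    (blockPerm σ0 σ1)⁻¹ = blockPerm σ0⁻¹ σ1⁻¹ := by
  ext p <;> rfl

/-- Sample space of one pass. -/
def TΩ : ℕ → Type
  | 0 => Unit
  | L + 1 => Flips L × TΩ L × TΩ L

instance instFintypeTΩ : ∀ L, Fintype (TΩ L)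
  | 0 => inferInstanceAs (Fintype Unit)
  | L + 1 =>
      haveI := instFintypeTΩ L
      inferInstanceAs (Fintype (Flips L × TΩ L × TΩ L))

instance instNonemptyTΩ : ∀ L, Nonempty (TΩ L)
  | 0 => inferInstanceAs (Nonempty Unit)
  | L + 1 =>
      haveI := instNonemptyTΩ L
      inferInstanceAs (Nonempty (Flips L × TΩ L × TΩ L))

/-- The butterfly permutation: first the flips of the top bit, then independent butterflies
on the two blocks. -/
def tau : ∀ L, TΩ L → Equiv.Perm (Deck L)
  | 0, _ => 1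
  | L + 1, ω => blockPerm (tau L ω.2.1) (tau L ω.2.2) * flipPerm ω.1

/-- Sample space of `D = T T*`. -/
def DΩ : ℕ → Type
  | 0 => Unit
  | L + 1 => Flips L × DΩ L × DΩ L × Flips L

instance instFintypeDΩ : ∀ L, Fintype (DΩ L)
  | 0 => inferInstanceAs (Fintype Unit)
  | L + 1 =>
      haveI := instFintypeDΩ L
      inferInstanceAs (Fintype (Flips L × DΩ L × DΩ L × Flips L))

instance instNonemptyDΩ : ∀ L, Nonempty (DΩ L)
  | 0 => inferInstanceAs (Nonempty Unit)
  | L + 1 =>
      haveI := instNonemptyDΩ L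
      inferInstanceAs (Nonempty (Flips L × DΩ L × DΩ L × Flips L))

/-- The Benes-type permutation: input flips `e = ω.1`, two independent blocks, output flips
`e' = ω.2.2.2`. -/
def pi : ∀ L, DΩ L → Equiv.Perm (Deck L)
  | 0, _ => 1
  | L + 1, ω => flipPerm ω.2.2.2 * blockPerm (pi L ω.2.1) (pi L ω.2.2.1) * flipPerm ω.1

/-- Uniform expectation on a finite type. -/
noncomputable def Ex {α : Type*} [Fintype α] (f : α → ℝ) : ℝ :=
  (Fintype.card α : ℝ)⁻¹ * ∑ a, f a

theorem Ex_prod {α β : Type*} [Fintype α] [Fintype β] (f : α × β → ℝ) :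
    Ex f = Ex (fun a => Ex (fun b => f (a, b))) := by
  simp only [Ex, Fintype.sum_prod_type, Fintype.card_prod, Nat.cast_mul, mul_inv, Finset.mul_sum]
  ring_nf

theorem Ex_const {α : Type*} [Fintype α] [Nonempty α] (c : ℝ) : Ex (fun _ : α => c) = c := by
  have : (Fintype.card α : ℝ) ≠ 0 := by exact_mod_cast Fintype.card_ne_zero
  simp [Ex, Finset.card_univ, this]

theorem Ex_mono {α : Type*} [Fintype α] {f g : α → ℝ} (h : ∀ a, f a ≤ g a) : Ex f ≤ Ex g := by
  unfold Ex
  exact mul_le_mul_of_nonneg_left (Finset.sum_le_sum fun a _ => h a) (by positivity)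

theorem Ex_nonneg {α : Type*} [Fintype α] {f : α → ℝ} (h : ∀ a, 0 ≤ f a) : 0 ≤ Ex f := by
  unfold Ex
  exact mul_nonneg (by positivity) (Finset.sum_nonneg fun a _ => h a)

theorem Ex_add {α : Type*} [Fintype α] (f g : α → ℝ) :
    Ex (fun a => f a + g a) = Ex f + Ex g := by
  simp [Ex, Finset.sum_add_distrib, mul_add]

theorem Ex_const_mul {α : Type*} [Fintype α] (c : ℝ) (f : α → ℝ) :
    Ex (fun a => c * f a) = c * Ex f := by
  simp only [Ex, Finset.mul_sum]
  congr 1
  ext a
  ring

/-- Functions on `K`-tuples of slots. -/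
abbrev Fn (K : Type*) (L : ℕ) := (K → Deck L) → ℝ

variable {K : Type*} [Fintype K] [DecidableEq K]

/-- Inner product and squared norm on tuple functions. -/
def ip {L : ℕ} (u v : Fn K L) : ℝ := ∑ x, u x * v x

def nsq {L : ℕ} (u : Fn K L) : ℝ := ip u u

/-- `T`: `(T u) x = E u (τ ∘ x)`. -/
noncomputable def TT (L : ℕ) (u : Fn K L) : Fn K L :=
  fun x => Ex (fun ω : TΩ L => u (fun c => tau L ω (x c)))

/-- `T*`: `(T* u) y = E u (τ⁻¹ ∘ y)`. -/
noncomputable def TS (L : ℕ) (u : Fn K L) : Fn K L :=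
  fun y => Ex (fun ω : TΩ L => u (fun c => (tau L ω)⁻¹ (y c)))

/-- `D`: `(D u) x = E u (π ∘ x)`; equals `T T*` (see `Operators.lean`). -/
noncomputable def DD (L : ℕ) (u : Fn K L) : Fn K L :=
  fun x => Ex (fun ω : DΩ L => u (fun c => pi L ω (x c)))

/-- `u` vanishes on non-injective tuples (`u ∈ V^{(K)}`). -/
def InjSupp {L : ℕ} (u : Fn K L) : Prop := ∀ x, ¬ Function.Injective x → u x = 0

/-- `u` is pure (`u ∈ V_K`): injectively supported and all one-token sums vanish. -/
def IsPure {L : ℕ} (u : Fn K L) : Prop :=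
  InjSupp u ∧ ∀ (c : K) (x : K → Deck L), ∑ y, u (Function.update x c y) = 0

/-- `g` bounds `T*` (hence `T`) on the pure functions with tokens `K`. -/
def PureBound (L : ℕ) (K : Type*) [Fintype K] [DecidableEq K] (g : ℝ) : Prop :=
  ∀ u : Fn K L, IsPure u → nsq (TS L u) ≤ g * nsq u

/-! ### Overwriting and free averages -/

/-- `ow x z R c = z c` on `R`, `x c` off `R`. -/
def ow {α : Type*} (x z : K → α) (R : Finset K) : K → α := fun c => if c ∈ R then z c else x c

/-- The free average of `u` over the tokens of `R`. -/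
noncomputable def MM (L : ℕ) (R : Finset K) (u : Fn K L) : Fn K L :=
  fun x => Ex (fun z : K → Deck L => u (ow x z R))

/-- The free-noise form: `Q_θ(u) = (1+θ)^{-k} ∑_R θ^{|R|} ‖M_R u‖²`. -/
noncomputable def QQ (L : ℕ) (θ : ℝ) (u : Fn K L) : ℝ :=
  ((1 + θ) ^ Fintype.card K)⁻¹ * ∑ R : Finset K, θ ^ R.card * nsq (MM L R u)

/-- Domination of `T T*` by the free-noise form on injectively supported functions. -/
def DomBound (L : ℕ) (K : Type*) [Fintype K] [DecidableEq K] (θ A : ℝ) : Prop :=
  ∀ u : Fn K L, InjSupp u → nsq (TS L u) ≤ A * QQ L θ u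

/-- Assemble a tuple on `Deck (L+1)` from its signs and sites. -/
def mk {L : ℕ} (ε : K → Bool) (v : K → Deck L) : K → Deck (L + 1) := fun c => (ε c, v c)

/-- The block average over the tokens of `R`: signs are kept, sites of `R` are averaged. -/
noncomputable def Mbar {L : ℕ} (R : Finset K) (w : Fn K (L + 1)) (ε : K → Bool) (v : K → Deck L) : ℝ :=
  Ex (fun z : K → Deck L => w (mk ε (ow v z R)))

/-- The action of a flip pattern on a tuple. -/
def flipTup {L : ℕ} (e : Flips L) (x : K → Deck (L + 1)) : K → Deck (L + 1) :=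
  fun c => flipPerm e (x c)

/-- Flip invariance (`w ∈ Im P₁`). -/
def FlipInv {L : ℕ} (w : Fn K (L + 1)) : Prop := ∀ e x, w (flipTup e x) = w x

/-- `P₁`: the average over flip patterns. -/
noncomputable def P1 {L : ℕ} (u : Fn K (L + 1)) : Fn K (L + 1) :=
  fun x => Ex (fun e : Flips L => u (flipTup e x))

/-! ### Boolean Fourier analysis -/

/-- The sign `±1` of a bit (`true ↦ 1`, `false ↦ -1`). -/
def sgn (b : Bool) : ℝ := if b then 1 else -1

/-- The character `χ_T`. -/
def chi (T : Finset K) (ε : K → Bool) : ℝ := ∏ c ∈ T, sgn (ε c)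

/-- The Fourier coefficient `Ĝ_T = E[χ_T G]`. -/
noncomputable def fhat (G : (K → Bool) → ℝ) (T : Finset K) : ℝ := Ex (fun ε => chi T ε * G ε)

/-- The sign sum over the tokens of `M`. -/
def signSum (M : Finset K) (ε : K → Bool) : ℝ := ∑ c ∈ M, sgn (ε c)

/-! ### Kernels on injective tuples -/

/-- Injective tuples. -/
abbrev InjTup (K : Type*) (L : ℕ) := {x : K → Deck L // Function.Injective x}

open Classical in
noncomputable instance instFintypeInjTup (K : Type*) [Fintype K] [DecidableEq K] (L : ℕ) :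
    Fintype (InjTup K L) := Subtype.fintype _

open Classical in
/-- Kernel of `T` on injective tuples: `TI x y = P(τ ∘ x = y)`. -/
noncomputable def TI (K : Type*) [Fintype K] [DecidableEq K] (L : ℕ) :
    Matrix (InjTup K L) (InjTup K L) ℝ :=
  fun x y => Ex (fun ω : TΩ L => if ∀ c, tau L ω (x.1 c) = y.1 c then (1 : ℝ) else 0)

open Classical in
/-- Kernel of `D` on injective tuples: `DI x y = P(π ∘ x = y)`. -/
noncomputable def DI (K : Type*) [Fintype K] [DecidableEq K] (L : ℕ) :
    Matrix (InjTup K L) (InjTup K L) ℝ :=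
  fun x y => Ex (fun ω : DΩ L => if ∀ c, pi L ω (x.1 c) = y.1 c then (1 : ℝ) else 0)

/-! ### Functional graphs and their cycles -/

/-- A partial self-map, extended to `Option K` with `none` absorbing. -/
def optStep (f : K → Option K) : Option K → Option K
  | none => none
  | some τ => f τ

/-- `τ` lies on a cycle of `f`. -/
def IsPer (f : K → Option K) (τ : K) : Prop := ∃ n, 0 < n ∧ (optStep f)^[n] (some τ) = some τ

open Classical in
/-- The forward orbit of `τ`. -/
noncomputable def orb (f : K → Option K) (τ : K) : Finset K :=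
  Finset.univ.filter fun ρ => ∃ n, (optStep f)^[n] (some τ) = some ρ

open Classical in
/-- The set of cycles of `f` (each cycle as the finset of its points). -/
noncomputable def cycles (f : K → Option K) : Finset (Finset K) :=
  (Finset.univ.filter (IsPer f)).image (orb f)

/-- The number of cycles of `f`. -/
noncomputable def cyc (f : K → Option K) : ℕ := (cycles f).card

open Classical in
/-- The functional graph of targets `s` and final positions `y` on the tokens of `A`:
`τ ↦` the token of `A` whose final position is `s τ` (`none` if undefined). -/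
noncomputable def fg {L : ℕ} (A : Finset K) (y : K → Deck L) (s : K → Option (Deck L)) :
    K → Option K := fun τ =>
  if τ ∈ A then
    (s τ).bind fun t => if h : ∃ ρ, ρ ∈ A ∧ y ρ = t then some (Classical.choose h) else none
  else none

/-! ### The weight `W` -/

/-- The child a token enters (`x` are input slots, `e` the input flips). -/
def childOf {L : ℕ} (e : Flips L) (x : K → Deck (L + 1)) (c : K) : Bool := xor (x c).1 (e (x c).2)

/-- The block site of a token. -/
def siteOf {L : ℕ} (x : K → Deck (L + 1)) (c : K) : Deck L := (x c).2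

/-- `corr = (N)_a 2^{-a} / ((N')_{a₀} (N')_{a₁})`, `N = 2^{L+1}`, `N' = 2^L`. -/
noncomputable def corr (L a0 a1 : ℕ) : ℝ :=
  (Nat.descFactorial (2 ^ (L + 1)) (a0 + a1) : ℝ) /
    (2 ^ (a0 + a1) * (Nat.descFactorial (2 ^ L) a0 : ℝ) * (Nat.descFactorial (2 ^ L) a1 : ℝ))

/-- The subsets `B ⊆ A` separating any two tokens that share an input site or an output site. -/
def consSets {L : ℕ} (A : Finset K) (xb yb : K → Deck L) : Finset (Finset K) :=
  A.powerset.filter fun B =>
    ∀ c ∈ A, ∀ d ∈ A, c ≠ d → (xb c = xb d ∨ yb c = yb d) → (c ∈ B ↔ d ∉ B)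

/-- `Γ = #Cons · 2^{a - s_in - s_out}` (in fact `2^{#cycles of the in/out pairing graph}`). -/
noncomputable def Gam {L : ℕ} (A : Finset K) (xb yb : K → Deck L) : ℝ :=
  ((consSets A xb yb).card : ℝ) * 2 ^ A.card / (2 ^ (A.image xb).card * 2 ^ (A.image yb).card)

/-- The weight `W_L(ω, A, x)`.  Only `x` on `A` matters. -/
noncomputable def WW : ∀ L, DΩ L → Finset K → (K → Deck L) → ℝ
  | 0, _, _, _ => 1
  | L + 1, ω, A, x =>
      let ε := childOf ω.1 x
      let v := siteOf x
      let A0 := A.filter fun c => ε c = false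
      let A1 := A.filter fun c => ε c = true
      let yb : K → Deck L := fun c => if ε c then pi L ω.2.2.1 (v c) else pi L ω.2.1 (v c)
      corr L A0.card A1.card * Gam A v yb * WW L ω.2.1 A0 v * WW L ω.2.2.1 A1 v

/-! ### The constants -/

/-- `ψ = 2^{1/5}`. -/
noncomputable def psi : ℝ := (2 : ℝ) ^ ((1 : ℝ) / 5)

/-- `γ = (ψ + 1/2)/2`. -/
noncomputable def gam : ℝ := (psi + 1 / 2) / 2

/-- `ξ_L = exp(0.34 / 2^{L+1})`. -/
noncomputable def xi (L : ℕ) : ℝ := Real.exp ((17 / 50) / 2 ^ (L + 1))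

/-- `p_L`. -/
noncomputable def pp : ℕ → ℝ
  | 0 => 1
  | L + 1 => xi L * gam * pp L

/-- `q_L`. -/
noncomputable def qq : ℕ → ℝ
  | 0 => 0
  | L + 1 => xi L * (qq L + pp L / 4)

/-- The ladder `1 + θ_i = (1 + 5/512)(1 + 3/512)^i`. -/
noncomputable def thetaSeq (i : ℕ) : ℝ := (1 + 5 / 512) * (1 + 3 / 512) ^ i - 1

/-- `β_{i,∞} = 0.045 · 4^i`. -/
noncomputable def betaInf (i : ℕ) : ℝ := (9 / 200) * 4 ^ i

/-- `β_i(N) = β_{i,∞} · max(5/8, 1 - 12 β_{i,∞}/N)`. -/
noncomputable def betaN (i : ℕ) (N : ℝ) : ℝ := betaInf i * max (5 / 8) (1 - 12 * betaInf i / N)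

/-- `A_i(k, N) = exp(β_i(N) k (k-1) / N)`. -/
noncomputable def Acap (i k : ℕ) (N : ℝ) : ℝ := Real.exp (betaN i N * ((k : ℝ) * ((k : ℝ) - 1)) / N)

end Crest.Agent.Thorp
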