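/-
Thorp shuffle bridge, part 1: bit strings, one pass of the Thorp shuffle is a butterfly.
-/
import Crest.Prelude.Def_Shuffle
import Crest.Agent.Lib.Thorp.Basic

set_option autoImplicit false

namespace Crest.Agent.Thorp.Bridge

open Crest.ProbabilityR.Shuffle

/-! ## Bit tools on `Deck` -/

/-- Constructor, head and tail of a deck position. -/
def dc {n : ℕ} (b : Bool) (u : Deck n) : Deck (n + 1) := (b, u)
def hd {n : ℕ} (x : Deck (n + 1)) : Bool := x.1
def tl {n : ℕ} (x : Deck (n + 1)) : Deck n := x.2
@[simp] theorem hd_dc {n : ℕ} (b : Bool) (u : Deck n) : hd (dc b u) = b := rfl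
@[simp] theorem tl_dc {n : ℕ} (b : Bool) (u : Deck n) : tl (dc b u) = u := rfl
@[simp] theorem dc_hd_tl {n : ℕ} (x : Deck (n + 1)) : dc (hd x) (tl x) = x := rfl

/-- Append a low bit. -/
def snoc : ∀ {j : ℕ}, Deck j → Bool → Deck (j + 1)
  | 0, _, b => (b, ())
  | _ + 1, x, b => (x.1, snoc x.2 b)

/-- The bits, top first. -/
def toList : ∀ {j : ℕ}, Deck j → List Bool
  | 0, _ => []
  | _ + 1, x => x.1 :: toList x.2

theorem toList_succ {j : ℕ} (x : Deck (j + 1)) : toList x = x.1 :: toList x.2 := rfl

theorem snoc_succ {j : ℕ} (x : Deck (j + 1)) (b : Bool) : snoc x b = (x.1, snoc x.2 b) := rfl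

theorem toList_length : ∀ {j : ℕ} (x : Deck j), (toList x).length = j
  | 0, _ => rfl
  | j + 1, x => by
      rw [toList_succ, List.length_cons, toList_length x.2]

theorem toList_injective : ∀ {j : ℕ} (x y : Deck j), toList x = toList y → x = y
  | 0, _, _, _ => rfl
  | j + 1, x, y, h => by
      rw [toList_succ, toList_succ, List.cons.injEq] at h
      exact Prod.ext h.1 (toList_injective x.2 y.2 h.2)

theorem toList_snoc : ∀ {j : ℕ} (x : Deck j) (b : Bool), toList (snoc x b) = toList x ++ [b]
  | 0, _, _ => rfl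
  | j + 1, x, b => by
      rw [snoc_succ, toList_succ (x := ((x.1, snoc x.2 b) : Deck (j + 1 + 1)))]
      show x.1 :: toList (snoc x.2 b) = toList x ++ [b]
      rw [toList_snoc x.2 b, toList_succ x, List.cons_append]

/-- Rotate left. -/
def rotL {n : ℕ} (x : Deck (n + 1)) : Deck (n + 1) := snoc x.2 x.1

theorem toList_rotL {n : ℕ} (x : Deck (n + 1)) : toList (rotL x) = (toList x).rotate 1 := by
  rw [rotL, toList_snoc, toList_succ x]
  simp

theorem toList_rotL_iter {n : ℕ} (k : ℕ) (x : Deck (n + 1)) :
    toList (rotL^[k] x) = (toList x).rotate k := by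
  induction k generalizing x with
  | zero => simp
  | succ k ih =>
      rw [Function.iterate_succ_apply, ih, toList_rotL, List.rotate_rotate, add_comm 1 k]

theorem rotL_iter_self {n : ℕ} (x : Deck (n + 1)) : rotL^[n + 1] x = x := by
  apply toList_injective
  rw [toList_rotL_iter]
  have h := List.rotate_length (toList x)
  rwa [toList_length] at h

/-- Drop the top bit and append `b`. -/
def sh : ∀ {n : ℕ}, Deck n → Bool → Deck n
  | 0, x, _ => x
  | _ + 1, x, b => snoc x.2 b

/-- One step on bit strings. -/
def stepD {n : ℕ} (c : Flips n) (x : Deck (n + 1)) : Deck (n + 1) := snoc x.2 (xor x.1 (c x.2))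

/-- Steps on bit strings (row `0` first). -/
def iterD {n : ℕ} : (t : ℕ) → (Fin t → Flips n) → Deck (n + 1) → Deck (n + 1)
  | 0, _, x => x
  | t + 1, cs, x => stepD (cs (Fin.last t)) (iterD t (fun i => cs i.castSucc) x)

theorem iterD_succ' {n : ℕ} : ∀ (t : ℕ) (cs : Fin (t + 1) → Flips n) (x : Deck (n + 1)),
    iterD (t + 1) cs x = iterD t (fun i => cs i.succ) (stepD (cs 0) x)
  | 0, _, _ => rfl
  | t + 1, cs, x => by
      have h := iterD_succ' t (fun i => cs i.castSucc) x
      rw [iterD, h, iterD]
      simp only [Fin.castSucc_zero, Fin.succ_last, Fin.succ_castSucc]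

/-! ## The map from a table to a butterfly sample -/

/-- Shift an embedding of an active string: the top active bit goes, a parked bit is appended. -/
def shiftI {j n : ℕ} (i : Deck (j + 1) → Deck n) (b : Bool) : Deck j → Deck n :=
  fun u => sh (i (dc false u)) b

/-- A table for `j+1` rows and an embedding give a butterfly sample. -/
def toΩ {n : ℕ} : ∀ j : ℕ, (Deck j → Deck n) → (Fin (j + 1) → Flips n) → TΩ (j + 1)
  | 0, i, cs => (fun u => cs 0 (i u), (), ())
  | j + 1, i, cs => (fun u => cs 0 (i u),
      toΩ j (shiftI i false) (fun t => cs t.succ), toΩ j (shiftI i true) (fun t => cs t.succ))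

theorem toList_dc {n : ℕ} (b : Bool) (u : Deck n) : toList (dc b u) = b :: toList u := rfl

theorem toList_shiftI {j n : ℕ} (i : Deck (j + 1) → Deck n) (p : List Bool)
    (hi : ∀ u, toList (i u) = toList u ++ p) (b : Bool) (u : Deck j) :
    toList (shiftI i b u) = toList u ++ (p ++ [b]) := by
  cases n with
  | zero =>
      have h := hi (dc false u)
      have h2 := congrArg List.length h
      rw [toList_length, toList_dc] at h2
      simp at h2
  | succ n =>
      have h := hi (dc false u)
      rw [toList_dc] at h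
      show toList (snoc (i (dc false u)).2 b) = _
      rw [toList_snoc]
      rw [toList_succ] at h
      simp only [List.cons_append, List.cons.injEq] at h
      rw [h.2]; simp

theorem snoc_emb {j n : ℕ} (i : Deck (j + 1) → Deck n) (p : List Bool)
    (hi : ∀ u, toList (i u) = toList u ++ p) (a b : Bool) (u : Deck j) :
    snoc (i (dc a u)) b = dc a (shiftI i b u) := by
  apply toList_injective
  rw [toList_dc, toList_shiftI i p hi, toList_snoc, hi, toList_dc]
  simp

theorem tau_dc (L : ℕ) (ω : TΩ (L + 1)) (b : Bool) (u : Deck L) :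
    tau (L + 1) ω (dc b u) =
      dc (xor b (ω.1 u)) ((if xor b (ω.1 u) then tau L ω.2.2 else tau L ω.2.1) u) := by
  show dc (xor b (ω.1 u)) (if xor b (ω.1 u) then tau L ω.2.2 u else tau L ω.2.1 u) = _
  cases xor b (ω.1 u) <;> rfl

/-- The main relation between rows of a table and the butterfly. -/
theorem star {n : ℕ} : ∀ (j : ℕ) (i : Deck j → Deck n) (p : List Bool)
    (_ : ∀ u, toList (i u) = toList u ++ p) (cs : Fin (j + 1) → Flips n) (b : Bool) (u : Deck j),
    iterD (j + 1) cs (dc b (i u)) =
      rotL^[j + 1] (dc (hd (tau (j + 1) (toΩ j i cs) (dc b u)))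
        (i (tl (tau (j + 1) (toΩ j i cs) (dc b u)))))
  | 0, i, p, _, cs, b, u => by
      rfl
  | j + 1, i, p, hi, cs, b, u => by
      rw [iterD_succ']
      have hu : u = dc (hd u) (tl u) := rfl
      set a := hd u with ha
      set u' := tl u with hu'
      rw [hu]
      set b' : Bool := xor b (cs 0 (i (dc a u'))) with hb'
      have hstep : stepD (cs 0) (dc b (i (dc a u'))) = dc a (shiftI i b' u') :=
        snoc_emb i p hi a b' u'
      rw [hstep]
      have hsub : ∀ c : Bool, ∀ u : Deck j, toList (shiftI i c u) = toList u ++ (p ++ [c]) :=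
        fun c u => toList_shiftI i p hi c u
      have ih := star j (shiftI i b') (p ++ [b']) (hsub b') (fun t => cs t.succ) a u'
      rw [ih]
      -- the butterfly at the top
      set r := tau (j + 1) (toΩ j (shiftI i b') (fun t => cs t.succ)) (dc a u') with hr
      have htau : tau (j + 1 + 1) (toΩ (j + 1) i cs) (dc b (dc a u')) = dc b' r := by
        rw [tau_dc]
        have e1 : (toΩ (j + 1) i cs).1 (dc a u') = cs 0 (i (dc a u')) := rfl
        rw [e1, ← hb']
        rw [hr]
        cases b' <;> rfl
      rw [htau, hd_dc, tl_dc]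
      have e : rotL (dc b' (i r)) = dc (hd r) (shiftI i b' (tl r)) := by
        show snoc (i r) b' = _
        have hrr : i r = i (dc (hd r) (tl r)) := rfl
        rw [hrr, snoc_emb i p hi]
      rw [show rotL^[j + 1 + 1] (dc b' (i r)) = rotL^[j + 1] (rotL (dc b' (i r))) from
        Function.iterate_succ_apply _ _ _, e]

/-- `d+1` rows of the shuffle on bit strings form a butterfly. -/
theorem iterD_eq_tau (n : ℕ) (cs : Fin (n + 1) → Flips n) (x : Deck (n + 1)) :
    iterD (n + 1) cs x = tau (n + 1) (toΩ n id cs) x := by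
  have h := star n id [] (fun u => by simp) cs (hd x) (tl x)
  simp only [id, dc_hd_tl] at h
  rw [h]
  exact rotL_iter_self _

end Crest.Agent.Thorp.Bridge
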