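/-
Thorp shuffle: the law of the shuffle as a function on permutations, TV ≤ ½ √(N! ‖p‖² − 1), and
the convolution identity `p_{s+t}(g) = ∑ₕ p_s(h) p_t(g h⁻¹)`.
Self-contained (only Prelude).
-/
import Crest.Prelude.Def_Shuffle

set_option autoImplicit false

namespace Crest.Agent.Thorp.Bridge

open Crest.ProbabilityR.Shuffle

/-- Bit tables. -/
abbrev Tab (m t : ℕ) := Fin t → Fin m → Bool

/-- Permutations of the positions. -/
abbrev Gp (m : ℕ) := Equiv.Perm (Fin (2 * m))

theorem stepPos_injective (m : ℕ) (c : Fin m → Bool) : Function.Injective (stepPos m c) := by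
  intro x y h
  have hv : (stepPos m c x).val = (stepPos m c y).val := congrArg Fin.val h
  simp only [stepPos] at hv
  have hx := x.isLt
  have hy := y.isLt
  have hm : 0 < m := by omega
  have hxm : x.val % m < m := Nat.mod_lt _ hm
  have hym : y.val % m < m := Nat.mod_lt _ hm
  -- the low parts agree
  have hu : x.val % m = y.val % m := by
    split_ifs at hv <;> omega
  have hc : (⟨x.val % m, Nat.mod_lt _ (by omega)⟩ : Fin m) = ⟨y.val % m, Nat.mod_lt _ (by omega)⟩ :=
    Fin.ext hu
  rw [hc] at hv
  -- so the upper-half flags agree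
  have hflag : decide (m ≤ x.val) = decide (m ≤ y.val) := by
    cases hX : decide (m ≤ x.val) <;> cases hY : decide (m ≤ y.val) <;>
      cases hC : c ⟨y.val % m, Nat.mod_lt _ (by omega)⟩ <;> simp_all
  have hle : m ≤ x.val ↔ m ≤ y.val := by
    simpa using hflag
  apply Fin.ext
  by_cases hmx : m ≤ x.val
  · have hmy := hle.mp hmx
    have e1 : x.val % m = x.val - m := by
      rw [Nat.mod_eq_sub_mod hmx, Nat.mod_eq_of_lt (by omega)]
    have e2 : y.val % m = y.val - m := by
      rw [Nat.mod_eq_sub_mod hmy, Nat.mod_eq_of_lt (by omega)]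
    omega
  · have hmy : ¬ m ≤ y.val := fun h' => hmx (hle.mpr h')
    have e1 : x.val % m = x.val := Nat.mod_eq_of_lt (by omega)
    have e2 : y.val % m = y.val := Nat.mod_eq_of_lt (by omega)
    omega

theorem iterPos_injective (m : ℕ) :
    ∀ (t : ℕ) (cs : Fin t → Fin m → Bool), Function.Injective (iterPos m t cs)
  | 0, _ => fun _ _ h => h
  | t + 1, cs => by
      intro x y h
      simp only [iterPos] at h
      exact iterPos_injective m t _ (stepPos_injective m _ h)

/-- The permutation of a bit table. -/
noncomputable def tablePerm (m t : ℕ) (cs : Tab m t) : Gp m :=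
  Equiv.ofBijective (iterPos m t cs) (Finite.injective_iff_bijective.mp (iterPos_injective m t cs))

@[simp] theorem tablePerm_coe (m t : ℕ) (cs : Tab m t) :
    ⇑(tablePerm m t cs) = iterPos m t cs := rfl

/-- The law of the shuffle after `t` steps, as a function on permutations. -/
noncomputable def law (m t : ℕ) (g : Gp m) : ℝ :=
  Crest.FinProb.uniformProb {cs : Tab m t | iterPos m t cs = ⇑g}

open Classical in
theorem law_eq (m t : ℕ) (g : Gp m) :
    law m t g = ((Finset.univ.filter (fun cs : Tab m t => tablePerm m t cs = g)).card : ℝ) /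
        (Fintype.card (Tab m t) : ℝ) := by
  unfold law Crest.FinProb.uniformProb
  congr 2
  congr 1
  ext cs
  simp only [Finset.mem_filter, Finset.mem_univ, true_and, Set.mem_ofPred_eq]
  constructor
  · intro h
    exact Equiv.ext (fun x => congrFun h x)
  · intro h
    rw [← tablePerm_coe, h]

theorem law_nonneg (m t : ℕ) (g : Gp m) : 0 ≤ law m t g := by
  classical
  rw [law_eq]; positivity

theorem sum_law (m t : ℕ) : ∑ g : Gp m, law m t g = 1 := by
  classical
  have hT : (0 : ℝ) < (Fintype.card (Tab m t) : ℝ) := by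
    exact_mod_cast Fintype.card_pos
  simp_rw [law_eq]
  rw [← Finset.sum_div]
  have := Finset.card_eq_sum_card_fiberwise
    (f := tablePerm m t) (s := (Finset.univ : Finset (Tab m t))) (t := Finset.univ)
    (fun x _ => Finset.mem_univ _)
  rw [Finset.card_univ] at this
  rw [div_eq_one_iff_eq hT.ne']
  rw [this]
  push_cast
  rfl

/-- `TV ≤ ½ √(N! ∑ p² − 1)`. -/
theorem tv_le_sqrt_law (m t : ℕ) :
    tvFromUniform m t ≤
      (1 / 2) * Real.sqrt (((2 * m).factorial : ℝ) * (∑ g : Gp m, law m t g ^ 2) - 1) := by
  classical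
  set F : ℝ := ((2 * m).factorial : ℝ) with hF
  have hFpos : 0 < F := by
    rw [hF]; exact_mod_cast Nat.factorial_pos _
  have hcard : (Fintype.card (Gp m) : ℝ) = F := by
    simp [Gp, Fintype.card_perm, hF]
  have hcs : (∑ g : Gp m, |law m t g - 1 / F|) ^ 2 ≤
      (Fintype.card (Gp m) : ℝ) * ∑ g : Gp m, |law m t g - 1 / F| ^ 2 := by
    have := sq_sum_le_card_mul_sum_sq (s := (Finset.univ : Finset (Gp m)))
      (f := fun g => |law m t g - 1 / F|)
    simpa [Finset.card_univ] using this
  have hsum : ∑ g : Gp m, |law m t g - 1 / F| ^ 2 = (∑ g : Gp m, law m t g ^ 2) - 1 / F := by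
    have h1 : ∀ g : Gp m, |law m t g - 1 / F| ^ 2 =
        law m t g ^ 2 - 2 * (1 / F) * law m t g + (1 / F) ^ 2 := by
      intro g; rw [sq_abs]; ring
    simp_rw [h1]
    rw [Finset.sum_add_distrib, Finset.sum_sub_distrib, ← Finset.mul_sum, sum_law,
      Finset.sum_const, Finset.card_univ, nsmul_eq_mul, hcard]
    field_simp
    ring
  have hmain : (∑ g : Gp m, |law m t g - 1 / F|) ^ 2 ≤ F * (∑ g : Gp m, law m t g ^ 2) - 1 := by
    rw [hcard, hsum] at hcs
    refine hcs.trans (le_of_eq ?_)
    field_simp
  have hroot : ∑ g : Gp m, |law m t g - 1 / F| ≤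
      Real.sqrt (F * (∑ g : Gp m, law m t g ^ 2) - 1) :=
    Real.le_sqrt_of_sq_le hmain
  unfold tvFromUniform
  have : ∀ g : Gp m, Crest.FinProb.uniformProb {cs : Fin t → Fin m → Bool | iterPos m t cs = ⇑g}
      = law m t g := fun _ => rfl
  simp_rw [this]
  nlinarith [hroot]

/-- Splitting a bit table. -/
theorem iterPos_add (m s : ℕ) : ∀ (t : ℕ) (cs : Tab m (s + t)),
    iterPos m (s + t) cs =
      iterPos m t (fun i => cs (Fin.natAdd s i)) ∘ iterPos m s (fun i => cs (Fin.castAdd t i))
  | 0, cs => by
      funext x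
      rfl
  | t + 1, cs => by
      funext x
      have := iterPos_add m s t (fun i => cs i.castSucc)
      show stepPos m (cs (Fin.last (s + t))) (iterPos m (s + t) (fun i => cs i.castSucc) x) = _
      rw [this]
      rfl

/-- Bit tables of `s + t` rows split. -/
def tabSplit (m s t : ℕ) : Tab m (s + t) ≃ Tab m s × Tab m t where
  toFun cs := (fun i => cs (Fin.castAdd t i), fun i => cs (Fin.natAdd s i))
  invFun p := fun i => Fin.addCases p.1 p.2 i
  left_inv cs := by
    funext i
    refine Fin.addCases (fun i => ?_) (fun i => ?_) i <;> simp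
  right_inv p := by
    ext i <;> simp

theorem tablePerm_add (m s t : ℕ) (cs : Tab m (s + t)) :
    tablePerm m (s + t) cs =
      tablePerm m t (tabSplit m s t cs).2 * tablePerm m s (tabSplit m s t cs).1 := by
  ext x
  simp only [tablePerm_coe, Equiv.Perm.coe_mul, tabSplit, Equiv.coe_fn_mk]
  rw [iterPos_add]

/-- Convolution: `p_{s+t}(g) = ∑ₕ p_s(h) p_t(g h⁻¹)`. -/
theorem law_add (m s t : ℕ) (g : Gp m) :
    law m (s + t) g = ∑ h : Gp m, law m s h * law m t (g * h⁻¹) := by
  classical
  simp_rw [law_eq]
  have hcardT : (Fintype.card (Tab m (s + t)) : ℝ) =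
      (Fintype.card (Tab m s) : ℝ) * (Fintype.card (Tab m t) : ℝ) := by
    rw [Fintype.card_congr (tabSplit m s t), Fintype.card_prod]; push_cast; rfl
  have hcount : ((Finset.univ.filter (fun cs : Tab m (s + t) => tablePerm m (s + t) cs = g)).card : ℝ) =
      ∑ h : Gp m, ((Finset.univ.filter (fun a : Tab m s => tablePerm m s a = h)).card : ℝ) *
        ((Finset.univ.filter (fun b : Tab m t => tablePerm m t b = g * h⁻¹)).card : ℝ) := by
    -- transport to pairs
    have e1 : (Finset.univ.filter (fun cs : Tab m (s + t) => tablePerm m (s + t) cs = g)).card =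
        (Finset.univ.filter (fun p : Tab m s × Tab m t =>
          tablePerm m t p.2 * tablePerm m s p.1 = g)).card := by
      apply Finset.card_bij (fun cs _ => tabSplit m s t cs)
      · intro cs hcs
        simp only [Finset.mem_filter, Finset.mem_univ, true_and] at hcs ⊢
        rw [← tablePerm_add]; exact hcs
      · intro a _ b _ hab
        exact (tabSplit m s t).injective hab
      · intro p hp
        simp only [Finset.mem_filter, Finset.mem_univ, true_and] at hp
        refine ⟨(tabSplit m s t).symm p, ?_, by simp⟩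
        simp only [Finset.mem_filter, Finset.mem_univ, true_and]
        rw [tablePerm_add]
        simpa using hp
    rw [e1]
    have e2 := Finset.card_eq_sum_card_fiberwise
      (f := fun p : Tab m s × Tab m t => tablePerm m s p.1)
      (s := Finset.univ.filter (fun p : Tab m s × Tab m t =>
          tablePerm m t p.2 * tablePerm m s p.1 = g)) (t := Finset.univ)
      (fun x _ => Finset.mem_univ _)
    rw [e2]
    push_cast
    refine Finset.sum_congr rfl (fun h _ => ?_)
    rw [← Nat.cast_mul, ← Finset.card_product]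
    congr 1
    apply Finset.card_bij (fun p _ => p)
    · intro p hp
      simp only [Finset.mem_filter, Finset.mem_univ, true_and, Finset.mem_product] at hp ⊢
      obtain ⟨h1, h2⟩ := hp
      refine ⟨h2, ?_⟩
      rw [← h1, h2]; simp
    · intro _ _ _ _ h; exact h
    · intro p hp
      simp only [Finset.mem_filter, Finset.mem_univ, true_and, Finset.mem_product] at hp
      refine ⟨p, ?_, rfl⟩
      simp only [Finset.mem_filter, Finset.mem_univ, true_and]
      obtain ⟨h1, h2⟩ := hp
      refine ⟨?_, h1⟩
      rw [h2, h1]; simp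
  rw [hcount, hcardT, Finset.sum_div]
  refine Finset.sum_congr rfl (fun h _ => ?_)
  have h1 : (0 : ℝ) < (Fintype.card (Tab m s) : ℝ) := by exact_mod_cast Fintype.card_pos
  have h2 : (0 : ℝ) < (Fintype.card (Tab m t) : ℝ) := by exact_mod_cast Fintype.card_pos
  field_simp

end Crest.Agent.Thorp.Bridge
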