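/-
Thorp shuffle bridge, part 2: uniformity of `toΩ`, the conjugation with `Fin (2 * 2 ^ d)`.
-/
import Crest.Agent.Lib.Thorp.Bridge1
import Crest.Agent.Lib.Thorp.TvL2

set_option autoImplicit false

namespace Crest.Agent.Thorp.Bridge

open Crest.ProbabilityR.Shuffle

/-! ## Expectation tools -/

theorem Ex_equiv {α β : Type*} [Fintype α] [Fintype β] (e : α ≃ β) (f : β → ℝ) :
    Ex (fun a => f (e a)) = Ex f := by
  unfold Ex
  rw [Fintype.card_congr e, Equiv.sum_comp e f]

theorem Ex_comm {α β : Type*} [Fintype α] [Fintype β] (f : α → β → ℝ) :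
    Ex (fun a => Ex (fun b => f a b)) = Ex (fun b => Ex (fun a => f a b)) := by
  simp only [Ex, Finset.mul_sum]
  rw [Finset.sum_comm]
  refine Finset.sum_congr rfl (fun b _ => Finset.sum_congr rfl (fun a _ => ?_))
  ring

theorem Ex_prod' {α β : Type*} [Fintype α] [Fintype β] (f : α → β → ℝ) :
    Ex (fun p : α × β => f p.1 p.2) = Ex (fun a => Ex (fun b => f a b)) :=
  Ex_prod (fun p : α × β => f p.1 p.2)

/-- Restricting a uniform function to a subset of the coordinates gives a uniform function. -/
theorem Ex_restrict {A B : Type*} [Fintype A] [Fintype B] [DecidableEq A] [DecidableEq B]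
    (a : B → A) (ha : Function.Injective a) (G : (B → Bool) → ℝ) :
    Ex (fun c : A → Bool => G (c ∘ a)) = Ex G := by
  classical
  let C := {x : A // x ∉ Set.range a}
  let e : B ⊕ C ≃ A :=
    (Equiv.sumCongr (Equiv.ofInjective a ha) (Equiv.refl _)).trans
      (Equiv.Set.sumCompl (Set.range a))
  have he : ∀ b, e (Sum.inl b) = a b := by
    intro b
    simp only [e, Equiv.trans_apply, Equiv.sumCongr_apply, Sum.map_inl]
    exact Equiv.Set.sumCompl_apply_inl _ _
  let E : ((B → Bool) × (C → Bool)) ≃ (A → Bool) :=
    (Equiv.sumArrowEquivProdArrow B C Bool).symm.trans (Equiv.arrowCongr e (Equiv.refl Bool))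
  have hE : ∀ (p : (B → Bool) × (C → Bool)), (E p) ∘ a = p.1 := by
    intro p
    funext b
    simp only [Function.comp_apply, E, Equiv.trans_apply, Equiv.arrowCongr_apply,
      Equiv.coe_refl, id]
    rw [← he, Equiv.symm_apply_apply]
    rfl
  have h1 := Ex_equiv E (fun c : A → Bool => G (c ∘ a))
  rw [← h1]
  simp only [hE]
  rw [Ex_prod' (fun (d : B → Bool) (_ : C → Bool) => G d)]
  simp only [Ex_const]

/-! ## Uniformity of `toΩ` -/

theorem emb_injective {j n : ℕ} {S : Type} (i : S → Deck j → Deck n) (p : S → List Bool)
    (hi : ∀ a u, toList (i a u) = toList u ++ p a) (hp : Function.Injective p) :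
    Function.Injective (fun q : S × Deck j => i q.1 q.2) := by
  rintro ⟨a, u⟩ ⟨a', u'⟩ h
  simp only at h
  have h1 := congrArg toList h
  rw [hi, hi] at h1
  have h2 := List.append_inj h1 (by rw [toList_length, toList_length])
  have h3 : a = a' := hp h2.2
  have h4 : u = u' := toList_injective _ _ h2.1
  rw [h3, h4]

/-- The family version of the restriction lemma. -/
theorem Ex_family {j n : ℕ} {S : Type} [Fintype S] [DecidableEq S]
    (i : S → Deck j → Deck n) (hi : Function.Injective (fun q : S × Deck j => i q.1 q.2))
    (H : (S → Flips j) → ℝ) :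
    Ex (fun c : Flips n => H (fun a u => c (i a u))) = Ex H := by
  have h1 := Ex_restrict (fun q : S × Deck j => i q.1 q.2) hi
    (fun d : S × Deck j → Bool => H (fun a u => d (a, u)))
  have h2 : Ex (fun c : Flips n => H (fun a u => c (i a u))) =
      Ex (fun c : Deck n → Bool =>
        (fun d : S × Deck j → Bool => H (fun a u => d (a, u)))
          (c ∘ (fun q : S × Deck j => i q.1 q.2))) := rfl
  rw [h2, h1]
  have h3 := Ex_equiv (Equiv.curry S (Deck j) Bool) H
  rw [← h3]
  rfl

/-- Splitting the first row of a table. -/
def rowSplit (t : ℕ) (n : ℕ) : (Flips n × (Fin t → Flips n)) ≃ (Fin (t + 1) → Flips n) :=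
  Fin.consEquiv (fun _ => Flips n)

theorem Ex_row {t n : ℕ} (F : (Fin (t + 1) → Flips n) → ℝ) :
    Ex F = Ex (fun c : Flips n => Ex (fun cs : Fin t → Flips n => F (Fin.cons c cs))) := by
  rw [← Ex_equiv (rowSplit t n) F, ← Ex_prod' (fun (c : Flips n) (cs : Fin t → Flips n) =>
    F (Fin.cons c cs))]
  rfl

/-- One pass table family to butterfly samples: independence and uniformity. -/
theorem uniform_toΩ {n : ℕ} : ∀ (j : ℕ) (S : Type) [Fintype S] [DecidableEq S]
    (i : S → Deck j → Deck n) (p : S → List Bool)
    (_ : ∀ a u, toList (i a u) = toList u ++ p a) (_ : Function.Injective p)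
    (F : (S → TΩ (j + 1)) → ℝ),
    Ex (fun cs : Fin (j + 1) → Flips n => F (fun a => toΩ j (i a) cs)) = Ex F
  | 0, S, _, _, i, p, hi, hp, F => by
      have hinj := emb_injective i p hi hp
      let E : (S → Flips 0) ≃ (S → TΩ 1) :=
        { toFun := fun e a => (e a, (), ())
          invFun := fun w a => (w a).1
          left_inv := fun _ => rfl
          right_inv := fun _ => rfl }
      rw [← Ex_equiv E F]
      rw [← Ex_family i hinj (fun e => F (E e))]
      exact Ex_equiv (Equiv.funUnique (Fin 1) (Flips n)) (fun c => F (E (fun a u => c (i a u))))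
  | j + 1, S, _, _, i, p, hi, hp, F => by
      have hinj := emb_injective i p hi hp
      let E : ((S → Flips (j + 1)) × (S × Bool → TΩ (j + 1))) ≃ (S → TΩ (j + 2)) :=
        { toFun := fun q a => (q.1 a, q.2 (a, false), q.2 (a, true))
          invFun := fun w => (fun a => (w a).1, fun q => if q.2 then (w q.1).2.2 else (w q.1).2.1)
          left_inv := by
            intro q
            refine Prod.ext rfl ?_
            funext r
            rcases r with ⟨a, b⟩
            cases b <;> rfl
          right_inv := fun _ => rfl }
      rw [← Ex_equiv E F, Ex_prod' (fun a b => F (E (a, b)))]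
      rw [Ex_comm]
      have hsub : ∀ (g : S × Bool → TΩ (j + 1)),
          Ex (fun e : S → Flips (j + 1) => F (E (e, g))) =
            Ex (fun c : Flips n => F (E ((fun a u => c (i a u)), g))) := by
        intro g
        exact (Ex_family i hinj (fun e => F (E (e, g)))).symm
      simp only [hsub]
      rw [Ex_comm, Ex_row]
      refine congrArg Ex (funext fun c => ?_)
      -- induction hypothesis on the family `S × Bool`
      have ih := uniform_toΩ j (S × Bool) (fun q => shiftI (i q.1) q.2)
        (fun q => p q.1 ++ [q.2])
        (fun q u => toList_shiftI (i q.1) (p q.1) (hi q.1) q.2 u)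
        (by
          rintro ⟨a, b⟩ ⟨a', b'⟩ h
          simp only at h
          have h2 := List.append_inj h (by
            have h3 := congrArg List.length h
            simp only [List.length_append, List.length_cons, List.length_nil] at h3
            omega)
          have h4 : a = a' := hp h2.1
          have h5 : b = b' := by simpa using h2.2
          rw [h4, h5])
        (fun g => F (E ((fun a u => c (i a u)), g)))
      rw [← ih]
      rfl

end Crest.Agent.Thorp.Bridge
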