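/-
Thorp shuffle bridge: `tvFromUniform` against the matrix `TI` (the interface theorem `tv_le_sqrt`).
-/
import Crest.Agent.Lib.Thorp.Bridge2

set_option autoImplicit false

namespace Crest.Agent.Thorp.Bridge

open Crest.ProbabilityR.Shuffle

/-! ## From `Fin` to `Deck` -/

/-- The number with top bit first. -/
def val : ∀ {j : ℕ}, Deck j → ℕ
  | 0, _ => 0
  | j + 1, x => (if hd x then 2 ^ j else 0) + val (tl x)

theorem val_dc {j : ℕ} (b : Bool) (u : Deck j) :
    val (dc b u) = (if b then 2 ^ j else 0) + val u := rfl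

theorem val_lt : ∀ {j : ℕ} (x : Deck j), val x < 2 ^ j
  | 0, _ => by simp [val]
  | j + 1, x => by
      have h := val_lt (tl x)
      have : val x = (if hd x then 2 ^ j else 0) + val (tl x) := rfl
      rw [this, pow_succ]
      split_ifs <;> omega

theorem val_snoc : ∀ {j : ℕ} (x : Deck j) (b : Bool),
    val (snoc x b) = 2 * val x + (if b then 1 else 0)
  | 0, x, b => by
      have h : val (snoc x b) = (if b then 2 ^ 0 else 0) + 0 := rfl
      have h0 : val x = 0 := rfl
      rw [h, h0]
      cases b <;> simp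
  | j + 1, x, b => by
      have h := val_snoc (tl x) b
      have e1 : snoc x b = dc (hd x) (snoc (tl x) b) := rfl
      have e2 : val x = (if hd x then 2 ^ j else 0) + val (tl x) := rfl
      rw [e1, val_dc, h, e2, pow_succ]
      split_ifs <;> ring

theorem val_injective : ∀ {j : ℕ} (x y : Deck j), val x = val y → x = y
  | 0, _, _, _ => rfl
  | j + 1, x, y, h => by
      have e1 : val x = (if hd x then 2 ^ j else 0) + val (tl x) := rfl
      have e2 : val y = (if hd y then 2 ^ j else 0) + val (tl y) := rfl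
      have h1 := val_lt (tl x)
      have h2 := val_lt (tl y)
      rw [e1, e2] at h
      have hb : hd x = hd y := by
        cases hx : hd x <;> cases hy : hd y <;> simp [hx, hy] at h ⊢ <;> omega
      have ht : val (tl x) = val (tl y) := by
        rw [hb] at h; omega
      exact Prod.ext hb (val_injective _ _ ht)

/-- `Deck j` and `Fin (2 ^ j)`. -/
noncomputable def encD (j : ℕ) : Deck j ≃ Fin (2 ^ j) :=
  Equiv.ofBijective (fun x => ⟨val x, val_lt x⟩) <| by
    rw [Fintype.bijective_iff_injective_and_card]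
    refine ⟨fun x y h => val_injective x y (congrArg Fin.val h), ?_⟩
    simp [card_deck]

theorem encD_val {j : ℕ} (x : Deck j) : (encD j x).val = val x := rfl

/-- `Deck (d+1)` and `Fin (2 * 2 ^ d)`. -/
noncomputable def enc (d : ℕ) : Deck (d + 1) ≃ Fin (2 * 2 ^ d) :=
  Equiv.ofBijective (fun x => ⟨val x, by have := val_lt x; rw [pow_succ] at this; omega⟩) <| by
    rw [Fintype.bijective_iff_injective_and_card]
    refine ⟨fun x y h => val_injective x y (congrArg Fin.val h), ?_⟩
    simp [card_deck, pow_succ, mul_comm]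

theorem enc_val {d : ℕ} (x : Deck (d + 1)) : (enc d x).val = val x := rfl

theorem stepPos_enc (d : ℕ) (c : Fin (2 ^ d) → Bool) (x : Deck (d + 1)) :
    stepPos (2 ^ d) c (enc d x) = enc d (stepD (fun u => c (encD d u)) x) := by
  apply Fin.ext
  have hv : val x = (if hd x then 2 ^ d else 0) + val (tl x) := rfl
  have hlt := val_lt (tl x)
  have hmod : val x % 2 ^ d = val (tl x) := by
    rw [hv]
    split_ifs
    · rw [Nat.add_mod_left, Nat.mod_eq_of_lt hlt]
    · rw [zero_add, Nat.mod_eq_of_lt hlt]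
  have hdec : decide (2 ^ d ≤ val x) = hd x := by
    rw [hv]
    cases h : hd x <;> simp <;> omega
  have hs : stepD (fun u => c (encD d u)) x = snoc (tl x) (xor (hd x) (c (encD d (tl x)))) := rfl
  rw [hs, enc_val, val_snoc]
  have hc : (⟨(enc d x).val % 2 ^ d, Nat.mod_lt _ (by positivity)⟩ : Fin (2 ^ d)) = encD d (tl x) :=
    Fin.ext hmod
  show 2 * ((enc d x).val % 2 ^ d) +
      (if xor (decide (2 ^ d ≤ (enc d x).val))
        (c ⟨(enc d x).val % 2 ^ d, Nat.mod_lt _ (by positivity)⟩) then 1 else 0) = _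
  rw [hc]
  have hmod' : (enc d x).val % 2 ^ d = val (tl x) := hmod
  have hdec' : decide (2 ^ d ≤ (enc d x).val) = hd x := hdec
  rw [hmod', hdec']

/-- Bit tables read on `Deck`. -/
noncomputable def toFlips (d t : ℕ) (cs : Fin t → Fin (2 ^ d) → Bool) : Fin t → Flips d :=
  fun i u => cs i (encD d u)

/-- The equivalence of bit tables. -/
noncomputable def tabEquiv (d t : ℕ) : (Fin t → Fin (2 ^ d) → Bool) ≃ (Fin t → Flips d) :=
  Equiv.arrowCongr (Equiv.refl _) (Equiv.arrowCongr (encD d).symm (Equiv.refl Bool))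

theorem tabEquiv_apply (d t : ℕ) (cs : Fin t → Fin (2 ^ d) → Bool) :
    tabEquiv d t cs = toFlips d t cs := by
  funext i u
  simp [tabEquiv, toFlips]

theorem iterPos_enc (d : ℕ) : ∀ (t : ℕ) (cs : Fin t → Fin (2 ^ d) → Bool) (x : Deck (d + 1)),
    iterPos (2 ^ d) t cs (enc d x) = enc d (iterD t (toFlips d t cs) x)
  | 0, _, _ => rfl
  | t + 1, cs, x => by
      have h := iterPos_enc d t (fun i => cs i.castSucc) x
      simp only [iterPos, iterD]
      rw [h, stepPos_enc]
      rfl

/-! ## The law of one pass -/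

/-- Conjugation of permutations. -/
noncomputable def cj (d : ℕ) : Gp (2 ^ d) ≃* Equiv.Perm (Deck (d + 1)) :=
  (enc d).symm.permCongrHom

theorem cj_apply (d : ℕ) (g : Gp (2 ^ d)) (x : Deck (d + 1)) :
    cj d g x = (enc d).symm (g (enc d x)) := by
  simp [cj, Equiv.permCongrHom, Equiv.permCongr]

/-- The law of one butterfly. -/
noncomputable def nu (L : ℕ) (g : Equiv.Perm (Deck L)) : ℝ :=
  Ex (fun ω : TΩ L => if tau L ω = g then (1 : ℝ) else 0)

theorem law_eq_Ex (m t : ℕ) (g : Gp m) :
    law m t g = Ex (fun cs : Tab m t => if iterPos m t cs = ⇑g then (1 : ℝ) else 0) := by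
  classical
  unfold law Crest.FinProb.uniformProb Ex
  rw [Finset.sum_boole, div_eq_inv_mul]
  congr 2
  congr 1
  ext cs
  simp

theorem iterPos_iff (d : ℕ) (cs : Fin (d + 1) → Fin (2 ^ d) → Bool) (g : Gp (2 ^ d)) :
    iterPos (2 ^ d) (d + 1) cs = ⇑g ↔ tau (d + 1) (toΩ d id (toFlips d (d + 1) cs)) = cj d g := by
  constructor
  · intro h
    ext1 x
    rw [cj_apply, ← h, iterPos_enc, Equiv.symm_apply_apply, iterD_eq_tau]
  · intro h
    funext y
    obtain ⟨x, rfl⟩ := (enc d).surjective y
    rw [iterPos_enc, iterD_eq_tau, h, cj_apply, Equiv.apply_symm_apply]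

/-- Uniformity for a single embedding, the identity. -/
theorem Ex_toΩ_id (n : ℕ) (f : TΩ (n + 1) → ℝ) :
    Ex (fun cs : Fin (n + 1) → Flips n => f (toΩ n id cs)) = Ex f := by
  have h := uniform_toΩ n Unit (fun _ => id) (fun _ => []) (fun _ u => by simp)
    (fun _ _ _ => rfl) (fun w => f (w ()))
  calc Ex (fun cs : Fin (n + 1) → Flips n => f (toΩ n id cs))
      = Ex (fun w : Unit → TΩ (n + 1) => f (w ())) := h
    _ = Ex f := Ex_equiv (Equiv.funUnique Unit (TΩ (n + 1))) f

/-- The law of `d + 1` rows is the law of a butterfly. -/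
theorem law_pass (d : ℕ) (g : Gp (2 ^ d)) : law (2 ^ d) (d + 1) g = nu (d + 1) (cj d g) := by
  rw [law_eq_Ex]
  unfold nu
  rw [← Ex_toΩ_id d (fun ω => if tau (d + 1) ω = cj d g then (1 : ℝ) else 0)]
  rw [← Ex_equiv (tabEquiv d (d + 1))]
  refine congrArg Ex (funext fun cs => ?_)
  rw [tabEquiv_apply]
  simp only [iterPos_iff]

theorem law_zero (m : ℕ) (g : Gp m) : law m 0 g = if g = 1 then (1 : ℝ) else 0 := by
  rw [law_eq_Ex]
  have hne : Nonempty (Tab m 0) := inferInstance
  have : ∀ cs : Tab m 0, (if iterPos m 0 cs = ⇑g then (1 : ℝ) else 0) =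
      if g = 1 then (1 : ℝ) else 0 := by
    intro cs
    have h : iterPos m 0 cs = ⇑g ↔ g = 1 := by
      constructor
      · intro h
        refine Equiv.ext (fun x => ?_)
        have := congrFun h x
        simpa [iterPos] using this.symm
      · rintro rfl
        rfl
    simp only [h]
  simp only [this]
  exact Ex_const _

/-! ## Injective tuples of all slots are permutations -/

/-- The permutation of a full injective tuple. -/
noncomputable def toP {L : ℕ} (x : InjTup (Deck L) L) : Equiv.Perm (Deck L) :=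
  Equiv.ofBijective x.1 (Finite.injective_iff_bijective.mp x.2)

/-- The tuple of a permutation. -/
def ofP {L : ℕ} (g : Equiv.Perm (Deck L)) : InjTup (Deck L) L := ⟨g, g.injective⟩

@[simp] theorem toP_apply {L : ℕ} (x : InjTup (Deck L) L) (c : Deck L) : toP x c = x.1 c := rfl

@[simp] theorem toP_ofP {L : ℕ} (g : Equiv.Perm (Deck L)) : toP (ofP g) = g := by
  ext1 c
  rfl

@[simp] theorem ofP_toP {L : ℕ} (x : InjTup (Deck L) L) : ofP (toP x) = x :=
  Subtype.ext rfl

/-- Permutations and full injective tuples. -/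
noncomputable def permEquiv (L : ℕ) : Equiv.Perm (Deck L) ≃ InjTup (Deck L) L where
  toFun := ofP
  invFun := toP
  left_inv := toP_ofP
  right_inv := ofP_toP

theorem TI_apply (L : ℕ) (x y : InjTup (Deck L) L) :
    TI (Deck L) L x y = nu L (toP y * (toP x)⁻¹) := by
  unfold TI nu
  refine congrArg Ex (funext fun ω => ?_)
  have h : (∀ c, tau L ω (x.1 c) = y.1 c) ↔ tau L ω = toP y * (toP x)⁻¹ := by
    rw [eq_mul_inv_iff_mul_eq]
    constructor
    · intro h
      ext1 c
      exact h c
    · intro h c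
      exact congrArg (fun g : Equiv.Perm (Deck L) => g c) h
  by_cases hc : tau L ω = toP y * (toP x)⁻¹
  · rw [if_pos hc, if_pos (h.mpr hc)]
  · rw [if_neg hc, if_neg (fun h' => hc (h.mp h'))]

theorem TI_pow (d k : ℕ) (x y : InjTup (Deck (d + 1)) (d + 1)) :
    ((TI (Deck (d + 1)) (d + 1)) ^ k) x y =
      law (2 ^ d) (k * (d + 1)) ((cj d).symm (toP y * (toP x)⁻¹)) := by
  induction k generalizing y with
  | zero =>
      rw [pow_zero, Nat.zero_mul, law_zero, Matrix.one_apply]
      have h : x = y ↔ (cj d).symm (toP y * (toP x)⁻¹) = 1 := by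
        rw [MulEquiv.symm_apply_eq, map_one, mul_inv_eq_one]
        constructor
        · rintro rfl; rfl
        · intro h
          have := congrArg ofP h
          simpa using this.symm
      by_cases hc : x = y
      · rw [if_pos hc, if_pos (h.mp hc)]
      · rw [if_neg hc, if_neg (fun h' => hc (h.mpr h'))]
  | succ k ih =>
      rw [pow_succ, Matrix.mul_apply, Nat.succ_mul, law_add]
      let e : Gp (2 ^ d) ≃ InjTup (Deck (d + 1)) (d + 1) :=
        ((cj d).toEquiv.trans (Equiv.mulRight (toP x))).trans (permEquiv (d + 1))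
      have he : ∀ h, toP (e h) = cj d h * toP x := by
        intro h
        simp [e, permEquiv]
      rw [← Equiv.sum_comp e]
      refine Finset.sum_congr rfl (fun h _ => ?_)
      rw [ih, TI_apply, he, law_pass]
      congr 2
      · simp
      · simp [map_mul, mul_assoc]

end Crest.Agent.Thorp.Bridge

namespace Crest.Agent.Thorp

open Bridge

theorem tv_le_sqrt (d : ℕ) :
    Crest.ProbabilityR.Shuffle.tvFromUniform (2 ^ d) (1600 * (d + 1)) ≤
      (1 / 2) * Real.sqrt (∑ x : InjTup (Deck (d + 1)) (d + 1), ∑ y : InjTup (Deck (d + 1)) (d + 1),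
        (((TI (Deck (d + 1)) (d + 1)) ^ 1600) x y) ^ 2 - 1) := by
  refine (tv_le_sqrt_law (2 ^ d) (1600 * (d + 1))).trans ?_
  apply mul_le_mul_of_nonneg_left _ (by norm_num)
  apply Real.sqrt_le_sqrt
  apply le_of_eq
  congr 1
  have hinner : ∀ x : InjTup (Deck (d + 1)) (d + 1),
      ∑ y : InjTup (Deck (d + 1)) (d + 1),
        (((TI (Deck (d + 1)) (d + 1)) ^ 1600) x y) ^ 2 =
      ∑ g : Gp (2 ^ d), law (2 ^ d) (1600 * (d + 1)) g ^ 2 := by
    intro x
    let e : Gp (2 ^ d) ≃ InjTup (Deck (d + 1)) (d + 1) :=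
      ((cj d).toEquiv.trans (Equiv.mulRight (toP x))).trans (permEquiv (d + 1))
    have he : ∀ h, toP (e h) = cj d h * toP x := by
      intro h
      simp [e, permEquiv]
    rw [← Equiv.sum_comp e]
    refine Finset.sum_congr rfl (fun h _ => ?_)
    rw [TI_pow, he]
    simp
  simp only [hinner]
  rw [Finset.sum_const, Finset.card_univ, nsmul_eq_mul]
  congr 2
  rw [← Fintype.card_congr (permEquiv (d + 1)), Fintype.card_perm, card_deck, pow_succ']

end Crest.Agent.Thorp

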