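import Crest.Agent.Lib.Thorp.Basic

/-!
# Thorp shuffle: `‖T⁸‖²_HS ≤ tr((T Tᵀ)⁸)` (blueprint §2)
-/

set_option autoImplicit false

namespace Crest.Agent.Thorp

open Matrix

section Trace

variable {ι : Type*} [Fintype ι]

theorem Trace_hs_eq_sum (X : Matrix ι ι ℝ) : trace (X * Xᵀ) = ∑ x, ∑ y, (X x y) ^ 2 := by
  simp only [trace, diag_apply, mul_apply, transpose_apply]
  refine Finset.sum_congr rfl fun x _ => Finset.sum_congr rfl fun y _ => ?_
  ring

theorem Trace_hs_nonneg (X : Matrix ι ι ℝ) : 0 ≤ trace (X * Xᵀ) := by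
  rw [Trace_hs_eq_sum]
  exact Finset.sum_nonneg fun _ _ => Finset.sum_nonneg fun _ _ => sq_nonneg _

/-- Cauchy-Schwarz for the trace form. -/
theorem Trace_mul_le (X Y : Matrix ι ι ℝ) (a : ℝ) (hX : trace (X * Xᵀ) ≤ a)
    (hY : trace (Y * Yᵀ) ≤ a) : trace (X * Y) ≤ a := by
  have ha : 0 ≤ a := (Trace_hs_nonneg X).trans hX
  have h1 : trace (X * Y) = ∑ p : ι × ι, X p.1 p.2 * Y p.2 p.1 := by
    simp only [trace, diag_apply, mul_apply, Fintype.sum_prod_type]
  have h2 : trace (X * Xᵀ) = ∑ p : ι × ι, (X p.1 p.2) ^ 2 := by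
    rw [Trace_hs_eq_sum, Fintype.sum_prod_type]
  have h3 : trace (Y * Yᵀ) = ∑ p : ι × ι, (Y p.2 p.1) ^ 2 := by
    rw [Trace_hs_eq_sum, Fintype.sum_prod_type, Finset.sum_comm]
  have hcs := Finset.sum_mul_sq_le_sq_mul_sq (Finset.univ : Finset (ι × ι))
    (fun p => X p.1 p.2) (fun p => Y p.2 p.1)
  rw [← h1, ← h2, ← h3] at hcs
  have h4 : trace (X * Y) ^ 2 ≤ a ^ 2 := by
    calc trace (X * Y) ^ 2 ≤ trace (X * Xᵀ) * trace (Y * Yᵀ) := hcs
      _ ≤ a * a := mul_le_mul hX hY (Trace_hs_nonneg Y) ha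
      _ = a ^ 2 := by ring
  exact (abs_le_of_sq_le_sq' h4 ha).2

/-- Cyclic rotation of a word under the trace. -/
theorem Trace_rot {W V : Matrix ι ι ℝ} (P Q : Matrix ι ι ℝ) (h1 : W = P * Q) (h2 : V = Q * P) :
    trace W = trace V := by
  rw [h1, h2, Matrix.trace_mul_comm]

/-- Step 1: `‖Y²‖² ≤ tr((YYᵀ)²)`. -/
theorem Trace_step1 (Y : Matrix ι ι ℝ) :
    trace ((Y * Y) * (Y * Y)ᵀ) ≤ trace ((Y * Yᵀ) * (Y * Yᵀ)) := by
  have h : trace ((Y * Y) * (Y * Y)ᵀ) = trace ((Yᵀ * Y) * (Y * Yᵀ)) := by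
    rw [transpose_mul]
    exact Trace_rot (Y * Y * Yᵀ) Yᵀ (by simp only [Matrix.mul_assoc])
      (by simp only [Matrix.mul_assoc])
  rw [h]
  apply Trace_mul_le
  · rw [transpose_mul, transpose_transpose]
    apply le_of_eq
    exact Trace_rot Yᵀ (Y * Yᵀ * Y) (by simp only [Matrix.mul_assoc])
      (by simp only [Matrix.mul_assoc])
  · rw [transpose_mul, transpose_transpose]

/-- Symmetric form of Cauchy-Schwarz, second rung. -/
theorem Trace_sym2 (A B : Matrix ι ι ℝ) (hA : Aᵀ = A) (hB : Bᵀ = B) (a : ℝ)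
    (ha : trace (A * A * (A * A)) ≤ a) (hb : trace (B * B * (B * B)) ≤ a) :
    trace (A * B * (A * B)) ≤ a := by
  have key : trace (A * B * (A * B)ᵀ) ≤ a := by
    rw [transpose_mul, hA, hB]
    have : trace (A * B * (B * A)) = trace ((A * A) * (B * B)) :=
      Trace_rot (A * B * B) A (by simp only [Matrix.mul_assoc]) (by simp only [Matrix.mul_assoc])
    rw [this]
    apply Trace_mul_le
    · rw [transpose_mul, hA]; exact ha
    · rw [transpose_mul, hB]; exact hb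
  exact Trace_mul_le _ _ a key key

/-- Third rung. -/
theorem Trace_sym4 (A B : Matrix ι ι ℝ) (hA : Aᵀ = A) (hB : Bᵀ = B) (a : ℝ)
    (ha : trace (A * A * (A * A) * (A * A * (A * A))) ≤ a)
    (hb : trace (B * B * (B * B) * (B * B * (B * B))) ≤ a) :
    trace ((A * B * (A * B)) * (A * B * (A * B))) ≤ a := by
  -- P = A²B², trace(P Pᵀ) = tr(A⁴B⁴)
  have hP : trace ((A * A * (B * B)) * (A * A * (B * B))ᵀ) ≤ a := by
    rw [transpose_mul, transpose_mul, transpose_mul, hA, hB]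
    have : trace (A * A * (B * B) * (B * B * (A * A)))
        = trace ((A * A * (A * A)) * (B * B * (B * B))) :=
      Trace_rot (A * A * (B * B) * (B * B)) (A * A) (by simp only [Matrix.mul_assoc])
        (by simp only [Matrix.mul_assoc])
    rw [this]
    apply Trace_mul_le
    · rw [transpose_mul, transpose_mul, hA]; exact ha
    · rw [transpose_mul, transpose_mul, hB]; exact hb
  -- tr(P P) ≤ a
  have hPP : trace ((A * A * (B * B)) * (A * A * (B * B))) ≤ a :=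
    Trace_mul_le _ _ a hP hP
  -- X = A B² A, Y = B A² B
  have hX : trace ((A * (B * B) * A) * (A * (B * B) * A)ᵀ) ≤ a := by
    have h1 : (A * (B * B) * A)ᵀ = A * (B * B) * A := by
      simp only [transpose_mul, hA, hB, Matrix.mul_assoc]
    rw [h1]
    have : trace (A * (B * B) * A * (A * (B * B) * A))
        = trace ((A * A * (B * B)) * (A * A * (B * B))) :=
      Trace_rot (A * (B * B) * A * (A * (B * B))) A (by simp only [Matrix.mul_assoc])
        (by simp only [Matrix.mul_assoc])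
    rw [this]; exact hPP
  have hY : trace ((B * (A * A) * B) * (B * (A * A) * B)ᵀ) ≤ a := by
    have h1 : (B * (A * A) * B)ᵀ = B * (A * A) * B := by
      simp only [transpose_mul, hA, hB, Matrix.mul_assoc]
    rw [h1]
    have : trace (B * (A * A) * B * (B * (A * A) * B))
        = trace ((A * A * (B * B)) * (A * A * (B * B))) :=
      Trace_rot B ((A * A) * B * B * (A * A) * B) (by simp only [Matrix.mul_assoc])
        (by simp only [Matrix.mul_assoc])
    rw [this]; exact hPP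
  have hXY : trace ((A * (B * B) * A) * (B * (A * A) * B)) ≤ a := Trace_mul_le _ _ a hX hY
  -- W = A B A B
  have hW : trace ((A * B * (A * B)) * (A * B * (A * B))ᵀ) ≤ a := by
    have h1 : (A * B * (A * B))ᵀ = B * A * (B * A) := by
      simp only [transpose_mul, hA, hB, Matrix.mul_assoc]
    rw [h1]
    have : trace (A * B * (A * B) * (B * A * (B * A)))
        = trace ((A * (B * B) * A) * (B * (A * A) * B)) :=
      Trace_rot (A * B) (A * B * (B * A * (B * A))) (by simp only [Matrix.mul_assoc])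
        (by simp only [Matrix.mul_assoc])
    rw [this]; exact hXY
  exact Trace_mul_le _ _ a hW hW

/-- The main inequality. -/
theorem hs8_le_trace {ι : Type*} [Fintype ι] [DecidableEq ι] (T : Matrix ι ι ℝ) :
    ∑ x, ∑ y, ((T ^ 8) x y) ^ 2 ≤ Matrix.trace ((T * T.transpose) ^ 8) := by
  set Z := T * T with hZ
  set Y := Z * Z with hY
  have hT8 : T ^ 8 = Y * Y := by
    simp only [hY, hZ, pow_succ, pow_zero, one_mul, Matrix.mul_assoc]
  -- first rung
  have h1 : trace ((Y * Y) * (Y * Y)ᵀ) ≤ trace ((Y * Yᵀ) * (Y * Yᵀ)) := Trace_step1 Y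
  -- second rung
  have h2 : trace ((Y * Yᵀ) * (Y * Yᵀ)) ≤ trace ((Z * Zᵀ) * (Z * Zᵀ) * ((Z * Zᵀ) * (Z * Zᵀ))) := by
    have hA : (Zᵀ * Z)ᵀ = Zᵀ * Z := by rw [transpose_mul, transpose_transpose]
    have hB : (Z * Zᵀ)ᵀ = Z * Zᵀ := by rw [transpose_mul, transpose_transpose]
    have h := Trace_sym2 (Zᵀ * Z) (Z * Zᵀ) hA hB
      (trace ((Z * Zᵀ) * (Z * Zᵀ) * ((Z * Zᵀ) * (Z * Zᵀ))))
      (le_of_eq (Trace_rot Zᵀ (Z * Zᵀ * Z * Zᵀ * Z * Zᵀ * Z) (by simp only [Matrix.mul_assoc])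
        (by simp only [Matrix.mul_assoc]))) le_rfl
    refine le_trans (le_of_eq ?_) h
    rw [hY, transpose_mul]
    exact Trace_rot (Z * Z * Zᵀ * Zᵀ * Z * Z * Zᵀ) Zᵀ (by simp only [Matrix.mul_assoc])
      (by simp only [Matrix.mul_assoc])
  -- third rung
  have h3 : trace ((Z * Zᵀ) * (Z * Zᵀ) * ((Z * Zᵀ) * (Z * Zᵀ))) ≤ trace ((T * Tᵀ) ^ 8) := by
    have hA : (Tᵀ * T)ᵀ = Tᵀ * T := by rw [transpose_mul, transpose_transpose]
    have hB : (T * Tᵀ)ᵀ = T * Tᵀ := by rw [transpose_mul, transpose_transpose]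
    have hB8 : ((T * Tᵀ) ^ 8) =
        (T * Tᵀ) * (T * Tᵀ) * ((T * Tᵀ) * (T * Tᵀ)) * ((T * Tᵀ) * (T * Tᵀ) * ((T * Tᵀ) * (T * Tᵀ))) := by
      simp only [pow_succ, pow_zero, one_mul, Matrix.mul_assoc]
    have h := Trace_sym4 (Tᵀ * T) (T * Tᵀ) hA hB (trace ((T * Tᵀ) ^ 8))
      (le_of_eq (by
        rw [hB8]
        exact Trace_rot Tᵀ (T * Tᵀ * T * Tᵀ * T * Tᵀ * T * Tᵀ * T * Tᵀ * T * Tᵀ * T * Tᵀ * T)
          (by simp only [Matrix.mul_assoc]) (by simp only [Matrix.mul_assoc])))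
      (le_of_eq (by rw [hB8]))
    refine le_trans (le_of_eq ?_) h
    rw [hZ, transpose_mul]
    exact Trace_rot (T * T * Tᵀ * Tᵀ * (T * T * Tᵀ * Tᵀ) * (T * T * Tᵀ * Tᵀ) * (T * T * Tᵀ)) Tᵀ
      (by simp only [Matrix.mul_assoc]) (by simp only [Matrix.mul_assoc])
  rw [hT8, ← Trace_hs_eq_sum]
  exact h1.trans (h2.trans h3)

end Trace

end Crest.Agent.Thorp
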