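import Crest.Agent.Lib.Thorp.Ops
import Crest.Agent.Lib.Thorp.Trace

/-!
# Thorp shuffle: reduction of the total trace to pure levels (blueprint §4)
-/

set_option autoImplicit false
set_option linter.unusedSectionVars false
set_option linter.style.haveILetI false

namespace Crest.Agent.Thorp

section TraceLemma

/-- If a family of eigenvectors with nonnegative eigenvalues spans the space, the trace is at most the
sum of all the eigenvalues. -/
theorem Levels_trace_le {ι S : Type*} [Fintype ι] [DecidableEq ι] [Fintype S] (A : Matrix ι ι ℝ)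
    (w : S → ι → ℝ) (lam : S → ℝ) (hlam : ∀ s, 0 ≤ lam s)
    (hA : ∀ s, A.mulVec (w s) = lam s • w s)
    (hspan : Submodule.span ℝ (Set.range w) = ⊤) :
    Matrix.trace A ≤ ∑ s, lam s := by
  classical
  obtain ⟨κ, a, ha, hsp, hli⟩ := exists_linearIndependent' ℝ w
  rw [hspan] at hsp
  let bas : Module.Basis κ ℝ (ι → ℝ) := Module.Basis.mk hli (by rw [hsp])
  have hbas : ∀ e, bas e = w (a e) := fun e => by simp [bas, Module.Basis.mk_apply]
  haveI : Finite κ := Module.Finite.finite_basis bas
  letI : Fintype κ := Fintype.ofFinite κ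
  have htr : Matrix.trace A = ∑ e, lam (a e) := by
    rw [← Matrix.trace_toLin'_eq, LinearMap.trace_eq_matrix_trace ℝ bas]
    simp only [Matrix.trace, Matrix.diag_apply, LinearMap.toMatrix_apply]
    refine Finset.sum_congr rfl fun e _ => ?_
    have : Matrix.toLin' A (bas e) = lam (a e) • bas e := by
      rw [hbas, Matrix.toLin'_apply, hA]
    rw [this]
    simp
  rw [htr]
  have := Finset.sum_le_sum_of_subset_of_nonneg (f := lam) (Finset.subset_univ (Finset.univ.image a))
    (fun s _ _ => hlam s)
  rwa [Finset.sum_image (fun x _ y _ h => ha h)] at this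

end TraceLemma

section Eigen

variable {K : Type*} [Fintype K] [DecidableEq K]

theorem Levels_TS_add {L : ℕ} (u v : Fn K L) : TS L (u + v) = TS L u + TS L v := by
  funext y
  exact Ex_add _ _

theorem Levels_TT_add {L : ℕ} (u v : Fn K L) : TT L (u + v) = TT L u + TT L v := by
  funext y
  exact Ex_add _ _

theorem Levels_TS_smul {L : ℕ} (c : ℝ) (u : Fn K L) : TS L (c • u) = c • TS L u := by
  funext y
  exact Ex_const_mul _ _

theorem Levels_TT_smul {L : ℕ} (c : ℝ) (u : Fn K L) : TT L (c • u) = c • TT L u := by
  funext y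
  exact Ex_const_mul _ _

theorem Levels_iter_TS_add {L : ℕ} (m : ℕ) (u v : Fn K L) :
    (TS L)^[m] (u + v) = (TS L)^[m] u + (TS L)^[m] v := by
  induction m with
  | zero => rfl
  | succ m ih => simp only [Function.iterate_succ_apply', ih, Levels_TS_add]

theorem Levels_iter_TT_add {L : ℕ} (m : ℕ) (u v : Fn K L) :
    (TT L)^[m] (u + v) = (TT L)^[m] u + (TT L)^[m] v := by
  induction m with
  | zero => rfl
  | succ m ih => simp only [Function.iterate_succ_apply', ih, Levels_TT_add]

theorem Levels_iter_TS_smul {L : ℕ} (m : ℕ) (c : ℝ) (u : Fn K L) :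
    (TS L)^[m] (c • u) = c • (TS L)^[m] u := by
  induction m with
  | zero => rfl
  | succ m ih => simp only [Function.iterate_succ_apply', ih, Levels_TS_smul]

theorem Levels_iter_TT_smul {L : ℕ} (m : ℕ) (c : ℝ) (u : Fn K L) :
    (TT L)^[m] (c • u) = c • (TT L)^[m] u := by
  induction m with
  | zero => rfl
  | succ m ih => simp only [Function.iterate_succ_apply', ih, Levels_TT_smul]

theorem Levels_ip_iter {L : ℕ} (m : ℕ) (u v : Fn K L) :
    ip ((TT L)^[m] u) v = ip u ((TS L)^[m] v) := by
  induction m generalizing v with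
  | zero => rfl
  | succ m ih =>
    rw [Function.iterate_succ_apply', Function.iterate_succ_apply, ip_TT_TS, ih]

/-- The operator `T^m T*^m`. -/
noncomputable def Levels_G (L m : ℕ) (u : Fn K L) : Fn K L := (TT L)^[m] ((TS L)^[m] u)

theorem Levels_inner_eq_ip {L : ℕ} (a b : EuclideanSpace ℝ (K → Deck L)) :
    inner ℝ a b = ip a.ofLp b.ofLp := by
  simp [PiLp.inner_apply, ip, mul_comm]

/-- The pure functions as a subspace of Euclidean space. -/
noncomputable def Levels_W (K : Type*) [Fintype K] [DecidableEq K] (L : ℕ) :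
    Submodule ℝ (EuclideanSpace ℝ (K → Deck L)) where
  carrier := {u | IsPure u.ofLp}
  add_mem' := by
    intro a b ha hb
    refine ⟨fun x hx => ?_, fun c x => ?_⟩
    · simp [ha.1 x hx, hb.1 x hx]
    · have h1 := ha.2 c x
      have h2 := hb.2 c x
      simp only [WithLp.ofLp_add, Pi.add_apply, Finset.sum_add_distrib, h1, h2, add_zero]
  zero_mem' := by
    refine ⟨fun x _ => by simp, fun c x => by simp⟩
  smul_mem' := by
    intro r a ha
    refine ⟨fun x hx => ?_, fun c x => ?_⟩
    · simp [ha.1 x hx]
    · have h1 := ha.2 c x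
      simp only [WithLp.ofLp_smul, Pi.smul_apply, smul_eq_mul, ← Finset.mul_sum, h1, mul_zero]

/-- `T^m T*^m` as a linear map. -/
noncomputable def Levels_Glin (K : Type*) [Fintype K] [DecidableEq K] (L m : ℕ) :
    EuclideanSpace ℝ (K → Deck L) →ₗ[ℝ] EuclideanSpace ℝ (K → Deck L) where
  toFun u := WithLp.toLp 2 (Levels_G L m u.ofLp)
  map_add' := by
    intro a b
    simp only [Levels_G, WithLp.ofLp_add, Levels_iter_TS_add, Levels_iter_TT_add]
    rfl
  map_smul' := by
    intro r a
    simp only [Levels_G, WithLp.ofLp_smul, Levels_iter_TS_smul, Levels_iter_TT_smul]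
    rfl

/-- An orthonormal basis of the pure functions made of eigenvectors of `T^m T*^m`. -/
theorem Levels_pure_eigenbasis (K : Type*) [Fintype K] [DecidableEq K] (L m : ℕ) :
    ∃ (n : ℕ) (b : Fin n → Fn K L),
      (∀ j, IsPure (b j)) ∧ (∀ i j, ip (b i) (b j) = if i = j then 1 else 0) ∧
      (∀ j x, (TT L)^[m] ((TS L)^[m] (b j)) x = nsq ((TS L)^[m] (b j)) * b j x) ∧
      (∀ u : Fn K L, IsPure u → (∀ j, ip u (b j) = 0) → u = 0) := by
  let W := Levels_W K L
  have hmem : ∀ x ∈ W, Levels_Glin K L m x ∈ W := by
    intro x hx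
    exact (IsPure.iterate_TS hx m).iterate_TT m
  let G : W →ₗ[ℝ] W := (Levels_Glin K L m).restrict hmem
  have hG : G.IsSymmetric := by
    intro x y
    rw [Submodule.coe_inner, Submodule.coe_inner]
    change inner ℝ (Levels_Glin K L m x) (y : EuclideanSpace ℝ (K → Deck L)) =
      inner ℝ (x : EuclideanSpace ℝ (K → Deck L)) (Levels_Glin K L m y)
    rw [Levels_inner_eq_ip, Levels_inner_eq_ip]
    change ip (Levels_G L m _) _ = ip _ (Levels_G L m _)
    unfold Levels_G
    rw [Levels_ip_iter, ip_comm _ ((TT L)^[m] _), Levels_ip_iter, ip_comm]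
  let B := hG.eigenvectorBasis rfl
  refine ⟨_, fun j => (B j : EuclideanSpace ℝ (K → Deck L)).ofLp, fun j => (B j).2, ?_, ?_, ?_⟩
  · intro i j
    have h := orthonormal_iff_ite.mp B.orthonormal i j
    rw [Submodule.coe_inner, Levels_inner_eq_ip] at h
    exact h
  · intro j x
    have h := hG.apply_eigenvectorBasis rfl j
    have h2 : Levels_G L m (B j : EuclideanSpace ℝ (K → Deck L)).ofLp =
        (hG.eigenvalues rfl j) • (B j : EuclideanSpace ℝ (K → Deck L)).ofLp := by
      have h3 := congrArg (fun w : W => (w : EuclideanSpace ℝ (K → Deck L)).ofLp) h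
      exact h3
    have h4 : nsq ((TS L)^[m] (B j : EuclideanSpace ℝ (K → Deck L)).ofLp) = hG.eigenvalues rfl j := by
      have h5 := Levels_ip_iter m ((TS L)^[m] (B j : EuclideanSpace ℝ (K → Deck L)).ofLp)
        (B j : EuclideanSpace ℝ (K → Deck L)).ofLp
      have h6 : ip (B j : EuclideanSpace ℝ (K → Deck L)).ofLp
          (B j : EuclideanSpace ℝ (K → Deck L)).ofLp = 1 := by
        have h := orthonormal_iff_ite.mp B.orthonormal j j
        rw [Submodule.coe_inner, Levels_inner_eq_ip] at h
        simpa using h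
      change ip (Levels_G L m _) _ = _ at h5
      rw [h2] at h5
      unfold nsq
      rw [← h5]
      simp only [ip, Pi.smul_apply, smul_eq_mul, mul_assoc, ← Finset.mul_sum]
      simp only [ip] at h6
      rw [h6, mul_one]
    rw [h4]
    have := congrFun h2 x
    exact this
  · intro u hu h0
    let u' : W := ⟨WithLp.toLp 2 u, hu⟩
    have hu' : u' = 0 := by
      rw [← B.sum_repr' u']
      refine Finset.sum_eq_zero fun j _ => ?_
      have : inner ℝ (B j) u' = 0 := by
        rw [Submodule.coe_inner, Levels_inner_eq_ip, ip_comm]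
        exact h0 j
      rw [this, zero_smul]
    have := congrArg (fun w : W => (w : EuclideanSpace ℝ (K → Deck L)).ofLp) hu'
    exact this

end Eigen

section Marg

variable {K : Type*} [Fintype K] [DecidableEq K]

/-- The restriction of a tuple to the tokens of `I`. -/
def Levels_restr {L : ℕ} (I : Finset K) (x : K → Deck L) : ↥I → Deck L := fun c => x c.1

/-- Pull-back along the inclusion of tokens. -/
def Levels_pull {L : ℕ} (I : Finset K) (v : Fn (↥I) L) : Fn K L := fun x => v (Levels_restr I x)

/-- The marginal on the tokens of `I`. -/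
noncomputable def Levels_marg {L : ℕ} (I : Finset K) (v : Fn K L) : Fn (↥I) L :=
  fun z => ∑ x : K → Deck L, if Levels_restr I x = z then v x else 0

theorem Levels_ip_marg {L : ℕ} (I : Finset K) (v : Fn K L) (u : Fn (↥I) L) :
    ip (Levels_marg I v) u = ip v (Levels_pull I u) := by
  unfold ip Levels_marg Levels_pull
  simp only [Finset.sum_mul]
  rw [Finset.sum_comm]
  refine Finset.sum_congr rfl fun x _ => ?_
  rw [Finset.sum_eq_single (Levels_restr I x)]
  · simp
  · intro z _ hz
    rw [if_neg (Ne.symm hz), zero_mul]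
  · intro h
    exact absurd (Finset.mem_univ _) h

theorem Levels_marg_injSupp {L : ℕ} (I : Finset K) {v : Fn K L} (hv : InjSupp v) :
    InjSupp (Levels_marg I v) := by
  intro z hz
  refine Finset.sum_eq_zero fun x _ => ?_
  split_ifs with h
  · subst h
    apply hv
    intro hx
    apply hz
    intro a b hab
    exact Subtype.ext (hx hab)
  · rfl

theorem Levels_sum_marg_update {L : ℕ} (I : Finset K) (v : Fn K L) (c : ↥I) (z : ↥I → Deck L) :
    ∑ y, Levels_marg I v (Function.update z c y) =
      Levels_marg (I.erase c.1) v (fun d => z ⟨d.1, Finset.mem_of_mem_erase d.2⟩) := by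
  unfold Levels_marg
  rw [Finset.sum_comm]
  refine Finset.sum_congr rfl fun x _ => ?_
  have key : ∀ y, (Levels_restr I x = Function.update z c y) ↔
      (Levels_restr (I.erase c.1) x = (fun d => z ⟨d.1, Finset.mem_of_mem_erase d.2⟩) ∧ y = x c.1) := by
    intro y
    constructor
    · intro h
      constructor
      · funext d
        have h1 := congrFun h ⟨d.1, Finset.mem_of_mem_erase d.2⟩
        have hne : (⟨d.1, Finset.mem_of_mem_erase d.2⟩ : ↥I) ≠ c := by
          intro h2
          have := Finset.ne_of_mem_erase d.2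
          exact this (congrArg Subtype.val h2)
        rw [Function.update_of_ne hne] at h1
        exact h1
      · have h1 := congrFun h c
        rw [Function.update_self] at h1
        exact h1.symm
    · rintro ⟨h1, rfl⟩
      funext d
      by_cases hd : d = c
      · subst hd
        simp [Levels_restr]
      · rw [Function.update_of_ne hd]
        have hne : d.1 ≠ c.1 := fun h => hd (Subtype.ext h)
        exact congrFun h1 ⟨d.1, Finset.mem_erase.mpr ⟨hne, d.2⟩⟩
  simp only [key]
  by_cases hP : Levels_restr (I.erase c.1) x = (fun d => z ⟨d.1, Finset.mem_of_mem_erase d.2⟩)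
  · simp [hP]
  · simp [hP]

theorem Levels_marg_univ {L : ℕ} (v : Fn K L) (x : K → Deck L) :
    Levels_marg Finset.univ v (fun c => x c.1) = v x := by
  unfold Levels_marg
  rw [Finset.sum_eq_single x]
  · exact if_pos rfl
  · intro x' _ hne
    rw [if_neg]
    intro h
    apply hne
    funext c
    exact congrFun h ⟨c, Finset.mem_univ c⟩
  · intro h
    exact absurd (Finset.mem_univ _) h

/-- All marginals of a function orthogonal to the pure levels vanish. -/
theorem Levels_marg_eq_zero {L : ℕ} (n : Finset K → ℕ) (b : ∀ I : Finset K, Fin (n I) → Fn (↥I) L)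
    (hcomp : ∀ (I : Finset K) (u : Fn (↥I) L), IsPure u → (∀ j, ip u (b I j) = 0) → u = 0)
    (v : Fn K L) (hv : InjSupp v) (h0 : ∀ I j, ip v (Levels_pull I (b I j)) = 0) (I : Finset K) :
    Levels_marg I v = 0 := by
  induction I using Finset.strongInduction with
  | H I IH =>
    apply hcomp I
    · refine ⟨Levels_marg_injSupp I hv, fun c z => ?_⟩
      rw [Levels_sum_marg_update, IH (I.erase c.1) (Finset.erase_ssubset c.2)]
      rfl
    · intro j
      rw [Levels_ip_marg]
      exact h0 I j

theorem Levels_TS_pull {L : ℕ} (I : Finset K) (v : Fn (↥I) L) :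
    TS L (Levels_pull I v) = Levels_pull I (TS L v) := rfl

theorem Levels_TT_pull {L : ℕ} (I : Finset K) (v : Fn (↥I) L) :
    TT L (Levels_pull I v) = Levels_pull I (TT L v) := rfl

theorem Levels_iter_TS_pull {L : ℕ} (m : ℕ) (I : Finset K) (v : Fn (↥I) L) :
    (TS L)^[m] (Levels_pull I v) = Levels_pull I ((TS L)^[m] v) := by
  induction m with
  | zero => rfl
  | succ m ih => rw [Function.iterate_succ_apply', Function.iterate_succ_apply', ih]; rfl

theorem Levels_iter_TT_pull {L : ℕ} (m : ℕ) (I : Finset K) (v : Fn (↥I) L) :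
    (TT L)^[m] (Levels_pull I v) = Levels_pull I ((TT L)^[m] v) := by
  induction m with
  | zero => rfl
  | succ m ih => rw [Function.iterate_succ_apply', Function.iterate_succ_apply', ih]; rfl

/-- Iterates of `T` in terms of the kernel. -/
theorem Levels_TT_iter_eq_sum {L : ℕ} (m : ℕ) (u : Fn K L) (x : InjTup K L) :
    ((TT L)^[m] u) x.1 = ∑ y : InjTup K L, ((TI K L) ^ m) x y * u y.1 := by
  classical
  induction m generalizing x with
  | zero =>
    simp only [Function.iterate_zero, id, pow_zero, Matrix.one_apply]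
    simp
  | succ m ih =>
    rw [Function.iterate_succ_apply', TT_eq_sum]
    simp only [ih]
    simp only [Finset.mul_sum]
    rw [Finset.sum_comm]
    refine Finset.sum_congr rfl fun y _ => ?_
    rw [pow_succ', Matrix.mul_apply, Finset.sum_mul]
    refine Finset.sum_congr rfl fun z _ => ?_
    ring

/-- Sum over all tuples of a function vanishing off the injective ones. -/
theorem Levels_sum_injTup {L : ℕ} (F : (K → Deck L) → ℝ) (hF : ∀ x, ¬ Function.Injective x → F x = 0) :
    ∑ x, F x = ∑ x : InjTup K L, F x.1 := by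
  classical
  rw [← Finset.sum_subtype (Finset.univ.filter Function.Injective) (by simp) F]
  rw [Finset.sum_filter]
  refine Finset.sum_congr rfl fun x _ => ?_
  split_ifs with h
  · rfl
  · exact hF x h

end Marg

/-- The reduction to pure levels. -/
theorem levels (K : Type) [Fintype K] [DecidableEq K] (L m : ℕ) :
    ∃ (n : Finset K → ℕ) (b : ∀ I : Finset K, Fin (n I) → Fn (↥I) L),
      (∀ I j, IsPure (b I j)) ∧ (∀ I i j, ip (b I i) (b I j) = if i = j then 1 else 0) ∧
      ∑ x : InjTup K L, ∑ y : InjTup K L, (((TI K L) ^ m) x y) ^ 2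
        ≤ ∑ I : Finset K, ∑ j : Fin (n I), nsq ((TS L)^[m] (b I j)) := by
  classical
  have hE := fun I : Finset K => Levels_pure_eigenbasis (↥I) L m
  choose n b hpure horth heig hcomp using hE
  refine ⟨n, b, hpure, horth, ?_⟩
  set P := (TI K L) ^ m with hP
  let S := Σ I : Finset K, Fin (n I)
  let w : S → InjTup K L → ℝ := fun s x => Levels_pull s.1 (b s.1 s.2) x.1
  let lam : S → ℝ := fun s => nsq ((TS L)^[m] (b s.1 s.2))
  have hlam : ∀ s, 0 ≤ lam s := fun s => nsq_nonneg _
  have hA : ∀ s, (P * P.transpose).mulVec (w s) = lam s • w s := by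
    intro s
    rw [← Matrix.mulVec_mulVec]
    have h1 : P.transpose.mulVec (w s) =
        fun y : InjTup K L => Levels_pull s.1 ((TS L)^[m] (b s.1 s.2)) y.1 := by
      funext y
      rw [← Levels_iter_TS_pull, TS_iter_eq_sum']
      simp only [Matrix.mulVec, dotProduct, Matrix.transpose_apply]
      rfl
    rw [h1]
    funext x
    have h2 := Levels_TT_iter_eq_sum m (Levels_pull s.1 ((TS L)^[m] (b s.1 s.2))) x
    rw [Levels_iter_TT_pull] at h2
    simp only [Matrix.mulVec, dotProduct]
    rw [← h2]
    exact heig s.1 s.2 _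
  have hspan : Submodule.span ℝ (Set.range w) = ⊤ := by
    by_contra hne
    obtain ⟨f, hf0, hfker⟩ := Submodule.exists_le_ker_of_lt_top _ (lt_top_iff_ne_top.mpr hne)
    -- the vector representing `f`
    let v : Fn K L := fun x => if hx : Function.Injective x then
      f (fun y : InjTup K L => if (⟨x, hx⟩ : InjTup K L) = y then 1 else 0) else 0
    have hv : InjSupp v := fun x hx => dif_neg hx
    have hfw : ∀ g : InjTup K L → ℝ, f g = ∑ x : InjTup K L, v x.1 * g x := by
      intro g
      rw [LinearMap.pi_apply_eq_sum_univ f g]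
      refine Finset.sum_congr rfl fun x _ => ?_
      simp only [v, dif_pos x.2, smul_eq_mul]
      rw [mul_comm]
    have h0 : ∀ I j, ip v (Levels_pull I (b I j)) = 0 := by
      intro I j
      unfold ip
      rw [Levels_sum_injTup _ (fun x hx => by rw [hv x hx, zero_mul])]
      rw [← hfw (w ⟨I, j⟩)]
      exact hfker (Submodule.subset_span ⟨⟨I, j⟩, rfl⟩)
    have hm := Levels_marg_eq_zero n b hcomp v hv h0 Finset.univ
    have hvz : ∀ x, v x = 0 := by
      intro x
      rw [← Levels_marg_univ v x, hm]
      rfl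
    apply hf0
    refine LinearMap.ext fun g => ?_
    rw [hfw g]
    simp [hvz]
  have := Levels_trace_le (P * P.transpose) w lam hlam hA hspan
  rw [Trace_hs_eq_sum] at this
  refine this.trans (le_of_eq ?_)
  rw [Fintype.sum_sigma]

end Crest.Agent.Thorp
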