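import Crest.Agent.Lib.Thorp.ExTools

/-!
# Thorp shuffle: operators (Ops, section 1 of the blueprint)

Uniformity of one token under `tau`, the law of `pi`, the recursion of `T*`, `D = T T*` on kernels,
preservation of `InjSupp`/`IsPure`, kernel formulas for `T*` and its iterates.
-/

set_option autoImplicit false

namespace Crest.Agent.Thorp

open Finset

/-! ### Additions to the `Ex` toolkit -/

theorem Ex_bool (f : Bool → ℝ) : Ex f = (f true + f false) / 2 := by
  simp [Ex]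
  ring

theorem Ex_unit (f : Unit → ℝ) : Ex f = f () := by
  simp [Ex]

/-- Jensen for the square. -/
theorem Ex_sq_le {α : Type*} [Fintype α] [Nonempty α] (f : α → ℝ) : (Ex f) ^ 2 ≤ Ex (fun a => f a ^ 2) := by
  unfold Ex
  have hc : (0 : ℝ) < Fintype.card α := by exact_mod_cast Fintype.card_pos
  have h := sq_sum_le_card_mul_sum_sq (s := (Finset.univ : Finset α)) (f := f)
  rw [Finset.card_univ] at h
  rw [mul_pow]
  have h2 : ((Fintype.card α : ℝ)⁻¹) ^ 2 * (∑ a, f a) ^ 2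
      ≤ ((Fintype.card α : ℝ)⁻¹) ^ 2 * ((Fintype.card α : ℝ) * ∑ a, f a ^ 2) :=
    mul_le_mul_of_nonneg_left h (by positivity)
  refine h2.trans (le_of_eq ?_)
  field_simp

/-- The marginal of one coordinate of a uniform function is uniform. -/
theorem Ex_eval {ι β : Type*} [Fintype ι] [DecidableEq ι] [Fintype β] (i : ι) (g : β → ℝ) :
    Ex (fun e : ι → β => g (e i)) = Ex g := by
  have h := Ex_equiv (Equiv.funSplitAt i β) (fun p : β × ({ j // j ≠ i } → β) => g p.1)
  simp only [Equiv.funSplitAt_apply] at h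
  by_cases hβ : Nonempty β
  · haveI := hβ
    rw [h, Ex_prod]
    simp [Ex_const]
  · haveI : IsEmpty β := not_nonempty_iff.mp hβ
    haveI : IsEmpty (ι → β) := ⟨fun e => isEmptyElim (e i)⟩
    simp [Ex]

theorem Ex_xor (b : Bool) (f : Bool → ℝ) : Ex (fun c : Bool => f (xor b c)) = Ex f := by
  cases b <;> simp [Ex_bool] <;> ring

/-! ### Structure of the sample spaces -/

theorem Ex_deck_zero (f : Deck 0 → ℝ) : Ex f = f () := by
  change @Ex Unit _ f = f ()
  exact Ex_unit f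

theorem Ex_deck_succ {L : ℕ} (f : Deck (L + 1) → ℝ) :
    Ex f = Ex (fun b : Bool => Ex (fun u : Deck L => f (b, u))) :=
  Ex_prod (α := Bool) (β := Deck L) f

theorem Ex_TΩ_zero (f : TΩ 0 → ℝ) : Ex f = f () := by
  change @Ex Unit _ f = f ()
  exact Ex_unit f

theorem Ex_TΩ_succ {L : ℕ} (f : TΩ (L + 1) → ℝ) :
    Ex f = Ex (fun e : Flips L => Ex (fun ω0 : TΩ L => Ex (fun ω1 : TΩ L => f (e, ω0, ω1)))) := by
  refine (Ex_prod (α := Flips L) (β := TΩ L × TΩ L) f).trans ?_
  refine Ex_congr fun e => ?_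
  exact Ex_prod (α := TΩ L) (β := TΩ L) _

theorem Ex_DΩ_zero (f : DΩ 0 → ℝ) : Ex f = f () := by
  change @Ex Unit _ f = f ()
  exact Ex_unit f

theorem Ex_DΩ_succ {L : ℕ} (f : DΩ (L + 1) → ℝ) :
    Ex f = Ex (fun e : Flips L => Ex (fun ω0 : DΩ L => Ex (fun ω1 : DΩ L =>
      Ex (fun e' : Flips L => f (e, ω0, ω1, e'))))) := by
  refine (Ex_prod (α := Flips L) (β := DΩ L × DΩ L × Flips L) f).trans ?_
  refine Ex_congr fun e => ?_
  refine (Ex_prod (α := DΩ L) (β := DΩ L × Flips L) _).trans ?_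
  refine Ex_congr fun ω0 => ?_
  exact Ex_prod (α := DΩ L) (β := Flips L) _

theorem tau_succ (L : ℕ) (e : Flips L) (ω0 ω1 : TΩ L) :
    tau (L + 1) (e, ω0, ω1) = blockPerm (tau L ω0) (tau L ω1) * flipPerm e := rfl

theorem tau_zero (ω : TΩ 0) : tau 0 ω = 1 := rfl

theorem pi_succ (L : ℕ) (e : Flips L) (ω0 ω1 : DΩ L) (e' : Flips L) :
    pi (L + 1) (e, ω0, ω1, e') = flipPerm e' * blockPerm (pi L ω0) (pi L ω1) * flipPerm e := rfl

theorem pi_zero (ω : DΩ 0) : pi 0 ω = 1 := rfl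

theorem tau_succ_apply (L : ℕ) (e : Flips L) (ω0 ω1 : TΩ L) (b : Bool) (u : Deck L) :
    tau (L + 1) (e, ω0, ω1) (b, u) =
      (xor b (e u), if xor b (e u) then tau L ω1 u else tau L ω0 u) := rfl

theorem tau_succ_inv_apply (L : ℕ) (e : Flips L) (ω0 ω1 : TΩ L) (b : Bool) (u : Deck L) :
    (tau (L + 1) (e, ω0, ω1))⁻¹ (b, u) =
      (xor b (e (if b then (tau L ω1)⁻¹ u else (tau L ω0)⁻¹ u)),
        if b then (tau L ω1)⁻¹ u else (tau L ω0)⁻¹ u) := by
  rw [tau_succ, mul_inv_rev, flipPerm_inv, blockPerm_inv]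
  rfl

theorem blockPerm_mul {L : ℕ} (a b c d : Equiv.Perm (Deck L)) :
    blockPerm a b * blockPerm c d = blockPerm (a * c) (b * d) := by
  ext p <;> rcases p with ⟨x, u⟩ <;> cases x <;> rfl

/-! ### Uniformity of one token -/

theorem Ex_flip_bit {L : ℕ} (u : Deck L) (b : Bool) (g : Bool → ℝ) :
    Ex (fun e : Flips L => g (xor b (e u))) = Ex g := by
  rw [Ex_eval u (fun c => g (xor b c)), Ex_xor]

theorem Ex_tau_apply (L : ℕ) (x : Deck L) (f : Deck L → ℝ) :
    Ex (fun ω : TΩ L => f (tau L ω x)) = Ex f := by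
  induction L with
  | zero =>
    rw [Ex_TΩ_zero, Ex_deck_zero]
    rfl
  | succ L ih =>
    rcases x with ⟨b, u⟩
    rw [Ex_TΩ_succ, Ex_deck_succ]
    have key : ∀ e : Flips L, Ex (fun ω0 : TΩ L => Ex (fun ω1 : TΩ L =>
        f (tau (L + 1) (e, ω0, ω1) (b, u)))) =
        (fun c : Bool => Ex (fun v : Deck L => f (c, v))) (xor b (e u)) := by
      intro e
      simp only [tau_succ_apply]
      cases h : xor b (e u)
      · simp only [Bool.false_eq_true, if_false, Ex_const]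
        exact ih u (fun v => f (false, v))
      · simp only [if_true, Ex_const]
        exact ih u (fun v => f (true, v))
    simp only [key]
    exact Ex_flip_bit u b (fun c => Ex (fun v : Deck L => f (c, v)))

theorem Ex_tau_inv_apply (L : ℕ) (x : Deck L) (f : Deck L → ℝ) :
    Ex (fun ω : TΩ L => f ((tau L ω)⁻¹ x)) = Ex f := by
  induction L with
  | zero =>
    rw [Ex_TΩ_zero, Ex_deck_zero]
    rfl
  | succ L ih =>
    rcases x with ⟨b, u⟩
    rw [Ex_TΩ_succ, Ex_deck_succ]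
    simp only [tau_succ_inv_apply]
    -- first average over the flips for fixed blocks
    have h1 : ∀ ω0 ω1 : TΩ L,
        Ex (fun e : Flips L => f (xor b (e (if b then (tau L ω1)⁻¹ u else (tau L ω0)⁻¹ u)),
          if b then (tau L ω1)⁻¹ u else (tau L ω0)⁻¹ u)) =
        (fun w : Deck L => Ex (fun c : Bool => f (c, w)))
          (if b then (tau L ω1)⁻¹ u else (tau L ω0)⁻¹ u) := by
      intro ω0 ω1
      exact Ex_flip_bit _ b (fun c => f (c, if b then (tau L ω1)⁻¹ u else (tau L ω0)⁻¹ u))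
    have h2 : Ex (fun e : Flips L => Ex (fun ω0 : TΩ L => Ex (fun ω1 : TΩ L =>
        f (xor b (e (if b then (tau L ω1)⁻¹ u else (tau L ω0)⁻¹ u)),
          if b then (tau L ω1)⁻¹ u else (tau L ω0)⁻¹ u)))) =
        Ex (fun ω0 : TΩ L => Ex (fun ω1 : TΩ L =>
          (fun w : Deck L => Ex (fun c : Bool => f (c, w)))
            (if b then (tau L ω1)⁻¹ u else (tau L ω0)⁻¹ u))) := by
      rw [Ex_comm]
      refine Ex_congr fun ω0 => ?_
      rw [Ex_comm]
      exact Ex_congr fun ω1 => h1 ω0 ω1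
    rw [h2]
    cases b
    · simp only [Bool.false_eq_true, if_false, Ex_const]
      rw [ih u (fun w => Ex (fun c : Bool => f (c, w))), Ex_comm]
    · simp only [if_true, Ex_const]
      rw [ih u (fun w => Ex (fun c : Bool => f (c, w))), Ex_comm]

/-! ### The law of `pi` -/

theorem Ex_pi_eq (L : ℕ) (f : Equiv.Perm (Deck L) → ℝ) :
    Ex (fun ω : DΩ L => f (pi L ω)) =
      Ex (fun ω : TΩ L => Ex (fun ω' : TΩ L => f ((tau L ω')⁻¹ * tau L ω))) := by
  induction L with
  | zero =>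
    rw [Ex_DΩ_zero, Ex_TΩ_zero, Ex_TΩ_zero]
    change f 1 = f (1⁻¹ * 1)
    simp
  | succ L ih =>
    rw [Ex_DΩ_succ, Ex_TΩ_succ]
    refine Ex_congr fun e => ?_
    -- the two independent blocks
    have two : ∀ G : Equiv.Perm (Deck L) → Equiv.Perm (Deck L) → ℝ,
        Ex (fun ρ0 : DΩ L => Ex (fun ρ1 : DΩ L => G (pi L ρ0) (pi L ρ1))) =
        Ex (fun ω0 : TΩ L => Ex (fun ω1 : TΩ L => Ex (fun ω0' : TΩ L => Ex (fun ω1' : TΩ L =>
          G ((tau L ω0')⁻¹ * tau L ω0) ((tau L ω1')⁻¹ * tau L ω1))))) := by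
      intro G
      have h1 : ∀ ω0 ω0' : TΩ L, Ex (fun ρ1 : DΩ L => G ((tau L ω0')⁻¹ * tau L ω0) (pi L ρ1)) =
          Ex (fun ω1 : TΩ L => Ex (fun ω1' : TΩ L =>
            G ((tau L ω0')⁻¹ * tau L ω0) ((tau L ω1')⁻¹ * tau L ω1))) := fun ω0 ω0' =>
        ih (fun b => G ((tau L ω0')⁻¹ * tau L ω0) b)
      have h2 : ∀ ρ1 : DΩ L, Ex (fun ρ0 : DΩ L => G (pi L ρ0) (pi L ρ1)) =
          Ex (fun ω0 : TΩ L => Ex (fun ω0' : TΩ L => G ((tau L ω0')⁻¹ * tau L ω0) (pi L ρ1))) :=
        fun ρ1 => ih (fun a => G a (pi L ρ1))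
      calc Ex (fun ρ0 : DΩ L => Ex (fun ρ1 : DΩ L => G (pi L ρ0) (pi L ρ1)))
          = Ex (fun ρ1 : DΩ L => Ex (fun ρ0 : DΩ L => G (pi L ρ0) (pi L ρ1))) := Ex_comm _
        _ = Ex (fun ρ1 : DΩ L => Ex (fun ω0 : TΩ L => Ex (fun ω0' : TΩ L =>
              G ((tau L ω0')⁻¹ * tau L ω0) (pi L ρ1)))) := Ex_congr h2
        _ = Ex (fun ω0 : TΩ L => Ex (fun ρ1 : DΩ L => Ex (fun ω0' : TΩ L =>
              G ((tau L ω0')⁻¹ * tau L ω0) (pi L ρ1)))) := Ex_comm _
        _ = Ex (fun ω0 : TΩ L => Ex (fun ω0' : TΩ L => Ex (fun ρ1 : DΩ L =>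
              G ((tau L ω0')⁻¹ * tau L ω0) (pi L ρ1)))) :=
            Ex_congr fun ω0 => Ex_comm _
        _ = Ex (fun ω0 : TΩ L => Ex (fun ω0' : TΩ L => Ex (fun ω1 : TΩ L => Ex (fun ω1' : TΩ L =>
              G ((tau L ω0')⁻¹ * tau L ω0) ((tau L ω1')⁻¹ * tau L ω1))))) :=
            Ex_congr fun ω0 => Ex_congr fun ω0' => h1 ω0 ω0'
        _ = Ex (fun ω0 : TΩ L => Ex (fun ω1 : TΩ L => Ex (fun ω0' : TΩ L => Ex (fun ω1' : TΩ L =>
              G ((tau L ω0')⁻¹ * tau L ω0) ((tau L ω1')⁻¹ * tau L ω1))))) :=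
            Ex_congr fun ω0 => Ex_comm _
    have key : ∀ (e' : Flips L) (ω0 ω1 ω0' ω1' : TΩ L),
        (tau (L + 1) (e', ω0', ω1'))⁻¹ * tau (L + 1) (e, ω0, ω1) =
          flipPerm e' * blockPerm ((tau L ω0')⁻¹ * tau L ω0) ((tau L ω1')⁻¹ * tau L ω1) *
            flipPerm e := by
      intro e' ω0 ω1 ω0' ω1'
      rw [tau_succ, tau_succ, mul_inv_rev, flipPerm_inv, blockPerm_inv, ← blockPerm_mul]
      simp only [mul_assoc]
    simp only [Ex_TΩ_succ (f := fun ω' : TΩ (L + 1) => f ((tau (L + 1) ω')⁻¹ * _)), key, pi_succ]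
    -- move `e'` to the outside on both sides
    have hL : Ex (fun ω0 : DΩ L => Ex (fun ω1 : DΩ L => Ex (fun e' : Flips L =>
        f (flipPerm e' * blockPerm (pi L ω0) (pi L ω1) * flipPerm e)))) =
        Ex (fun ω0 : TΩ L => Ex (fun ω1 : TΩ L => Ex (fun ω0' : TΩ L => Ex (fun ω1' : TΩ L =>
          Ex (fun e' : Flips L => f (flipPerm e' *
            blockPerm ((tau L ω0')⁻¹ * tau L ω0) ((tau L ω1')⁻¹ * tau L ω1) * flipPerm e)))))) :=
      two (fun a b => Ex (fun e' : Flips L => f (flipPerm e' * blockPerm a b * flipPerm e)))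
    rw [hL]
    refine Ex_congr fun ω0 => Ex_congr fun ω1 => ?_
    -- `E_{ω0'} E_{ω1'} E_{e'} = E_{e'} E_{ω0'} E_{ω1'}`
    calc _ = Ex (fun ω0' : TΩ L => Ex (fun e' : Flips L => Ex (fun ω1' : TΩ L =>
            f (flipPerm e' * blockPerm ((tau L ω0')⁻¹ * tau L ω0)
              ((tau L ω1')⁻¹ * tau L ω1) * flipPerm e)))) :=
          Ex_congr fun ω0' => Ex_comm _
      _ = _ := Ex_comm _

/-! ### Bijections of tuples -/

/-- Composition with a permutation, as an equivalence of tuples. -/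
def tupEquiv {K : Type*} {L : ℕ} (σ : Equiv.Perm (Deck L)) : (K → Deck L) ≃ (K → Deck L) :=
  Equiv.piCongrRight fun _ => σ

@[simp] theorem tupEquiv_apply {K : Type*} {L : ℕ} (σ : Equiv.Perm (Deck L)) (x : K → Deck L) (c : K) :
    tupEquiv σ x c = σ (x c) := rfl

variable {K : Type*} [Fintype K] [DecidableEq K]

theorem ip_comm {L : ℕ} (u v : Fn K L) : ip u v = ip v u := by
  unfold ip
  exact Finset.sum_congr rfl fun x _ => mul_comm _ _

theorem sum_tup_perm {L : ℕ} (σ : Equiv.Perm (Deck L)) (g : (K → Deck L) → ℝ) :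
    ∑ x : K → Deck L, g (fun c => σ (x c)) = ∑ x, g x :=
  Equiv.sum_comp (tupEquiv σ) g

theorem nsq_nonneg {L : ℕ} (u : Fn K L) : 0 ≤ nsq u :=
  Finset.sum_nonneg fun x _ => mul_self_nonneg _

theorem nsq_TS_le {L : ℕ} (u : Fn K L) : nsq (TS L u) ≤ nsq u := by
  have h1 : ∀ y : K → Deck L, TS L u y * TS L u y ≤
      Ex (fun ω : TΩ L => u (fun c => (tau L ω)⁻¹ (y c)) ^ 2) := by
    intro y
    have := Ex_sq_le (fun ω : TΩ L => u (fun c => (tau L ω)⁻¹ (y c)))
    rw [sq] at this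
    exact this
  calc nsq (TS L u) = ∑ y, TS L u y * TS L u y := rfl
    _ ≤ ∑ y, Ex (fun ω : TΩ L => u (fun c => (tau L ω)⁻¹ (y c)) ^ 2) :=
        Finset.sum_le_sum fun y _ => h1 y
    _ = Ex (fun ω : TΩ L => ∑ y : K → Deck L, u (fun c => (tau L ω)⁻¹ (y c)) ^ 2) :=
        (Ex_sum _ _).symm
    _ = Ex (fun _ : TΩ L => nsq u) := by
        refine Ex_congr fun ω => ?_
        rw [sum_tup_perm (tau L ω)⁻¹ (fun x => u x ^ 2)]
        exact Finset.sum_congr rfl fun x _ => sq _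
    _ = nsq u := Ex_const _

theorem nsq_TT_le {L : ℕ} (u : Fn K L) : nsq (TT L u) ≤ nsq u := by
  have h1 : ∀ y : K → Deck L, TT L u y * TT L u y ≤
      Ex (fun ω : TΩ L => u (fun c => (tau L ω) (y c)) ^ 2) := by
    intro y
    have := Ex_sq_le (fun ω : TΩ L => u (fun c => (tau L ω) (y c)))
    rw [sq] at this
    exact this
  calc nsq (TT L u) = ∑ y, TT L u y * TT L u y := rfl
    _ ≤ ∑ y, Ex (fun ω : TΩ L => u (fun c => (tau L ω) (y c)) ^ 2) :=
        Finset.sum_le_sum fun y _ => h1 y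
    _ = Ex (fun ω : TΩ L => ∑ y : K → Deck L, u (fun c => (tau L ω) (y c)) ^ 2) :=
        (Ex_sum _ _).symm
    _ = Ex (fun _ : TΩ L => nsq u) := by
        refine Ex_congr fun ω => ?_
        rw [sum_tup_perm (tau L ω) (fun x => u x ^ 2)]
        exact Finset.sum_congr rfl fun x _ => sq _
    _ = nsq u := Ex_const _

theorem ip_TT_TS {L : ℕ} (u v : Fn K L) : ip (TT L u) v = ip u (TS L v) := by
  unfold ip TT TS
  calc ∑ x : K → Deck L, Ex (fun ω : TΩ L => u (fun c => tau L ω (x c))) * v x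
      = ∑ x : K → Deck L, Ex (fun ω : TΩ L => u (fun c => tau L ω (x c)) * v x) :=
        Finset.sum_congr rfl fun x _ => (Ex_mul_const _ _).symm
    _ = Ex (fun ω : TΩ L => ∑ x : K → Deck L, u (fun c => tau L ω (x c)) * v x) :=
        (Ex_sum _ _).symm
    _ = Ex (fun ω : TΩ L => ∑ z : K → Deck L, u z * v (fun c => (tau L ω)⁻¹ (z c))) := by
        refine Ex_congr fun ω => ?_
        rw [← sum_tup_perm (tau L ω)
          (fun z => u z * v (fun c => (tau L ω)⁻¹ (z c)))]
        refine Finset.sum_congr rfl fun x _ => ?_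
        simp
    _ = ∑ z : K → Deck L, Ex (fun ω : TΩ L => u z * v (fun c => (tau L ω)⁻¹ (z c))) :=
        Ex_sum _ _
    _ = ∑ z : K → Deck L, u z * Ex (fun ω : TΩ L => v (fun c => (tau L ω)⁻¹ (z c))) :=
        Finset.sum_congr rfl fun z _ => Ex_const_mul _ _

/-! ### The recursion of `T*` -/

theorem TS_succ (L : ℕ) (u : Fn K (L + 1)) (ε : K → Bool) (v : K → Deck L) :
    TS (L + 1) u (mk ε v) = Ex (fun ω0 : TΩ L => Ex (fun ω1 : TΩ L =>
       P1 u (mk ε (fun c => (if ε c then tau L ω1 else tau L ω0)⁻¹ (v c))))) := by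
  unfold TS P1
  rw [Ex_TΩ_succ]
  have key : ∀ (e : Flips L) (ω0 ω1 : TΩ L),
      (fun c => (tau (L + 1) (e, ω0, ω1))⁻¹ (mk ε v c)) =
      flipTup e (mk ε (fun c => (if ε c then tau L ω1 else tau L ω0)⁻¹ (v c))) := by
    intro e ω0 ω1
    funext c
    change (tau (L + 1) (e, ω0, ω1))⁻¹ (ε c, v c) = _
    rw [tau_succ_inv_apply]
    cases h : ε c <;> simp [flipTup, mk, h] <;> rfl
  simp only [key]
  rw [Ex_comm]
  refine Ex_congr fun ω0 => ?_
  rw [Ex_comm]

/-! ### `D = T T*` on kernels -/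

theorem DI_eq (K : Type*) [Fintype K] [DecidableEq K] (L : ℕ) :
    DI K L = TI K L * (TI K L).transpose := by
  classical
  ext x y
  rw [Matrix.mul_apply]
  simp only [Matrix.transpose_apply]
  unfold DI TI
  rw [Ex_pi_eq L (fun σ => if ∀ c, σ (x.1 c) = y.1 c then (1 : ℝ) else 0)]
  have key : ∀ ω ω' : TΩ L,
      ∑ z : InjTup K L, (if ∀ c, tau L ω (x.1 c) = z.1 c then (1 : ℝ) else 0) *
        (if ∀ c, tau L ω' (y.1 c) = z.1 c then (1 : ℝ) else 0) =
      if ∀ c, ((tau L ω')⁻¹ * tau L ω) (x.1 c) = y.1 c then (1 : ℝ) else 0 := by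
    intro ω ω'
    let z0 : InjTup K L := ⟨fun c => tau L ω (x.1 c), (tau L ω).injective.comp x.2⟩
    rw [Finset.sum_eq_single z0]
    · have h0 : ∀ c, tau L ω (x.1 c) = z0.1 c := fun _ => rfl
      rw [if_pos h0, one_mul]
      refine if_congr ?_ rfl rfl
      constructor
      · intro h c
        have := h c
        simp only [z0] at this
        simp only [Equiv.Perm.mul_apply]
        rw [← this]
        simp
      · intro h c
        have := h c
        simp only [Equiv.Perm.mul_apply] at this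
        simp only [z0]
        rw [← this]
        simp
    · intro z _ hz
      have : ¬ ∀ c, tau L ω (x.1 c) = z.1 c := by
        intro h
        exact hz (Subtype.ext (funext fun c => (h c).symm))
      rw [if_neg this, zero_mul]
    · intro h
      exact absurd (Finset.mem_univ _) h
  have : ∀ z : InjTup K L,
      Ex (fun ω : TΩ L => if ∀ c, tau L ω (x.1 c) = z.1 c then (1 : ℝ) else 0) *
        Ex (fun ω' : TΩ L => if ∀ c, tau L ω' (y.1 c) = z.1 c then (1 : ℝ) else 0) =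
      Ex (fun ω : TΩ L => Ex (fun ω' : TΩ L =>
        (if ∀ c, tau L ω (x.1 c) = z.1 c then (1 : ℝ) else 0) *
        (if ∀ c, tau L ω' (y.1 c) = z.1 c then (1 : ℝ) else 0))) := by
    intro z
    simp only [Ex_const_mul, Ex_mul_const]
  simp only [this]
  rw [← Ex_sum]
  refine Ex_congr fun ω => ?_
  rw [← Ex_sum]
  refine Ex_congr fun ω' => ?_
  rw [key]

/-! ### Preservation of `InjSupp` and `IsPure` -/

theorem InjSupp.TS {L : ℕ} {u : Fn K L} (hu : InjSupp u) : InjSupp (TS L u) := by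
  intro y hy
  have : ∀ ω : TΩ L, u (fun c => (tau L ω)⁻¹ (y c)) = 0 := fun ω =>
    hu _ fun h => hy fun a b hab => h (by simp [hab])
  change Ex (fun ω : TΩ L => u (fun c => (tau L ω)⁻¹ (y c))) = 0
  simp only [this]
  exact Ex_const _

theorem InjSupp.TT {L : ℕ} {u : Fn K L} (hu : InjSupp u) : InjSupp (TT L u) := by
  intro y hy
  have : ∀ ω : TΩ L, u (fun c => (tau L ω) (y c)) = 0 := fun ω =>
    hu _ fun h => hy fun a b hab => h (by simp [hab])
  change Ex (fun ω : TΩ L => u (fun c => (tau L ω) (y c))) = 0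
  simp only [this]
  exact Ex_const _

theorem perm_update {L : ℕ} (σ : Equiv.Perm (Deck L)) (x : K → Deck L) (c : K) (y : Deck L) :
    (fun d => σ (Function.update x c y d)) = Function.update (fun d => σ (x d)) c (σ y) := by
  funext d
  by_cases h : d = c
  · subst h
    simp
  · simp [Function.update_of_ne h]

/-- One-token sums survive composition with a permutation. -/
theorem sum_update_perm {L : ℕ} (σ : Equiv.Perm (Deck L)) (u : Fn K L) (x : K → Deck L) (c : K) :
    ∑ y : Deck L, u (fun d => σ (Function.update x c y d)) =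
      ∑ y : Deck L, u (Function.update (fun d => σ (x d)) c y) := by
  simp only [perm_update]
  exact Equiv.sum_comp σ (fun y => u (Function.update (fun d => σ (x d)) c y))

theorem IsPure.TS {L : ℕ} {u : Fn K L} (hu : IsPure u) : IsPure (TS L u) := by
  refine ⟨hu.1.TS, fun c x => ?_⟩
  simp only [Crest.Agent.Thorp.TS]
  rw [← Ex_sum]
  have : ∀ ω : TΩ L,
      ∑ y : Deck L, u (fun d => (tau L ω)⁻¹ (Function.update x c y d)) = 0 := by
    intro ω
    rw [sum_update_perm]
    exact hu.2 c _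
  simp only [this]
  exact Ex_const _

theorem IsPure.TT {L : ℕ} {u : Fn K L} (hu : IsPure u) : IsPure (TT L u) := by
  refine ⟨hu.1.TT, fun c x => ?_⟩
  simp only [Crest.Agent.Thorp.TT]
  rw [← Ex_sum]
  have : ∀ ω : TΩ L,
      ∑ y : Deck L, u (fun d => (tau L ω) (Function.update x c y d)) = 0 := by
    intro ω
    rw [sum_update_perm]
    exact hu.2 c _
  simp only [this]
  exact Ex_const _

theorem IsPure.iterate_TS {L : ℕ} {u : Fn K L} (hu : IsPure u) (m : ℕ) :
    IsPure ((Crest.Agent.Thorp.TS L)^[m] u) := by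
  induction m with
  | zero => exact hu
  | succ m ih =>
    rw [Function.iterate_succ_apply']
    exact ih.TS

theorem IsPure.iterate_TT {L : ℕ} {u : Fn K L} (hu : IsPure u) (m : ℕ) :
    IsPure ((Crest.Agent.Thorp.TT L)^[m] u) := by
  induction m with
  | zero => exact hu
  | succ m ih =>
    rw [Function.iterate_succ_apply']
    exact ih.TT

/-! ### Kernel formulas -/

/-- `T*` in terms of the kernel (no support hypothesis needed). -/
theorem TS_eq_sum' {L : ℕ} (u : Fn K L) (y : InjTup K L) :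
    TS L u y.1 = ∑ x : InjTup K L, TI K L x y * u x.1 := by
  classical
  unfold TI
  simp only [← Ex_mul_const]
  rw [← Ex_sum]
  refine Ex_congr fun ω => ?_
  let x0 : InjTup K L := ⟨fun c => (tau L ω)⁻¹ (y.1 c), (tau L ω)⁻¹.injective.comp y.2⟩
  rw [Finset.sum_eq_single x0]
  · have h0 : ∀ c, tau L ω (x0.1 c) = y.1 c := fun c => by simp [x0]
    rw [if_pos h0, one_mul]
  · intro x _ hx
    have : ¬ ∀ c, tau L ω (x.1 c) = y.1 c := by
      intro h
      apply hx
      refine Subtype.ext (funext fun c => ?_)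
      simp only [x0]
      rw [← h c]
      simp
    rw [if_neg this, zero_mul]
  · intro h
    exact absurd (Finset.mem_univ _) h

theorem TS_eq_sum {L : ℕ} (u : Fn K L) (_hu : InjSupp u) (y : InjTup K L) :
    TS L u y.1 = ∑ x : InjTup K L, TI K L x y * u x.1 :=
  TS_eq_sum' u y

/-- `T` in terms of the kernel. -/
theorem TT_eq_sum {L : ℕ} (u : Fn K L) (x : InjTup K L) :
    TT L u x.1 = ∑ y : InjTup K L, TI K L x y * u y.1 := by
  classical
  unfold TI
  simp only [← Ex_mul_const]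
  rw [← Ex_sum]
  refine Ex_congr fun ω => ?_
  let y0 : InjTup K L := ⟨fun c => (tau L ω) (x.1 c), (tau L ω).injective.comp x.2⟩
  rw [Finset.sum_eq_single y0]
  · have h0 : ∀ c, tau L ω (x.1 c) = y0.1 c := fun c => rfl
    rw [if_pos h0, one_mul]
  · intro y _ hy
    have : ¬ ∀ c, tau L ω (x.1 c) = y.1 c := by
      intro h
      exact hy (Subtype.ext (funext fun c => (h c).symm))
    rw [if_neg this, zero_mul]
  · intro h
    exact absurd (Finset.mem_univ _) h

/-- Iterates of `T*` in terms of the kernel (no support hypothesis needed). -/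
theorem TS_iter_eq_sum' {L : ℕ} (m : ℕ) (u : Fn K L) (y : InjTup K L) :
    ((TS L)^[m] u) y.1 = ∑ x : InjTup K L, ((TI K L) ^ m) x y * u x.1 := by
  classical
  induction m generalizing y with
  | zero =>
    simp only [Function.iterate_zero, id, pow_zero, Matrix.one_apply]
    simp
  | succ m ih =>
    rw [Function.iterate_succ_apply', TS_eq_sum']
    simp only [ih]
    simp only [Finset.mul_sum]
    rw [Finset.sum_comm]
    refine Finset.sum_congr rfl fun x _ => ?_
    rw [pow_succ, Matrix.mul_apply, Finset.sum_mul]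
    refine Finset.sum_congr rfl fun z _ => ?_
    ring

theorem TS_iter_eq_sum {L : ℕ} (m : ℕ) (u : Fn K L) (_hu : InjSupp u) (y : InjTup K L) :
    ((TS L)^[m] u) y.1 = ∑ x : InjTup K L, ((TI K L) ^ m) x y * u x.1 :=
  TS_iter_eq_sum' m u y

/-- `T*` kills pure one-token functions. -/
theorem TS_eq_zero_of_card_one {L : ℕ} (hK : Fintype.card K = 1) (u : Fn K L) (hu : IsPure u) :
    TS L u = 0 := by
  obtain ⟨c, hc⟩ := Fintype.card_eq_one_iff.mp hK
  funext y
  have key : ∀ ω : TΩ L, (fun d => (tau L ω)⁻¹ (y d)) = Function.update y c ((tau L ω)⁻¹ (y c)) := by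
    intro ω
    funext d
    rw [hc d]
    simp
  change Ex (fun ω : TΩ L => u (fun d => (tau L ω)⁻¹ (y d))) = 0
  simp only [key]
  rw [Ex_tau_inv_apply L (y c) (fun w => u (Function.update y c w))]
  unfold Ex
  rw [hu.2 c y, mul_zero]

end Crest.Agent.Thorp
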