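import Crest.Agent.Lib.Thorp.AssemblyNum
import Crest.Agent.Lib.Thorp.Levels
import Crest.Agent.Lib.Thorp.Trace
import Crest.Agent.Lib.Thorp.Ops
import Crest.Agent.Lib.Thorp.Bridge

/-!
# The structural half of the assembly (blueprint section 0 and 11)

`Levels` + Bessel + `Trace` + the trace bound + the contraction bounds on pure functions:
`X - 1 ≤ ∑_{k=2}^N C(N,k) g_k^1592 2^15 32^k`.
The three deep inputs are hypotheses here (`PureLow`, `PureHigh`, `TraceBound`).
-/

set_option autoImplicit false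

namespace Crest.Agent.Thorp

open Finset

/-- The ladder bound on pure functions. -/
def PureLow : Prop := ∀ (K : Type) [Fintype K] [DecidableEq K] (i L : ℕ),
  PureBound L K (Acap i (Fintype.card K) (2 ^ L) * ((1 + thetaSeq i) ^ Fintype.card K)⁻¹)

/-- The high-energy bound on pure functions. -/
def PureHigh : Prop := ∀ (K : Type) [Fintype K] [DecidableEq K] (L : ℕ),
  PureBound L K (Real.exp ((73 / 100000) * 2 ^ L - (Fintype.card K : ℝ) / 80))

/-- The trace bound. -/
def TraceBound : Prop := ∀ (K : Type) [Fintype K] [DecidableEq K] (L : ℕ),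
  Matrix.trace ((DI K L) ^ 8) ≤ 2 ^ 15 * 32 ^ Fintype.card K

/-- Bessel's inequality in coordinates. -/
theorem assembly_bessel {ι κ : Type*} [Fintype ι] [Fintype κ] [DecidableEq κ] (b : κ → ι → ℝ)
    (hb : ∀ i j, ∑ x, b i x * b j x = if i = j then 1 else 0) (v : ι → ℝ) :
    ∑ j, (∑ x, v x * b j x) ^ 2 ≤ ∑ x, v x ^ 2 := by
  set c : κ → ℝ := fun j => ∑ x, v x * b j x with hc
  have h0 : 0 ≤ ∑ x, (v x - ∑ j, c j * b j x) ^ 2 :=
    Finset.sum_nonneg fun x _ => sq_nonneg _
  have h1 : ∑ x, (v x - ∑ j, c j * b j x) ^ 2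
      = ∑ x, v x ^ 2 - 2 * ∑ j, c j * ∑ x, v x * b j x
        + ∑ i, ∑ j, c i * c j * ∑ x, b i x * b j x := by
    have h2 : ∀ x, (v x - ∑ j, c j * b j x) ^ 2
        = v x ^ 2 - 2 * (∑ j, c j * (v x * b j x))
          + ∑ i, ∑ j, c i * c j * (b i x * b j x) := by
      intro x
      have h3 : ∑ j, c j * (v x * b j x) = v x * ∑ j, c j * b j x := by
        rw [Finset.mul_sum]
        refine Finset.sum_congr rfl fun j _ => ?_
        ring
      have h4 : ∑ i, ∑ j, c i * c j * (b i x * b j x) = (∑ j, c j * b j x) ^ 2 := by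
        rw [sq, Finset.sum_mul_sum]
        refine Finset.sum_congr rfl fun i _ => Finset.sum_congr rfl fun j _ => ?_
        ring
      rw [h3, h4]
      ring
    simp only [h2, Finset.sum_add_distrib, Finset.sum_sub_distrib, ← Finset.mul_sum]
    congr 1
    · congr 2
      rw [Finset.sum_comm]
      refine Finset.sum_congr rfl fun j _ => ?_
      rw [Finset.mul_sum]
    · rw [Finset.sum_comm]
      refine Finset.sum_congr rfl fun i _ => ?_
      rw [Finset.sum_comm]
      refine Finset.sum_congr rfl fun j _ => ?_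
      exact (Finset.mul_sum _ _ _).symm
  have h5 : ∑ i, ∑ j, c i * c j * ∑ x, b i x * b j x = ∑ j, c j ^ 2 := by
    refine Finset.sum_congr rfl fun i _ => ?_
    simp only [hb, mul_ite, mul_one, mul_zero]
    rw [Finset.sum_ite_eq]
    simp [sq]
  rw [h1, h5] at h0
  have h6 : ∑ j, c j * ∑ x, v x * b j x = ∑ j, c j ^ 2 := by
    refine Finset.sum_congr rfl fun j _ => ?_
    rw [sq]
  rw [h6] at h0
  have h7 : ∑ j, (∑ x, v x * b j x) ^ 2 = ∑ j, c j ^ 2 := rfl
  rw [h7]
  linarith

section Level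

variable {K : Type} [Fintype K] [DecidableEq K] {L : ℕ}

/-- Restriction of `nsq` and `ip` to injective tuples. -/
theorem assembly_ip_inj {u v : Fn K L} (hu : InjSupp u) :
    ip u v = ∑ x : InjTup K L, u x.1 * v x.1 := by
  unfold ip
  refine Levels_sum_injTup (fun x => u x * v x) fun x hx => ?_
  simp [hu x hx]

theorem assembly_nsq_inj {u : Fn K L} (hu : InjSupp u) :
    nsq u = ∑ x : InjTup K L, (u x.1) ^ 2 := by
  unfold nsq
  rw [assembly_ip_inj hu]
  simp only [sq]

theorem assembly_injSupp_iterate {u : Fn K L} (hu : InjSupp u) (m : ℕ) : InjSupp ((TS L)^[m] u) := by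
  induction m with
  | zero => exact hu
  | succ m ih =>
    rw [Function.iterate_succ_apply']
    exact ih.TS

/-- Hilbert-Schmidt bound via Bessel. -/
theorem assembly_sum_nsq_le {n : ℕ} (b : Fin n → Fn K L) (hb : ∀ j, InjSupp (b j))
    (horth : ∀ i j, ip (b i) (b j) = if i = j then 1 else 0) (m : ℕ) :
    ∑ j, nsq ((TS L)^[m] (b j))
      ≤ ∑ x : InjTup K L, ∑ y : InjTup K L, (((TI K L) ^ m) x y) ^ 2 := by
  have h1 : ∀ j, nsq ((TS L)^[m] (b j))
      = ∑ y : InjTup K L, (∑ x : InjTup K L, ((TI K L) ^ m) x y * b j x.1) ^ 2 := by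
    intro j
    rw [assembly_nsq_inj (assembly_injSupp_iterate (hb j) m)]
    refine Finset.sum_congr rfl fun y _ => ?_
    rw [TS_iter_eq_sum m (b j) (hb j) y]
  simp only [h1]
  rw [Finset.sum_comm, Finset.sum_comm (s := (Finset.univ : Finset (InjTup K L)))
    (t := (Finset.univ : Finset (InjTup K L)))]
  refine Finset.sum_le_sum fun y _ => ?_
  refine assembly_bessel (fun j (x : InjTup K L) => b j x.1) (fun i j => ?_) _
  rw [← horth i j, assembly_ip_inj (hb i)]

theorem nsq_iterate_le_of_pure {g : ℝ} (hg : PureBound L K g) (hg0 : 0 ≤ g) {u : Fn K L}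
    (hu : IsPure u) (m : ℕ) : nsq ((TS L)^[m] u) ≤ g ^ m * nsq u := by
  induction m with
  | zero => simp
  | succ m ih =>
    rw [Function.iterate_succ_apply']
    refine (hg _ (hu.iterate_TS m)).trans ?_
    calc g * nsq ((TS L)^[m] u) ≤ g * (g ^ m * nsq u) := mul_le_mul_of_nonneg_left ih hg0
      _ = _ := by rw [pow_succ]; ring

/-- The contribution of one level with at least two tokens. -/
theorem level_bound {g : ℝ} (hg : PureBound L K g) (hg0 : 0 ≤ g) {n : ℕ} (b : Fin n → Fn K L)
    (hb : ∀ j, IsPure (b j)) (horth : ∀ i j, ip (b i) (b j) = if i = j then 1 else 0)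
    (htr : Matrix.trace ((DI K L) ^ 8) ≤ 2 ^ 15 * 32 ^ Fintype.card K) :
    ∑ j, nsq ((TS L)^[1600] (b j)) ≤ g ^ 1592 * (2 ^ 15 * 32 ^ Fintype.card K) := by
  have h1 : ∀ j, nsq ((TS L)^[1600] (b j)) ≤ g ^ 1592 * nsq ((TS L)^[8] (b j)) := by
    intro j
    rw [show (1600 : ℕ) = 1592 + 8 by norm_num, Function.iterate_add_apply]
    exact nsq_iterate_le_of_pure hg hg0 ((hb j).iterate_TS 8) 1592
  refine (Finset.sum_le_sum fun j _ => h1 j).trans ?_
  rw [← Finset.mul_sum]
  refine mul_le_mul_of_nonneg_left ?_ (pow_nonneg hg0 _)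
  refine (assembly_sum_nsq_le b (fun j => (hb j).1) horth 8).trans ?_
  refine (hs8_le_trace (TI K L)).trans ?_
  rw [← DI_eq]
  exact htr

end Level

/-- The empty level: at most one function, contracted. -/
theorem level_empty {K : Type} [Fintype K] [DecidableEq K] {L : ℕ} [IsEmpty K] {n : ℕ}
    (b : Fin n → Fn K L) (horth : ∀ i j, ip (b i) (b j) = if i = j then 1 else 0) (m : ℕ) :
    ∑ j, nsq ((TS L)^[m] (b j)) ≤ 1 := by
  have h1 : ∀ u : Fn K L, ∀ m, nsq ((TS L)^[m] u) ≤ nsq u := by
    intro u m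
    induction m with
    | zero => exact le_refl _
    | succ m ih =>
      rw [Function.iterate_succ_apply']
      exact (nsq_TS_le _).trans ih
  refine (Finset.sum_le_sum fun j _ => h1 (b j) m).trans ?_
  have h2 : ∀ j, nsq (b j) = 1 := by
    intro j
    unfold nsq
    rw [horth]
    simp
  simp only [h2]
  -- Bessel with the constant function
  have h3 := assembly_bessel (fun j (x : K → Deck L) => b j x)
    (fun i j => horth i j) (fun _ => 1)
  have h4 : ∀ j, (∑ x : K → Deck L, (1 : ℝ) * b j x) ^ 2 = 1 := by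
    intro j
    have h5 := h2 j
    unfold nsq ip at h5
    simp only [one_mul]
    rw [Fintype.sum_unique] at h5 ⊢
    rw [sq]
    exact h5
  simp only [h4] at h3
  simpa using h3

/-- Pure functions with one token die. -/
theorem level_one {K : Type} [Fintype K] [DecidableEq K] {L : ℕ} (hK : Fintype.card K = 1)
    {n : ℕ} (b : Fin n → Fn K L) (hb : ∀ j, IsPure (b j)) (m : ℕ) (hm : 0 < m) :
    ∑ j, nsq ((TS L)^[m] (b j)) ≤ 0 := by
  refine Finset.sum_nonpos fun j _ => ?_
  obtain ⟨m', rfl⟩ : ∃ m', m = m' + 1 := ⟨m - 1, by omega⟩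
  rw [Function.iterate_succ_apply]
  rw [TS_eq_zero_of_card_one hK (b j) (hb j)]
  have h1 : ∀ k, ((TS L)^[k] (0 : Fn K L)) = 0 := by
    intro k
    induction k with
    | zero => rfl
    | succ k ih =>
      rw [Function.iterate_succ_apply', ih]
      funext y
      simp [TS, Ex]
  rw [h1]
  simp [nsq, ip]

/-- The bound on pure functions with the tokens of `I`. -/
theorem pureBound_gNum (hlow : PureLow) (hhigh : PureHigh) (K : Type) [Fintype K] [DecidableEq K]
    (L : ℕ) : PureBound L K (gNum L (Fintype.card K)) := by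
  unfold gNum
  split_ifs
  · exact hhigh K L
  · exact hlow K _ L

/-- The structural half of the assembly. -/
theorem assembly_bound (hlow : PureLow) (hhigh : PureHigh) (htr : TraceBound) (L : ℕ) :
    ∑ x : InjTup (Deck L) L, ∑ y : InjTup (Deck L) L, (((TI (Deck L) L) ^ 1600) x y) ^ 2 - 1
      ≤ ∑ k ∈ Icc 2 (2 ^ L), ((2 ^ L).choose k : ℝ) * gNum L k ^ 1592 * 2 ^ 15 * 32 ^ k := by
  classical
  obtain ⟨n, b, hpure, horth, hX⟩ := levels (Deck L) L 1600
  set f : ℕ → ℝ := fun k => if k = 0 then 1 else if k = 1 then 0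
    else gNum L k ^ 1592 * (2 ^ 15 * 32 ^ k) with hf
  have hlev : ∀ I : Finset (Deck L), ∑ j, nsq ((TS L)^[1600] (b I j)) ≤ f I.card := by
    intro I
    by_cases h0 : I.card = 0
    · have hI : I = ∅ := Finset.card_eq_zero.1 h0
      subst hI
      simp only [hf, Finset.card_empty, if_true]
      exact level_empty (b ∅) (horth ∅) 1600
    · by_cases h1 : I.card = 1
      · simp only [hf, h1, one_ne_zero, if_false, if_true]
        refine level_one ?_ (b I) (hpure I) 1600 (by norm_num)
        simpa using h1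
      · simp only [hf, h0, h1, if_false]
        have hc : Fintype.card (↥I) = I.card := Fintype.card_coe I
        have := level_bound (pureBound_gNum hlow hhigh (↥I) L) (gNum_nonneg L _) (b I) (hpure I)
          (horth I) (htr (↥I) L)
        rwa [hc] at this
  have hsum : ∑ I : Finset (Deck L), f I.card
      = ∑ k ∈ range (2 ^ L + 1), ((2 ^ L).choose k : ℝ) * f k := by
    have h1 := Finset.sum_powerset_apply_card f (x := (Finset.univ : Finset (Deck L)))
    rw [Finset.powerset_univ] at h1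
    rw [h1, Finset.card_univ, card_deck]
    simp only [nsmul_eq_mul]
  have h2 : 2 ^ L + 1 = (2 ^ L - 1) + 2 := by
    have : 1 ≤ 2 ^ L := Nat.one_le_two_pow
    omega
  have hsplit : ∑ k ∈ range (2 ^ L + 1), ((2 ^ L).choose k : ℝ) * f k
      = 1 + ∑ k ∈ Icc 2 (2 ^ L), ((2 ^ L).choose k : ℝ) * gNum L k ^ 1592 * 2 ^ 15 * 32 ^ k := by
    rw [h2, Finset.sum_range_succ', Finset.sum_range_succ']
    have h3 : ∀ k ∈ range (2 ^ L - 1), ((2 ^ L).choose (k + 1 + 1) : ℝ) * f (k + 1 + 1)
        = ((2 ^ L).choose (k + 2) : ℝ) * gNum L (k + 2) ^ 1592 * 2 ^ 15 * 32 ^ (k + 2) := by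
      intro k _
      simp only [hf]
      rw [if_neg (by omega), if_neg (by omega)]
      ring
    rw [Finset.sum_congr rfl h3]
    have h4 : Icc 2 (2 ^ L) = (range (2 ^ L - 1)).image (· + 2) := by
      ext k
      simp only [mem_Icc, mem_image, mem_range]
      constructor
      · rintro ⟨h5, h6⟩
        exact ⟨k - 2, by omega, by omega⟩
      · rintro ⟨a, h5, rfl⟩
        omega
    rw [h4, Finset.sum_image (by intro a _ b _ h; simpa using h)]
    simp [hf]
    ring
  have h5 : ∑ I : Finset (Deck L), ∑ j, nsq ((TS L)^[1600] (b I j)) ≤ ∑ I : Finset (Deck L), f I.card :=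
    Finset.sum_le_sum fun I _ => hlev I
  rw [hsum, hsplit] at h5
  linarith

/-- The main theorem, from the three inputs. -/
theorem tv_tendsto_of_inputs (hlow : PureLow) (hhigh : PureHigh) (htr : TraceBound) :
    Filter.Tendsto (fun d : ℕ => Crest.ProbabilityR.Shuffle.tvFromUniform (2 ^ d) (1600 * (d + 1)))
      Filter.atTop (nhds 0) := by
  have h1 : Filter.Tendsto (fun d : ℕ => (1 / 2 : ℝ) * Real.sqrt
      (∑ k ∈ Icc 2 (2 ^ (d + 1)), ((2 ^ (d + 1)).choose k : ℝ) * gNum (d + 1) k ^ 1592 * 2 ^ 15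
        * 32 ^ k)) Filter.atTop (nhds ((1 / 2 : ℝ) * Real.sqrt 0)) := by
    refine Filter.Tendsto.const_mul _ (Real.continuous_sqrt.tendsto 0 |>.comp ?_)
    exact (Filter.tendsto_add_atTop_iff_nat 1).2 sum_gNum_tendsto
  simp only [Real.sqrt_zero, mul_zero] at h1
  refine squeeze_zero (fun d => ?_) (fun d => ?_) h1
  · unfold Crest.ProbabilityR.Shuffle.tvFromUniform
    exact mul_nonneg (by norm_num) (Finset.sum_nonneg fun g _ => abs_nonneg _)
  · refine (tv_le_sqrt d).trans ?_
    refine mul_le_mul_of_nonneg_left (Real.sqrt_le_sqrt ?_) (by norm_num)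
    exact assembly_bound hlow hhigh htr (d + 1)

end Crest.Agent.Thorp
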