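import Crest.Agent.Lib.Thorp.Basic

/-!
# The numeric half of the assembly (blueprint section 11)

`gNum L k` is the bound used for the pure functions on `k` tokens of `Deck L`:
high-part bound for `k > 0.12 N`, ladder bound at the rung `iOf L k` otherwise.
`sum_gNum_tendsto`: `∑_{k=2}^N C(N,k) g_k^1592 2^15 32^k → 0`.
-/

set_option autoImplicit false

namespace Crest.Agent.Thorp

open Finset

/-- The ladder index for `k` tokens on `N = 2^L` slots: `4^i (25 k) ≤ 3 N < 4^(i+1) (25 k)`. -/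
def iOf (L k : ℕ) : ℕ := Nat.log 4 (3 * 2 ^ L / (25 * k))

/-- The bound on the contraction of `T*` on pure functions with `k` tokens. -/
noncomputable def gNum (L k : ℕ) : ℝ :=
  if 12 * 2 ^ L < 100 * k then Real.exp ((73 / 100000) * (2 : ℝ) ^ L - (k : ℝ) / 80)
  else Acap (iOf L k) k ((2 : ℝ) ^ L) * ((1 + thetaSeq (iOf L k)) ^ k)⁻¹

theorem thetaSeq_add_one (i : ℕ) :
    1 + thetaSeq i = (517 / 512 : ℝ) * (515 / 512 : ℝ) ^ i := by
  unfold thetaSeq
  norm_num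

theorem gNum_nonneg (L k : ℕ) : 0 ≤ gNum L k := by
  unfold gNum
  split_ifs
  · exact (Real.exp_pos _).le
  · refine mul_nonneg (Real.exp_pos _).le (inv_nonneg.2 (pow_nonneg ?_ _))
    rw [thetaSeq_add_one]
    positivity

theorem iOf_spec {L k : ℕ} (hk : 1 ≤ k) (h : 100 * k ≤ 12 * 2 ^ L) :
    4 ^ iOf L k * (25 * k) ≤ 3 * 2 ^ L ∧ 3 * 2 ^ L < 4 ^ (iOf L k + 1) * (25 * k) := by
  set m := 3 * 2 ^ L / (25 * k) with hm
  have hpos : 0 < 25 * k := by omega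
  have hm0 : m ≠ 0 := by
    have : 1 ≤ m := by
      rw [hm, Nat.le_div_iff_mul_le hpos]
      omega
    omega
  have h1 : 4 ^ iOf L k ≤ m := Nat.pow_log_le_self 4 hm0
  have h2 : m < 4 ^ (iOf L k + 1) := Nat.lt_pow_succ_log_self (by norm_num) m
  constructor
  · calc 4 ^ iOf L k * (25 * k) ≤ m * (25 * k) := Nat.mul_le_mul_right _ h1
      _ ≤ 3 * 2 ^ L := Nat.div_mul_le_self _ _
  · have h3 : 3 * 2 ^ L < (m + 1) * (25 * k) := by
      have := Nat.lt_succ_iff.2 (le_refl m)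
      rw [hm, ← Nat.div_lt_iff_lt_mul hpos]
      exact this
    calc 3 * 2 ^ L < (m + 1) * (25 * k) := h3
      _ ≤ 4 ^ (iOf L k + 1) * (25 * k) := Nat.mul_le_mul_right _ h2

/-- `C(n,k) ≤ (n/k)^k e^k`, for `k ≥ 1`. -/
theorem choose_le_exp (n k : ℕ) (hk : 1 ≤ k) :
    (n.choose k : ℝ) ≤ ((n : ℝ) / k) ^ k * Real.exp k := by
  have hk0 : (0 : ℝ) < k := by exact_mod_cast hk
  have h1 : (n.choose k : ℝ) ≤ (n : ℝ) ^ k / (k.factorial : ℝ) := Nat.choose_le_pow_div k n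
  have h2 : (k : ℝ) ^ k / (k.factorial : ℝ) ≤ Real.exp k :=
    Real.pow_div_factorial_le_exp (k : ℝ) hk0.le k
  refine h1.trans ?_
  have h3 : (n : ℝ) ^ k / (k.factorial : ℝ)
      = ((n : ℝ) / k) ^ k * ((k : ℝ) ^ k / (k.factorial : ℝ)) := by
    rw [div_pow]
    field_simp
  rw [h3]
  exact mul_le_mul_of_nonneg_left h2 (by positivity)

theorem log_25_3_le : Real.log (25 / 3) ≤ 2.1212 := by
  have h1 : (25 / 3 : ℝ) = 2 ^ 3 * (25 / 24) := by norm_num
  rw [h1, Real.log_mul (by norm_num) (by norm_num), Real.log_pow]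
  have h2 : Real.log (25 / 24) ≤ 25 / 24 - 1 := Real.log_le_sub_one_of_pos (by norm_num)
  have h3 := Real.log_two_lt_d9
  push_cast
  norm_num at h2 ⊢
  linarith

theorem log_517_ge : (5 / 517 : ℝ) ≤ Real.log (517 / 512) := by
  have h := Real.one_sub_inv_le_log_of_pos (show (0 : ℝ) < 517 / 512 by norm_num)
  norm_num at h ⊢
  linarith

theorem log_515_ge : (3 / 515 : ℝ) ≤ Real.log (515 / 512) := by
  have h := Real.one_sub_inv_le_log_of_pos (show (0 : ℝ) < 515 / 512 by norm_num)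
  norm_num at h ⊢
  linarith

/-- The per-token numerics of the low case. -/
theorem low_token (l2 L1 L2 lg a w I : ℝ) (hl2a : l2 < 0.6931471808) (hl2b : 0.6931471803 < l2)
    (hL1 : (5 / 517 : ℝ) ≤ L1) (hL2 : (3 / 515 : ℝ) ≤ L2) (hlg : lg ≤ 2.1212) (hI : 0 ≤ I)
    (hw0 : 0 < w) (hw4 : w ≤ 4) (hw1 : 1 ≤ w) (ha : a ≤ w - 1) :
    lg + a + I * (2 * l2) + 1 + 1592 * ((27 / 5000) / w - (L1 + I * L2)) + 5 * l2
      ≤ -(1 / 5) - I * (2 * l2) := by
  set c : ℝ := (27 / 5000) / w with hc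
  have h5 : a + 1592 * c ≤ 1592 * (27 / 5000) := by
    have h6 : (w - 1) ≤ 1592 * (27 / 5000) * (1 - 1 / w) := by
      have e : 1 - 1 / w = (w - 1) / w := by field_simp
      rw [e, ← mul_div_assoc, le_div_iff₀ hw0]
      nlinarith
    have h7 : 1592 * c = 1592 * (27 / 5000) * (1 / w) := by
      rw [hc]; ring
    rw [h7]
    have h8 : 1592 * (27 / 5000) * (1 - 1 / w) = 1592 * (27 / 5000) - 1592 * (27 / 5000) * (1 / w) := by
      ring
    linarith
  have h8 : 4 * l2 ≤ 1592 * L2 := by linarith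
  have h9 : I * (4 * l2) ≤ I * (1592 * L2) := mul_le_mul_of_nonneg_left h8 hI
  have h10 : 1592 * (5 / 517 : ℝ) ≤ 1592 * L1 := mul_le_mul_of_nonneg_left hL1 (by norm_num)
  norm_num at h10 h5
  nlinarith

/-- The low case, in real variables. -/
theorem low_core {N : ℝ} (hN : 0 < N) {k : ℕ} (hk : 1 ≤ k) (i : ℕ)
    (h1 : (4 : ℝ) ^ i * (25 * k) ≤ 3 * N) (h2 : 3 * N < (4 : ℝ) ^ (i + 1) * (25 * k)) :
    (N / k) ^ k * Real.exp k * (Acap i k N * ((1 + thetaSeq i) ^ k)⁻¹) ^ 1592 * 32 ^ k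
      ≤ Real.exp (-((k : ℝ) / 5)) * ((4 : ℝ) ^ i)⁻¹ := by
  have hk0 : (0 : ℝ) < k := by exact_mod_cast hk
  have hk1 : (1 : ℝ) ≤ k := by exact_mod_cast hk
  set P : ℝ := (4 : ℝ) ^ i with hP
  have hP0 : 0 < P := by positivity
  set w : ℝ := 3 * N / (25 * k * P) with hw
  have hw1 : 1 ≤ w := by
    rw [hw, le_div_iff₀ (by positivity)]
    linarith
  have hw4 : w ≤ 4 := by
    rw [hw, div_le_iff₀ (by positivity)]
    have : (4 : ℝ) ^ (i + 1) = P * 4 := by rw [hP, pow_succ]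
    rw [this] at h2
    linarith
  have hw0 : 0 < w := by linarith
  -- logarithms
  set l2 : ℝ := Real.log 2 with hl2
  have hl2a : l2 < 0.6931471808 := Real.log_two_lt_d9
  have hl2b : 0.6931471803 < l2 := Real.log_two_gt_d9
  set a : ℝ := Real.log w with ha
  have ha1 : a ≤ w - 1 := Real.log_le_sub_one_of_pos hw0
  have hlogNk : Real.log (N / k) = Real.log (25 / 3) + a + i * (2 * l2) := by
    have e1 : N / k = (25 / 3) * w * P := by
      rw [hw]
      field_simp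
    have e2 : Real.log P = i * (2 * l2) := by
      rw [hP, Real.log_pow, show (4 : ℝ) = 2 ^ 2 by norm_num, Real.log_pow]
      push_cast
      ring
    rw [e1, Real.log_mul (by positivity) hP0.ne', Real.log_mul (by norm_num) hw0.ne', e2]
  -- the pieces as exponentials
  set L1 : ℝ := Real.log (517 / 512) with hL1
  set L2 : ℝ := Real.log (515 / 512) with hL2
  have hL1g := log_517_ge
  have hL2g := log_515_ge
  have e1 : (N / k) ^ k = Real.exp (k * Real.log (N / k)) := by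
    rw [Real.exp_nat_mul, Real.exp_log (by positivity)]
  have e2 : (1 + thetaSeq i) ^ k = Real.exp (k * (L1 + i * L2)) := by
    rw [thetaSeq_add_one, Real.exp_nat_mul, Real.exp_add, Real.exp_nat_mul, hL1, hL2,
      Real.exp_log (by norm_num), Real.exp_log (by norm_num)]
  have e3 : (32 : ℝ) ^ k = Real.exp (k * (5 * l2)) := by
    rw [Real.exp_nat_mul, show 5 * l2 = (5 : ℕ) * l2 by norm_num, Real.exp_nat_mul, hl2,
      Real.exp_log (by norm_num)]
    norm_num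
  -- the coefficient of the Acap exponent
  set b : ℝ := betaN i N with hb
  have hb0 : 0 ≤ b := by
    rw [hb]
    unfold betaN betaInf
    have : (0 : ℝ) ≤ max (5 / 8) (1 - 12 * (9 / 200 * 4 ^ i) / N) :=
      le_trans (by norm_num) (le_max_left _ _)
    positivity
  have hb1 : b ≤ (9 / 200) * P := by
    rw [hb]
    unfold betaN betaInf
    have hbb : 0 ≤ (9 / 200 : ℝ) * (4 : ℝ) ^ i := by positivity
    have : max (5 / 8 : ℝ) (1 - 12 * (9 / 200 * 4 ^ i) / N) ≤ 1 := by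
      refine max_le (by norm_num) ?_
      have : 0 ≤ 12 * (9 / 200 * (4 : ℝ) ^ i) / N := by positivity
      linarith
    calc _ ≤ (9 / 200 : ℝ) * (4 : ℝ) ^ i * 1 := mul_le_mul_of_nonneg_left this hbb
      _ = _ := by rw [mul_one]
  have hAexp : b * ((k : ℝ) * ((k : ℝ) - 1)) / N ≤ (k : ℝ) * ((27 / 5000) / w) := by
    have h3 : P * k / N = 3 / (25 * w) := by
      rw [hw]
      field_simp
    have h4 : b * ((k : ℝ) * ((k : ℝ) - 1)) ≤ ((9 / 200) * P) * ((k : ℝ) * k) := by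
      have : (k : ℝ) * ((k : ℝ) - 1) ≤ (k : ℝ) * k :=
        mul_le_mul_of_nonneg_left (by linarith) hk0.le
      exact mul_le_mul hb1 this (mul_nonneg hk0.le (by linarith)) (by positivity)
    calc b * ((k : ℝ) * ((k : ℝ) - 1)) / N ≤ ((9 / 200) * P) * ((k : ℝ) * k) / N :=
          div_le_div_of_nonneg_right h4 hN.le
      _ = (k : ℝ) * (9 / 200) * (P * k / N) := by ring
      _ = (k : ℝ) * ((27 / 5000) / w) := by rw [h3]; field_simp; norm_num
  -- total exponent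
  set E : ℝ := k * Real.log (N / k) + k
      + 1592 * (b * ((k : ℝ) * ((k : ℝ) - 1)) / N - k * (L1 + i * L2)) + k * (5 * l2) with hE
  have hg : Acap i k N * ((1 + thetaSeq i) ^ k)⁻¹
      = Real.exp (b * ((k : ℝ) * ((k : ℝ) - 1)) / N - k * (L1 + i * L2)) := by
    rw [e2, sub_eq_add_neg, Real.exp_add, Real.exp_neg]
    rfl
  have hmain : (N / k) ^ k * Real.exp k * (Acap i k N * ((1 + thetaSeq i) ^ k)⁻¹) ^ 1592 * 32 ^ k
      = Real.exp E := by
    rw [hg, e1, e3, ← Real.exp_nat_mul, ← Real.exp_add, ← Real.exp_add, ← Real.exp_add, hE]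
    congr 1
  rw [hmain]
  have hPexp : P⁻¹ = Real.exp (-(i * (2 * l2))) := by
    rw [Real.exp_neg, hP, show (i : ℝ) * (2 * l2) = (i : ℝ) * Real.log 4 by
      rw [show (4 : ℝ) = 2 ^ 2 by norm_num, Real.log_pow]; push_cast; ring]
    rw [Real.exp_nat_mul, Real.exp_log (by norm_num)]
  rw [hPexp, ← Real.exp_add]
  apply Real.exp_le_exp.2
  have hi : (0 : ℝ) ≤ i := by positivity
  have hfinal : Real.log (N / k) + 1 + 1592 * ((27 / 5000) / w - (L1 + i * L2)) + 5 * l2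
      ≤ -(1 / 5) - i * (2 * l2) := by
    rw [hlogNk]
    exact low_token l2 L1 L2 _ a w i hl2a hl2b hL1g hL2g log_25_3_le hi hw0 hw4 hw1 ha1
  have h11 : 1592 * (b * ((k : ℝ) * ((k : ℝ) - 1)) / N) ≤ 1592 * ((k : ℝ) * ((27 / 5000) / w)) :=
    mul_le_mul_of_nonneg_left hAexp (by norm_num)
  have h12 := mul_le_mul_of_nonneg_left hfinal hk0.le
  have h14 : (k : ℝ) * (Real.log (N / k) + 1 + 1592 * ((27 / 5000) / w - (L1 + i * L2)) + 5 * l2)
      = k * Real.log (N / k) + k + 1592 * ((k : ℝ) * ((27 / 5000) / w)) - 1592 * (k * (L1 + i * L2))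
        + k * (5 * l2) := by ring
  have h15 : E = k * Real.log (N / k) + k + 1592 * (b * ((k : ℝ) * ((k : ℝ) - 1)) / N)
      - 1592 * (k * (L1 + i * L2)) + k * (5 * l2) := by
    rw [hE]; ring
  rw [h14] at h12
  rw [h15]
  have hz : (0 : ℝ) ≤ i * (2 * l2) := by
    have : 0 ≤ l2 := by linarith
    positivity
  have h13 : (i : ℝ) * (2 * l2) ≤ k * (i * (2 * l2)) := le_mul_of_one_le_left hz hk1
  have h16 : (k : ℝ) * (-(1 / 5) - i * (2 * l2)) = -((k : ℝ) / 5) - k * (i * (2 * l2)) := by ring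
  rw [h16] at h12
  linarith

/-- The high case, in real variables. -/
theorem high_core {N : ℝ} (hN : 0 < N) {k : ℕ} (h : 12 * N < 100 * k) :
    Real.exp (N * Real.log 2) * (Real.exp ((73 / 100000) * N - (k : ℝ) / 80)) ^ 1592 * 32 ^ k
      ≤ Real.exp (-(N / 10)) := by
  set l2 : ℝ := Real.log 2 with hl2
  have hl2a : l2 < 0.6931471808 := Real.log_two_lt_d9
  have hl2b : 0.6931471803 < l2 := Real.log_two_gt_d9
  have e3 : (32 : ℝ) ^ k = Real.exp (k * (5 * l2)) := by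
    rw [Real.exp_nat_mul, show 5 * l2 = (5 : ℕ) * l2 by norm_num, Real.exp_nat_mul, hl2,
      Real.exp_log (by norm_num)]
    norm_num
  rw [e3, ← Real.exp_nat_mul, ← Real.exp_add, ← Real.exp_add]
  apply Real.exp_le_exp.2
  push_cast
  nlinarith

/-- One term of the sum: low and high bound together. -/
theorem term_bound (L k : ℕ) (hk : 1 ≤ k) :
    ((2 ^ L).choose k : ℝ) * gNum L k ^ 1592 * 2 ^ 15 * 32 ^ k
      ≤ 2 ^ 15 * (100 / 3) * ((k : ℝ) * Real.exp (-((k : ℝ) / 5))) / (2 : ℝ) ^ L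
        + 2 ^ 15 * Real.exp (-((2 : ℝ) ^ L / 10)) := by
  have hk0 : (0 : ℝ) < k := by exact_mod_cast hk
  have hN : (0 : ℝ) < (2 : ℝ) ^ L := by positivity
  have hA : 0 ≤ (2 : ℝ) ^ 15 * (100 / 3) * ((k : ℝ) * Real.exp (-((k : ℝ) / 5))) / (2 : ℝ) ^ L := by
    positivity
  have hB : 0 ≤ (2 : ℝ) ^ 15 * Real.exp (-((2 : ℝ) ^ L / 10)) := by positivity
  unfold gNum
  split_ifs with hc
  · -- high
    have hc' : 12 * (2 : ℝ) ^ L < 100 * k := by exact_mod_cast hc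
    have h1 : (((2 ^ L).choose k : ℕ) : ℝ) ≤ Real.exp ((2 : ℝ) ^ L * Real.log 2) := by
      have h2 : (((2 ^ L).choose k : ℕ) : ℝ) ≤ (2 : ℝ) ^ (2 ^ L) := by
        exact_mod_cast Nat.choose_le_two_pow (2 ^ L) k
      refine h2.trans (le_of_eq ?_)
      rw [show (2 : ℝ) ^ L = ((2 ^ L : ℕ) : ℝ) by push_cast; ring, Real.exp_nat_mul,
        Real.exp_log (by norm_num)]
    have h3 := high_core hN hc'
    have hg : 0 ≤ Real.exp ((73 / 100000) * (2 : ℝ) ^ L - (k : ℝ) / 80) ^ 1592 :=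
      pow_nonneg (Real.exp_pos _).le _
    calc ((2 ^ L).choose k : ℝ) * Real.exp ((73 / 100000) * (2 : ℝ) ^ L - (k : ℝ) / 80) ^ 1592
          * 2 ^ 15 * 32 ^ k
        = 2 ^ 15 * (((2 ^ L).choose k : ℝ)
          * Real.exp ((73 / 100000) * (2 : ℝ) ^ L - (k : ℝ) / 80) ^ 1592 * 32 ^ k) := by ring
      _ ≤ 2 ^ 15 * (Real.exp ((2 : ℝ) ^ L * Real.log 2)
          * Real.exp ((73 / 100000) * (2 : ℝ) ^ L - (k : ℝ) / 80) ^ 1592 * 32 ^ k) := by
          refine mul_le_mul_of_nonneg_left ?_ (by norm_num)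
          refine mul_le_mul_of_nonneg_right ?_ (by positivity)
          exact mul_le_mul_of_nonneg_right h1 hg
      _ ≤ 2 ^ 15 * Real.exp (-((2 : ℝ) ^ L / 10)) := mul_le_mul_of_nonneg_left h3 (by norm_num)
      _ ≤ _ := by linarith
  · -- low
    have hc' : 100 * k ≤ 12 * 2 ^ L := not_lt.1 hc
    obtain ⟨h1, h2⟩ := iOf_spec hk hc'
    set i := iOf L k with hi
    have h1' : (4 : ℝ) ^ i * (25 * k) ≤ 3 * (2 : ℝ) ^ L := by exact_mod_cast h1
    have h2' : 3 * (2 : ℝ) ^ L < (4 : ℝ) ^ (i + 1) * (25 * k) := by exact_mod_cast h2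
    have h3 := low_core hN hk i h1' h2'
    have h4 := choose_le_exp (2 ^ L) k hk
    have h4' : (((2 ^ L).choose k : ℕ) : ℝ) ≤ ((2 : ℝ) ^ L / k) ^ k * Real.exp k := by
      simpa using h4
    have hg0 : 0 ≤ (Acap i k ((2 : ℝ) ^ L) * ((1 + thetaSeq i) ^ k)⁻¹) ^ 1592 := by
      refine pow_nonneg (mul_nonneg (Real.exp_pos _).le (inv_nonneg.2 (pow_nonneg ?_ _))) _
      rw [thetaSeq_add_one]
      positivity
    have hP : ((4 : ℝ) ^ i)⁻¹ ≤ (100 / 3) * ((k : ℝ) / (2 : ℝ) ^ L) := by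
      have h5 : (4 : ℝ) ^ (i + 1) = (4 : ℝ) ^ i * 4 := pow_succ _ _
      rw [h5] at h2'
      rw [inv_le_iff_one_le_mul₀ (by positivity)]
      have h6 : (100 / 3) * ((k : ℝ) / (2 : ℝ) ^ L) * (4 : ℝ) ^ i
          = ((4 : ℝ) ^ i * 4 * (25 * k)) / (3 * (2 : ℝ) ^ L) := by
        field_simp
        ring
      rw [h6, le_div_iff₀ (by positivity)]
      linarith
    calc ((2 ^ L).choose k : ℝ) * (Acap i k ((2 : ℝ) ^ L) * ((1 + thetaSeq i) ^ k)⁻¹) ^ 1592
          * 2 ^ 15 * 32 ^ k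
        = 2 ^ 15 * (((2 ^ L).choose k : ℝ)
          * (Acap i k ((2 : ℝ) ^ L) * ((1 + thetaSeq i) ^ k)⁻¹) ^ 1592 * 32 ^ k) := by ring
      _ ≤ 2 ^ 15 * (((2 : ℝ) ^ L / k) ^ k * Real.exp k
          * (Acap i k ((2 : ℝ) ^ L) * ((1 + thetaSeq i) ^ k)⁻¹) ^ 1592 * 32 ^ k) := by
          refine mul_le_mul_of_nonneg_left ?_ (by norm_num)
          refine mul_le_mul_of_nonneg_right ?_ (by positivity)
          exact mul_le_mul_of_nonneg_right h4' hg0
      _ ≤ 2 ^ 15 * (Real.exp (-((k : ℝ) / 5)) * ((4 : ℝ) ^ i)⁻¹) :=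
          mul_le_mul_of_nonneg_left h3 (by norm_num)
      _ ≤ 2 ^ 15 * (Real.exp (-((k : ℝ) / 5)) * ((100 / 3) * ((k : ℝ) / (2 : ℝ) ^ L))) := by
          refine mul_le_mul_of_nonneg_left ?_ (by norm_num)
          exact mul_le_mul_of_nonneg_left hP (Real.exp_pos _).le
      _ = 2 ^ 15 * (100 / 3) * ((k : ℝ) * Real.exp (-((k : ℝ) / 5))) / (2 : ℝ) ^ L := by ring
      _ ≤ _ := by linarith

/-- `k e^{-k/5} ≤ 10 r^k`, `r = e^{-1/10}`. -/
theorem mul_exp_le_geom (k : ℕ) :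
    (k : ℝ) * Real.exp (-((k : ℝ) / 5)) ≤ 10 * Real.exp (-(1 / 10)) ^ k := by
  have h1 : (k : ℝ) / 10 ≤ Real.exp ((k : ℝ) / 10) := by
    have := Real.add_one_le_exp ((k : ℝ) / 10)
    linarith
  rw [← Real.exp_nat_mul]
  have e : -((k : ℝ) / 5) = (k : ℝ) * (-(1 / 10)) + -((k : ℝ) / 10) := by ring
  rw [e, Real.exp_add]
  have hpos := Real.exp_pos ((k : ℝ) * (-(1 / 10)))
  have h2 : (k : ℝ) * Real.exp (-((k : ℝ) / 10)) ≤ 10 := by
    have h3 : Real.exp (-((k : ℝ) / 10)) * Real.exp ((k : ℝ) / 10) = 1 := by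
      rw [← Real.exp_add]; simp
    have h4 := Real.exp_pos (-((k : ℝ) / 10))
    have h5 := mul_le_mul_of_nonneg_left h1 h4.le
    rw [h3] at h5
    have : (k : ℝ) * Real.exp (-((k : ℝ) / 10)) = 10 * (Real.exp (-((k : ℝ) / 10)) * ((k : ℝ) / 10)) := by
      ring
    rw [this]
    linarith
  calc (k : ℝ) * (Real.exp ((k : ℝ) * (-(1 / 10))) * Real.exp (-((k : ℝ) / 10)))
      = Real.exp ((k : ℝ) * (-(1 / 10))) * ((k : ℝ) * Real.exp (-((k : ℝ) / 10))) := by ring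
    _ ≤ Real.exp ((k : ℝ) * (-(1 / 10))) * 10 := mul_le_mul_of_nonneg_left h2 hpos.le
    _ = _ := by ring

/-- `x e^{-x/10} ≤ 200 / x`. -/
theorem mul_exp_neg_le {x : ℝ} (hx : 0 < x) : x * Real.exp (-(x / 10)) ≤ 200 / x := by
  have h1 := Real.quadratic_le_exp_of_nonneg (show 0 ≤ x / 10 by positivity)
  have h2 : (x / 10) ^ 2 / 2 ≤ Real.exp (x / 10) := by
    have : 0 ≤ x / 10 := by positivity
    linarith
  rw [Real.exp_neg, ← div_eq_mul_inv, le_div_iff₀ hx, div_mul_eq_mul_div, div_le_iff₀ (Real.exp_pos _)]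
  nlinarith

/-- The whole sum is `O(1/N)`. -/
theorem sum_gNum_le (L : ℕ) :
    ∑ k ∈ Icc (2 : ℕ) (2 ^ L), ((2 ^ L).choose k : ℝ) * gNum L k ^ 1592 * 2 ^ 15 * 32 ^ k
      ≤ (2 ^ 15 * (100 / 3) * (10 * (1 - Real.exp (-(1 / 10)))⁻¹) + 2 ^ 15 * 200) / (2 : ℝ) ^ L := by
  set N : ℝ := (2 : ℝ) ^ L with hN
  have hN0 : 0 < N := by positivity
  set r : ℝ := Real.exp (-(1 / 10)) with hr
  have hr0 : 0 ≤ r := (Real.exp_pos _).le
  have hr1 : r < 1 := by
    rw [hr, Real.exp_lt_one_iff]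
    norm_num
  have h1 : ∑ k ∈ Icc (2 : ℕ) (2 ^ L), ((2 ^ L).choose k : ℝ) * gNum L k ^ 1592 * 2 ^ 15 * 32 ^ k
      ≤ ∑ k ∈ Icc (2 : ℕ) (2 ^ L), (2 ^ 15 * (100 / 3) * ((k : ℝ) * Real.exp (-((k : ℝ) / 5))) / N
        + 2 ^ 15 * Real.exp (-(N / 10))) :=
    Finset.sum_le_sum fun k hk => term_bound L k (by have := (mem_Icc.1 hk).1; omega)
  refine h1.trans ?_
  rw [Finset.sum_add_distrib]
  have h2 : ∑ k ∈ Icc (2 : ℕ) (2 ^ L), (2 ^ 15 * (100 / 3) * ((k : ℝ) * Real.exp (-((k : ℝ) / 5))) / N)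
      ≤ 2 ^ 15 * (100 / 3) * (10 * (1 - r)⁻¹) / N := by
    simp only [← Finset.sum_div, ← Finset.mul_sum]
    refine div_le_div_of_nonneg_right (mul_le_mul_of_nonneg_left ?_ (by norm_num)) hN0.le
    have h3 : ∑ k ∈ Icc (2 : ℕ) (2 ^ L), (k : ℝ) * Real.exp (-((k : ℝ) / 5))
        ≤ ∑ k ∈ range (2 ^ L + 1), 10 * r ^ k := by
      refine (Finset.sum_le_sum fun k _ => mul_exp_le_geom k).trans ?_
      refine Finset.sum_le_sum_of_subset_of_nonneg ?_ fun k _ _ => by positivity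
      intro k hk
      have := (mem_Icc.1 hk).2
      exact mem_range.2 (by omega)
    refine h3.trans ?_
    rw [← Finset.mul_sum]
    refine mul_le_mul_of_nonneg_left ?_ (by norm_num)
    rw [geom_sum_eq hr1.ne, show (r ^ (2 ^ L + 1) - 1) / (r - 1) = (1 - r ^ (2 ^ L + 1)) * (1 - r)⁻¹ by
      rw [div_eq_mul_inv, ← neg_sub (1 : ℝ) (r ^ (2 ^ L + 1)), ← neg_sub (1 : ℝ) r, inv_neg]
      ring]
    have h4 : 0 ≤ r ^ (2 ^ L + 1) := pow_nonneg hr0 _
    have h5 : 0 < (1 - r)⁻¹ := inv_pos.2 (by linarith)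
    nlinarith
  have h3 : ∑ _k ∈ Icc (2 : ℕ) (2 ^ L), ((2 : ℝ) ^ 15 * Real.exp (-(N / 10))) ≤ 2 ^ 15 * 200 / N := by
    rw [Finset.sum_const, nsmul_eq_mul]
    have h4 : ((Icc (2 : ℕ) (2 ^ L)).card : ℝ) ≤ N := by
      rw [Nat.card_Icc, hN]
      have : 2 ^ L + 1 - 2 ≤ 2 ^ L := by
        generalize 2 ^ L = M
        omega
      exact_mod_cast this
    have h5 := mul_exp_neg_le hN0
    calc ((Icc (2 : ℕ) (2 ^ L)).card : ℝ) * ((2 : ℝ) ^ 15 * Real.exp (-(N / 10)))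
        ≤ N * ((2 : ℝ) ^ 15 * Real.exp (-(N / 10))) :=
          mul_le_mul_of_nonneg_right h4 (by positivity)
      _ = 2 ^ 15 * (N * Real.exp (-(N / 10))) := by ring
      _ ≤ 2 ^ 15 * (200 / N) := mul_le_mul_of_nonneg_left h5 (by norm_num)
      _ = _ := by ring
  refine (add_le_add h2 h3).trans (le_of_eq ?_)
  ring

theorem sum_gNum_nonneg (L : ℕ) :
    0 ≤ ∑ k ∈ Icc (2 : ℕ) (2 ^ L), ((2 ^ L).choose k : ℝ) * gNum L k ^ 1592 * 2 ^ 15 * 32 ^ k :=
  Finset.sum_nonneg fun k _ => by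
    have := gNum_nonneg L k
    positivity

/-- The numeric half of the assembly. -/
theorem sum_gNum_tendsto :
    Filter.Tendsto
      (fun L : ℕ => ∑ k ∈ Icc (2 : ℕ) (2 ^ L), ((2 ^ L).choose k : ℝ) * gNum L k ^ 1592 * 2 ^ 15 * 32 ^ k)
      Filter.atTop (nhds 0) := by
  set C : ℝ := 2 ^ 15 * (100 / 3) * (10 * (1 - Real.exp (-(1 / 10)))⁻¹) + 2 ^ 15 * 200 with hC
  have h1 : Filter.Tendsto (fun L : ℕ => C / (2 : ℝ) ^ L) Filter.atTop (nhds 0) := by
    have h2 : Filter.Tendsto (fun L : ℕ => C * (1 / 2 : ℝ) ^ L) Filter.atTop (nhds (C * 0)) :=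
      (tendsto_pow_atTop_nhds_zero_of_lt_one (by norm_num) (by norm_num)).const_mul C
    rw [mul_zero] at h2
    refine h2.congr fun L => ?_
    rw [one_div, inv_pow, div_eq_mul_inv]
  exact squeeze_zero sum_gNum_nonneg sum_gNum_le h1

end Crest.Agent.Thorp
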