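import Crest.Agent.Lib.Thorp.LowCube

/-!
# The correction factor `corr` (blueprint section 6)
-/

set_option autoImplicit false

namespace Crest.Agent.Thorp

namespace Corr

/-- `g(u) = log(1+u) - log(1-u)`. -/
noncomputable def gg (u : ℝ) : ℝ := Real.log (1 + u) - Real.log (1 - u)

theorem gg_cross {u v : ℝ} (hu : 0 ≤ u) (huv : u ≤ v) (hv : v < 1) : v * gg u ≤ u * gg v := by
  have hu1 : |u| < 1 := by rw [abs_of_nonneg hu]; linarith
  have hv0 : 0 ≤ v := hu.trans huv
  have hv1 : |v| < 1 := by rw [abs_of_nonneg hv0]; exact hv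
  have h1 := (Real.hasSum_log_sub_log_of_abs_lt_one hu1).mul_left v
  have h2 := (Real.hasSum_log_sub_log_of_abs_lt_one hv1).mul_left u
  refine hasSum_le ?_ h1 h2
  intro k
  have h3 : u ^ (2 * k) ≤ v ^ (2 * k) := pow_le_pow_left₀ hu huv _
  have h4 : v * u ^ (2 * k + 1) ≤ u * v ^ (2 * k + 1) := by
    calc v * u ^ (2 * k + 1) = (u * v) * u ^ (2 * k) := by ring
      _ ≤ (u * v) * v ^ (2 * k) := mul_le_mul_of_nonneg_left h3 (mul_nonneg hu hv0)
      _ = u * v ^ (2 * k + 1) := by ring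
  have h5 : (0 : ℝ) ≤ 2 * (1 / (2 * (k : ℝ) + 1)) := by positivity
  calc v * (2 * (1 / (2 * (k : ℝ) + 1)) * u ^ (2 * k + 1))
      = 2 * (1 / (2 * (k : ℝ) + 1)) * (v * u ^ (2 * k + 1)) := by ring
    _ ≤ 2 * (1 / (2 * (k : ℝ) + 1)) * (u * v ^ (2 * k + 1)) := mul_le_mul_of_nonneg_left h4 h5
    _ = u * (2 * (1 / (2 * (k : ℝ) + 1)) * v ^ (2 * k + 1)) := by ring

/-- Weighted means on initial segments are dominated by the full mean. -/
theorem ratio_lemma (a b : ℕ → ℝ) (j : ℕ) :
    ∀ m, j ≤ m → (∀ i i', i < j → j ≤ i' → i' < m → a i' * b i ≤ a i * b i') →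
    (∑ i ∈ Finset.range m, a i) * (∑ i ∈ Finset.range j, b i) ≤
      (∑ i ∈ Finset.range j, a i) * (∑ i ∈ Finset.range m, b i) := by
  intro m hm
  induction m, hm using Nat.le_induction with
  | base => intro _; exact le_rfl
  | succ m hm ih =>
    intro h
    rw [Finset.sum_range_succ, Finset.sum_range_succ]
    have h1 := ih (fun i i' hi hi' hi'' => h i i' hi hi' (by omega))
    have h2 : a m * (∑ i ∈ Finset.range j, b i) ≤ (∑ i ∈ Finset.range j, a i) * b m := by
      rw [Finset.mul_sum, Finset.sum_mul]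
      refine Finset.sum_le_sum fun i hi => ?_
      exact h i m (Finset.mem_range.1 hi) hm (by omega)
    nlinarith

section Binom

variable (r : ℕ)

/-- Increment of `log C(r, k)`. -/
theorem log_choose_step {k : ℕ} (hk1 : 1 ≤ k) (hk : 2 * k ≤ r) :
    Real.log (r.choose k) - Real.log (r.choose (k - 1)) =
      gg (((r : ℝ) - 2 * k + 1) / (r + 1)) := by
  obtain ⟨l, rfl⟩ : ∃ l, k = l + 1 := ⟨k - 1, by omega⟩
  simp only [Nat.add_sub_cancel]
  have hc := Nat.choose_succ_right_eq r l
  have hpos1 : 0 < r.choose (l + 1) := Nat.choose_pos (by omega)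
  have hpos0 : 0 < r.choose l := Nat.choose_pos (by omega)
  have hr : (l : ℝ) + 1 ≤ r - l := by
    have : ((2 * (l + 1) : ℕ) : ℝ) ≤ r := by exact_mod_cast hk
    push_cast at this
    linarith
  have hcR : (r.choose (l + 1) : ℝ) * ((l : ℝ) + 1) = (r.choose l : ℝ) * ((r : ℝ) - l) := by
    have h := congrArg (fun n : ℕ => (n : ℝ)) hc
    simp only [Nat.cast_mul, Nat.cast_add, Nat.cast_one] at h
    rw [Nat.cast_sub (by omega)] at h
    exact h
  have hp1 : (0 : ℝ) < (r.choose (l + 1) : ℝ) := by exact_mod_cast hpos1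
  have hp0 : (0 : ℝ) < (r.choose l : ℝ) := by exact_mod_cast hpos0
  have hl : (0 : ℝ) < (l : ℝ) + 1 := by positivity
  have hrl : (0 : ℝ) < (r : ℝ) - l := by linarith
  have hr1 : (0 : ℝ) < (r : ℝ) + 1 := by positivity
  unfold gg
  have e1 : (1 : ℝ) + ((r : ℝ) - 2 * ((l + 1 : ℕ) : ℝ) + 1) / (r + 1) = 2 * ((r : ℝ) - l) / (r + 1) := by
    push_cast
    field_simp
    ring
  have e2 : (1 : ℝ) - ((r : ℝ) - 2 * ((l + 1 : ℕ) : ℝ) + 1) / (r + 1) = 2 * ((l : ℝ) + 1) / (r + 1) := by
    push_cast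
    field_simp
    ring
  rw [e1, e2]
  rw [Real.log_div (by positivity) (by positivity), Real.log_div (by positivity) (by positivity),
    Real.log_mul (by norm_num) hrl.ne', Real.log_mul (by norm_num) hl.ne']
  have e3 : Real.log (r.choose (l + 1)) + Real.log ((l : ℝ) + 1) =
      Real.log (r.choose l) + Real.log ((r : ℝ) - l) := by
    rw [← Real.log_mul hp1.ne' hl.ne', ← Real.log_mul hp0.ne' hrl.ne', hcR]
  linarith

/-- The quadratic bound on the binomial profile. -/
theorem log_central_sub_log_choose_le (hr : 1 ≤ r) {k : ℕ} (hk : 2 * k ≤ r) :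
    Real.log (r.choose (r / 2)) - Real.log (r.choose k) ≤
      (((r : ℝ) - 2 * k) ^ 2 / r) * Real.log 2 := by
  set m := r / 2 with hm
  obtain ⟨s0, hs0, hrm⟩ : ∃ s0 : ℕ, s0 ≤ 1 ∧ r = 2 * m + s0 := ⟨r % 2, by omega, by omega⟩
  have hkm : k ≤ m := by omega
  obtain ⟨j, hj⟩ : ∃ j, m = k + j := ⟨m - k, by omega⟩
  have hrR : (r : ℝ) = 2 * m + s0 := by exact_mod_cast hrm
  have hmR : (m : ℝ) = k + j := by exact_mod_cast hj
  have hlog2 : 0 < Real.log 2 := Real.log_pos (by norm_num)
  have hrpos : (0 : ℝ) < r := by exact_mod_cast hr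
  -- the sequences
  set a : ℕ → ℝ := fun i => (s0 : ℝ) + 2 * i + 1 with ha
  set b : ℕ → ℝ := fun i => gg (a i / (r + 1)) with hb
  have hbstep : ∀ i, i < m → b i = Real.log (r.choose (m - i)) - Real.log (r.choose (m - (i + 1))) := by
    intro i hi
    have h1 : 1 ≤ m - i := by omega
    have h2 : 2 * (m - i) ≤ r := by omega
    have h3 := log_choose_step r h1 h2
    have h4 : m - i - 1 = m - (i + 1) := by omega
    rw [h4] at h3
    rw [h3]
    simp only [hb, ha]
    congr 2
    have h5 : ((m - i : ℕ) : ℝ) = (m : ℝ) - i := by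
      rw [Nat.cast_sub (by omega)]
    rw [h5, hrR]
    ring
  have hDsum : ∀ i, i ≤ m → ∑ l ∈ Finset.range i, b l =
      Real.log (r.choose m) - Real.log (r.choose (m - i)) := by
    intro i
    induction i with
    | zero => intro _; simp
    | succ i ih =>
      intro hi
      rw [Finset.sum_range_succ, ih (by omega), hbstep i (by omega)]
      ring
  have hwsum : ∀ i, ∑ l ∈ Finset.range i, a l = (i : ℝ) * (i + s0) := by
    intro i
    induction i with
    | zero => simp
    | succ i ih =>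
      rw [Finset.sum_range_succ, ih]
      simp only [ha]
      push_cast
      ring
  have hmj : m - j = k := by omega
  have hLHS : Real.log (r.choose m) - Real.log (r.choose k) = ∑ l ∈ Finset.range j, b l := by
    rw [hDsum j (by omega), hmj]
  rw [hLHS]
  have hS : (r : ℝ) - 2 * k = 2 * j + s0 := by
    rw [hrR, hmR]
    ring
  rw [hS]
  by_cases hj0 : j = 0
  · subst hj0
    simp only [Finset.range_zero, Finset.sum_empty]
    positivity
  have hjpos : (0 : ℝ) < j := by exact_mod_cast Nat.pos_of_ne_zero hj0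
  have hm0 : 0 < m := by omega
  have hmpos : (0 : ℝ) < m := by exact_mod_cast hm0
  have hs0R : (0 : ℝ) ≤ s0 := by positivity
  have hs01 : (s0 : ℝ) ≤ 1 := by exact_mod_cast hs0
  -- monotonic ratio
  have hmono : ∀ i i', i < j → j ≤ i' → i' < m → a i' * b i ≤ a i * b i' := by
    intro i i' hi hi' hi''
    have hr1 : (0 : ℝ) < (r : ℝ) + 1 := by positivity
    have hii' : (i : ℝ) ≤ i' := by exact_mod_cast (by omega : i ≤ i')
    have hi'm : (i' : ℝ) + 1 ≤ m := by exact_mod_cast hi''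
    have hu0 : 0 ≤ a i / (r + 1) := by
      simp only [ha]; positivity
    have huv : a i / (r + 1) ≤ a i' / (r + 1) := by
      apply div_le_div_of_nonneg_right _ hr1.le
      simp only [ha]
      linarith
    have hv1 : a i' / (r + 1) < 1 := by
      rw [div_lt_one hr1]
      simp only [ha]
      rw [hrR]
      linarith
    have h := gg_cross hu0 huv hv1
    simp only [hb]
    have h2 : a i' / (r + 1) * gg (a i / (r + 1)) * (r + 1) = a i' * gg (a i / (r + 1)) := by
      field_simp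
    have h3 : a i / (r + 1) * gg (a i' / (r + 1)) * (r + 1) = a i * gg (a i' / (r + 1)) := by
      field_simp
    rw [← h2, ← h3]
    exact mul_le_mul_of_nonneg_right h hr1.le
  have hratio := ratio_lemma a b j m (by omega) hmono
  rw [hwsum, hwsum] at hratio
  have hDm : ∑ l ∈ Finset.range m, b l ≤ r * Real.log 2 := by
    rw [hDsum m le_rfl]
    have : m - m = 0 := by omega
    rw [this, Nat.choose_zero_right]
    simp only [Nat.cast_one, Real.log_one, sub_zero]
    have h2 : ((r.choose m : ℕ) : ℝ) ≤ 2 ^ r := by exact_mod_cast Nat.choose_le_two_pow r m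
    have hp : (0 : ℝ) < (r.choose m : ℝ) := by
      exact_mod_cast Nat.choose_pos (by omega : m ≤ r)
    calc Real.log (r.choose m) ≤ Real.log (2 ^ r) := Real.log_le_log hp h2
      _ = r * Real.log 2 := by rw [Real.log_pow]
  have hwj : 0 ≤ (j : ℝ) * (j + s0) := by positivity
  have hwm : 0 < (m : ℝ) * (m + s0) := by positivity
  have hjm : (j : ℝ) ≤ m := by rw [hmR]; have : (0:ℝ) ≤ k := by positivity
                               linarith
  have hpoly : (j : ℝ) * (j + s0) * (r : ℝ) ^ 2 ≤ (2 * (j : ℝ) + s0) ^ 2 * ((m : ℝ) * (m + s0)) := by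
    have hs : (s0 : ℝ) = 0 ∨ (s0 : ℝ) = 1 := by
      have : s0 = 0 ∨ s0 = 1 := by omega
      rcases this with h | h <;> simp [h]
    rw [hrR]
    rcases hs with h | h
    · rw [h]
      have : (j : ℝ) * (j + 0) * (2 * m + 0) ^ 2 = (2 * j + 0) ^ 2 * (m * (m + 0)) := by ring
      exact le_of_eq this
    · rw [h]
      have h3 : (j : ℝ) * (j + 1) ≤ m * (m + 1) := by nlinarith
      nlinarith
  have hfinal : (∑ l ∈ Finset.range j, b l) * ((m : ℝ) * (m + s0)) ≤
      ((2 * (j : ℝ) + s0) ^ 2 / r * Real.log 2) * ((m : ℝ) * (m + s0)) := by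
    calc (∑ l ∈ Finset.range j, b l) * ((m : ℝ) * (m + s0))
        = ((m : ℝ) * (m + s0)) * (∑ l ∈ Finset.range j, b l) := mul_comm _ _
      _ ≤ (j : ℝ) * (j + s0) * (∑ l ∈ Finset.range m, b l) := hratio
      _ ≤ (j : ℝ) * (j + s0) * (r * Real.log 2) := mul_le_mul_of_nonneg_left hDm hwj
      _ = ((j : ℝ) * (j + s0) * (r : ℝ) ^ 2) * (Real.log 2 / r) := by
          field_simp
      _ ≤ ((2 * (j : ℝ) + s0) ^ 2 * ((m : ℝ) * (m + s0))) * (Real.log 2 / r) :=
          mul_le_mul_of_nonneg_right hpoly (by positivity)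
      _ = _ := by field_simp
  exact le_of_mul_le_mul_right hfinal hwm

end Binom

/-! ### `corr` as a ratio of binomials -/

theorem choose_succ_middle_le (n : ℕ) : (n + 1).choose ((n + 1) / 2) ≤ 2 * n.choose (n / 2) := by
  cases hk : (n + 1) / 2 with
  | zero =>
    have hn : n = 0 := by omega
    subst hn
    simp
  | succ l =>
    rw [Nat.choose_succ_succ']
    have h1 := Nat.choose_le_middle l n
    have h2 := Nat.choose_le_middle (l + 1) n
    omega

theorem choose_add_middle_le (n j : ℕ) :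
    (n + j).choose ((n + j) / 2) ≤ 2 ^ j * n.choose (n / 2) := by
  induction j with
  | zero => simp
  | succ j ih =>
    have h := choose_succ_middle_le (n + j)
    rw [← Nat.add_assoc] at *
    calc _ ≤ 2 * (n + j).choose ((n + j) / 2) := h
      _ ≤ 2 * (2 ^ j * n.choose (n / 2)) := Nat.mul_le_mul_left _ ih
      _ = _ := by ring

theorem descFactorial_mul_choose {L a0 a1 : ℕ} (h0 : a0 ≤ 2 ^ L) (h1 : a1 ≤ 2 ^ L) :
    Nat.descFactorial (2 ^ (L + 1)) (a0 + a1) *
        ((2 ^ (L + 1) - (a0 + a1)).choose (2 ^ L - a0)) =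
      (2 ^ (L + 1)).choose (2 ^ L) * (Nat.descFactorial (2 ^ L) a0 * Nat.descFactorial (2 ^ L) a1) := by
  set N' := 2 ^ L with hN'
  have hN : 2 ^ (L + 1) = 2 * N' := by rw [pow_succ]; ring
  rw [hN]
  set r0 := N' - a0 with hr0
  set r1 := N' - a1 with hr1
  have hr : 2 * N' - (a0 + a1) = r0 + r1 := by omega
  rw [hr]
  have hc1 := Nat.choose_mul_factorial_mul_factorial (n := r0 + r1) (k := r0) (by omega)
  have hr01 : r0 + r1 - r0 = r1 := by omega
  rw [hr01] at hc1
  have hc2 := Nat.choose_mul_factorial_mul_factorial (n := 2 * N') (k := N') (by omega)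
  have h2N : 2 * N' - N' = N' := by omega
  rw [h2N] at hc2
  have hd := Nat.factorial_mul_descFactorial (n := 2 * N') (k := a0 + a1) (by omega)
  have hd' : 2 * N' - (a0 + a1) = r0 + r1 := hr
  rw [hd'] at hd
  have hd0 := Nat.factorial_mul_descFactorial (n := N') (k := a0) h0
  have hd1 := Nat.factorial_mul_descFactorial (n := N') (k := a1) h1
  rw [← hr0] at hd0
  rw [← hr1] at hd1
  have hpos : 0 < r0.factorial * r1.factorial := by positivity
  apply Nat.eq_of_mul_eq_mul_right hpos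
  calc Nat.descFactorial (2 * N') (a0 + a1) * (r0 + r1).choose r0 * (r0.factorial * r1.factorial)
      = Nat.descFactorial (2 * N') (a0 + a1) * ((r0 + r1).choose r0 * r0.factorial * r1.factorial) := by ring
    _ = (2 * N').factorial := by rw [hc1, mul_comm, hd]
    _ = (2 * N').choose N' * N'.factorial * N'.factorial := hc2.symm
    _ = (2 * N').choose N' * (r0.factorial * N'.descFactorial a0) * (r1.factorial * N'.descFactorial a1) := by
        rw [hd0, hd1]
    _ = _ := by ring

/-- `corr ≤ C(r, r/2) / C(r, r₀)`. -/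
theorem corr_le_ratio {L a0 a1 : ℕ} (h0 : a0 ≤ 2 ^ L) (h1 : a1 ≤ 2 ^ L) :
    corr L a0 a1 ≤ ((2 ^ (L + 1) - (a0 + a1)).choose ((2 ^ (L + 1) - (a0 + a1)) / 2) : ℝ) /
      ((2 ^ (L + 1) - (a0 + a1)).choose (2 ^ L - a0) : ℝ) := by
  set r := 2 ^ (L + 1) - (a0 + a1) with hr
  have hN : 2 ^ (L + 1) = 2 * 2 ^ L := by rw [pow_succ]; ring
  have hrN : r + (a0 + a1) = 2 ^ (L + 1) := by omega
  have hD := descFactorial_mul_choose h0 h1
  rw [← hr] at hD
  have hcpos : 0 < r.choose (2 ^ L - a0) := Nat.choose_pos (by omega)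
  have hcR : (0 : ℝ) < (r.choose (2 ^ L - a0) : ℝ) := by exact_mod_cast hcpos
  have hd0 : (0 : ℝ) < (Nat.descFactorial (2 ^ L) a0 : ℝ) := by
    exact_mod_cast Nat.descFactorial_pos.2 h0
  have hd1 : (0 : ℝ) < (Nat.descFactorial (2 ^ L) a1 : ℝ) := by
    exact_mod_cast Nat.descFactorial_pos.2 h1
  have hDR : (Nat.descFactorial (2 ^ (L + 1)) (a0 + a1) : ℝ) * (r.choose (2 ^ L - a0) : ℝ) =
      ((2 ^ (L + 1)).choose (2 ^ L) : ℝ) *
        ((Nat.descFactorial (2 ^ L) a0 : ℝ) * (Nat.descFactorial (2 ^ L) a1 : ℝ)) := by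
    exact_mod_cast hD
  have hmid : (2 ^ (L + 1)).choose (2 ^ L) ≤ 2 ^ (a0 + a1) * r.choose (r / 2) := by
    have h := choose_add_middle_le r (a0 + a1)
    rw [hrN] at h
    have h2 : 2 ^ (L + 1) / 2 = 2 ^ L := by omega
    rwa [h2] at h
  have hmidR : ((2 ^ (L + 1)).choose (2 ^ L) : ℝ) ≤ 2 ^ (a0 + a1) * (r.choose (r / 2) : ℝ) := by
    exact_mod_cast hmid
  unfold corr
  rw [div_le_div_iff₀ (by positivity) hcR]
  calc (Nat.descFactorial (2 ^ (L + 1)) (a0 + a1) : ℝ) * (r.choose (2 ^ L - a0) : ℝ)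
      = ((2 ^ (L + 1)).choose (2 ^ L) : ℝ) *
        ((Nat.descFactorial (2 ^ L) a0 : ℝ) * (Nat.descFactorial (2 ^ L) a1 : ℝ)) := hDR
    _ ≤ (2 ^ (a0 + a1) * (r.choose (r / 2) : ℝ)) *
        ((Nat.descFactorial (2 ^ L) a0 : ℝ) * (Nat.descFactorial (2 ^ L) a1 : ℝ)) :=
        mul_le_mul_of_nonneg_right hmidR (by positivity)
    _ = _ := by ring

theorem corr_pos' {L a0 a1 : ℕ} (h0 : a0 ≤ 2 ^ L) (h1 : a1 ≤ 2 ^ L) : 0 < corr L a0 a1 := by
  unfold corr
  have e1 : 0 < Nat.descFactorial (2 ^ (L + 1)) (a0 + a1) :=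
    Nat.descFactorial_pos.2 (by rw [pow_succ]; omega)
  have e2 : 0 < Nat.descFactorial (2 ^ L) a0 := Nat.descFactorial_pos.2 h0
  have e3 : 0 < Nat.descFactorial (2 ^ L) a1 := Nat.descFactorial_pos.2 h1
  have e1' : (0 : ℝ) < (Nat.descFactorial (2 ^ (L + 1)) (a0 + a1) : ℝ) := by exact_mod_cast e1
  have e2' : (0 : ℝ) < (Nat.descFactorial (2 ^ L) a0 : ℝ) := by exact_mod_cast e2
  have e3' : (0 : ℝ) < (Nat.descFactorial (2 ^ L) a1 : ℝ) := by exact_mod_cast e3
  positivity

/-- `log corr ≤ (S²/r) log 2` with `r` replaced by `max 1 r`. -/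
theorem log_corr_le {L a0 a1 : ℕ} (h0 : a0 ≤ 2 ^ L) (h1 : a1 ≤ 2 ^ L) :
    Real.log (corr L a0 a1) ≤
      (((a0 : ℝ) - a1) ^ 2 / ((max 1 (2 ^ (L + 1) - (a0 + a1)) : ℕ) : ℝ)) * Real.log 2 := by
  have hpos := corr_pos' h0 h1
  have hlog2 : 0 < Real.log 2 := Real.log_pos (by norm_num)
  have hN : 2 ^ (L + 1) = 2 * 2 ^ L := by rw [pow_succ]; ring
  have hle := corr_le_ratio h0 h1
  set r := 2 ^ (L + 1) - (a0 + a1) with hr
  have hrr : r = (2 ^ L - a0) + (2 ^ L - a1) := by omega
  have hcpos : 0 < r.choose (2 ^ L - a0) := Nat.choose_pos (by omega)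
  have hcR : (0 : ℝ) < (r.choose (2 ^ L - a0) : ℝ) := by exact_mod_cast hcpos
  have hcmid : 0 < r.choose (r / 2) := Nat.choose_pos (by omega)
  have hcmidR : (0 : ℝ) < (r.choose (r / 2) : ℝ) := by exact_mod_cast hcmid
  have hlog : Real.log (corr L a0 a1) ≤
      Real.log (r.choose (r / 2)) - Real.log (r.choose (2 ^ L - a0)) := by
    rw [← Real.log_div hcmidR.ne' hcR.ne']
    exact Real.log_le_log hpos hle
  by_cases hr0 : r = 0
  · -- then `a0 = a1`
    have h01 : a0 = a1 := by omega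
    have h01R : (a0 : ℝ) - a1 = 0 := by rw [h01]; ring
    rw [h01R]
    simp only [ne_eq, OfNat.ofNat_ne_zero, not_false_eq_true, zero_pow, zero_div, zero_mul]
    refine hlog.trans ?_
    have h00 : 2 ^ L - a0 = 0 := by omega
    rw [hr0, h00]
    simp
  · have hr1 : 1 ≤ r := Nat.one_le_iff_ne_zero.2 hr0
    have hmax : max 1 r = r := max_eq_right hr1
    rw [hmax]
    refine hlog.trans ?_
    -- pass to the smaller of `r₀, r₁`
    have hsq : ∀ k : ℕ, (k = 2 ^ L - a0 ∨ k = 2 ^ L - a1) →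
        ((r : ℝ) - 2 * k) ^ 2 = ((a0 : ℝ) - a1) ^ 2 := by
      intro k hk
      have hrR : (r : ℝ) = ((2 ^ L - a0 : ℕ) : ℝ) + ((2 ^ L - a1 : ℕ) : ℝ) := by exact_mod_cast hrr
      have h00 : ((2 ^ L - a0 : ℕ) : ℝ) = 2 ^ L - a0 := by
        rw [Nat.cast_sub h0]; push_cast; ring
      have h11 : ((2 ^ L - a1 : ℕ) : ℝ) = 2 ^ L - a1 := by
        rw [Nat.cast_sub h1]; push_cast; ring
      rw [hrR]
      rcases hk with rfl | rfl
      · rw [h00, h11]; ring
      · rw [h00, h11]; ring
    by_cases hc : 2 * (2 ^ L - a0) ≤ r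
    · have := log_central_sub_log_choose_le r hr1 hc
      rwa [hsq _ (Or.inl rfl)] at this
    · have hc' : 2 * (2 ^ L - a1) ≤ r := by omega
      have := log_central_sub_log_choose_le r hr1 hc'
      rw [hsq _ (Or.inr rfl)] at this
      have hsymm : r.choose (2 ^ L - a0) = r.choose (2 ^ L - a1) := by
        have h3 : r - (2 ^ L - a1) = 2 ^ L - a0 := by omega
        rw [← h3]
        exact Nat.choose_symm (by omega)
      rwa [hsymm]

theorem corr_rpow_le {L a0 a1 : ℕ} (h0 : a0 ≤ 2 ^ L) (h1 : a1 ≤ 2 ^ L) :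
    (corr L a0 a1) ^ ((1 : ℝ) / 5) ≤
      Real.exp ((Real.log 2 / 5 / ((max 1 (2 ^ (L + 1) - (a0 + a1)) : ℕ) : ℝ)) * ((a0 : ℝ) - a1) ^ 2) := by
  have hpos := corr_pos' h0 h1
  rw [Real.rpow_def_of_pos hpos]
  apply Real.exp_le_exp.2
  have h := log_corr_le h0 h1
  have h2 := mul_le_mul_of_nonneg_right h (by norm_num : (0 : ℝ) ≤ 1 / 5)
  refine h2.trans (le_of_eq ?_)
  ring

theorem corr_le_pow {L a0 a1 : ℕ} (h0 : a0 ≤ 2 ^ L) (h1 : a1 ≤ 2 ^ L) :
    corr L a0 a1 ≤
      (2 : ℝ) ^ (((a0 : ℝ) - a1) ^ 2 / ((max 1 (2 ^ (L + 1) - (a0 + a1)) : ℕ) : ℝ)) := by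
  have hpos := corr_pos' h0 h1
  rw [← Real.log_le_log_iff hpos (by positivity), Real.log_rpow (by norm_num)]
  exact log_corr_le h0 h1

/-! ### The average over the block flips -/

section Avg

variable {K : Type*} [Fintype K] [DecidableEq K]

open Finset

/-- The scalar estimate behind `Ex_corr_le`. -/
theorem scalar_sqrt (u w : ℝ) (hu0 : 0 ≤ u) (hu : u ≤ 0.27726) (hw0 : 0 ≤ w) (hw1 : w ≤ 1) :
    (Real.sqrt (1 - u * w))⁻¹ ≤ Real.exp (0.17 * w) := by
  have h1 : 0 < 1 - u * w := by nlinarith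
  have hsq : 0 < Real.sqrt (1 - u * w) := Real.sqrt_pos.2 h1
  rw [inv_le_iff_one_le_mul₀ hsq]
  have hexp : 1 + 0.34 * w + (0.34 * w) ^ 2 / 2 ≤ Real.exp (0.34 * w) := by
    have := Real.quadratic_le_exp_of_nonneg (x := 0.34 * w) (by positivity)
    linarith
  have hprod : 1 ≤ (1 - u * w) * Real.exp (0.34 * w) := by
    have h2 : (1 - u * w) * (1 + 0.34 * w + (0.34 * w) ^ 2 / 2) ≤ (1 - u * w) * Real.exp (0.34 * w) :=
      mul_le_mul_of_nonneg_left hexp h1.le
    refine le_trans ?_ h2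
    have h3 : 1 - 0.27726 * w ≤ 1 - u * w := by nlinarith
    have h4 : (1 - 0.27726 * w) * (1 + 0.34 * w + (0.34 * w) ^ 2 / 2) ≤
        (1 - u * w) * (1 + 0.34 * w + (0.34 * w) ^ 2 / 2) :=
      mul_le_mul_of_nonneg_right h3 (by positivity)
    refine le_trans ?_ h4
    have h5 : w ^ 2 ≤ w := by nlinarith
    have h6 : w ^ 3 ≤ w := by nlinarith [mul_nonneg hw0 hw0]
    nlinarith [mul_nonneg hw0 hw0]
  have hsq2 : Real.exp (0.34 * w) = Real.exp (0.17 * w) * Real.exp (0.17 * w) := by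
    rw [← Real.exp_add]; ring_nf
  have hmul : (1 - u * w) * Real.exp (0.34 * w) =
      (Real.exp (0.17 * w) * Real.sqrt (1 - u * w)) ^ 2 := by
    rw [mul_pow, Real.sq_sqrt h1.le, hsq2]; ring
  rw [hmul] at hprod
  have hnn : 0 ≤ Real.exp (0.17 * w) * Real.sqrt (1 - u * w) := by positivity
  have := abs_le_of_sq_le_sq' (a := 1) (b := Real.exp (0.17 * w) * Real.sqrt (1 - u * w))
    (by simpa using hprod) hnn
  exact this.2

/-- The number of tokens in a child is at most the size of a child. -/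
theorem card_child_le {L : ℕ} (A : Finset K) (x : K → Deck (L + 1)) (hx : Set.InjOn x A)
    (e : Flips L) (b : Bool) : (A.filter (fun c => childOf e x c = b)).card ≤ 2 ^ L := by
  have h : (A.filter (fun c => childOf e x c = b)).card ≤ (univ : Finset (Deck L)).card := by
    refine Finset.card_le_card_of_injOn (fun c => (x c).2) (fun _ _ => mem_univ _) ?_
    intro c hc d hd hcd
    have hc' := (mem_filter.1 (Finset.mem_coe.1 hc))
    have hd' := (mem_filter.1 (Finset.mem_coe.1 hd))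
    apply hx (Finset.mem_coe.2 hc'.1) (Finset.mem_coe.2 hd'.1)
    have h2 : (x c).2 = (x d).2 := hcd
    have h1 : (x c).1 = (x d).1 := by
      have e1 : xor (x c).1 (e (x c).2) = xor (x d).1 (e (x d).2) := by
        have e2 := hc'.2
        have e3 := hd'.2
        simp only [childOf] at e2 e3
        rw [e2, e3]
      rw [h2] at e1
      revert e1
      cases (x c).1 <;> cases (x d).1 <;> cases e (x d).2 <;> simp
    exact Prod.ext h1 h2
  rwa [card_univ, card_deck] at h

/-- Sites with exactly one of the two slots occupied. -/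
def oddSites {L : ℕ} (X : Finset (Bool × Deck L)) : Finset (Deck L) :=
  univ.filter (fun p => ((true, p) ∈ X ∧ (false, p) ∉ X) ∨ ((true, p) ∉ X ∧ (false, p) ∈ X))

/-- Sites whose `false` slot is free. -/
def flipSites {L : ℕ} (X : Finset (Bool × Deck L)) : Finset (Deck L) :=
  univ.filter (fun p => (false, p) ∉ X)

theorem sum_sgn_pair {L : ℕ} (X : Finset (Bool × Deck L)) (e : Flips L) :
    ∑ v ∈ X, sgn (xor v.1 (e v.2)) = signSum (oddSites X) (flipOn (flipSites X) e) := by
  classical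
  have h1 : ∑ v ∈ X, sgn (xor v.1 (e v.2)) =
      ∑ v : Bool × Deck L, if v ∈ X then sgn (xor v.1 (e v.2)) else 0 := by
    rw [← Finset.sum_filter]
    congr 1
    ext v
    simp only [mem_filter, mem_univ, true_and]
  have h2 : (∑ v : Bool × Deck L, if v ∈ X then sgn (xor v.1 (e v.2)) else 0) =
      ∑ p : Deck L, ((if (true, p) ∈ X then sgn (xor true (e p)) else 0) +
        (if (false, p) ∈ X then sgn (xor false (e p)) else 0)) := by
    rw [Fintype.sum_prod_type]
    simp only [Fintype.sum_bool]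
    rw [Finset.sum_add_distrib]
  have h3 : signSum (oddSites X) (flipOn (flipSites X) e) =
      ∑ p : Deck L, if p ∈ oddSites X then sgn (flipOn (flipSites X) e p) else 0 := by
    unfold signSum
    rw [← Finset.sum_filter]
    congr 1
    ext v
    simp only [mem_filter, mem_univ, true_and]
  rw [h1]
  refine Eq.trans h2 ?_
  rw [h3]
  refine Finset.sum_congr rfl fun p _ => ?_
  by_cases ht : (true, p) ∈ X <;> by_cases hf : (false, p) ∈ X <;>
    simp [oddSites, flipSites, flipOn, ht, hf, sgn_not]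

theorem card_oddSites_le {L : ℕ} (X : Finset (Bool × Deck L)) : (oddSites X).card ≤ X.card := by
  classical
  have : oddSites X ⊆ X.image Prod.snd := by
    intro p hp
    simp only [oddSites, mem_filter, mem_univ, true_and] at hp
    rcases hp with ⟨h, _⟩ | ⟨_, h⟩ <;> exact mem_image.2 ⟨_, h, rfl⟩
  exact (card_le_card this).trans card_image_le

theorem card_oddSites_le_compl {L : ℕ} (X : Finset (Bool × Deck L)) :
    (oddSites X).card + X.card ≤ 2 ^ (L + 1) := by
  classical
  have h1 : oddSites X ⊆ Xᶜ.image Prod.snd := by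
    intro p hp
    simp only [oddSites, mem_filter, mem_univ, true_and] at hp
    rcases hp with ⟨_, h⟩ | ⟨h, _⟩ <;> exact mem_image.2 ⟨_, mem_compl.2 h, rfl⟩
  have h2 := (card_le_card h1).trans card_image_le
  have h3 := Finset.card_compl_add_card X
  rw [Fintype.card_prod, Fintype.card_bool, card_deck] at h3
  have h4 : 2 ^ (L + 1) = 2 * 2 ^ L := by rw [pow_succ]; ring
  omega

end Avg

end Corr

theorem corr_le (L a0 a1 : ℕ) (h0 : a0 ≤ 2 ^ L) (h1 : a1 ≤ 2 ^ L) :
    corr L a0 a1 ≤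
      (2 : ℝ) ^ (((a0 : ℝ) - a1) ^ 2 / ((max 1 (2 ^ (L + 1) - (a0 + a1)) : ℕ) : ℝ)) :=
  Corr.corr_le_pow h0 h1

open Corr in
theorem Ex_corr_le {K : Type*} [Fintype K] [DecidableEq K] (L : ℕ) (A : Finset K)
    (x : K → Deck (L + 1)) (hx : Set.InjOn x A) :
    Ex (fun e : Flips L =>
      (corr L (A.filter (fun c => childOf e x c = false)).card
        (A.filter (fun c => childOf e x c = true)).card) ^ ((1 : ℝ) / 5)) ≤
      Real.exp ((17 / 50) * A.card / 2 ^ (L + 1)) := by
  classical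
  set X : Finset (Bool × Deck L) := A.image x with hX
  have hXcard : X.card = A.card := Finset.card_image_of_injOn hx
  set n := (oddSites X).card with hn
  have hna : n ≤ A.card := hXcard ▸ card_oddSites_le X
  have hnr : n + A.card ≤ 2 ^ (L + 1) := hXcard ▸ card_oddSites_le_compl X
  set r := 2 ^ (L + 1) - A.card with hr
  set R := max 1 r with hR
  have hR1 : 1 ≤ R := le_max_left _ _
  have hRpos : (0 : ℝ) < (R : ℝ) := by exact_mod_cast hR1
  set t : ℝ := Real.log 2 / 5 / (R : ℝ) with ht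
  have hlog2 : 0 < Real.log 2 := Real.log_pos (by norm_num)
  have ht0 : 0 ≤ t := by positivity
  -- pointwise bound
  have hpt : ∀ e : Flips L,
      (corr L (A.filter (fun c => childOf e x c = false)).card
        (A.filter (fun c => childOf e x c = true)).card) ^ ((1 : ℝ) / 5) ≤
      Real.exp (t * signSum (oddSites X) (flipOn (flipSites X) e) ^ 2) := by
    intro e
    have h0 := card_child_le A x hx e false
    have h1 := card_child_le A x hx e true
    have hsum : (A.filter (fun c => childOf e x c = false)).card +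
        (A.filter (fun c => childOf e x c = true)).card = A.card := by
      rw [add_comm]
      have := Finset.card_filter_add_card_filter_not (s := A) (fun c => childOf e x c = true)
      simpa using this
    have key := corr_rpow_le h0 h1
    rw [hsum] at key
    refine key.trans (le_of_eq ?_)
    congr 2
    rw [← sum_sgn_pair X e]
    have hS : ∑ v ∈ X, sgn (xor v.1 (e v.2)) =
        ((A.filter (fun c => childOf e x c = true)).card : ℝ) -
          ((A.filter (fun c => childOf e x c = false)).card : ℝ) := by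
      have himg : ∑ v ∈ X, sgn (xor v.1 (e v.2)) = ∑ c ∈ A, sgn (xor (x c).1 (e (x c).2)) :=
        Finset.sum_image (f := fun v : Bool × Deck L => sgn (xor v.1 (e v.2))) (g := x) hx
      rw [himg]
      have hb : ∀ b : Bool, sgn b = (if b = true then (1 : ℝ) else 0) - (if b = false then (1 : ℝ) else 0) := by
        intro b
        cases b <;> simp [sgn]
      have h2 : ∀ c ∈ A, sgn (xor (x c).1 (e (x c).2)) =
          (if childOf e x c = true then (1 : ℝ) else 0) -
            (if childOf e x c = false then (1 : ℝ) else 0) := fun c _ => hb _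
      rw [Finset.sum_congr rfl h2, Finset.sum_sub_distrib, Finset.sum_boole, Finset.sum_boole]
    rw [hS]
    ring
  refine (Ex_mono hpt).trans ?_
  -- reindex by the flip
  have hflip := Ex_flipOn (flipSites X) (fun e : Flips L => Real.exp (t * signSum (oddSites X) e ^ 2))
  rw [hflip]
  -- the key numerics
  have hu0 : 0 ≤ 2 * Real.log 2 / 5 := by positivity
  have hu : 2 * Real.log 2 / 5 ≤ 0.27726 := by
    have := Real.log_two_lt_d9
    norm_num at this ⊢
    linarith
  set w : ℝ := (n : ℝ) / (R : ℝ) with hw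
  have hw0 : 0 ≤ w := by positivity
  have hnR : n ≤ R := by
    have : n ≤ r := by omega
    exact this.trans (le_max_right _ _)
  have hw1 : w ≤ 1 := by
    rw [hw, div_le_one hRpos]
    exact_mod_cast hnR
  have h2t : 2 * t * (oddSites X).card = 2 * Real.log 2 / 5 * w := by
    rw [← hn, ht, hw]
    field_simp
  have hlt : 2 * t * (oddSites X).card < 1 := by
    rw [h2t]
    nlinarith
  have hmgf := rad_mgf_le (oddSites X) t ht0 hlt
  refine hmgf.trans ?_
  rw [h2t]
  refine (scalar_sqrt _ w hu0 hu hw0 hw1).trans ?_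
  apply Real.exp_le_exp.2
  -- `n N ≤ 2 a R`
  have hN : (0 : ℝ) < 2 ^ (L + 1) := by positivity
  have hmain : n * 2 ^ (L + 1) ≤ 2 * A.card * R := by
    have hNeq : 2 ^ (L + 1) = A.card + r := by omega
    by_cases hn0 : n = 0
    · simp [hn0]
    · have hr1 : 1 ≤ r := by omega
      have hRr : R = r := max_eq_right hr1
      have hnr' : n ≤ r := by omega
      rw [hRr, hNeq]
      nlinarith
  have hmainR : (n : ℝ) * 2 ^ (L + 1) ≤ 2 * A.card * R := by exact_mod_cast hmain
  rw [hw]
  rw [show (0.17 : ℝ) * ((n : ℝ) / R) = (17 / 100) * n / R by ring,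
    div_le_div_iff₀ hRpos hN]
  nlinarith

end Crest.Agent.Thorp
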