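/-
Thorp shuffle, Count module: the bound E1 and the involution of the sample space.
-/
import Crest.Agent.Lib.Thorp.Ops

set_option autoImplicit false
set_option linter.unusedSectionVars false

namespace Crest.Agent.Thorp

open Finset

variable {K : Type*} [Fintype K] [DecidableEq K]

/-! ### Equations -/

theorem WW_zero (ω : DΩ 0) (A : Finset K) (x : K → Deck 0) : WW 0 ω A x = 1 := rfl

theorem WW_succ (L : ℕ) (e : Flips L) (ω0 ω1 : DΩ L) (e' : Flips L) (A : Finset K)
    (x : K → Deck (L + 1)) :
    WW (L + 1) (e, ω0, ω1, e') A x =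
      corr L (A.filter fun c => childOf e x c = false).card
          (A.filter fun c => childOf e x c = true).card *
        Gam A (siteOf x) (fun c => if childOf e x c then pi L ω1 (siteOf x c)
          else pi L ω0 (siteOf x c)) *
        WW L ω0 (A.filter fun c => childOf e x c = false) (siteOf x) *
        WW L ω1 (A.filter fun c => childOf e x c = true) (siteOf x) := rfl

theorem corr_nonneg (L a0 a1 : ℕ) : 0 ≤ corr L a0 a1 := by
  unfold corr; positivity

theorem Gam_nonneg {L : ℕ} (A : Finset K) (xb yb : K → Deck L) : 0 ≤ Gam A xb yb := by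
  unfold Gam; positivity

theorem WW_nonneg : ∀ (L : ℕ) (ω : DΩ L) (A : Finset K) (x : K → Deck L), 0 ≤ WW L ω A x
  | 0, _, _, _ => zero_le_one
  | L + 1, ω, A, x => by
      obtain ⟨e, ω0, ω1, e'⟩ := ω
      rw [WW_succ]
      exact mul_nonneg (mul_nonneg (mul_nonneg (corr_nonneg _ _ _) (Gam_nonneg _ _ _))
        (WW_nonneg L _ _ _)) (WW_nonneg L _ _ _)

/-! ### Congruence -/

theorem consSets_congr {L : ℕ} (A : Finset K) (xb xb' yb yb' : K → Deck L)
    (hx : ∀ c ∈ A, xb c = xb' c) (hy : ∀ c ∈ A, yb c = yb' c) :
    consSets A xb yb = consSets A xb' yb' := by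
  unfold consSets
  refine Finset.filter_congr (fun B _ => ?_)
  constructor
  · intro h c hc d hd hne hor
    refine h c hc d hd hne ?_
    rw [hx c hc, hx d hd, hy c hc, hy d hd]
    exact hor
  · intro h c hc d hd hne hor
    refine h c hc d hd hne ?_
    rw [← hx c hc, ← hx d hd, ← hy c hc, ← hy d hd]
    exact hor

theorem Gam_congr {L : ℕ} (A : Finset K) (xb xb' yb yb' : K → Deck L)
    (hx : ∀ c ∈ A, xb c = xb' c) (hy : ∀ c ∈ A, yb c = yb' c) :
    Gam A xb yb = Gam A xb' yb' := by
  unfold Gam
  rw [consSets_congr A xb xb' yb yb' hx hy, Finset.image_congr hx, Finset.image_congr hy]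

theorem Gam_comm {L : ℕ} (A : Finset K) (xb yb : K → Deck L) : Gam A xb yb = Gam A yb xb := by
  unfold Gam
  have h : consSets A xb yb = consSets A yb xb := by
    unfold consSets
    refine Finset.filter_congr (fun B _ => ?_)
    constructor
    · intro h c hc d hd hne hor
      exact h c hc d hd hne hor.symm
    · intro h c hc d hd hne hor
      exact h c hc d hd hne hor.symm
  rw [h, mul_comm ((2 : ℝ) ^ (A.image xb).card)]

theorem WW_congr : ∀ (L : ℕ) (ω : DΩ L) (A : Finset K) (x x' : K → Deck L),
    (∀ c ∈ A, x c = x' c) → WW L ω A x = WW L ω A x'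
  | 0, _, _, _, _, _ => rfl
  | L + 1, ω, A, x, x', h => by
      obtain ⟨e, ω0, ω1, e'⟩ := ω
      rw [WW_succ, WW_succ]
      have hε : ∀ c ∈ A, childOf e x c = childOf e x' c := by
        intro c hc
        simp only [childOf, h c hc]
      have hv : ∀ c ∈ A, siteOf x c = siteOf x' c := by
        intro c hc
        simp only [siteOf, h c hc]
      have hA0 : (A.filter fun c => childOf e x c = false) =
          (A.filter fun c => childOf e x' c = false) :=
        Finset.filter_congr (fun c hc => by rw [hε c hc])
      have hA1 : (A.filter fun c => childOf e x c = true) =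
          (A.filter fun c => childOf e x' c = true) :=
        Finset.filter_congr (fun c hc => by rw [hε c hc])
      rw [hA0, hA1]
      rw [Gam_congr A _ _ _ _ hv (fun c hc => by rw [hε c hc, hv c hc])]
      rw [WW_congr L ω0 _ (siteOf x) (siteOf x') (fun c hc => hv c (Finset.mem_of_mem_filter c hc))]
      rw [WW_congr L ω1 _ (siteOf x) (siteOf x') (fun c hc => hv c (Finset.mem_of_mem_filter c hc))]

/-! ### The involution -/

/-- The involution of the sample space of `π`. -/
def DΩinv : ∀ L, DΩ L → DΩ L
  | 0, ω => ω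
  | L + 1, ω => (ω.2.2.2, DΩinv L ω.2.1, DΩinv L ω.2.2.1, ω.1)

theorem DΩinv_inv : ∀ (L : ℕ) (ω : DΩ L), DΩinv L (DΩinv L ω) = ω
  | 0, _ => rfl
  | L + 1, ω => by
      obtain ⟨e, ω0, ω1, e'⟩ := ω
      show (e, DΩinv L (DΩinv L ω0), DΩinv L (DΩinv L ω1), e') = _
      rw [DΩinv_inv L ω0, DΩinv_inv L ω1]

/-- The involution as an equivalence. -/
def DΩequiv (L : ℕ) : DΩ L ≃ DΩ L where
  toFun := DΩinv L
  invFun := DΩinv L
  left_inv := DΩinv_inv L
  right_inv := DΩinv_inv L

theorem pi_DΩinv : ∀ (L : ℕ) (ω : DΩ L), pi L (DΩinv L ω) = (pi L ω)⁻¹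
  | 0, _ => by
      show (1 : Equiv.Perm (Deck 0)) = 1⁻¹
      simp
  | L + 1, ω => by
      obtain ⟨e, ω0, ω1, e'⟩ := ω
      show pi (L + 1) (e', DΩinv L ω0, DΩinv L ω1, e) = _
      rw [pi_succ, pi_succ, pi_DΩinv L ω0, pi_DΩinv L ω1, mul_inv_rev, mul_inv_rev, flipPerm_inv,
        flipPerm_inv, blockPerm_inv, mul_assoc]

theorem pi_succ_apply (L : ℕ) (e : Flips L) (ω0 ω1 : DΩ L) (e' : Flips L) (b : Bool) (u : Deck L) :
    pi (L + 1) (e, ω0, ω1, e') (b, u) =
      (xor (xor b (e u)) (e' (if xor b (e u) then pi L ω1 u else pi L ω0 u)),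
        if xor b (e u) then pi L ω1 u else pi L ω0 u) := rfl

/-- `W` is invariant under the involution. -/
theorem WW_DΩinv : ∀ (L : ℕ) (ω : DΩ L) (A : Finset K) (x : K → Deck L),
    WW L (DΩinv L ω) A (fun c => pi L ω (x c)) = WW L ω A x
  | 0, _, _, _ => rfl
  | L + 1, ω, A, x => by
      obtain ⟨e, ω0, ω1, e'⟩ := ω
      show WW (L + 1) (e', DΩinv L ω0, DΩinv L ω1, e) A _ = _
      rw [WW_succ, WW_succ]
      set z : K → Deck (L + 1) := fun c => pi (L + 1) (e, ω0, ω1, e') (x c) with hz
      have hzc : ∀ c, z c = (xor (childOf e x c)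
          (e' (if childOf e x c then pi L ω1 (siteOf x c) else pi L ω0 (siteOf x c))),
          if childOf e x c then pi L ω1 (siteOf x c) else pi L ω0 (siteOf x c)) := fun c => rfl
      have hε : ∀ c, childOf e' z c = childOf e x c := by
        intro c
        simp only [childOf, hzc, Bool.xor_assoc, Bool.xor_self, Bool.xor_false]
      have hv : ∀ c, siteOf z c =
          (if childOf e x c then pi L ω1 (siteOf x c) else pi L ω0 (siteOf x c)) := by
        intro c
        simp only [siteOf, hzc]
      simp only [hε]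
      have hG : Gam A (siteOf z) (fun c => if childOf e x c then pi L (DΩinv L ω1) (siteOf z c)
            else pi L (DΩinv L ω0) (siteOf z c)) =
          Gam A (siteOf x) (fun c => if childOf e x c then pi L ω1 (siteOf x c)
            else pi L ω0 (siteOf x c)) := by
        rw [Gam_comm]
        apply Gam_congr
        · intro c _
          rw [hv]
          cases childOf e x c
          · simp only [Bool.false_eq_true, if_false]
            rw [pi_DΩinv]; simp
          · simp only [if_true]
            rw [pi_DΩinv]; simp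
        · intro c _
          exact hv c
      rw [hG]
      have h0 : WW L (DΩinv L ω0) (A.filter fun c => childOf e x c = false) (siteOf z) =
          WW L ω0 (A.filter fun c => childOf e x c = false) (siteOf x) := by
        rw [← WW_DΩinv L ω0 _ (siteOf x)]
        apply WW_congr
        intro c hc
        rw [hv, (Finset.mem_filter.mp hc).2]
        simp
      have h1 : WW L (DΩinv L ω1) (A.filter fun c => childOf e x c = true) (siteOf z) =
          WW L ω1 (A.filter fun c => childOf e x c = true) (siteOf x) := by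
        rw [← WW_DΩinv L ω1 _ (siteOf x)]
        apply WW_congr
        intro c hc
        rw [hv, (Finset.mem_filter.mp hc).2]
        simp
      rw [h0, h1]

/-! ### Fixing coordinates of a uniform function -/

theorem Ex_fix {ι : Type*} [Fintype ι] [DecidableEq ι] (S : Finset ι) (g : ι → Bool) :
    Ex (fun e : ι → Bool => if ∀ t ∈ S, e t = g t then (1 : ℝ) else 0) = (1 / 2) ^ S.card := by
  classical
  have h1 : (Finset.univ.filter (fun e : ι → Bool => ∀ t ∈ S, e t = g t)) =
      Fintype.piFinset (fun t => if t ∈ S then {g t} else Finset.univ) := by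
    ext e
    simp only [Finset.mem_filter, Finset.mem_univ, true_and, Fintype.mem_piFinset]
    constructor
    · intro h t
      by_cases ht : t ∈ S
      · simp [ht, h t ht]
      · simp [ht]
    · intro h t ht
      have := h t
      simpa [ht] using this
  have h2 : ((Fintype.piFinset (fun t => if t ∈ S then ({g t} : Finset Bool) else Finset.univ)).card : ℝ)
      * 2 ^ S.card = 2 ^ Fintype.card ι := by
    rw [Fintype.card_piFinset]
    have h3 : ((2 : ℝ) ^ S.card) = ∏ t, (if t ∈ S then (2 : ℝ) else 1) := by
      rw [Finset.prod_ite_mem]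
      simp
    rw [h3]
    push_cast
    rw [← Finset.prod_mul_distrib]
    have h4 : ∀ t : ι, (((if t ∈ S then ({g t} : Finset Bool) else Finset.univ).card : ℕ) : ℝ) *
        (if t ∈ S then (2 : ℝ) else 1) = 2 := by
      intro t
      by_cases ht : t ∈ S <;> simp [ht]
    simp only [h4]
    simp
  unfold Ex
  rw [Finset.sum_boole, h1]
  have hc : ((Fintype.card (ι → Bool) : ℕ) : ℝ) = 2 ^ Fintype.card ι := by
    simp
  rw [hc, ← h2]
  have hpos : ((Fintype.piFinset (fun t => if t ∈ S then ({g t} : Finset Bool)
      else Finset.univ)).card : ℝ) ≠ 0 := by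
    intro h0
    rw [h0, zero_mul] at h2
    exact absurd h2.symm (by positivity)
  field_simp
  rw [← mul_pow]
  norm_num

theorem Ex_fix_along {L : ℕ} (A : Finset K) (v : K → Deck L) (β : K → Bool) :
    Ex (fun e : Flips L => if ∀ c ∈ A, e (v c) = β c then (1 : ℝ) else 0) =
      if (∀ c ∈ A, ∀ d ∈ A, v c = v d → β c = β d) then (1 / 2) ^ (A.image v).card else 0 := by
  classical
  by_cases hc : ∀ c ∈ A, ∀ d ∈ A, v c = v d → β c = β d
  · rw [if_pos hc]
    let g : Deck L → Bool := fun t => if h : ∃ c ∈ A, v c = t then β (Classical.choose h) else false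
    have hg : ∀ c ∈ A, g (v c) = β c := by
      intro c hcA
      have h : ∃ d ∈ A, v d = v c := ⟨c, hcA, rfl⟩
      simp only [g, dif_pos h]
      have h2 := Classical.choose_spec h
      exact hc _ h2.1 _ hcA h2.2
    rw [← Ex_fix (A.image v) g]
    refine Ex_congr (fun e => ?_)
    have : (∀ c ∈ A, e (v c) = β c) ↔ ∀ t ∈ A.image v, e t = g t := by
      constructor
      · intro h t ht
        obtain ⟨c, hcA, rfl⟩ := Finset.mem_image.mp ht
        rw [h c hcA, hg c hcA]
      · intro h c hcA
        rw [h (v c) (Finset.mem_image_of_mem v hcA), hg c hcA]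
    simp only [this]
  · rw [if_neg hc]
    push Not at hc
    obtain ⟨c, hcA, d, hdA, hvv, hne⟩ := hc
    have : ∀ e : Flips L, (if ∀ c ∈ A, e (v c) = β c then (1 : ℝ) else 0) = 0 := by
      intro e
      rw [if_neg]
      intro h
      apply hne
      rw [← h c hcA, ← h d hdA, hvv]
    simp only [this]
    unfold Ex
    simp

/-- Splitting an expectation over the values of a function. -/
theorem Ex_partition {α β : Type*} [Fintype α] [DecidableEq β] (S : Finset β) (f : α → β)
    (hf : ∀ a, f a ∈ S) (G : β → ℝ) :
    Ex (fun a => G (f a)) = ∑ b ∈ S, Ex (fun a => if f a = b then (1 : ℝ) else 0) * G b := by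
  have h1 : ∀ a, G (f a) = ∑ b ∈ S, (if f a = b then (1 : ℝ) else 0) * G b := by
    intro a
    simp only [ite_mul, one_mul, zero_mul]
    rw [Finset.sum_ite_eq, if_pos (hf a)]
  simp only [h1]
  rw [Ex_sum]
  refine Finset.sum_congr rfl (fun b _ => ?_)
  rw [Ex_mul_const]

/-! ### The bound E1 -/

theorem InjOn_of_event {L : ℕ} (σ : Equiv.Perm (Deck L)) (A : Finset K) (x y : K → Deck L)
    (hx : Set.InjOn x A) (h : ∀ c ∈ A, σ (x c) = y c) : Set.InjOn y A := by
  intro c hc d hd hyy
  apply hx hc hd
  apply σ.injective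
  rw [h c hc, h d hd]
  exact hyy

/-- Separation of equal sites from the injectivity of a tuple. -/
theorem sep_iff {L : ℕ} (A : Finset K) (x : K → Deck (L + 1)) (hx : Set.InjOn x A)
    (B : Finset K) (c d : K) (hc : c ∈ A) (hd : d ∈ A) (hne : c ≠ d) (hv : (x c).2 = (x d).2) :
    xor (decide (c ∈ B)) (x c).1 = xor (decide (d ∈ B)) (x d).1 ↔ (c ∈ B ↔ d ∉ B) := by
  have hb : (x c).1 ≠ (x d).1 := by
    intro hb
    exact hne (hx hc hd (Prod.ext hb hv))
  by_cases h1 : c ∈ B <;> by_cases h2 : d ∈ B <;> simp only [h1, h2, decide_true, decide_false] <;>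
    cases hbc : (x c).1 <;> cases hbd : (x d).1 <;> simp_all

/-- The consistency conditions combine to `consSets`. -/
theorem mem_consSets_iff {L : ℕ} (A : Finset K) (x y : K → Deck (L + 1)) (hx : Set.InjOn x A)
    (hy : Set.InjOn y A) (B : Finset K) (hB : B ⊆ A) :
    ((∀ c ∈ A, ∀ d ∈ A, siteOf x c = siteOf x d →
        xor (decide (c ∈ B)) (x c).1 = xor (decide (d ∈ B)) (x d).1) ∧
      (∀ c ∈ A, ∀ d ∈ A, siteOf y c = siteOf y d →
        xor (decide (c ∈ B)) (y c).1 = xor (decide (d ∈ B)) (y d).1)) ↔
      B ∈ consSets A (siteOf x) (siteOf y) := by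
  simp only [consSets, Finset.mem_filter, Finset.mem_powerset, hB, true_and]
  constructor
  · rintro ⟨h1, h2⟩ c hc d hd hne (hor | hor)
    · exact (sep_iff A x hx B c d hc hd hne hor).mp (h1 c hc d hd hor)
    · exact (sep_iff A y hy B c d hc hd hne hor).mp (h2 c hc d hd hor)
  · intro h
    constructor
    · intro c hc d hd hv
      by_cases hne : c = d
      · rw [hne]
      · exact (sep_iff A x hx B c d hc hd hne hv).mpr (h c hc d hd hne (Or.inl hv))
    · intro c hc d hd hv
      by_cases hne : c = d
      · rw [hne]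
      · exact (sep_iff A y hy B c d hc hd hne hv).mpr (h c hc d hd hne (Or.inr hv))

/-- Factorisation of the integrand of E1 for fixed `e`. -/
theorem E1_factor {L : ℕ} (A : Finset K) (x y : K → Deck (L + 1)) (e : Flips L) (ω0 ω1 : DΩ L)
    (e' : Flips L) :
    (if ∀ c ∈ A, pi (L + 1) (e, ω0, ω1, e') (x c) = y c then (1 : ℝ) else 0) *
        (WW (L + 1) (e, ω0, ω1, e') A x)⁻¹ =
      ((if ∀ c ∈ A.filter (fun c => childOf e x c = false), pi L ω0 (siteOf x c) = siteOf y c
          then (1 : ℝ) else 0) * (WW L ω0 (A.filter fun c => childOf e x c = false) (siteOf x))⁻¹) *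
      ((if ∀ c ∈ A.filter (fun c => childOf e x c = true), pi L ω1 (siteOf x c) = siteOf y c
          then (1 : ℝ) else 0) * (WW L ω1 (A.filter fun c => childOf e x c = true) (siteOf x))⁻¹) *
      ((if ∀ c ∈ A, e' (siteOf y c) = xor (childOf e x c) (y c).1 then (1 : ℝ) else 0) *
        (corr L (A.filter fun c => childOf e x c = false).card
          (A.filter fun c => childOf e x c = true).card *
          Gam A (siteOf x) (siteOf y))⁻¹) := by
  set A0 := A.filter (fun c => childOf e x c = false) with hA0
  set A1 := A.filter (fun c => childOf e x c = true) with hA1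
  have hpi : ∀ c, pi (L + 1) (e, ω0, ω1, e') (x c) =
      (xor (childOf e x c) (e' (if childOf e x c then pi L ω1 (siteOf x c) else pi L ω0 (siteOf x c))),
        if childOf e x c then pi L ω1 (siteOf x c) else pi L ω0 (siteOf x c)) := fun c => rfl
  have hone : ∀ c, pi (L + 1) (e, ω0, ω1, e') (x c) = y c ↔
      ((if childOf e x c then pi L ω1 (siteOf x c) else pi L ω0 (siteOf x c)) = siteOf y c ∧
        e' (siteOf y c) = xor (childOf e x c) (y c).1) := by
    intro c
    rw [hpi]
    constructor
    · intro h
      have h1 := congrArg Prod.snd h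
      have h2 := congrArg Prod.fst h
      simp only at h1 h2
      have h1' : (if childOf e x c then pi L ω1 (siteOf x c) else pi L ω0 (siteOf x c)) =
          siteOf y c := h1
      refine ⟨h1', ?_⟩
      rw [h1'] at h2
      rw [← h2]
      simp
    · rintro ⟨h1, h2⟩
      rw [h1, h2]
      refine Prod.ext ?_ rfl
      simp
  by_cases h0 : ∀ c ∈ A0, pi L ω0 (siteOf x c) = siteOf y c
  · by_cases h1 : ∀ c ∈ A1, pi L ω1 (siteOf x c) = siteOf y c
    · by_cases h2 : ∀ c ∈ A, e' (siteOf y c) = xor (childOf e x c) (y c).1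
      · have hyb : ∀ c ∈ A, (if childOf e x c then pi L ω1 (siteOf x c)
            else pi L ω0 (siteOf x c)) = siteOf y c := by
          intro c hc
          cases hε : childOf e x c
          · simp only [Bool.false_eq_true, if_false]
            exact h0 c (Finset.mem_filter.mpr ⟨hc, hε⟩)
          · simp only [if_true]
            exact h1 c (Finset.mem_filter.mpr ⟨hc, hε⟩)
        have hev : ∀ c ∈ A, pi (L + 1) (e, ω0, ω1, e') (x c) = y c :=
          fun c hc => (hone c).mpr ⟨hyb c hc, h2 c hc⟩
        rw [if_pos hev, if_pos h0, if_pos h1, if_pos h2, WW_succ,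
          Gam_congr A (siteOf x) (siteOf x) _ (siteOf y) (fun _ _ => rfl) hyb]
        simp only [one_mul, mul_inv]
        ring
      · have hev : ¬ ∀ c ∈ A, pi (L + 1) (e, ω0, ω1, e') (x c) = y c :=
          fun h => h2 (fun c hc => ((hone c).mp (h c hc)).2)
        rw [if_neg hev, if_neg h2]
        simp
    · have hev : ¬ ∀ c ∈ A, pi (L + 1) (e, ω0, ω1, e') (x c) = y c := by
        intro h
        apply h1
        intro c hc
        have hc' := Finset.mem_filter.mp hc
        have := ((hone c).mp (h c hc'.1)).1
        rw [hc'.2] at this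
        simpa using this
      rw [if_neg hev, if_neg h1]
      simp
  · have hev : ¬ ∀ c ∈ A, pi (L + 1) (e, ω0, ω1, e') (x c) = y c := by
      intro h
      apply h0
      intro c hc
      have hc' := Finset.mem_filter.mp hc
      have := ((hone c).mp (h c hc'.1)).1
      rw [hc'.2] at this
      simpa using this
    rw [if_neg hev, if_neg h0]
    simp

theorem siteOf_injOn_child {L : ℕ} (A : Finset K) (x : K → Deck (L + 1)) (hx : Set.InjOn x A)
    (e : Flips L) (b : Bool) :
    Set.InjOn (siteOf x) (A.filter fun c => childOf e x c = b) := by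
  intro c hc d hd hv
  have hc' := Finset.mem_filter.mp (Finset.mem_coe.mp hc)
  have hd' := Finset.mem_filter.mp (Finset.mem_coe.mp hd)
  apply hx (Finset.mem_coe.mpr hc'.1) (Finset.mem_coe.mpr hd'.1)
  have hv' : (x c).2 = (x d).2 := hv
  refine Prod.ext ?_ hv'
  have h1 := hc'.2
  have h2 := hd'.2
  simp only [childOf] at h1 h2
  rw [hv'] at h1
  have h3 : xor (x c).1 (e (x d).2) = xor (x d).1 (e (x d).2) := h1.trans h2.symm
  simpa using h3

/-- The arithmetic of one term of the sum over `B`. -/
theorem E1_term (L : ℕ) (a0 a1 s1 s2 n : ℕ) (hn : 0 < n) (h0 : a0 ≤ 2 ^ L) (h1 : a1 ≤ 2 ^ L) :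
    ((1 / 2 : ℝ) ^ s1 * (1 / 2 : ℝ) ^ s2) *
      (((Nat.descFactorial (2 ^ L) a0 : ℕ) : ℝ)⁻¹ * ((Nat.descFactorial (2 ^ L) a1 : ℕ) : ℝ)⁻¹ *
        (corr L a0 a1 * ((n : ℝ) * 2 ^ (a0 + a1) / (2 ^ s1 * 2 ^ s2)))⁻¹) =
      (n : ℝ)⁻¹ * ((Nat.descFactorial (2 ^ (L + 1)) (a0 + a1) : ℕ) : ℝ)⁻¹ := by
  have hd0 : ((Nat.descFactorial (2 ^ L) a0 : ℕ) : ℝ) ≠ 0 := by
    have : Nat.descFactorial (2 ^ L) a0 ≠ 0 := by
      rw [Ne, Nat.descFactorial_eq_zero_iff_lt]; omega
    exact_mod_cast this
  have hd1 : ((Nat.descFactorial (2 ^ L) a1 : ℕ) : ℝ) ≠ 0 := by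
    have : Nat.descFactorial (2 ^ L) a1 ≠ 0 := by
      rw [Ne, Nat.descFactorial_eq_zero_iff_lt]; omega
    exact_mod_cast this
  have hn' : (n : ℝ) ≠ 0 := by exact_mod_cast hn.ne'
  unfold corr
  by_cases hD : ((Nat.descFactorial (2 ^ (L + 1)) (a0 + a1) : ℕ) : ℝ) = 0
  · rw [hD]
    simp
  · have e1 : (1 / 2 : ℝ) ^ s1 = ((2 : ℝ) ^ s1)⁻¹ := by simp
    have e2 : (1 / 2 : ℝ) ^ s2 = ((2 : ℝ) ^ s2)⁻¹ := by simp
    rw [e1, e2]
    field_simp

/-- E1. -/
theorem E1 : ∀ (L : ℕ) (A : Finset K) (x y : K → Deck L), Set.InjOn x A →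
    Ex (fun ω : DΩ L => (if ∀ c ∈ A, pi L ω (x c) = y c then (1 : ℝ) else 0) * (WW L ω A x)⁻¹) ≤
      ((Nat.descFactorial (2 ^ L) A.card : ℕ) : ℝ)⁻¹
  | 0, A, x, y, hx => by
      rw [Ex_DΩ_zero]
      have hA : A.card ≤ 1 := by
        apply Finset.card_le_one.mpr
        intro c hc d hd
        exact hx hc hd rfl
      have hd : Nat.descFactorial (2 ^ 0) A.card = 1 := by
        interval_cases h : A.card <;> simp
      rw [hd]
      change (if _ then (1 : ℝ) else 0) * (1 : ℝ)⁻¹ ≤ _
      split_ifs <;> norm_num
  | L + 1, A, x, y, hx => by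
      by_cases hy : Set.InjOn y A
      swap
      · have : ∀ ω : DΩ (L + 1),
            (if ∀ c ∈ A, pi (L + 1) ω (x c) = y c then (1 : ℝ) else 0) * (WW (L + 1) ω A x)⁻¹ = 0 := by
          intro ω
          rw [if_neg (fun h => hy (InjOn_of_event _ A x y hx h)), zero_mul]
        simp only [this]
        have : Ex (fun _ : DΩ (L + 1) => (0 : ℝ)) = 0 := by simp [Ex]
        rw [this]
        positivity
      rw [Ex_DΩ_succ]
      simp only [E1_factor]
      -- notation
      set v := siteOf x with hv
      set v' := siteOf y with hv'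
      set Γ := Gam A v v' with hΓ
      have hΓ0 : 0 ≤ Γ := Gam_nonneg _ _ _
      -- the contribution for fixed `e`
      let H : Finset K → ℝ := fun B =>
        ((Nat.descFactorial (2 ^ L) (A \ B).card : ℕ) : ℝ)⁻¹ *
          ((Nat.descFactorial (2 ^ L) B.card : ℕ) : ℝ)⁻¹ *
          (Ex (fun e' : Flips L => if ∀ c ∈ A, e' (v' c) = xor (decide (c ∈ B)) (y c).1
            then (1 : ℝ) else 0) * (corr L (A \ B).card B.card * Γ)⁻¹)
      have hfix : ∀ e : Flips L,
          Ex (fun ω0 : DΩ L => Ex (fun ω1 : DΩ L => Ex (fun e' : Flips L =>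
            ((if ∀ c ∈ A.filter (fun c => childOf e x c = false), pi L ω0 (v c) = v' c
                then (1 : ℝ) else 0) * (WW L ω0 (A.filter fun c => childOf e x c = false) v)⁻¹) *
            ((if ∀ c ∈ A.filter (fun c => childOf e x c = true), pi L ω1 (v c) = v' c
                then (1 : ℝ) else 0) * (WW L ω1 (A.filter fun c => childOf e x c = true) v)⁻¹) *
            ((if ∀ c ∈ A, e' (v' c) = xor (childOf e x c) (y c).1 then (1 : ℝ) else 0) *
              (corr L (A.filter fun c => childOf e x c = false).card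
                (A.filter fun c => childOf e x c = true).card * Γ)⁻¹)))) ≤
            H (A.filter fun c => childOf e x c = true) := by
        intro e
        set A0 := A.filter (fun c => childOf e x c = false) with hA0
        set A1 := A.filter (fun c => childOf e x c = true) with hA1
        have hA0' : A0 = A \ A1 := by
          ext c
          simp only [hA0, hA1, Finset.mem_filter, Finset.mem_sdiff]
          cases childOf e x c <;> simp
        have hchild : ∀ c ∈ A, childOf e x c = decide (c ∈ A1) := by
          intro c hc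
          simp only [hA1, Finset.mem_filter, hc, true_and]
          cases childOf e x c <;> simp
        -- the pieces
        set X : DΩ L → ℝ := fun ω0 => (if ∀ c ∈ A0, pi L ω0 (v c) = v' c then (1 : ℝ) else 0) *
          (WW L ω0 A0 v)⁻¹ with hX
        set Y : DΩ L → ℝ := fun ω1 => (if ∀ c ∈ A1, pi L ω1 (v c) = v' c then (1 : ℝ) else 0) *
          (WW L ω1 A1 v)⁻¹ with hY
        set Z : Flips L → ℝ := fun e' =>
          (if ∀ c ∈ A, e' (v' c) = xor (childOf e x c) (y c).1 then (1 : ℝ) else 0) *
            (corr L A0.card A1.card * Γ)⁻¹ with hZ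
        have hstep : Ex (fun ω0 : DΩ L => Ex (fun ω1 : DΩ L => Ex (fun e' : Flips L =>
            X ω0 * Y ω1 * Z e'))) = Ex X * Ex Y * Ex Z := by
          have h1 : ∀ ω0 ω1, Ex (fun e' : Flips L => X ω0 * Y ω1 * Z e') = X ω0 * Y ω1 * Ex Z :=
            fun ω0 ω1 => Ex_const_mul _ _
          simp only [h1]
          have h2 : ∀ ω0, Ex (fun ω1 : DΩ L => X ω0 * Y ω1 * Ex Z) = X ω0 * Ex Y * Ex Z := by
            intro ω0
            have : (fun ω1 : DΩ L => X ω0 * Y ω1 * Ex Z) = fun ω1 => (X ω0 * Ex Z) * Y ω1 := by
              funext ω1; ring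
            rw [this, Ex_const_mul]; ring
          simp only [h2]
          have : (fun ω0 : DΩ L => X ω0 * Ex Y * Ex Z) = fun ω0 => (Ex Y * Ex Z) * X ω0 := by
            funext ω0; ring
          rw [this, Ex_const_mul]; ring
        refine (le_of_eq hstep).trans ?_
        have hX0 : 0 ≤ Ex X := Ex_nonneg (fun ω0 => mul_nonneg (by split_ifs <;> norm_num)
          (inv_nonneg.mpr (WW_nonneg _ _ _ _)))
        have hY0 : 0 ≤ Ex Y := Ex_nonneg (fun ω0 => mul_nonneg (by split_ifs <;> norm_num)
          (inv_nonneg.mpr (WW_nonneg _ _ _ _)))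
        have hC0 : 0 ≤ (corr L A0.card A1.card * Γ)⁻¹ :=
          inv_nonneg.mpr (mul_nonneg (corr_nonneg _ _ _) hΓ0)
        have hZ0 : 0 ≤ Ex Z := Ex_nonneg (fun e' => mul_nonneg (by split_ifs <;> norm_num) hC0)
        have ih0 : Ex X ≤ ((Nat.descFactorial (2 ^ L) A0.card : ℕ) : ℝ)⁻¹ :=
          E1 L A0 v v' (siteOf_injOn_child A x hx e false)
        have ih1 : Ex Y ≤ ((Nat.descFactorial (2 ^ L) A1.card : ℕ) : ℝ)⁻¹ :=
          E1 L A1 v v' (siteOf_injOn_child A x hx e true)
        have hZeq : Ex Z = Ex (fun e' : Flips L =>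
            if ∀ c ∈ A, e' (v' c) = xor (decide (c ∈ A1)) (y c).1 then (1 : ℝ) else 0) *
            (corr L (A \ A1).card A1.card * Γ)⁻¹ := by
          rw [hZ, Ex_mul_const, hA0']
          congr 2
          funext e'
          have : (∀ c ∈ A, e' (v' c) = xor (childOf e x c) (y c).1) ↔
              ∀ c ∈ A, e' (v' c) = xor (decide (c ∈ A1)) (y c).1 := by
            constructor
            · intro h c hc
              rw [← hchild c hc]; exact h c hc
            · intro h c hc
              rw [hchild c hc]; exact h c hc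
          simp only [this]
        have hfin : Ex X * Ex Y * Ex Z ≤
            ((Nat.descFactorial (2 ^ L) A0.card : ℕ) : ℝ)⁻¹ *
              ((Nat.descFactorial (2 ^ L) A1.card : ℕ) : ℝ)⁻¹ * Ex Z :=
          mul_le_mul_of_nonneg_right (mul_le_mul ih0 ih1 hY0 (by positivity)) hZ0
        refine hfin.trans (le_of_eq ?_)
        simp only [H]
        rw [hZeq, hA0']
      refine (Ex_mono hfix).trans ?_
      -- partition according to the set of tokens entering child 1
      have hmem : ∀ e : Flips L, (A.filter fun c => childOf e x c = true) ∈ A.powerset :=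
        fun e => Finset.mem_powerset.mpr (Finset.filter_subset _ _)
      rw [Ex_partition A.powerset (fun e : Flips L => A.filter fun c => childOf e x c = true) hmem H]
      -- probability of a pattern
      have hPe : ∀ B ∈ A.powerset,
          Ex (fun e : Flips L => if (A.filter fun c => childOf e x c = true) = B
            then (1 : ℝ) else 0) =
          if (∀ c ∈ A, ∀ d ∈ A, v c = v d →
              xor (decide (c ∈ B)) (x c).1 = xor (decide (d ∈ B)) (x d).1)
            then (1 / 2) ^ (A.image v).card else 0 := by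
        intro B hB
        have hBA := Finset.mem_powerset.mp hB
        rw [← Ex_fix_along]
        refine Ex_congr (fun e => ?_)
        have : (A.filter fun c => childOf e x c = true) = B ↔
            ∀ c ∈ A, e (v c) = xor (decide (c ∈ B)) (x c).1 := by
          constructor
          · rintro rfl c hc
            have hdec : decide (c ∈ A.filter fun c => childOf e x c = true) = childOf e x c := by
              simp only [Finset.mem_filter, hc, true_and]
              simp
            rw [hdec]
            simp only [childOf, hv, siteOf]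
            generalize (x c).1 = p
            generalize e (x c).2 = q
            revert p q
            decide
          · intro h
            ext c
            simp only [Finset.mem_filter]
            constructor
            · rintro ⟨hc, hch⟩
              have h3 := h c hc
              simp only [childOf, hv, siteOf] at hch h3
              rw [h3] at hch
              by_contra hcB
              simp [hcB] at hch
            · intro hcB
              have hc := hBA hcB
              refine ⟨hc, ?_⟩
              have h3 := h c hc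
              simp only [childOf, hv, siteOf] at h3 ⊢
              rw [h3]
              simp [hcB]
        simp only [this]
      have hPe' : ∀ B : Finset K,
          Ex (fun e' : Flips L => if ∀ c ∈ A, e' (v' c) = xor (decide (c ∈ B)) (y c).1
            then (1 : ℝ) else 0) =
          if (∀ c ∈ A, ∀ d ∈ A, v' c = v' d →
              xor (decide (c ∈ B)) (y c).1 = xor (decide (d ∈ B)) (y d).1)
            then (1 / 2) ^ (A.image v').card else 0 := fun B => Ex_fix_along _ _ _
      -- the sum over `consSets`
      set Cons := consSets A v v' with hCons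
      have hterm : ∀ B ∈ A.powerset,
          Ex (fun e : Flips L => if (A.filter fun c => childOf e x c = true) = B
            then (1 : ℝ) else 0) * H B =
          if B ∈ Cons then ((Cons.card : ℝ)⁻¹ * ((Nat.descFactorial (2 ^ (L + 1)) A.card : ℕ) : ℝ)⁻¹)
            else 0 := by
        intro B hB
        have hBA := Finset.mem_powerset.mp hB
        rw [hPe B hB]
        simp only [H]
        rw [hPe' B]
        have hiff := mem_consSets_iff A x y hx hy B hBA
        by_cases hBC : B ∈ Cons
        · rw [if_pos hBC]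
          obtain ⟨hc1, hc2⟩ := hiff.mpr hBC
          rw [if_pos hc1, if_pos hc2]
          have hCpos : 0 < Cons.card := Finset.card_pos.mpr ⟨B, hBC⟩
          have hsep := (Finset.mem_filter.mp hBC).2
          have hcard0 : (A \ B).card ≤ 2 ^ L := by
            rw [← card_deck L, ← Finset.card_univ]
            apply Finset.card_le_card_of_injOn v (fun _ _ => Finset.mem_univ _)
            intro c hc d hd hvv
            by_contra hne
            have hc' := Finset.mem_sdiff.mp (Finset.mem_coe.mp hc)
            have hd' := Finset.mem_sdiff.mp (Finset.mem_coe.mp hd)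
            have := hsep c hc'.1 d hd'.1 hne (Or.inl hvv)
            exact hd'.2 (by_contra (fun h => hc'.2 (this.mpr h)))
          have hcard1 : B.card ≤ 2 ^ L := by
            rw [← card_deck L, ← Finset.card_univ]
            apply Finset.card_le_card_of_injOn v (fun _ _ => Finset.mem_univ _)
            intro c hc d hd hvv
            by_contra hne
            have hc' := Finset.mem_coe.mp hc
            have hd' := Finset.mem_coe.mp hd
            have := hsep c (hBA hc') d (hBA hd') hne (Or.inl hvv)
            exact (this.mp hc') hd'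
          have hsum : (A \ B).card + B.card = A.card := Finset.card_sdiff_add_card_eq_card hBA
          have hΓeq : Γ = (Cons.card : ℝ) * 2 ^ ((A \ B).card + B.card) /
              (2 ^ (A.image v).card * 2 ^ (A.image v').card) := by
            rw [hsum]; rfl
          rw [hΓeq]
          have := E1_term L (A \ B).card B.card (A.image v).card (A.image v').card Cons.card hCpos
            hcard0 hcard1
          rw [hsum] at this
          rw [← this, hsum]
          ring
        · rw [if_neg hBC]
          by_cases hc1 : ∀ c ∈ A, ∀ d ∈ A, v c = v d →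
              xor (decide (c ∈ B)) (x c).1 = xor (decide (d ∈ B)) (x d).1
          · by_cases hc2 : ∀ c ∈ A, ∀ d ∈ A, v' c = v' d →
                xor (decide (c ∈ B)) (y c).1 = xor (decide (d ∈ B)) (y d).1
            · exact absurd (hiff.mp ⟨hc1, hc2⟩) hBC
            · rw [if_neg hc2]; simp
          · rw [if_neg hc1]; simp
      rw [Finset.sum_congr rfl hterm]
      have hsub : Cons ⊆ A.powerset := Finset.filter_subset _ _
      rw [Finset.sum_ite_mem, Finset.inter_eq_right.mpr hsub, Finset.sum_const, nsmul_eq_mul]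
      by_cases h0 : Cons.card = 0
      · rw [h0]
        simp only [Nat.cast_zero, zero_mul]
        positivity
      · have h0' : (Cons.card : ℝ) ≠ 0 := by exact_mod_cast h0
        rw [← mul_assoc, mul_inv_cancel₀ h0', one_mul]

end Crest.Agent.Thorp
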