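/-
Thorp shuffle, Count module, linear algebra: from a family of decompositions `D = Db + Dr` with small
Hilbert-Schmidt `Db` and small operator-norm `Dr` to a bound on `tr D^8`.
-/
import Mathlib

set_option autoImplicit false

namespace Crest.Agent.Thorp.CountSpec

open Matrix

set_option linter.unusedSectionVars false

variable {ι : Type*} [Fintype ι] [DecidableEq ι]

/-- Squared `ℓ²` norm. -/
def l2sq (v : ι → ℝ) : ℝ := ∑ x, v x ^ 2

theorem l2sq_nonneg (v : ι → ℝ) : 0 ≤ l2sq v := Finset.sum_nonneg (fun _ _ => sq_nonneg _)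

/-- Hilbert-Schmidt norm squared. -/
def hs (M : Matrix ι ι ℝ) : ℝ := ∑ x, ∑ y, M x y ^ 2

theorem hs_eq_trace (M : Matrix ι ι ℝ) : hs M = Matrix.trace (M * Mᵀ) := by
  simp only [hs, Matrix.trace, Matrix.diag, Matrix.mul_apply, Matrix.transpose_apply, sq]

section Eigen

variable (D : Matrix ι ι ℝ) (hA : D.IsHermitian)

/-- The eigenvector matrix. -/
noncomputable def eU : Matrix ι ι ℝ := (hA.eigenvectorUnitary : Matrix ι ι ℝ)

theorem eU_mul_transpose : eU D hA * (eU D hA)ᵀ = 1 := by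
  have h := (Matrix.mem_unitaryGroup_iff).mp hA.eigenvectorUnitary.2
  simpa [eU, Matrix.star_eq_conjTranspose, Matrix.conjTranspose_eq_transpose_of_trivial] using h

theorem eU_transpose_mul : (eU D hA)ᵀ * eU D hA = 1 := by
  have h := (Matrix.mem_unitaryGroup_iff').mp hA.eigenvectorUnitary.2
  simpa [eU, Matrix.star_eq_conjTranspose, Matrix.conjTranspose_eq_transpose_of_trivial] using h

/-- The `j`-th eigenvector. -/
noncomputable def eV (j : ι) : ι → ℝ := fun x => eU D hA x j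

theorem eV_l2sq (j : ι) : l2sq (eV D hA j) = 1 := by
  have h := congrFun (congrFun (eU_transpose_mul D hA) j) j
  simp only [Matrix.mul_apply, Matrix.transpose_apply, Matrix.one_apply_eq] at h
  simp only [l2sq, eV, sq]
  exact h

theorem D_mulVec_eV (j : ι) : D *ᵥ eV D hA j = hA.eigenvalues j • eV D hA j := by
  have h := hA.mulVec_eigenvectorBasis j
  have h2 : eV D hA j = ⇑(hA.eigenvectorBasis j) := by
    funext x
    simp only [eV, eU]
    rw [Matrix.IsHermitian.eigenvectorUnitary_apply]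
  rw [h2]
  simpa using h

theorem Dpow_mulVec_eV (n : ℕ) (j : ι) :
    (D ^ n) *ᵥ eV D hA j = (hA.eigenvalues j) ^ n • eV D hA j := by
  induction n with
  | zero => simp
  | succ n ih =>
      rw [pow_succ, ← Matrix.mulVec_mulVec, D_mulVec_eV, Matrix.mulVec_smul, ih, smul_smul, pow_succ,
        mul_comm]

/-- Hilbert-Schmidt norm through an orthonormal basis. -/
theorem sum_l2sq_mulVec (M : Matrix ι ι ℝ) :
    ∑ j, l2sq (M *ᵥ eV D hA j) = hs M := by
  have h1 : ∀ j x, (M *ᵥ eV D hA j) x = (M * eU D hA) x j := by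
    intro j x
    simp [Matrix.mulVec, dotProduct, Matrix.mul_apply, eV]
  have h2 : hs M = hs (M * eU D hA) := by
    rw [hs_eq_trace, hs_eq_trace, Matrix.transpose_mul, Matrix.mul_assoc, ← Matrix.mul_assoc (eU D hA),
      eU_mul_transpose, Matrix.one_mul]
  rw [h2]
  simp only [l2sq, h1, hs]
  rw [Finset.sum_comm]

/-- Trace through an orthonormal basis: `tr D^n = ∑ λ^n`. -/
theorem trace_pow_eq (n : ℕ) : Matrix.trace (D ^ n) = ∑ j, (hA.eigenvalues j) ^ n := by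
  have h1 : Matrix.trace (D ^ n) = Matrix.trace ((eU D hA)ᵀ * (D ^ n * eU D hA)) := by
    rw [Matrix.trace_mul_comm, Matrix.mul_assoc, eU_mul_transpose, Matrix.mul_one]
  rw [h1, Matrix.trace]
  refine Finset.sum_congr rfl (fun j _ => ?_)
  rw [Matrix.diag_apply, Matrix.mul_apply]
  simp only [Matrix.transpose_apply]
  have h2 : ∀ x, (D ^ n * eU D hA) x j = (hA.eigenvalues j) ^ n * eV D hA j x := by
    intro x
    have := congrFun (Dpow_mulVec_eV D hA n j) x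
    simp only [Pi.smul_apply, smul_eq_mul] at this
    rw [← this]
    simp [Matrix.mulVec, dotProduct, Matrix.mul_apply, eV]
  simp only [h2]
  have h3 := eV_l2sq D hA j
  simp only [l2sq] at h3
  calc ∑ x, eU D hA x j * ((hA.eigenvalues j) ^ n * eV D hA j x)
      = (hA.eigenvalues j) ^ n * ∑ x, eV D hA j x ^ 2 := by
        rw [Finset.mul_sum]
        refine Finset.sum_congr rfl (fun x _ => ?_)
        simp only [eV]
        ring
    _ = _ := by rw [h3, mul_one]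

theorem l2sq_smul (c : ℝ) (v : ι → ℝ) : l2sq (c • v) = c ^ 2 * l2sq v := by
  simp only [l2sq, Pi.smul_apply, smul_eq_mul, mul_pow, Finset.mul_sum]

theorem l2sq_add_le (a b : ι → ℝ) : l2sq (a + b) ≤ 2 * l2sq a + 2 * l2sq b := by
  simp only [l2sq, Pi.add_apply, Finset.mul_sum, ← Finset.sum_add_distrib]
  exact Finset.sum_le_sum (fun x _ => by nlinarith [sq_nonneg (a x - b x)])

/-- The eigenvalue count. -/
theorem count_le (Db Dr : Matrix ι ι ℝ) (h : D = Db + Dr) (ε Θ : ℝ) (hε : 0 < ε)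
    (hDb : hs Db ≤ Θ) (hDr : ∀ v, l2sq (Dr *ᵥ v) ≤ ε ^ 2 * l2sq v) :
    ((Finset.univ.filter (fun j => 2 * ε < |hA.eigenvalues j|)).card : ℝ) * ε ^ 2 ≤ Θ := by
  have hj : ∀ j ∈ Finset.univ.filter (fun j => 2 * ε < |hA.eigenvalues j|),
      ε ^ 2 ≤ l2sq (Db *ᵥ eV D hA j) := by
    intro j hj
    have hlam : 2 * ε < |hA.eigenvalues j| := by simpa using hj
    have h1 : hA.eigenvalues j • eV D hA j = Db *ᵥ eV D hA j + Dr *ᵥ eV D hA j := by
      rw [← D_mulVec_eV D hA j, ← Matrix.add_mulVec, ← h]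
    have h2 := l2sq_add_le (Db *ᵥ eV D hA j) (Dr *ᵥ eV D hA j)
    rw [← h1, l2sq_smul, eV_l2sq, mul_one] at h2
    have h3 := hDr (eV D hA j)
    rw [eV_l2sq, mul_one] at h3
    have h4 : (2 * ε) ^ 2 < (hA.eigenvalues j) ^ 2 := by
      rw [← sq_abs (hA.eigenvalues j)]
      exact pow_lt_pow_left₀ hlam (by positivity) (by norm_num)
    nlinarith
  calc ((Finset.univ.filter (fun j => 2 * ε < |hA.eigenvalues j|)).card : ℝ) * ε ^ 2
      = ∑ j ∈ Finset.univ.filter (fun j => 2 * ε < |hA.eigenvalues j|), ε ^ 2 := by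
        rw [Finset.sum_const, nsmul_eq_mul]
    _ ≤ ∑ j ∈ Finset.univ.filter (fun j => 2 * ε < |hA.eigenvalues j|),
          l2sq (Db *ᵥ eV D hA j) := Finset.sum_le_sum hj
    _ ≤ ∑ j, l2sq (Db *ᵥ eV D hA j) :=
        Finset.sum_le_sum_of_subset_of_nonneg (Finset.filter_subset _ _)
          (fun _ _ _ => l2sq_nonneg _)
    _ = hs Db := sum_l2sq_mulVec D hA Db
    _ ≤ Θ := hDb

end Eigen

/-- The Schur test. -/
theorem schur (M : Matrix ι ι ℝ) (hM : ∀ x y, 0 ≤ M x y) (R C : ℝ) (hR : ∀ x, ∑ y, M x y ≤ R)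
    (hC : ∀ y, ∑ x, M x y ≤ C) (v : ι → ℝ) : l2sq (M *ᵥ v) ≤ R * C * l2sq v := by
  by_cases hι : IsEmpty ι
  · simp [l2sq]
  haveI : Nonempty ι := not_isEmpty_iff.mp hι
  have hR0 : 0 ≤ R := by
    obtain ⟨x⟩ := ‹Nonempty ι›
    exact (Finset.sum_nonneg (fun y _ => hM x y)).trans (hR x)
  have h1 : ∀ x, (M *ᵥ v) x ^ 2 ≤ R * ∑ y, M x y * v y ^ 2 := by
    intro x
    have hcs := Finset.sum_mul_sq_le_sq_mul_sq (Finset.univ : Finset ι)
      (fun y => Real.sqrt (M x y)) (fun y => Real.sqrt (M x y) * v y)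
    have e1 : ∀ y, Real.sqrt (M x y) * (Real.sqrt (M x y) * v y) = M x y * v y := by
      intro y
      rw [← mul_assoc, Real.mul_self_sqrt (hM x y)]
    have e2 : ∀ y, Real.sqrt (M x y) ^ 2 = M x y := fun y => Real.sq_sqrt (hM x y)
    have e3 : ∀ y, (Real.sqrt (M x y) * v y) ^ 2 = M x y * v y ^ 2 := by
      intro y
      rw [mul_pow, Real.sq_sqrt (hM x y)]
    simp only [e1, e2, e3] at hcs
    have hmv : (M *ᵥ v) x = ∑ y, M x y * v y := rfl
    rw [hmv]
    refine hcs.trans ?_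
    exact mul_le_mul_of_nonneg_right (hR x)
      (Finset.sum_nonneg (fun y _ => mul_nonneg (hM x y) (sq_nonneg _)))
  calc l2sq (M *ᵥ v) = ∑ x, (M *ᵥ v) x ^ 2 := rfl
    _ ≤ ∑ x, R * ∑ y, M x y * v y ^ 2 := Finset.sum_le_sum (fun x _ => h1 x)
    _ = R * ∑ y, (∑ x, M x y) * v y ^ 2 := by
        rw [← Finset.mul_sum, Finset.sum_comm]
        congr 1
        refine Finset.sum_congr rfl (fun y _ => ?_)
        rw [Finset.sum_mul]
    _ ≤ R * ∑ y, C * v y ^ 2 := by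
        apply mul_le_mul_of_nonneg_left _ hR0
        exact Finset.sum_le_sum (fun y _ => mul_le_mul_of_nonneg_right (hC y) (sq_nonneg _))
    _ = R * C * l2sq v := by
        rw [mul_assoc, l2sq, ← Finset.mul_sum]

/-- Dyadic bound of the eighth power. -/
theorem pow8_le_dyadic (lam : ℝ) (h1 : |lam| ≤ 1) (n : ℕ) :
    lam ^ 8 ≤ (∑ l ∈ Finset.range n, ((1 / 2 : ℝ) ^ l) ^ 8 *
        (if (1 / 2 : ℝ) ^ (l + 1) < |lam| then 1 else 0)) + ((1 / 2 : ℝ) ^ n) ^ 8 := by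
  have h8 : lam ^ 8 = |lam| ^ 8 := by
    rw [show (8 : ℕ) = 2 * 4 by norm_num, pow_mul, pow_mul, sq_abs]
  induction n with
  | zero =>
      simp only [Finset.range_zero, Finset.sum_empty, pow_zero, one_pow, zero_add]
      rw [h8]
      exact pow_le_one₀ (abs_nonneg _) h1
  | succ n ih =>
      rw [Finset.sum_range_succ]
      by_cases hc : (1 / 2 : ℝ) ^ (n + 1) < |lam|
      · rw [if_pos hc]
        have : 0 ≤ ((1 / 2 : ℝ) ^ (n + 1)) ^ 8 := by positivity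
        linarith
      · rw [if_neg hc]
        have h2 : |lam| ^ 8 ≤ ((1 / 2 : ℝ) ^ (n + 1)) ^ 8 :=
          pow_le_pow_left₀ (abs_nonneg _) (not_lt.mp hc) 8
        have h3 : 0 ≤ ∑ l ∈ Finset.range n, ((1 / 2 : ℝ) ^ l) ^ 8 *
            (if (1 / 2 : ℝ) ^ (l + 1) < |lam| then (1 : ℝ) else 0) :=
          Finset.sum_nonneg (fun l _ => by positivity)
        rw [h8]
        linarith

/-- The abstract trace bound. -/
theorem trace_pow8_le (D : Matrix ι ι ℝ) (hs' : D.IsSymm) (Y : ℝ) (hY : 0 ≤ Y)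
    (hD1 : ∀ v : ι → ℝ, l2sq (D *ᵥ v) ≤ l2sq v)
    (hdec : ∀ ε : ℝ, 0 < ε → ∃ Db Dr : Matrix ι ι ℝ, D = Db + Dr ∧ hs Db ≤ (Y / ε) ^ 5 ∧
      ∀ v, l2sq (Dr *ᵥ v) ≤ ε ^ 2 * l2sq v) :
    Matrix.trace (D ^ 8) ≤ 2 ^ 15 * Y ^ 5 := by
  have hA : D.IsHermitian := by
    rw [Matrix.IsHermitian, Matrix.conjTranspose_eq_transpose_of_trivial]
    exact hs'
  rw [trace_pow_eq D hA 8]
  have hlam1 : ∀ j, |hA.eigenvalues j| ≤ 1 := by
    intro j
    have h := hD1 (eV D hA j)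
    rw [D_mulVec_eV, l2sq_smul, eV_l2sq, mul_one] at h
    rw [← sq_le_one_iff₀ (abs_nonneg _), sq_abs]
    exact h
  -- the counts
  have hcount : ∀ l : ℕ, ((Finset.univ.filter
      (fun j => (1 / 2 : ℝ) ^ (l + 1) < |hA.eigenvalues j|)).card : ℝ) ≤
        Y ^ 5 * (2 ^ 14 * (2 ^ 7) ^ l) := by
    intro l
    set ε : ℝ := (1 / 2 : ℝ) ^ (l + 2) with hε
    have hεpos : 0 < ε := by positivity
    obtain ⟨Db, Dr, h, hDb, hDr⟩ := hdec ε hεpos
    have h2 := count_le D hA Db Dr h ε _ hεpos hDb hDr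
    have h3 : 2 * ε = (1 / 2 : ℝ) ^ (l + 1) := by
      rw [hε, pow_succ (1 / 2 : ℝ) (l + 1)]; ring
    rw [h3] at h2
    have hε2 : 0 < ε ^ 2 := by positivity
    rw [← le_div_iff₀ hε2] at h2
    refine h2.trans (le_of_eq ?_)
    have h4 : (2 : ℝ) ^ (l + 2) * ε = 1 := by
      rw [hε, ← mul_pow]; norm_num
    have h5 : ε⁻¹ = (2 : ℝ) ^ (l + 2) := by
      field_simp
      linarith [h4]
    rw [div_pow, div_eq_mul_inv, div_eq_mul_inv]
    rw [show (ε ^ 5)⁻¹ = (ε⁻¹) ^ 5 by rw [inv_pow], show (ε ^ 2)⁻¹ = (ε⁻¹) ^ 2 by rw [inv_pow], h5,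
      ← pow_mul (2 : ℝ) 7 l]
    ring
  -- the sum
  apply le_of_forall_pos_le_add
  intro δ hδ
  -- a remainder smaller than `δ`
  have hlim : Filter.Tendsto (fun n : ℕ => (Fintype.card ι : ℝ) * ((1 / 2 : ℝ) ^ n) ^ 8)
      Filter.atTop (nhds 0) := by
    have h1 : Filter.Tendsto (fun n : ℕ => ((1 / 2 : ℝ) ^ n)) Filter.atTop (nhds 0) :=
      tendsto_pow_atTop_nhds_zero_of_lt_one (by norm_num) (by norm_num)
    have h2 := (h1.pow 8).const_mul (Fintype.card ι : ℝ)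
    simpa using h2
  obtain ⟨n, hn⟩ := (hlim.eventually (gt_mem_nhds hδ)).exists
  have hmain : ∑ j, (hA.eigenvalues j) ^ 8 ≤
      (∑ l ∈ Finset.range n, ((1 / 2 : ℝ) ^ l) ^ 8 *
        ((Finset.univ.filter (fun j => (1 / 2 : ℝ) ^ (l + 1) < |hA.eigenvalues j|)).card : ℝ)) +
      (Fintype.card ι : ℝ) * ((1 / 2 : ℝ) ^ n) ^ 8 := by
    calc ∑ j, (hA.eigenvalues j) ^ 8
        ≤ ∑ j, ((∑ l ∈ Finset.range n, ((1 / 2 : ℝ) ^ l) ^ 8 *
            (if (1 / 2 : ℝ) ^ (l + 1) < |hA.eigenvalues j| then 1 else 0)) +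
              ((1 / 2 : ℝ) ^ n) ^ 8) :=
          Finset.sum_le_sum (fun j _ => pow8_le_dyadic _ (hlam1 j) n)
      _ = _ := by
          rw [Finset.sum_add_distrib, Finset.sum_comm, Finset.sum_const, Finset.card_univ,
            nsmul_eq_mul]
          congr 1
          refine Finset.sum_congr rfl (fun l _ => ?_)
          rw [← Finset.mul_sum, Finset.sum_boole]
  have hgeom : ∑ l ∈ Finset.range n, ((1 / 2 : ℝ) ^ l) ^ 8 *
        ((Finset.univ.filter (fun j => (1 / 2 : ℝ) ^ (l + 1) < |hA.eigenvalues j|)).card : ℝ) ≤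
      2 ^ 15 * Y ^ 5 := by
    calc ∑ l ∈ Finset.range n, ((1 / 2 : ℝ) ^ l) ^ 8 *
        ((Finset.univ.filter (fun j => (1 / 2 : ℝ) ^ (l + 1) < |hA.eigenvalues j|)).card : ℝ)
        ≤ ∑ l ∈ Finset.range n, ((1 / 2 : ℝ) ^ l) ^ 8 * (Y ^ 5 * (2 ^ 14 * (2 ^ 7) ^ l)) :=
          Finset.sum_le_sum (fun l _ => mul_le_mul_of_nonneg_left (hcount l) (by positivity))
      _ = 2 ^ 14 * Y ^ 5 * ∑ l ∈ Finset.range n, (1 / 2 : ℝ) ^ l := by
          rw [Finset.mul_sum]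
          refine Finset.sum_congr rfl (fun l _ => ?_)
          have : ((1 / 2 : ℝ) ^ l) ^ 8 * (2 ^ 7) ^ l = (1 / 2 : ℝ) ^ l := by
            rw [← pow_mul, mul_comm l 8, pow_mul, ← mul_pow]
            norm_num
          calc ((1 / 2 : ℝ) ^ l) ^ 8 * (Y ^ 5 * (2 ^ 14 * (2 ^ 7) ^ l))
              = 2 ^ 14 * Y ^ 5 * (((1 / 2 : ℝ) ^ l) ^ 8 * (2 ^ 7) ^ l) := by ring
            _ = _ := by rw [this]
      _ ≤ 2 ^ 14 * Y ^ 5 * 2 := by
          apply mul_le_mul_of_nonneg_left _ (by positivity)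
          have := sum_geometric_two_le n
          simpa using this
      _ = _ := by ring
  linarith

end Crest.Agent.Thorp.CountSpec
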