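/-
Thorp shuffle, Count module: `tr DI^8 ≤ 2^15 32^k` from the moment bound.
-/
import Crest.Agent.Lib.Thorp.CountE1
import Crest.Agent.Lib.Thorp.CountSpec

set_option autoImplicit false
set_option linter.unusedSectionVars false

namespace Crest.Agent.Thorp

open Finset CountSpec

section

variable (K : Type*) [Fintype K] [DecidableEq K] (L : ℕ)

/-- One tuple goes to one tuple. -/
theorem sum_event_right (ω : DΩ L) (x : InjTup K L) (g : ℝ) :
    ∑ y : InjTup K L, (if ∀ c, pi L ω (x.1 c) = y.1 c then g else 0) = g := by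
  classical
  let y0 : InjTup K L := ⟨fun c => pi L ω (x.1 c), fun c d h => x.2 ((pi L ω).injective h)⟩
  have h : ∀ y : InjTup K L, (∀ c, pi L ω (x.1 c) = y.1 c) ↔ y0 = y := by
    intro y
    constructor
    · intro h
      exact Subtype.ext (funext h)
    · rintro rfl c
      rfl
  simp only [h]
  simp

theorem sum_event_left (ω : DΩ L) (y : InjTup K L) (g : InjTup K L → ℝ) :
    ∑ x : InjTup K L, (if ∀ c, pi L ω (x.1 c) = y.1 c then g x else 0) =
      g ⟨fun c => (pi L ω)⁻¹ (y.1 c), fun c d h => y.2 ((pi L ω)⁻¹.injective h)⟩ := by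
  classical
  let x0 : InjTup K L := ⟨fun c => (pi L ω)⁻¹ (y.1 c), fun c d h => y.2 ((pi L ω)⁻¹.injective h)⟩
  have h : ∀ x : InjTup K L, (∀ c, pi L ω (x.1 c) = y.1 c) ↔ x0 = x := by
    intro x
    constructor
    · intro h
      refine Subtype.ext (funext fun c => ?_)
      show (pi L ω)⁻¹ (y.1 c) = x.1 c
      rw [← h c]
      simp
    · rintro rfl c
      show pi L ω ((pi L ω)⁻¹ (y.1 c)) = y.1 c
      simp
  simp only [h]
  simp [x0]

/-- The truncated expectations. -/
noncomputable def Dcut (P : ℝ → Prop) [DecidablePred P] : Matrix (InjTup K L) (InjTup K L) ℝ :=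
  fun x y => Ex (fun ω : DΩ L =>
    (if ∀ c, pi L ω (x.1 c) = y.1 c then (1 : ℝ) else 0) * (if P (WW L ω univ x.1) then (1 : ℝ) else 0))

theorem Dcut_nonneg (P : ℝ → Prop) [DecidablePred P] (x y : InjTup K L) : 0 ≤ Dcut K L P x y :=
  Ex_nonneg (fun ω => mul_nonneg (by split_ifs <;> norm_num) (by split_ifs <;> norm_num))

theorem Dcut_row (P : ℝ → Prop) [DecidablePred P] (x : InjTup K L) :
    ∑ y, Dcut K L P x y = Ex (fun ω : DΩ L => if P (WW L ω univ x.1) then (1 : ℝ) else 0) := by
  simp only [Dcut]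
  rw [← Ex_sum]
  refine Ex_congr (fun ω => ?_)
  simp only [ite_mul, one_mul, zero_mul]
  exact sum_event_right K L ω x _

theorem Dcut_col (P : ℝ → Prop) [DecidablePred P] (y : InjTup K L) :
    ∑ x, Dcut K L P x y = Ex (fun ω : DΩ L => if P (WW L ω univ y.1) then (1 : ℝ) else 0) := by
  simp only [Dcut]
  rw [← Ex_sum]
  have h : ∀ ω : DΩ L, ∑ x : InjTup K L, (if ∀ c, pi L ω (x.1 c) = y.1 c then (1 : ℝ) else 0) *
        (if P (WW L ω univ x.1) then (1 : ℝ) else 0) =
      (if P (WW L (DΩinv L ω) univ y.1) then (1 : ℝ) else 0) := by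
    intro ω
    simp only [ite_mul, one_mul, zero_mul]
    rw [sum_event_left K L ω y (fun x => if P (WW L ω univ x.1) then (1 : ℝ) else 0)]
    have h2 := WW_DΩinv L (DΩinv L ω) (univ : Finset K) y.1
    rw [DΩinv_inv, pi_DΩinv] at h2
    simp only
    rw [h2]
  simp only [h]
  exact Ex_equiv (DΩequiv L) (fun ω => if P (WW L ω univ y.1) then (1 : ℝ) else 0)

end

section

variable (K : Type*) [Fintype K] [DecidableEq K] (L : ℕ)

theorem card_InjTup :
    Fintype.card (InjTup K L) = (2 ^ L).descFactorial (Fintype.card K) := by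
  rw [← card_deck L, ← Fintype.card_embedding_eq]
  exact Fintype.card_congr (Equiv.subtypeInjectiveEquivEmbedding K (Deck L))

/-- The decomposition. -/
theorem trace_DI8_le_of_moment
    (hm : ∀ x : K → Deck L, Function.Injective x →
      Ex (fun ω : DΩ L => (WW L ω univ x) ^ ((1 : ℝ) / 5)) ≤ 2 ^ Fintype.card K)
    (hp : ∀ (ω : DΩ L) (x : K → Deck L), Function.Injective x → 0 < WW L ω univ x) :
    Matrix.trace ((DI K L) ^ 8) ≤ 2 ^ 15 * 32 ^ Fintype.card K := by
  classical
  set Y : ℝ := 2 ^ Fintype.card K with hY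
  have hYpos : 0 < Y := by positivity
  have hY5 : Y ^ 5 = 32 ^ Fintype.card K := by
    rw [hY, ← pow_mul, mul_comm, pow_mul]
    norm_num
  rw [← hY5]
  have hDI : ∀ x y, DI K L x y = Dcut K L (fun _ => True) x y := by
    intro x y
    simp only [DI, Dcut, if_true, mul_one]
  have hsplit : ∀ Θ : ℝ, DI K L = Dcut K L (fun w => w ≤ Θ) + Dcut K L (fun w => Θ < w) := by
    intro Θ
    ext x y
    rw [hDI, Matrix.add_apply]
    simp only [Dcut]
    rw [← Ex_add]
    refine Ex_congr (fun ω => ?_)
    by_cases h : WW L ω univ x.1 ≤ Θ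
    · rw [if_pos h, if_neg (not_lt.mpr h)]
      simp
    · rw [if_neg h, if_pos (not_le.mp h)]
      simp
  apply trace_pow8_le (DI K L) ?_ Y hYpos.le ?_ ?_
  · -- symmetry
    rw [Matrix.IsSymm, DI_eq]
    simp [Matrix.transpose_mul]
  · -- contraction
    intro v
    have h := schur (DI K L) (fun x y => by rw [hDI]; exact Dcut_nonneg K L _ x y) 1 1
      (fun x => by
        simp only [hDI]
        rw [Dcut_row]
        simp [Ex_const])
      (fun y => by
        simp only [hDI]
        rw [Dcut_col]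
        simp [Ex_const]) v
    simpa using h
  · intro ε hε
    set Θ : ℝ := (Y / ε) ^ 5 with hΘ
    have hΘpos : 0 < Θ := by positivity
    refine ⟨Dcut K L (fun w => w ≤ Θ), Dcut K L (fun w => Θ < w), hsplit Θ, ?_, ?_⟩
    · -- Hilbert-Schmidt part
      have hentry : ∀ x y : InjTup K L, Dcut K L (fun w => w ≤ Θ) x y ≤
          Θ * ((Nat.descFactorial (2 ^ L) (Fintype.card K) : ℕ) : ℝ)⁻¹ := by
        intro x y
        have hE := E1 L (univ : Finset K) x.1 y.1 (x.2.injOn)
        rw [Finset.card_univ] at hE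
        refine le_trans ?_ (mul_le_mul_of_nonneg_left hE hΘpos.le)
        rw [← Ex_const_mul]
        apply Ex_mono
        intro ω
        have hW := hp ω x.1 x.2
        have e : (∀ c ∈ (univ : Finset K), pi L ω (x.1 c) = y.1 c) ↔
            ∀ c, pi L ω (x.1 c) = y.1 c := by simp
        simp only [e]
        by_cases hev : ∀ c, pi L ω (x.1 c) = y.1 c
        · rw [if_pos hev]
          by_cases hc : WW L ω univ x.1 ≤ Θ
          · rw [if_pos hc]
            rw [mul_one, one_mul, ← div_eq_mul_inv, one_le_div hW]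
            exact hc
          · rw [if_neg hc]
            simp only [mul_zero, one_mul]
            exact mul_nonneg hΘpos.le (inv_nonneg.mpr hW.le)
        · rw [if_neg hev]
          simp
      have hrow : ∀ x : InjTup K L, ∑ y, Dcut K L (fun w => w ≤ Θ) x y ≤ 1 := by
        intro x
        rw [Dcut_row]
        refine (Ex_mono (g := fun _ => (1 : ℝ)) (fun ω => by split_ifs <;> norm_num)).trans ?_
        rw [Ex_const]
      have hrow2 : ∀ x : InjTup K L, ∑ y, Dcut K L (fun w => w ≤ Θ) x y ^ 2 ≤
          Θ * ((Nat.descFactorial (2 ^ L) (Fintype.card K) : ℕ) : ℝ)⁻¹ := by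
        intro x
        calc ∑ y, Dcut K L (fun w => w ≤ Θ) x y ^ 2
            ≤ ∑ y, (Θ * ((Nat.descFactorial (2 ^ L) (Fintype.card K) : ℕ) : ℝ)⁻¹) *
                Dcut K L (fun w => w ≤ Θ) x y := by
              refine Finset.sum_le_sum (fun y _ => ?_)
              rw [sq]
              exact mul_le_mul_of_nonneg_right (hentry x y) (Dcut_nonneg K L _ x y)
          _ = (Θ * ((Nat.descFactorial (2 ^ L) (Fintype.card K) : ℕ) : ℝ)⁻¹) *
                ∑ y, Dcut K L (fun w => w ≤ Θ) x y := by
              rw [Finset.mul_sum]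
          _ ≤ (Θ * ((Nat.descFactorial (2 ^ L) (Fintype.card K) : ℕ) : ℝ)⁻¹) * 1 :=
              mul_le_mul_of_nonneg_left (hrow x) (by positivity)
          _ = _ := mul_one _
      calc hs (Dcut K L (fun w => w ≤ Θ))
          = ∑ x : InjTup K L, ∑ y, Dcut K L (fun w => w ≤ Θ) x y ^ 2 := rfl
        _ ≤ ∑ _x : InjTup K L, (Θ * ((Nat.descFactorial (2 ^ L) (Fintype.card K) : ℕ) : ℝ)⁻¹) :=
            Finset.sum_le_sum (fun x _ => hrow2 x)
        _ = (Fintype.card (InjTup K L) : ℝ) *
              (Θ * ((Nat.descFactorial (2 ^ L) (Fintype.card K) : ℕ) : ℝ)⁻¹) := by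
            rw [Finset.sum_const, Finset.card_univ, nsmul_eq_mul]
        _ ≤ Θ := by
            rw [card_InjTup]
            by_cases h0 : (Nat.descFactorial (2 ^ L) (Fintype.card K) : ℝ) = 0
            · rw [h0]; simp [hΘpos.le]
            · field_simp
              rfl
    · -- operator part, by the Schur test
      have hmarkov : ∀ x : K → Deck L, Function.Injective x →
          Ex (fun ω : DΩ L => if Θ < WW L ω univ x then (1 : ℝ) else 0) ≤ ε := by
        intro x hx
        have h1 : ∀ ω : DΩ L, (if Θ < WW L ω univ x then (1 : ℝ) else 0) ≤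
            (ε / Y) * (WW L ω univ x) ^ ((1 : ℝ) / 5) := by
          intro ω
          have hW := hp ω x hx
          split_ifs with h
          · have h2 : Θ ^ ((1 : ℝ) / 5) ≤ (WW L ω univ x) ^ ((1 : ℝ) / 5) :=
              Real.rpow_le_rpow hΘpos.le h.le (by norm_num)
            have h3 : Θ ^ ((1 : ℝ) / 5) = Y / ε := by
              rw [hΘ, ← Real.rpow_natCast, ← Real.rpow_mul (by positivity)]
              norm_num
            rw [h3] at h2
            have h4 : (ε / Y) * (Y / ε) = 1 := by field_simp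
            calc (1 : ℝ) = (ε / Y) * (Y / ε) := h4.symm
              _ ≤ _ := mul_le_mul_of_nonneg_left h2 (by positivity)
          · have : 0 ≤ (WW L ω univ x) ^ ((1 : ℝ) / 5) := by positivity
            positivity
        refine (Ex_mono h1).trans ?_
        rw [Ex_const_mul]
        calc ε / Y * Ex (fun ω : DΩ L => (WW L ω univ x) ^ ((1 : ℝ) / 5))
            ≤ ε / Y * Y := mul_le_mul_of_nonneg_left (hm x hx) (by positivity)
          _ = ε := by field_simp
      intro v
      have h := schur (Dcut K L (fun w => Θ < w)) (fun x y => Dcut_nonneg K L _ x y) ε ε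
        (fun x => by rw [Dcut_row]; exact hmarkov x.1 x.2)
        (fun y => by rw [Dcut_col]; exact hmarkov y.1 y.2) v
      rwa [← sq] at h

end

end Crest.Agent.Thorp
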