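import Crest.Agent.Lib.Thorp.Ops

/-!
# Thorp shuffle: abstract functional graphs (Cycle, section 5 of the blueprint)

`cyc_le_firstReturn` (first return inequality), `Ex_cyc_mask` (random masks),
`card_consSets_le` (`Γ ≤ 2 ^ cycles`).
-/

set_option autoImplicit false

namespace Crest.Agent.Thorp

open Finset

variable {K : Type*} [Fintype K] [DecidableEq K]

omit [Fintype K] [DecidableEq K] in
@[simp] theorem optStep_none (f : K → Option K) : optStep f none = none := rfl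

omit [Fintype K] [DecidableEq K] in
@[simp] theorem optStep_some (f : K → Option K) (τ : K) : optStep f (some τ) = f τ := rfl

omit [Fintype K] [DecidableEq K] in
theorem iter_none (f : K → Option K) (n : ℕ) : (optStep f)^[n] none = none := by
  induction n with
  | zero => rfl
  | succ n ih => rw [Function.iterate_succ_apply', ih]; rfl

omit [Fintype K] [DecidableEq K] in
/-- A forward iterate of a `some` value comes from `some` values. -/
theorem iter_some_of_le (f : K → Option K) {m n : ℕ} (h : m ≤ n) {τ ρ : K}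
    (hn : (optStep f)^[n] (some τ) = some ρ) : ∃ σ, (optStep f)^[m] (some τ) = some σ := by
  obtain ⟨k, rfl⟩ := Nat.exists_eq_add_of_le h
  rw [add_comm, Function.iterate_add_apply] at hn
  cases hm : (optStep f)^[m] (some τ) with
  | none =>
    rw [hm, iter_none] at hn
    cases hn
  | some σ => exact ⟨σ, rfl⟩

omit [DecidableEq K] in
theorem mem_orb (f : K → Option K) (τ ρ : K) :
    ρ ∈ orb f τ ↔ ∃ n, (optStep f)^[n] (some τ) = some ρ := by
  classical
  simp [orb]

omit [DecidableEq K] in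
theorem self_mem_orb (f : K → Option K) (τ : K) : τ ∈ orb f τ :=
  (mem_orb f τ τ).2 ⟨0, rfl⟩

omit [DecidableEq K] in
theorem orb_step (f : K → Option K) {τ ρ σ : K} (h : ρ ∈ orb f τ) (hf : f ρ = some σ) :
    σ ∈ orb f τ := by
  obtain ⟨n, hn⟩ := (mem_orb f τ ρ).1 h
  refine (mem_orb f τ σ).2 ⟨n + 1, ?_⟩
  rw [Function.iterate_succ_apply', hn]
  exact hf

omit [DecidableEq K] in
theorem orb_trans (f : K → Option K) {τ ρ σ : K} (h : ρ ∈ orb f τ) (h' : σ ∈ orb f ρ) :
    σ ∈ orb f τ := by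
  obtain ⟨n, hn⟩ := (mem_orb f τ ρ).1 h
  obtain ⟨m, hm⟩ := (mem_orb f ρ σ).1 h'
  refine (mem_orb f τ σ).2 ⟨m + n, ?_⟩
  rw [Function.iterate_add_apply, hn, hm]

omit [Fintype K] [DecidableEq K] in
theorem IsPer.iter_mul {f : K → Option K} {τ : K} {n : ℕ}
    (h : (optStep f)^[n] (some τ) = some τ) (k : ℕ) :
    (optStep f)^[n * k] (some τ) = some τ := by
  induction k with
  | zero => rfl
  | succ k ih => rw [Nat.mul_succ, Function.iterate_add_apply, h, ih]

omit [DecidableEq K] in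
/-- Points in the orbit of a periodic point are periodic, with the same orbit. -/
theorem IsPer.of_mem_orb {f : K → Option K} {τ ρ : K} (hτ : IsPer f τ) (h : ρ ∈ orb f τ) :
    IsPer f ρ ∧ τ ∈ orb f ρ := by
  obtain ⟨n, hn0, hn⟩ := hτ
  obtain ⟨a, ha⟩ := (mem_orb f τ ρ).1 h
  -- `b + a = n * (a + 1)`
  have hle : a + 1 ≤ n * (a + 1) := Nat.le_mul_of_pos_left _ hn0
  obtain ⟨b, hb⟩ : ∃ b, n * (a + 1) = b + a := ⟨n * (a + 1) - a, by omega⟩
  have hback : (optStep f)^[b] (some ρ) = some τ := by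
    have := IsPer.iter_mul hn (a + 1)
    rw [hb, Function.iterate_add_apply, ha] at this
    exact this
  have hb0 : 0 < b := by omega
  refine ⟨⟨a + b, by omega, ?_⟩, (mem_orb f ρ τ).2 ⟨b, hback⟩⟩
  rw [Function.iterate_add_apply, hback, ha]

omit [DecidableEq K] in
theorem orb_eq_of_mem {f : K → Option K} {τ ρ : K} (hτ : IsPer f τ) (h : ρ ∈ orb f τ) :
    orb f ρ = orb f τ := by
  obtain ⟨-, hb⟩ := IsPer.of_mem_orb hτ h
  ext σ
  exact ⟨fun h' => orb_trans f h h', fun h' => orb_trans f hb h'⟩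

theorem mem_cycles (f : K → Option K) (C : Finset K) :
    C ∈ cycles f ↔ ∃ τ, IsPer f τ ∧ orb f τ = C := by
  classical
  simp [cycles]

/-- Two cycles that meet are equal. -/
theorem cycles_eq_of_mem {f : K → Option K} {C C' : Finset K} (hC : C ∈ cycles f)
    (hC' : C' ∈ cycles f) {σ : K} (h : σ ∈ C) (h' : σ ∈ C') : C = C' := by
  obtain ⟨τ, hτ, rfl⟩ := (mem_cycles f C).1 hC
  obtain ⟨τ', hτ', rfl⟩ := (mem_cycles f C').1 hC'
  rw [← orb_eq_of_mem hτ h, ← orb_eq_of_mem hτ' h']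

/-! ### P1: the first return inequality -/

/-- Restriction of `f` to `O`. -/
def restr (f : K → Option K) (O : Finset K) : K → Option K :=
  fun τ => if τ ∈ O then (f τ).bind (fun ρ => if ρ ∈ O then some ρ else none) else none

section FirstReturn

variable {f fM : K → Option K} {M : Finset K}

omit [Fintype K] in
/-- The first return of a walk to `M`. -/
theorem first_return
    (hfM : ∀ τ ∈ M, ∀ ρ ∈ M, ∀ n, (optStep f)^[n+1] (some τ) = some ρ →
       (∀ j, 1 ≤ j → j ≤ n → ∃ σ, σ ∉ M ∧ (optStep f)^[j] (some τ) = some σ) → fM τ = some ρ)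
    {τ ρ : K} (hτ : τ ∈ M) (hρ : ρ ∈ M) {n : ℕ} (hn : (optStep f)^[n+1] (some τ) = some ρ) :
    ∃ j, j ≤ n ∧ ∃ ρ' ∈ M, (optStep f)^[j+1] (some τ) = some ρ' ∧ fM τ = some ρ' := by
  classical
  have hex : ∃ j, ∃ ρ' ∈ M, (optStep f)^[j+1] (some τ) = some ρ' := ⟨n, ρ, hρ, hn⟩
  let j0 := Nat.find hex
  obtain ⟨ρ', hρ', hj0⟩ : ∃ ρ' ∈ M, (optStep f)^[j0+1] (some τ) = some ρ' := Nat.find_spec hex
  have hle : j0 ≤ n := Nat.find_min' hex ⟨ρ, hρ, hn⟩
  refine ⟨j0, hle, ρ', hρ', hj0, hfM τ hτ ρ' hρ' j0 hj0 ?_⟩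
  intro j hj1 hj2
  obtain ⟨σ, hσ⟩ := iter_some_of_le f (show j ≤ j0 + 1 by omega) hj0
  refine ⟨σ, ?_, hσ⟩
  intro hσM
  obtain ⟨i, rfl⟩ : ∃ i, j = i + 1 := ⟨j - 1, by omega⟩
  exact Nat.find_min hex (show i < j0 by omega) ⟨σ, hσM, hσ⟩

omit [Fintype K] in
/-- Every visit of the `f`-walk to `M` is a visit of the `fM`-walk. -/
theorem visit
    (hfM : ∀ τ ∈ M, ∀ ρ ∈ M, ∀ n, (optStep f)^[n+1] (some τ) = some ρ →
       (∀ j, 1 ≤ j → j ≤ n → ∃ σ, σ ∉ M ∧ (optStep f)^[j] (some τ) = some σ) → fM τ = some ρ)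
    (n : ℕ) : ∀ τ ρ : K, τ ∈ M → ρ ∈ M → (optStep f)^[n] (some τ) = some ρ →
      ∃ m, (optStep fM)^[m] (some τ) = some ρ ∧ (0 < n → 0 < m) := by
  induction n using Nat.strong_induction_on with
  | _ n ih =>
    intro τ ρ hτ hρ hn
    rcases n with _ | n
    · exact ⟨0, hn, by simp⟩
    · obtain ⟨j, hjn, ρ', hρ', hj, hfτ⟩ := first_return hfM hτ hρ hn
      have hsplit : (optStep f)^[n - j] (some ρ') = some ρ := by
        have : n + 1 = (n - j) + (j + 1) := by omega
        rw [this, Function.iterate_add_apply, hj] at hn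
        exact hn
      obtain ⟨m, hm, -⟩ := ih (n - j) (by omega) ρ' ρ hρ' hρ hsplit
      refine ⟨m + 1, ?_, fun _ => Nat.succ_pos m⟩
      rw [Function.iterate_succ_apply]
      change (optStep fM)^[m] (fM τ) = some ρ
      rw [hfτ, hm]

omit [DecidableEq K] in
/-- The `fM`-orbit of a periodic point of `M` stays in its `f`-orbit and in `M`. -/
theorem orb_fM_subset
    (hfM : ∀ τ ∈ M, ∀ ρ ∈ M, ∀ n, (optStep f)^[n+1] (some τ) = some ρ →
       (∀ j, 1 ≤ j → j ≤ n → ∃ σ, σ ∉ M ∧ (optStep f)^[j] (some τ) = some σ) → fM τ = some ρ)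
    {τ : K} (hτM : τ ∈ M) (hτ : IsPer f τ) : orb fM τ ⊆ orb f τ := by
  classical
  intro ρ hρ
  obtain ⟨n, hn⟩ := (mem_orb fM τ ρ).1 hρ
  have key : ∀ n : ℕ, ∀ ρ : K, (optStep fM)^[n] (some τ) = some ρ → ρ ∈ M ∧ ρ ∈ orb f τ := by
    intro n
    induction n with
    | zero =>
      intro ρ h
      cases h
      exact ⟨hτM, self_mem_orb f τ⟩
    | succ n ih =>
      intro ρ h
      rw [Function.iterate_succ_apply'] at h
      cases hs : (optStep fM)^[n] (some τ) with
      | none =>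
        rw [hs] at h
        cases h
      | some σ =>
        rw [hs] at h
        obtain ⟨hσM, hσ⟩ := ih σ hs
        obtain ⟨hσper, -⟩ := IsPer.of_mem_orb hτ hσ
        obtain ⟨p, hp0, hp⟩ := hσper
        obtain ⟨p, rfl⟩ : ∃ q, p = q + 1 := ⟨p - 1, by omega⟩
        obtain ⟨j, -, ρ', hρ', hj, hfσ⟩ := first_return hfM hσM hσM hp
        change fM σ = some ρ at h
        rw [hfσ] at h
        cases h
        exact ⟨hρ', orb_trans f hσ ((mem_orb f σ _).2 ⟨_, hj⟩)⟩
  exact (key n ρ hn).2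

omit [DecidableEq K] in
theorem isPer_fM
    (hfM : ∀ τ ∈ M, ∀ ρ ∈ M, ∀ n, (optStep f)^[n+1] (some τ) = some ρ →
       (∀ j, 1 ≤ j → j ≤ n → ∃ σ, σ ∉ M ∧ (optStep f)^[j] (some τ) = some σ) → fM τ = some ρ)
    {τ : K} (hτM : τ ∈ M) (hτ : IsPer f τ) : IsPer fM τ := by
  classical
  obtain ⟨n, hn0, hn⟩ := hτ
  obtain ⟨m, hm, hm0⟩ := visit hfM n τ τ hτM hτM hn
  exact ⟨m, hm0 hn0, hm⟩

end FirstReturn

omit [DecidableEq K] in
/-- The walk of `restr f Mᶜ` agrees with that of `f` on an orbit avoiding `M`. -/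
theorem iter_restr (f : K → Option K) (O : Finset K) [DecidableEq K] {τ : K} (h : ∀ ρ ∈ orb f τ, ρ ∈ O)
    (n : ℕ) : (optStep (restr f O))^[n] (some τ) = (optStep f)^[n] (some τ) := by
  induction n with
  | zero => rfl
  | succ n ih =>
    rw [Function.iterate_succ_apply', Function.iterate_succ_apply', ih]
    cases hs : (optStep f)^[n] (some τ) with
    | none => rfl
    | some σ =>
      have hσ : σ ∈ orb f τ := (mem_orb f τ σ).2 ⟨n, hs⟩
      change restr f O σ = f σ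
      unfold restr
      rw [if_pos (h σ hσ)]
      cases hf : f σ with
      | none => rfl
      | some ρ =>
        have hρ : ρ ∈ orb f τ := orb_step f hσ hf
        simp [h ρ hρ]

/-- P1: first return inequality. -/
theorem cyc_le_firstReturn (f fM : K → Option K) (M : Finset K)
    (hfM : ∀ τ ∈ M, ∀ ρ ∈ M, ∀ n, (optStep f)^[n+1] (some τ) = some ρ →
       (∀ j, 1 ≤ j → j ≤ n → ∃ σ, σ ∉ M ∧ (optStep f)^[j] (some τ) = some σ) → fM τ = some ρ) :
    cyc f ≤ cyc fM + cyc (restr f Mᶜ) := by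
  classical
  unfold cyc
  rw [← Finset.card_filter_add_card_filter_not (s := cycles f) (fun C => (C ∩ M).Nonempty)]
  refine add_le_add ?_ ?_
  · -- cycles meeting `M` inject into the cycles of `fM`
    rcases isEmpty_or_nonempty K with hK | hK
    · have : (cycles f).filter (fun C => (C ∩ M).Nonempty) = ∅ := by
        refine Finset.filter_eq_empty_iff.2 ?_
        rintro C - ⟨τ, -⟩
        exact hK.elim τ
      simp [this]
    have hrep : ∀ C ∈ (cycles f).filter (fun C => (C ∩ M).Nonempty), ∃ τ, τ ∈ C ∧ τ ∈ M ∧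
        IsPer f τ ∧ orb f τ = C := by
      intro C hC
      obtain ⟨hC1, τ, hτ⟩ := Finset.mem_filter.1 hC
      obtain ⟨τ0, hτ0, rfl⟩ := (mem_cycles f C).1 hC1
      have hτC := (Finset.mem_inter.1 hτ).1
      exact ⟨τ, hτC, (Finset.mem_inter.1 hτ).2, (IsPer.of_mem_orb hτ0 hτC).1, orb_eq_of_mem hτ0 hτC⟩
    choose! rep hrep1 hrep2 hrep3 hrep4 using hrep
    refine Finset.card_le_card_of_injOn (fun C => orb fM (rep C)) ?_ ?_
    · intro C hC
      exact (mem_cycles fM _).2 ⟨rep C, isPer_fM hfM (hrep2 C hC) (hrep3 C hC), rfl⟩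
    · intro C hC C' hC' heq
      have hC1 := (Finset.mem_filter.1 (Finset.mem_coe.1 hC)).1
      have hC1' := (Finset.mem_filter.1 (Finset.mem_coe.1 hC')).1
      have h1 : rep C ∈ C := hrep1 C hC
      have h2 : rep C ∈ orb fM (rep C') := by
        have : orb fM (rep C) = orb fM (rep C') := heq
        rw [← this]
        exact self_mem_orb fM _
      have h3 : rep C ∈ C' := by
        have := orb_fM_subset hfM (hrep2 C' hC') (hrep3 C' hC') h2
        rwa [hrep4 C' hC'] at this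
      exact cycles_eq_of_mem hC1 hC1' h1 h3
  · -- the other cycles are cycles of the restriction
    refine Finset.card_le_card ?_
    intro C hC
    obtain ⟨hC1, hC2⟩ := Finset.mem_filter.1 hC
    obtain ⟨τ, hτ, rfl⟩ := (mem_cycles f C).1 hC1
    have hO : ∀ ρ ∈ orb f τ, ρ ∈ Mᶜ := by
      intro ρ hρ
      rw [Finset.mem_compl]
      intro hρM
      exact hC2 ⟨ρ, Finset.mem_inter.2 ⟨hρ, hρM⟩⟩
    refine (mem_cycles _ _).2 ⟨τ, ?_, ?_⟩
    · obtain ⟨n, hn0, hn⟩ := hτ
      exact ⟨n, hn0, by rw [iter_restr f Mᶜ hO, hn]⟩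
    · ext ρ
      simp only [mem_orb, iter_restr f Mᶜ hO]

/-! ### P2: random masks -/

/-- Masking `g` by a predicate. -/
def mask (g : K → Option K) (m : K → Prop) [DecidablePred m] : K → Option K :=
  fun τ => if m τ then g τ else none

section Mask

variable {g : K → Option K} {m : K → Prop} [DecidablePred m]

omit [Fintype K] [DecidableEq K] in
theorem mask_never_none {τ : K} (hτ : IsPer (mask g m) τ) (j : ℕ) :
    ∃ σ, (optStep (mask g m))^[j] (some τ) = some σ := by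
  obtain ⟨n, hn0, hn⟩ := hτ
  have h1 : j ≤ n * j := Nat.le_mul_of_pos_left _ hn0
  exact iter_some_of_le _ h1 (IsPer.iter_mul hn j)

omit [Fintype K] [DecidableEq K] in
theorem mask_iter {τ : K} (hτ : IsPer (mask g m) τ) (j : ℕ) :
    (optStep (mask g m))^[j] (some τ) = (optStep g)^[j] (some τ) := by
  induction j with
  | zero => rfl
  | succ j ih =>
    rw [Function.iterate_succ_apply', Function.iterate_succ_apply', ← ih]
    obtain ⟨σ, hσ⟩ := mask_never_none hτ j
    obtain ⟨ρ, hρ⟩ := mask_never_none hτ (j + 1)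
    rw [Function.iterate_succ_apply', hσ] at hρ
    rw [hσ]
    change mask g m σ = some ρ at hρ
    change mask g m σ = g σ
    unfold mask at hρ ⊢
    by_cases hm : m σ
    · simp [hm]
    · simp [hm] at hρ

omit [Fintype K] [DecidableEq K] in
theorem mask_isPer {τ : K} (hτ : IsPer (mask g m) τ) : IsPer g τ := by
  obtain ⟨n, hn0, hn⟩ := id hτ
  exact ⟨n, hn0, by rw [← mask_iter hτ, hn]⟩

omit [DecidableEq K] in
theorem mask_orb {τ : K} (hτ : IsPer (mask g m) τ) : orb (mask g m) τ = orb g τ := by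
  ext ρ
  simp only [mem_orb, mask_iter hτ]

omit [DecidableEq K] in
theorem mask_mem {τ σ : K} (hτ : IsPer (mask g m) τ) (hσ : σ ∈ orb g τ) : m σ := by
  obtain ⟨n, hn⟩ := (mem_orb g τ σ).1 hσ
  rw [← mask_iter hτ] at hn
  obtain ⟨ρ, hρ⟩ := mask_never_none hτ (n + 1)
  rw [Function.iterate_succ_apply', hn] at hρ
  change mask g m σ = some ρ at hρ
  unfold mask at hρ
  by_contra hm
  simp [hm] at hρ

end Mask

/-- Independence of the bits at distinct coordinates. -/
theorem Ex_prod_bits {Q I : Type*} [Fintype Q] [DecidableEq Q] [DecidableEq I] (S : Finset I)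
    (r : I → Q) (hr : Set.InjOn r S) (h : I → Bool → ℝ) :
    Ex (fun e : Q → Bool => ∏ C ∈ S, h C (e (r C))) = ∏ C ∈ S, Ex (h C) := by
  induction S using Finset.induction_on with
  | empty => simp [Ex_const]
  | insert C0 S hC0 ih =>
    have hr' : Set.InjOn r S := hr.mono (by simp)
    simp only [Finset.prod_insert hC0]
    rw [Ex_indep {r C0} (fun e => h C0 (e (r C0))) (fun e => ∏ C ∈ S, h C (e (r C))), ih hr',
      Ex_eval (r C0) (h C0)]
    · intro z z' hz
      change h C0 (z (r C0)) = h C0 (z' (r C0))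
      rw [hz (r C0) (by simp)]
    · intro z z' hz
      refine Finset.prod_congr rfl fun C hC => ?_
      rw [hz (r C) ?_]
      simp only [Finset.mem_singleton]
      intro hEq
      have := hr (by simp [hC] : C ∈ (↑(insert C0 S) : Set I))
        (by simp : C0 ∈ (↑(insert C0 S) : Set I)) hEq
      exact hC0 (this ▸ hC)

/-- P2: random masks. `g` factors through `q` on periodic points; the mask bit at `τ` is
`xor (b τ) (e (q τ)) = o`. -/
theorem Ex_cyc_mask {Q : Type} [Fintype Q] [DecidableEq Q] (g : K → Option K) (q : K → Q)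
    (b : K → Bool) (o : Bool)
    (hq : ∀ τ τ', IsPer g τ → IsPer g τ' → q τ = q τ' → g τ = g τ') (Z : ℝ) (hZ : 1 ≤ Z) :
    Ex (fun e : Q → Bool => Z ^ cyc (mask g (fun τ => xor (b τ) (e (q τ)) = o))) ≤
      ((1 + Z) / 2) ^ cyc g := by
  classical
  -- representatives
  have hrep : ∀ C : ↥(cycles g), ∃ τ, IsPer g τ ∧ orb g τ = C.1 := fun C =>
    (mem_cycles g C.1).1 C.2
  choose rep hrep1 hrep2 using hrep
  have hrepmem : ∀ C : ↥(cycles g), rep C ∈ C.1 := fun C => by
    rw [← hrep2 C]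
    exact self_mem_orb g _
  -- the map to bits is injective
  have hinj : Function.Injective (fun C : ↥(cycles g) => q (rep C)) := by
    intro C C' hCC'
    have hgg := hq _ _ (hrep1 C) (hrep1 C') hCC'
    obtain ⟨n, hn0, hn⟩ := hrep1 C
    obtain ⟨ρ, hρ⟩ := iter_some_of_le g (show 1 ≤ n from hn0) hn
    change g (rep C) = some ρ at hρ
    have h1 : ρ ∈ C.1 := by
      rw [← hrep2 C]
      exact orb_step g (self_mem_orb g _) hρ
    have h2 : ρ ∈ C'.1 := by
      rw [← hrep2 C']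
      exact orb_step g (self_mem_orb g _) (hgg ▸ hρ)
    exact Subtype.ext (cycles_eq_of_mem C.2 C'.2 h1 h2)
  -- pointwise bound
  have hpoint : ∀ e : Q → Bool, Z ^ cyc (mask g (fun τ => xor (b τ) (e (q τ)) = o)) ≤
      ∏ C : ↥(cycles g), (fun (C : ↥(cycles g)) (c : Bool) =>
        if xor (b (rep C)) c = o then Z else 1) C (e (q (rep C))) := by
    intro e
    have hprod : (∏ C : ↥(cycles g), (fun (C : ↥(cycles g)) (c : Bool) =>
        if xor (b (rep C)) c = o then Z else 1) C (e (q (rep C)))) =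
        Z ^ (Finset.univ.filter fun C : ↥(cycles g) => xor (b (rep C)) (e (q (rep C))) = o).card := by
      simp only
      rw [Finset.prod_ite]
      simp
    rw [hprod]
    refine pow_le_pow_right₀ hZ ?_
    unfold cyc
    have hsub : cycles (mask g (fun τ => xor (b τ) (e (q τ)) = o)) ⊆
        (Finset.univ.filter fun C : ↥(cycles g) => xor (b (rep C)) (e (q (rep C))) = o).image
          Subtype.val := by
      intro D hD
      obtain ⟨τ, hτ, rfl⟩ := (mem_cycles _ D).1 hD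
      have hgτ := mask_isPer hτ
      rw [mask_orb hτ]
      have hmem : orb g τ ∈ cycles g := (mem_cycles g _).2 ⟨τ, hgτ, rfl⟩
      refine Finset.mem_image.2 ⟨⟨orb g τ, hmem⟩, ?_, rfl⟩
      refine Finset.mem_filter.2 ⟨Finset.mem_univ _, ?_⟩
      exact mask_mem (m := fun τ => xor (b τ) (e (q τ)) = o) hτ (hrepmem ⟨orb g τ, hmem⟩)
    exact (Finset.card_le_card hsub).trans Finset.card_image_le
  refine (Ex_mono hpoint).trans (le_of_eq ?_)
  rw [Ex_prod_bits Finset.univ (fun C : ↥(cycles g) => q (rep C)) (hinj.injOn)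
    (fun (C : ↥(cycles g)) (c : Bool) => if xor (b (rep C)) c = o then Z else 1)]
  have hone : ∀ C : ↥(cycles g),
      Ex (fun c : Bool => if xor (b (rep C)) c = o then Z else 1) = (1 + Z) / 2 := by
    intro C
    rw [Ex_bool]
    cases b (rep C) <;> cases o <;> simp <;> ring
  simp only [hone]
  rw [Finset.prod_const, Finset.card_univ, Fintype.card_coe]
  rfl

/-! ### P3: `Γ ≤ 2 ^ cycles` -/

theorem fg_eq_some {L : ℕ} {A : Finset K} {y : K → Deck L} {s : K → Option (Deck L)} {τ σ : K}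
    (h : fg A y s τ = some σ) : τ ∈ A ∧ σ ∈ A ∧ s τ = some (y σ) := by
  classical
  unfold fg at h
  by_cases hτ : τ ∈ A
  · rw [if_pos hτ] at h
    refine ⟨hτ, ?_⟩
    cases hs : s τ with
    | none =>
      rw [hs] at h
      cases h
    | some t =>
      rw [hs] at h
      simp only [Option.bind_some] at h
      by_cases hex : ∃ ρ, ρ ∈ A ∧ y ρ = t
      · rw [dif_pos hex] at h
        cases h
        obtain ⟨h1, h2⟩ := Classical.choose_spec hex
        exact ⟨h1, by rw [h2]⟩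
      · rw [dif_neg hex] at h
        cases h
  · rw [if_neg hτ] at h
    cases h

theorem fg_isSome {L : ℕ} {A : Finset K} {y : K → Deck L} {s : K → Option (Deck L)} {τ σ : K}
    {t : Deck L} (hτ : τ ∈ A) (hs : s τ = some t) (hσ : σ ∈ A) (ht : y σ = t) :
    fg A y s τ ≠ none := by
  classical
  unfold fg
  rw [if_pos hτ, hs]
  simp only [Option.bind_some]
  rw [dif_pos ⟨σ, hσ, ht⟩]
  simp

omit [DecidableEq K] in
/-- A forward walk ends at a point without image or reaches a periodic point. -/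
theorem exists_terminal (f : K → Option K) (τ : K) :
    ∃ σ ∈ orb f τ, f σ = none ∨ IsPer f σ := by
  classical
  by_cases hnone : ∃ n, (optStep f)^[n] (some τ) = none
  · -- the last `some` value
    let n0 := Nat.find hnone
    have hn0 : (optStep f)^[n0] (some τ) = none := Nat.find_spec hnone
    have hpos : n0 ≠ 0 := by
      intro h
      rw [h] at hn0
      cases hn0
    obtain ⟨k, hk⟩ : ∃ k, n0 = k + 1 := ⟨n0 - 1, by omega⟩
    have hk' : (optStep f)^[k] (some τ) ≠ none := fun h =>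
      Nat.find_min hnone (show k < n0 by omega) h
    obtain ⟨σ, hσ⟩ := Option.ne_none_iff_exists'.1 hk'
    refine ⟨σ, (mem_orb f τ σ).2 ⟨k, hσ⟩, Or.inl ?_⟩
    rw [hk, Function.iterate_succ_apply', hσ] at hn0
    exact hn0
  · -- pigeonhole
    simp only [not_exists] at hnone
    obtain ⟨i, j, hij, heq⟩ := Finite.exists_ne_map_eq_of_infinite
      (fun n : ℕ => (optStep f)^[n] (some τ))
    wlog hlt : i < j generalizing i j
    · exact this j i hij.symm heq.symm (by omega)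
    obtain ⟨σ, hσ⟩ := Option.ne_none_iff_exists'.1 (hnone i)
    refine ⟨σ, (mem_orb f τ σ).2 ⟨i, hσ⟩, Or.inr ⟨j - i, by omega, ?_⟩⟩
    have h1 : (optStep f)^[(j - i) + i] (some τ) = (optStep f)^[i] (some τ) := by
      rw [show (j - i) + i = j by omega]
      exact heq.symm
    rw [Function.iterate_add_apply, hσ] at h1
    exact h1

/-- Proper colourings of the in/out graph are determined by their restriction to `R`. -/
theorem consSets_ext {L : ℕ} (M O : Finset K) (hMO : Disjoint M O) (xb yb : K → Deck L)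
    (sX : K → Option (Deck L))
    (hsX : ∀ τ ∈ M, ∀ ρ ∈ O, xb ρ = xb τ → sX τ = some (yb ρ))
    (hsX' : ∀ τ ∈ M, (¬ ∃ ρ ∈ O, xb ρ = xb τ) → sX τ = none)
    (R : Finset K)
    (hRn : ∀ τ ∈ M, fg M yb sX τ = none → τ ∈ R)
    (hRp : ∀ C ∈ cycles (fg M yb sX), ∃ τ ∈ C, τ ∈ R)
    (hRi : ∀ ρ ∈ O, (¬ ∃ τ ∈ M, xb τ = xb ρ) → (¬ ∃ τ ∈ M, yb τ = yb ρ) → ρ ∈ R)
    {B B' : Finset K} (hB : B ∈ consSets (M ∪ O) xb yb) (hB' : B' ∈ consSets (M ∪ O) xb yb)
    (heq : B ∩ R = B' ∩ R) : B = B' := by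
  classical
  obtain ⟨hB1, hB2⟩ := Finset.mem_filter.1 hB
  obtain ⟨hB1', hB2'⟩ := Finset.mem_filter.1 hB'
  have hB1 := Finset.mem_powerset.1 hB1
  have hB1' := Finset.mem_powerset.1 hB1'
  have hne : ∀ τ ρ, τ ∈ M → ρ ∈ O → τ ≠ ρ := fun τ ρ hτ hρ h =>
    Finset.disjoint_left.1 hMO hτ (h ▸ hρ)
  have hR : ∀ c ∈ R, (c ∈ B ↔ c ∈ B') := by
    intro c hc
    have : c ∈ B ∩ R ↔ c ∈ B' ∩ R := by rw [heq]
    simpa [Finset.mem_inter, hc] using this
  have hedge : ∀ c ∈ M ∪ O, ∀ d ∈ M ∪ O, c ≠ d → (xb c = xb d ∨ yb c = yb d) →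
      ((c ∈ B ↔ c ∈ B') ↔ (d ∈ B ↔ d ∈ B')) := by
    intro c hc d hd hcd hh
    rw [hB2 c hc d hd hcd hh, hB2' c hc d hd hcd hh, not_iff_not]
  have hM' : ∀ c ∈ M, c ∈ M ∪ O := fun c hc => Finset.mem_union_left _ hc
  have hO' : ∀ c ∈ O, c ∈ M ∪ O := fun c hc => Finset.mem_union_right _ hc
  have hstep : ∀ τ σ, fg M yb sX τ = some σ → σ ∈ M ∧
      ((τ ∈ B ↔ τ ∈ B') ↔ (σ ∈ B ↔ σ ∈ B')) := by
    intro τ σ hfτ
    obtain ⟨hτ, hσ, hs⟩ := fg_eq_some hfτ
    refine ⟨hσ, ?_⟩
    by_cases hex : ∃ ρ ∈ O, xb ρ = xb τ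
    · obtain ⟨ρ, hρ, hρx⟩ := hex
      have h1 := hsX τ hτ ρ hρ hρx
      rw [hs, Option.some_inj] at h1
      have e1 := hedge τ (hM' τ hτ) ρ (hO' ρ hρ) (hne τ ρ hτ hρ) (Or.inl hρx.symm)
      have e2 := hedge σ (hM' σ hσ) ρ (hO' ρ hρ) (hne σ ρ hσ hρ) (Or.inr h1)
      exact e1.trans e2.symm
    · rw [hsX' τ hτ hex] at hs
      cases hs
  have horb : ∀ τ ∈ M, ∀ n σ, (optStep (fg M yb sX))^[n] (some τ) = some σ → σ ∈ M ∧
      ((τ ∈ B ↔ τ ∈ B') ↔ (σ ∈ B ↔ σ ∈ B')) := by
    intro τ hτ n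
    induction n with
    | zero =>
      intro σ h
      cases h
      exact ⟨hτ, Iff.rfl⟩
    | succ n ih =>
      intro σ h
      rw [Function.iterate_succ_apply'] at h
      cases hs : (optStep (fg M yb sX))^[n] (some τ) with
      | none =>
        rw [hs] at h
        cases h
      | some ρ =>
        rw [hs] at h
        obtain ⟨-, h2⟩ := ih ρ hs
        obtain ⟨h3, h4⟩ := hstep ρ σ h
        exact ⟨h3, h2.trans h4⟩
  have hM : ∀ τ ∈ M, (τ ∈ B ↔ τ ∈ B') := by
    intro τ hτ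
    obtain ⟨σ, hσ, hs⟩ := exists_terminal (fg M yb sX) τ
    obtain ⟨n, hn⟩ := (mem_orb _ τ σ).1 hσ
    obtain ⟨hσM, hP⟩ := horb τ hτ n σ hn
    rw [hP]
    rcases hs with hs | hs
    · exact hR σ (hRn σ hσM hs)
    · obtain ⟨ρ, hρC, hρR⟩ := hRp (orb _ σ) ((mem_cycles _ _).2 ⟨σ, hs, rfl⟩)
      obtain ⟨m, hm⟩ := (mem_orb _ σ _).1 hρC
      obtain ⟨-, hP2⟩ := horb σ hσM m _ hm
      rw [hP2]
      exact hR _ hρR
  have hO : ∀ ρ ∈ O, (ρ ∈ B ↔ ρ ∈ B') := by
    intro ρ hρ
    by_cases hI : ∃ τ ∈ M, xb τ = xb ρ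
    · obtain ⟨τ, hτ, hx⟩ := hI
      exact (hedge τ (hM' τ hτ) ρ (hO' ρ hρ) (hne τ ρ hτ hρ) (Or.inl hx)).1 (hM τ hτ)
    · by_cases hJ : ∃ τ ∈ M, yb τ = yb ρ
      · obtain ⟨τ, hτ, hx⟩ := hJ
        exact (hedge τ (hM' τ hτ) ρ (hO' ρ hρ) (hne τ ρ hτ hρ) (Or.inr hx)).1 (hM τ hτ)
      · exact hR ρ (hRi ρ hρ hI hJ)
  ext c
  by_cases hc : c ∈ M ∪ O
  · rcases Finset.mem_union.1 hc with h | h
    · exact hM c h
    · exact hO c h
  · exact ⟨fun h => absurd (hB1 h) hc, fun h => absurd (hB1' h) hc⟩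

/-- Lower bound for the number of sites. -/
theorem card_image_union_ge {L : ℕ} (M O W : Finset K) (w : K → Deck L)
    (hwM : Set.InjOn w M) (hwO : Set.InjOn w O)
    (hdisj : ∀ ρ ∈ O \ W, ∀ τ ∈ M, w τ ≠ w ρ) :
    M.card + (O \ W).card ≤ ((M ∪ O).image w).card := by
  classical
  have h1 : (M.image w).card = M.card := Finset.card_image_of_injOn hwM
  have h2 : ((O \ W).image w).card = (O \ W).card :=
    Finset.card_image_of_injOn (hwO.mono fun c hc =>
      (Finset.mem_sdiff.1 (Finset.mem_coe.1 hc)).1)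
  have hd : Disjoint (M.image w) ((O \ W).image w) := by
    refine Finset.disjoint_left.2 ?_
    intro v hv hv'
    obtain ⟨τ, hτ, rfl⟩ := Finset.mem_image.1 hv
    obtain ⟨ρ, hρ, hρe⟩ := Finset.mem_image.1 hv'
    exact hdisj ρ hρ τ hτ hρe.symm
  have h3 : M.image w ∪ (O \ W).image w ⊆ (M ∪ O).image w := by
    rw [Finset.image_union]
    refine Finset.union_subset_union_right ?_
    exact Finset.image_subset_image Finset.sdiff_subset
  calc M.card + (O \ W).card = (M.image w ∪ (O \ W).image w).card := by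
        rw [Finset.card_union_of_disjoint hd, h1, h2]
    _ ≤ _ := Finset.card_le_card h3

/-- P3: `Γ ≤ 2 ^ cycles`. `A = M ⊔ O`; `xb, yb` are injective on `M` and on `O`;
`fg M yb sX τ` is (for `τ ∈ M`) the `M`-token with the same output site as the `O`-token sharing
`τ`'s input site. -/
theorem card_consSets_le {L : ℕ} (M O : Finset K) (hMO : Disjoint M O) (xb yb : K → Deck L)
    (hxM : Set.InjOn xb M) (hxO : Set.InjOn xb O) (hyM : Set.InjOn yb M) (hyO : Set.InjOn yb O)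
    (sX : K → Option (Deck L))
    (hsX : ∀ τ ∈ M, ∀ ρ ∈ O, xb ρ = xb τ → sX τ = some (yb ρ))
    (hsX' : ∀ τ ∈ M, (¬ ∃ ρ ∈ O, xb ρ = xb τ) → sX τ = none) :
    Gam (M ∪ O) xb yb ≤ 2 ^ cyc (fg M yb sX) := by
  classical
  set f := fg M yb sX with hf
  obtain ⟨I, hIdef⟩ : ∃ I, I = O.filter fun ρ => ∃ τ ∈ M, xb τ = xb ρ := ⟨_, rfl⟩
  obtain ⟨J, hJdef⟩ : ∃ J, J = O.filter fun ρ => ∃ τ ∈ M, yb τ = yb ρ := ⟨_, rfl⟩
  obtain ⟨dom, hdomdef⟩ : ∃ dom, dom = M.filter fun τ => f τ ≠ none := ⟨_, rfl⟩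
  have hrep : ∀ C : ↥(cycles f), ∃ τ, IsPer f τ ∧ orb f τ = C.1 := fun C =>
    (mem_cycles f C.1).1 C.2
  choose rep hrep1 hrep2 using hrep
  obtain ⟨Rp, hRpdef⟩ : ∃ Rp : Finset K, Rp = Finset.univ.image rep := ⟨_, rfl⟩
  obtain ⟨R, hRdef⟩ : ∃ R, R = (M \ dom) ∪ Rp ∪ (O \ (I ∪ J)) := ⟨_, rfl⟩
  have hcons : (consSets (M ∪ O) xb yb).card ≤ 2 ^ R.card := by
    rw [← Finset.card_powerset R]
    refine Finset.card_le_card_of_injOn (fun B => B ∩ R) ?_ ?_
    · intro B _
      exact Finset.mem_coe.2 (Finset.mem_powerset.2 Finset.inter_subset_right)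
    · intro B hB B' hB' heq
      refine consSets_ext M O hMO xb yb sX hsX hsX' R ?_ ?_ ?_ hB hB' heq
      · intro τ hτ hfτ
        rw [hRdef]
        refine Finset.mem_union_left _ (Finset.mem_union_left _ (Finset.mem_sdiff.2 ⟨hτ, ?_⟩))
        rw [hdomdef]
        intro hd
        exact (Finset.mem_filter.1 hd).2 hfτ
      · intro C hC
        refine ⟨rep ⟨C, hC⟩, ?_, ?_⟩
        · have : rep ⟨C, hC⟩ ∈ orb f (rep ⟨C, hC⟩) := self_mem_orb f _
          rwa [hrep2 ⟨C, hC⟩] at this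
        · rw [hRdef, hRpdef]
          exact Finset.mem_union_left _ (Finset.mem_union_right _
            (Finset.mem_image.2 ⟨_, Finset.mem_univ _, rfl⟩))
      · intro ρ hρ hI hJ
        rw [hRdef]
        refine Finset.mem_union_right _ (Finset.mem_sdiff.2 ⟨hρ, ?_⟩)
        intro h
        rcases Finset.mem_union.1 h with h | h
        · rw [hIdef] at h
          exact hI (Finset.mem_filter.1 h).2
        · rw [hJdef] at h
          exact hJ (Finset.mem_filter.1 h).2
  -- counting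
  have hcardR : R.card ≤ (M \ dom).card + cyc f + (O \ (I ∪ J)).card := by
    have h1 : Rp.card ≤ cyc f := by
      rw [hRpdef]
      refine Finset.card_image_le.trans (le_of_eq ?_)
      rw [Finset.card_univ, Fintype.card_coe]
      rfl
    have h2 := Finset.card_union_le ((M \ dom) ∪ Rp) (O \ (I ∪ J))
    have h3 := Finset.card_union_le (M \ dom) Rp
    rw [hRdef]
    omega
  have hdomM : dom ⊆ M := by rw [hdomdef]; exact Finset.filter_subset _ _
  have hIO : I ⊆ O := by rw [hIdef]; exact Finset.filter_subset _ _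
  have hJO : J ⊆ O := by rw [hJdef]; exact Finset.filter_subset _ _
  have hNn : (M \ dom).card + dom.card = M.card := Finset.card_sdiff_add_card_eq_card hdomM
  have hIso : (O \ (I ∪ J)).card + (I ∪ J).card = O.card :=
    Finset.card_sdiff_add_card_eq_card (Finset.union_subset hIO hJO)
  have hIc : (O \ I).card + I.card = O.card := Finset.card_sdiff_add_card_eq_card hIO
  have hJc : (O \ J).card + J.card = O.card := Finset.card_sdiff_add_card_eq_card hJO
  have hUI := Finset.card_union_add_card_inter I J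
  have hIJ : (I ∩ J).card ≤ dom.card := by
    have h1 : ((I ∩ J).image xb).card = (I ∩ J).card :=
      Finset.card_image_of_injOn (hxO.mono fun c hc =>
        hIO (Finset.mem_inter.1 (Finset.mem_coe.1 hc)).1)
    have h2 : (I ∩ J).image xb ⊆ dom.image xb := by
      intro w hw
      obtain ⟨ρ, hρ, rfl⟩ := Finset.mem_image.1 hw
      obtain ⟨hρI, hρJ⟩ := Finset.mem_inter.1 hρ
      rw [hIdef] at hρI
      rw [hJdef] at hρJ
      obtain ⟨hρO, τ, hτ, hx⟩ := Finset.mem_filter.1 hρI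
      obtain ⟨-, σ, hσ, hy⟩ := Finset.mem_filter.1 hρJ
      rw [hdomdef]
      refine Finset.mem_image.2 ⟨τ, Finset.mem_filter.2 ⟨hτ, ?_⟩, hx⟩
      exact fg_isSome hτ (hsX τ hτ ρ hρO hx.symm) hσ hy
    calc (I ∩ J).card = ((I ∩ J).image xb).card := h1.symm
      _ ≤ (dom.image xb).card := Finset.card_le_card h2
      _ ≤ dom.card := Finset.card_image_le
  have hin := card_image_union_ge M O I xb hxM hxO (by
    intro ρ hρ τ hτ h
    obtain ⟨h1, h2⟩ := Finset.mem_sdiff.1 hρ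
    rw [hIdef] at h2
    exact h2 (Finset.mem_filter.2 ⟨h1, τ, hτ, h⟩))
  have hout := card_image_union_ge M O J yb hyM hyO (by
    intro ρ hρ τ hτ h
    obtain ⟨h1, h2⟩ := Finset.mem_sdiff.1 hρ
    rw [hJdef] at h2
    exact h2 (Finset.mem_filter.2 ⟨h1, τ, hτ, h⟩))
  have hA : (M ∪ O).card = M.card + O.card := Finset.card_union_of_disjoint hMO
  have hexp : R.card + (M ∪ O).card ≤
      cyc f + (((M ∪ O).image xb).card + ((M ∪ O).image yb).card) := by
    omega
  -- conclusion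
  unfold Gam
  rw [div_le_iff₀ (by positivity)]
  have h1 : ((consSets (M ∪ O) xb yb).card : ℝ) ≤ 2 ^ R.card := by exact_mod_cast hcons
  calc ((consSets (M ∪ O) xb yb).card : ℝ) * 2 ^ (M ∪ O).card
      ≤ 2 ^ R.card * 2 ^ (M ∪ O).card :=
        mul_le_mul_of_nonneg_right h1 (by positivity)
    _ = 2 ^ (R.card + (M ∪ O).card) := (pow_add _ _ _).symm
    _ ≤ 2 ^ (cyc f + (((M ∪ O).image xb).card + ((M ∪ O).image yb).card)) :=
        pow_le_pow_right₀ (by norm_num) hexp
    _ = _ := by rw [pow_add, pow_add]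

end Crest.Agent.Thorp
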