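import Crest.Agent.Lib.Thorp.Basic

/-!
# Toolkit for the uniform expectation `Ex`

`Ex_equiv` (reindexing), `Ex_ow` (resampling the coordinates of `S`), `Ex_indep` (independence of
functions of disjoint coordinate sets), `Ex_flipOn` (sign flips on the Boolean cube).
-/

set_option autoImplicit false

namespace Crest.Agent.Thorp

theorem Ex_equiv {α β : Type*} [Fintype α] [Fintype β] (e : α ≃ β) (f : β → ℝ) :
    Ex (fun a => f (e a)) = Ex f := by
  unfold Ex
  rw [Fintype.card_congr e]
  congr 1
  exact e.sum_comp f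

theorem Ex_congr {α : Type*} [Fintype α] {f g : α → ℝ} (h : ∀ a, f a = g a) : Ex f = Ex g := by
  congr 1
  exact funext h

theorem Ex_neg {α : Type*} [Fintype α] (f : α → ℝ) : Ex (fun a => - f a) = - Ex f := by
  simp [Ex, Finset.sum_neg_distrib]

theorem Ex_sub {α : Type*} [Fintype α] (f g : α → ℝ) :
    Ex (fun a => f a - g a) = Ex f - Ex g := by
  simp [Ex, Finset.sum_sub_distrib, mul_sub]

theorem Ex_mul_const {α : Type*} [Fintype α] (f : α → ℝ) (c : ℝ) :
    Ex (fun a => f a * c) = Ex f * c := by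
  simp only [Ex, ← Finset.sum_mul]
  ring

theorem Ex_comm {α β : Type*} [Fintype α] [Fintype β] (f : α → β → ℝ) :
    Ex (fun a => Ex (fun b => f a b)) = Ex (fun b => Ex (fun a => f a b)) := by
  simp only [Ex, Finset.mul_sum]
  rw [Finset.sum_comm]
  refine Finset.sum_congr rfl fun b _ => Finset.sum_congr rfl fun a _ => ?_
  ring

theorem Ex_sum {α ι : Type*} [Fintype α] (s : Finset ι) (f : ι → α → ℝ) :
    Ex (fun a => ∑ i ∈ s, f i a) = ∑ i ∈ s, Ex (f i) := by
  simp only [Ex, Finset.mul_sum]
  rw [Finset.sum_comm]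

theorem sum_eq_card_mul_Ex {α : Type*} [Fintype α] [Nonempty α] (f : α → ℝ) :
    ∑ a, f a = (Fintype.card α : ℝ) * Ex f := by
  have : (Fintype.card α : ℝ) ≠ 0 := by exact_mod_cast Fintype.card_ne_zero
  simp only [Ex]
  field_simp

variable {K : Type*} [DecidableEq K]

@[simp] theorem ow_apply_mem {α : Type*} {x z : K → α} {R : Finset K} {c : K} (h : c ∈ R) :
    ow x z R c = z c := by
  simp [ow, h]

@[simp] theorem ow_apply_not_mem {α : Type*} {x z : K → α} {R : Finset K} {c : K} (h : c ∉ R) :
    ow x z R c = x c := by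
  simp [ow, h]

variable [Fintype K]

/-- Resampling the coordinates in `S` does not change the expectation. -/
theorem Ex_ow {α : Type*} [Fintype α] [Nonempty α] (g : (K → α) → ℝ) (S : Finset K) :
    Ex (fun z : K → α => Ex (fun z' : K → α => g (ow z z' S))) = Ex g := by
  have h1 : Ex (fun p : (K → α) × (K → α) => g (ow p.1 p.2 S)) = Ex g := by
    let e : (K → α) × (K → α) ≃ (K → α) × (K → α) :=
      { toFun := fun p => (ow p.1 p.2 S, ow p.2 p.1 S)
        invFun := fun p => (ow p.1 p.2 S, ow p.2 p.1 S)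
        left_inv := by
          rintro ⟨a, b⟩
          ext c <;> by_cases h : c ∈ S <;> simp [ow, h]
        right_inv := by
          rintro ⟨a, b⟩
          ext c <;> by_cases h : c ∈ S <;> simp [ow, h] }
    have h2 := Ex_equiv e (fun p => g p.1)
    have h3 : Ex (fun p : (K → α) × (K → α) => g p.1) = Ex g := by
      rw [Ex_prod]
      simp only [Ex_const]
    rw [← h3, ← h2]
    rfl
  rw [← h1, Ex_prod (fun p : (K → α) × (K → α) => g (ow p.1 p.2 S))]

/-- Functions of disjoint coordinate sets are independent. -/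
theorem Ex_indep {α : Type*} [Fintype α] [Nonempty α] (S : Finset K) (f g : (K → α) → ℝ)
    (hf : ∀ z z' : K → α, (∀ c ∈ S, z c = z' c) → f z = f z')
    (hg : ∀ z z' : K → α, (∀ c, c ∉ S → z c = z' c) → g z = g z') :
    Ex (fun z => f z * g z) = Ex f * Ex g := by
  rw [← Ex_ow (fun z => f z * g z) S]
  have : ∀ z z' : K → α, f (ow z z' S) * g (ow z z' S) = f z' * g z := by
    intro z z'
    rw [hf (ow z z' S) z' (fun c hc => by simp [hc]), hg (ow z z' S) z (fun c hc => by simp [hc])]
  simp only [this, Ex_mul_const, Ex_const_mul]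

/-- Flip the bits in `C`. -/
def flipOn (C : Finset K) (ε : K → Bool) : K → Bool := fun c => if c ∈ C then !ε c else ε c

theorem flipOn_flipOn (C : Finset K) (ε : K → Bool) : flipOn C (flipOn C ε) = ε := by
  ext c
  by_cases h : c ∈ C <;> simp [flipOn, h]

/-- The flip as an equivalence. -/
def flipOnEquiv (C : Finset K) : (K → Bool) ≃ (K → Bool) where
  toFun := flipOn C
  invFun := flipOn C
  left_inv := flipOn_flipOn C
  right_inv := flipOn_flipOn C

theorem Ex_flipOn (C : Finset K) (g : (K → Bool) → ℝ) : Ex (fun ε => g (flipOn C ε)) = Ex g :=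
  Ex_equiv (flipOnEquiv C) g

/-- If flipping `C` negates `g`, its expectation vanishes. -/
theorem Ex_eq_zero_of_flipOn_neg (C : Finset K) (g : (K → Bool) → ℝ)
    (h : ∀ ε, g (flipOn C ε) = - g ε) : Ex g = 0 := by
  have h1 := Ex_flipOn C g
  simp only [h, Ex_neg] at h1
  linarith

end Crest.Agent.Thorp
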