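import Crest.Agent.Lib.Thorp.HighDefs

/-!
# Scalar side of the Dyson bound

`alpha L a S = E_x[χ_S(x) (S_x² - N')^a]`, the recursion in `a`, positivity and support;
the coefficients `B n a = C(n,a) (2a)^(n-a)` and the exponential generating function bound.
-/

set_option autoImplicit false

namespace Crest.Agent.Thorp

open Finset

/-- `S Δ {p} Δ {q}`. -/
def sd {K : Type*} [DecidableEq K] (S : Finset K) (p q : K) : Finset K :=
  symmDiff (symmDiff S {p}) {q}

theorem hd_sgn_mul_self (b : Bool) : sgn b * sgn b = 1 := by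
  cases b <;> simp [sgn]

theorem sgn_ne_zero (b : Bool) : sgn b ≠ 0 := by
  cases b <;> simp [sgn]

theorem abs_sgn (b : Bool) : |sgn b| = 1 := by
  cases b <;> simp [sgn]

section chi

variable {K : Type*} [DecidableEq K]

theorem chi_symmDiff_singleton (S : Finset K) (p : K) (x : K → Bool) :
    chi (symmDiff S {p}) x = chi S x * sgn (x p) := by
  unfold chi
  by_cases hp : p ∈ S
  · have h1 : symmDiff S {p} = S.erase p := by
      ext c
      simp only [mem_symmDiff, mem_singleton, mem_erase]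
      constructor
      · rintro (⟨h, h'⟩ | ⟨rfl, h'⟩)
        · exact ⟨h', h⟩
        · exact absurd hp h'
      · rintro ⟨h, h'⟩
        exact Or.inl ⟨h', h⟩
    rw [h1, ← Finset.mul_prod_erase S _ hp]
    have := hd_sgn_mul_self (x p)
    calc ∏ c ∈ S.erase p, sgn (x c)
        = (sgn (x p) * sgn (x p)) * ∏ c ∈ S.erase p, sgn (x c) := by rw [this, one_mul]
      _ = _ := by ring
  · have h1 : symmDiff S {p} = insert p S := by
      ext c
      simp only [mem_symmDiff, mem_singleton, mem_insert]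
      constructor
      · rintro (⟨h, h'⟩ | ⟨rfl, h'⟩)
        · exact Or.inr h
        · exact Or.inl rfl
      · rintro (rfl | h)
        · exact Or.inr ⟨rfl, hp⟩
        · refine Or.inl ⟨h, ?_⟩
          rintro rfl
          exact hp h
    rw [h1, Finset.prod_insert hp]
    ring

theorem chi_sd (S : Finset K) (p q : K) (x : K → Bool) :
    chi (sd S p q) x = chi S x * (sgn (x p) * sgn (x q)) := by
  unfold sd
  rw [chi_symmDiff_singleton, chi_symmDiff_singleton]
  ring

theorem sgn_flipOn_singleton (p c : K) (x : K → Bool) :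
    sgn (flipOn {p} x c) = sgn (x c) * (if c = p then -1 else 1) := by
  unfold flipOn
  by_cases h : c = p
  · subst h
    cases hx : x c <;> simp [sgn]
  · simp [h]

theorem chi_flipOn_singleton (S : Finset K) (p : K) (x : K → Bool) :
    chi S (flipOn {p} x) = (if p ∈ S then -1 else 1) * chi S x := by
  unfold chi
  simp only [sgn_flipOn_singleton, Finset.prod_mul_distrib]
  rw [mul_comm]
  congr 1
  exact Finset.prod_ite_eq' S p (fun _ => (-1 : ℝ))

theorem card_symmDiff_singleton_ge (S : Finset K) (p : K) :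
    S.card ≤ (symmDiff S {p}).card + 1 := by
  have h : S ⊆ insert p (symmDiff S {p}) := by
    intro c hc
    by_cases h : c = p
    · exact h ▸ mem_insert_self _ _
    · refine mem_insert_of_mem ?_
      simp only [mem_symmDiff, mem_singleton]
      exact Or.inl ⟨hc, h⟩
  exact (card_le_card h).trans (card_insert_le _ _)

theorem card_sd_ge (S : Finset K) (p q : K) : S.card ≤ (sd S p q).card + 2 := by
  have h1 := card_symmDiff_singleton_ge S p
  have h2 := card_symmDiff_singleton_ge (symmDiff S {p}) q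
  unfold sd
  omega

end chi

/-! ### The moments `alpha` -/

variable {L : ℕ}

/-- `Y x = S_x² - N'`. -/
noncomputable def Yy (L : ℕ) (x : Deck L → Bool) : ℝ := signSum Finset.univ x ^ 2 - 2 ^ L

/-- `α_a(S) = E_x [χ_S(x) Y(x)^a]`. -/
noncomputable def alpha (L a : ℕ) (S : Finset (Deck L)) : ℝ :=
  Ex (fun x : Deck L → Bool => chi S x * Yy L x ^ a)

theorem Yy_eq (x : Deck L → Bool) :
    Yy L x = ∑ p, ∑ q ∈ univ.erase p, (sgn (x p) * sgn (x q)) := by
  unfold Yy signSum
  rw [sq, Finset.sum_mul_sum]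
  have h : ∀ p : Deck L, ∑ q, sgn (x p) * sgn (x q)
      = 1 + ∑ q ∈ univ.erase p, sgn (x p) * sgn (x q) := by
    intro p
    rw [← Finset.add_sum_erase univ _ (mem_univ p), hd_sgn_mul_self]
  simp only [h, Finset.sum_add_distrib, Finset.sum_const, card_univ, card_deck]
  simp

theorem alpha_succ (a : ℕ) (S : Finset (Deck L)) :
    alpha L (a + 1) S = ∑ p, ∑ q ∈ univ.erase p, alpha L a (sd S p q) := by
  unfold alpha
  simp only [← Ex_sum]
  refine Ex_congr fun x => ?_
  rw [pow_succ', Yy_eq x]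
  simp only [chi_sd, Finset.mul_sum, Finset.sum_mul]
  refine Finset.sum_congr rfl fun p _ => Finset.sum_congr rfl fun q _ => ?_
  ring

theorem alpha_zero_empty : alpha L 0 ∅ = 1 := by
  unfold alpha
  simp [chi, Ex_const]

theorem alpha_zero_of_ne {S : Finset (Deck L)} (hS : S ≠ ∅) : alpha L 0 S = 0 := by
  obtain ⟨c, hc⟩ := Finset.nonempty_iff_ne_empty.2 hS
  unfold alpha
  refine Ex_eq_zero_of_flipOn_neg {c} _ fun x => ?_
  rw [chi_flipOn_singleton]
  simp [hc]

theorem alpha_nonneg (a : ℕ) : ∀ S : Finset (Deck L), 0 ≤ alpha L a S := by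
  induction a with
  | zero =>
    intro S
    by_cases hS : S = ∅
    · rw [hS, alpha_zero_empty]; exact zero_le_one
    · rw [alpha_zero_of_ne hS]
  | succ a ih =>
    intro S
    rw [alpha_succ]
    exact Finset.sum_nonneg fun p _ => Finset.sum_nonneg fun q _ => ih _

theorem alpha_eq_zero (a : ℕ) : ∀ S : Finset (Deck L), 2 * a < S.card → alpha L a S = 0 := by
  induction a with
  | zero =>
    intro S h
    apply alpha_zero_of_ne
    rintro rfl
    simp at h
  | succ a ih =>
    intro S h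
    rw [alpha_succ]
    refine Finset.sum_eq_zero fun p _ => Finset.sum_eq_zero fun q _ => ih _ ?_
    have := card_sd_ge S p q
    omega

/-- `|S| α_a(S) ≤ 2a α_a(S)`. -/
theorem card_mul_alpha_le (a : ℕ) (S : Finset (Deck L)) :
    (S.card : ℝ) * alpha L a S ≤ (2 * (a : ℝ)) * alpha L a S := by
  by_cases h : 2 * a < S.card
  · rw [alpha_eq_zero a S h]; simp
  · refine mul_le_mul_of_nonneg_right ?_ (alpha_nonneg a S)
    have : S.card ≤ 2 * a := not_lt.1 h
    exact_mod_cast this

/-! ### The coefficients -/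

/-- `B n a = C(n,a) (2a)^(n-a)`. -/
noncomputable def Bco (n a : ℕ) : ℝ := (n.choose a : ℝ) * (2 * (a : ℝ)) ^ (n - a)

theorem Bco_nonneg (n a : ℕ) : 0 ≤ Bco n a := by
  unfold Bco; positivity

theorem Bco_step (n a : ℕ) :
    Bco n a + Bco n (a + 1) * (2 * ((a + 1 : ℕ) : ℝ)) ≤ Bco (n + 1) (a + 1) := by
  unfold Bco
  have hc : ((n + 1).choose (a + 1) : ℝ) = (n.choose a : ℝ) + (n.choose (a + 1) : ℝ) := by
    rw [Nat.choose_succ_succ]; push_cast; ring
  rw [hc, Nat.add_sub_add_right]
  by_cases han : a < n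
  · obtain ⟨k, rfl⟩ : ∃ k, n = a + 1 + k := ⟨n - (a + 1), by omega⟩
    have e1 : a + 1 + k - a = k + 1 := by omega
    have e2 : a + 1 + k - (a + 1) = k := by omega
    rw [e1, e2, add_mul]
    have h1 : (2 * (a : ℝ)) ^ (k + 1) ≤ (2 * ((a + 1 : ℕ) : ℝ)) ^ (k + 1) := by
      apply pow_le_pow_left₀ (by positivity)
      push_cast; linarith
    have h2 : (((a + 1 + k).choose a : ℕ) : ℝ) * (2 * (a : ℝ)) ^ (k + 1)
        ≤ (((a + 1 + k).choose a : ℕ) : ℝ) * (2 * ((a + 1 : ℕ) : ℝ)) ^ (k + 1) :=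
      mul_le_mul_of_nonneg_left h1 (by positivity)
    have h3 : (((a + 1 + k).choose (a + 1) : ℕ) : ℝ) * (2 * ((a + 1 : ℕ) : ℝ)) ^ k
          * (2 * ((a + 1 : ℕ) : ℝ))
        = (((a + 1 + k).choose (a + 1) : ℕ) : ℝ) * (2 * ((a + 1 : ℕ) : ℝ)) ^ (k + 1) := by
      rw [pow_succ]; ring
    rw [h3]
    linarith
  · rw [Nat.choose_eq_zero_of_lt (show n < a + 1 by omega)]
    by_cases hna : a = n
    · subst hna
      simp
    · rw [Nat.choose_eq_zero_of_lt (show n < a by omega)]
      simp

theorem Bco_zero_sum (M : ℕ) (hM : 0 < M) (f : ℕ → ℝ) :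
    ∑ a ∈ range M, Bco 0 a * f a = f 0 := by
  obtain ⟨m, rfl⟩ : ∃ m, M = m + 1 := ⟨M - 1, by omega⟩
  rw [Finset.sum_range_succ']
  simp [Bco]

/-- The generating function of `B n a`. -/
theorem sum_Bco_le {s : ℝ} (hs : 0 ≤ s) (a M : ℕ) :
    ∑ n ∈ range M, s ^ n / (n.factorial : ℝ) * Bco n a
      ≤ (s * Real.exp (2 * s)) ^ a / (a.factorial : ℝ) := by
  have hfac : (0 : ℝ) < (a.factorial : ℝ) := by exact_mod_cast a.factorial_pos
  have hexp : 0 ≤ (s * Real.exp (2 * s)) ^ a / (a.factorial : ℝ) := by positivity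
  by_cases hM : M ≤ a
  · rw [Finset.sum_eq_zero]
    · exact hexp
    · intro n hn
      have : n < a := lt_of_lt_of_le (mem_range.1 hn) hM
      simp [Bco, Nat.choose_eq_zero_of_lt this]
  · obtain ⟨m, rfl⟩ : ∃ m, M = a + m := ⟨M - a, by omega⟩
    rw [Finset.sum_range_add]
    rw [Finset.sum_eq_zero (s := range a), zero_add]
    swap
    · intro n hn
      simp [Bco, Nat.choose_eq_zero_of_lt (mem_range.1 hn)]
    have hterm : ∀ k, s ^ (a + k) / ((a + k).factorial : ℝ) * Bco (a + k) a
        = s ^ a / (a.factorial : ℝ) * ((2 * (a : ℝ) * s) ^ k / (k.factorial : ℝ)) := by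
      intro k
      have hk : (0 : ℝ) < (k.factorial : ℝ) := by exact_mod_cast k.factorial_pos
      have hak : (0 : ℝ) < ((a + k).factorial : ℝ) := by exact_mod_cast (a + k).factorial_pos
      have hch : (((a + k).choose a : ℕ) : ℝ) * (a.factorial : ℝ) * (k.factorial : ℝ)
          = ((a + k).factorial : ℝ) := by
        have := Nat.add_choose_mul_factorial_mul_factorial a k
        rw [← Nat.choose_symm_add] at this
        exact_mod_cast this
      unfold Bco
      rw [Nat.add_sub_cancel_left]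
      field_simp
      rw [← hch]
      ring
    simp only [hterm, ← Finset.mul_sum]
    have h1 := Real.sum_le_exp_of_nonneg
      (show 0 ≤ 2 * (a : ℝ) * s by positivity) m
    calc s ^ a / (a.factorial : ℝ) * ∑ k ∈ range m, (2 * (a : ℝ) * s) ^ k / (k.factorial : ℝ)
        ≤ s ^ a / (a.factorial : ℝ) * Real.exp (2 * (a : ℝ) * s) :=
          mul_le_mul_of_nonneg_left h1 (by positivity)
      _ = (s * Real.exp (2 * s)) ^ a / (a.factorial : ℝ) := by
          rw [mul_pow, ← Real.exp_nat_mul, show (a : ℝ) * (2 * s) = 2 * (a : ℝ) * s by ring]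
          ring

/-! ### The limit -/

theorem tendsto_sum_alpha (t : ℝ) :
    Filter.Tendsto (fun M => ∑ a ∈ range M, t ^ a / (a.factorial : ℝ) * alpha L a ∅)
      Filter.atTop (nhds (Ex (fun x : Deck L → Bool => Real.exp (t * Yy L x)))) := by
  have h1 : ∀ M, ∑ a ∈ range M, t ^ a / (a.factorial : ℝ) * alpha L a ∅
      = Ex (fun x : Deck L → Bool => ∑ a ∈ range M, (t * Yy L x) ^ a / (a.factorial : ℝ)) := by
    intro M
    unfold alpha
    rw [Ex_sum]
    refine Finset.sum_congr rfl fun a _ => ?_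
    rw [← Ex_const_mul]
    refine Ex_congr fun x => ?_
    simp only [chi, Finset.prod_empty, one_mul, mul_pow]
    ring
  simp only [h1]
  unfold Ex
  refine Filter.Tendsto.const_mul _ (tendsto_finsetSum _ fun x _ => ?_)
  have := (NormedSpace.expSeries_div_hasSum_exp (t * Yy L x)).tendsto_sum_nat
  rwa [Real.exp_eq_exp_ℝ]

theorem sum_alpha_le {t : ℝ} (ht : 0 ≤ t) (M : ℕ) :
    ∑ a ∈ range M, t ^ a / (a.factorial : ℝ) * alpha L a ∅
      ≤ Ex (fun x : Deck L → Bool => Real.exp (t * Yy L x)) := by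
  refine Monotone.ge_of_tendsto ?_ (tendsto_sum_alpha t) M
  refine monotone_nat_of_le_succ fun n => ?_
  rw [Finset.sum_range_succ]
  have : 0 ≤ t ^ n / (n.factorial : ℝ) * alpha L n ∅ :=
    mul_nonneg (by positivity) (alpha_nonneg n ∅)
  linarith

end Crest.Agent.Thorp
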