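import Crest.Agent.Lib.Thorp.ExTools

/-!
# High part: definitions in an orthogonal representation

`ρ : Equiv.Perm X →* (V →L[ℝ] V)` with `‖ρ σ v‖ = ‖v‖`.
* `Cas ρ = (1/2) ∑_x ∑_y (1 - ρ (swap x y))`.
* `Trho L ρ = E_ω ρ (tau L ω)`.
* `blockEmb b : Perm (Deck L) →* Perm (Deck (L+1))` embeds the permutations of block `b`.
* `Rpq ρ p q`, `RR ρ`.
* `cas_block_add`: the identity `Cas₀ + Cas₁ = ½ Cas - RR`.

See `BLUEPRINT.md`, section 10.
-/

set_option autoImplicit false

namespace Crest.Agent.Thorp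

open scoped InnerProductSpace

variable {V : Type*} [NormedAddCommGroup V] [InnerProductSpace ℝ V]

/-- The Casimir `½ ∑_x ∑_y (1 - ρ (swap x y))`. -/
noncomputable def Cas {X : Type*} [Fintype X] [DecidableEq X]
    (ρ : Equiv.Perm X →* (V →L[ℝ] V)) : V →L[ℝ] V :=
  (1 / 2 : ℝ) • ∑ x, ∑ y, (1 - ρ (Equiv.swap x y))

/-- `T` in the representation: the average of `ρ (tau L ω)`. -/
noncomputable def Trho (L : ℕ) (ρ : Equiv.Perm (Deck L) →* (V →L[ℝ] V)) : V →L[ℝ] V :=
  (Fintype.card (TΩ L) : ℝ)⁻¹ • ∑ ω, ρ (tau L ω)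

/-- The slot `(b, p)` of `Deck (L+1)`, as a term of that type. -/
def dk {L : ℕ} (b : Bool) (p : Deck L) : Deck (L + 1) := (b, p)

theorem dk_inj {L : ℕ} {a b : Bool} {p q : Deck L} : dk a p = dk b q ↔ a = b ∧ p = q := by
  constructor
  · intro h
    exact ⟨congrArg Prod.fst h, congrArg Prod.snd h⟩
  · rintro ⟨rfl, rfl⟩
    rfl

theorem deck_cases {L : ℕ} (x : Deck (L + 1)) : ∃ b p, x = dk b p := ⟨x.1, x.2, rfl⟩

theorem blockPerm_dk {L : ℕ} (σ0 σ1 : Equiv.Perm (Deck L)) (b : Bool) (u : Deck L) :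
    blockPerm σ0 σ1 (dk b u) = dk b (if b then σ1 u else σ0 u) := rfl

theorem flipPerm_dk {L : ℕ} (f : Flips L) (b : Bool) (u : Deck L) :
    flipPerm f (dk b u) = dk (xor b (f u)) u := rfl

theorem blockPerm_one_one {L : ℕ} : blockPerm (1 : Equiv.Perm (Deck L)) 1 = 1 := by
  refine Equiv.ext fun x => ?_
  obtain ⟨b, p, rfl⟩ := deck_cases x
  cases b <;> rfl

theorem blockPerm_mul_blockPerm {L : ℕ} (a b c d : Equiv.Perm (Deck L)) :
    blockPerm a b * blockPerm c d = blockPerm (a * c) (b * d) := by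
  refine Equiv.ext fun x => ?_
  obtain ⟨y, p, rfl⟩ := deck_cases x
  cases y <;> rfl

/-- The permutations of block `b` of `Deck (L+1)`. -/
def blockEmb {L : ℕ} (b : Bool) : Equiv.Perm (Deck L) →* Equiv.Perm (Deck (L + 1)) where
  toFun σ := if b then blockPerm 1 σ else blockPerm σ 1
  map_one' := by cases b <;> exact blockPerm_one_one
  map_mul' σ τ := by
    cases b
    · simp only [Bool.false_eq_true, if_false, blockPerm_mul_blockPerm, one_mul]
    · simp only [if_true, blockPerm_mul_blockPerm, one_mul]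

theorem blockEmb_apply_same {L : ℕ} (b : Bool) (σ : Equiv.Perm (Deck L)) (p : Deck L) :
    blockEmb b σ (dk b p) = dk b (σ p) := by
  cases b <;> rfl

theorem blockEmb_apply_other {L : ℕ} (b c : Bool) (hc : c ≠ b) (σ : Equiv.Perm (Deck L))
    (p : Deck L) : blockEmb b σ (dk c p) = dk c p := by
  cases b <;> cases c <;> first | rfl | exact absurd rfl hc

theorem dk_injective {L : ℕ} (c : Bool) : Function.Injective (dk (L := L) c) :=
  fun _ _ h => (dk_inj.1 h).2

/-- `ι_b (swap p q) = swap (b,p) (b,q)`. -/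
theorem blockEmb_swap {L : ℕ} (b : Bool) (p q : Deck L) :
    blockEmb b (Equiv.swap p q) = Equiv.swap (dk b p) (dk b q) := by
  refine Equiv.ext fun x => ?_
  obtain ⟨c, u, rfl⟩ := deck_cases x
  by_cases hc : c = b
  · subst hc
    rw [blockEmb_apply_same]
    exact ((dk_injective c).swap_apply p q u).symm
  · rw [blockEmb_apply_other b c hc, Equiv.swap_apply_of_ne_of_ne]
    · intro h; exact hc (dk_inj.1 h).1
    · intro h; exact hc (dk_inj.1 h).1

/-- `R p q = t⁰ + t¹ - t^× - t^{×'}`; for `p = q` it equals `2 - 2 t_p`. -/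
noncomputable def Rpq {L : ℕ} (ρ : Equiv.Perm (Deck (L + 1)) →* (V →L[ℝ] V)) (p q : Deck L) :
    V →L[ℝ] V :=
  ρ (Equiv.swap (dk false p) (dk false q)) + ρ (Equiv.swap (dk true p) (dk true q))
    - ρ (Equiv.swap (dk false p) (dk true q)) - ρ (Equiv.swap (dk true p) (dk false q))

/-- `RR = ¼ ∑_p ∑_q R p q` (which equals `¼ ∑_{p ≠ q} R p q + ∑_p Q_p`, `Q_p = (1 - t_p)/2`). -/
noncomputable def RR {L : ℕ} (ρ : Equiv.Perm (Deck (L + 1)) →* (V →L[ℝ] V)) : V →L[ℝ] V :=
  (1 / 4 : ℝ) • ∑ p, ∑ q, Rpq ρ p q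

/-- Sums over `Deck (L+1)` split into the two blocks. -/
theorem sum_deck_succ {M : Type*} [AddCommMonoid M] {L : ℕ} (f : Deck (L + 1) → M) :
    ∑ x, f x = ∑ b : Bool, ∑ p : Deck L, f (dk b p) :=
  Fintype.sum_prod_type (α₁ := Bool) (α₂ := Deck L) f

/-- The identity `Cas₀ + Cas₁ = ½ Cas - RR`. -/
theorem cas_block_add {L : ℕ} (ρ : Equiv.Perm (Deck (L + 1)) →* (V →L[ℝ] V)) :
    Cas (ρ.comp (blockEmb false)) + Cas (ρ.comp (blockEmb true))
      = (1 / 2 : ℝ) • Cas ρ - RR ρ := by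
  unfold Cas RR
  simp only [MonoidHom.comp_apply, blockEmb_swap]
  have key : ∑ x : Deck (L + 1), ∑ y : Deck (L + 1), (1 - ρ (Equiv.swap x y))
      = ∑ p : Deck L, ∑ q : Deck L,
        ((1 - ρ (Equiv.swap (dk false p) (dk false q)))
          + (1 - ρ (Equiv.swap (dk false p) (dk true q)))
        + ((1 - ρ (Equiv.swap (dk true p) (dk false q)))
          + (1 - ρ (Equiv.swap (dk true p) (dk true q))))) := by
    rw [sum_deck_succ]
    simp only [sum_deck_succ (fun y => (1 - ρ (Equiv.swap _ y))), Fintype.sum_bool]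
    simp only [Finset.sum_add_distrib]
    abel
  rw [key]
  simp only [Finset.smul_sum, ← Finset.sum_add_distrib, ← Finset.sum_sub_distrib]
  refine Finset.sum_congr rfl fun p _ => Finset.sum_congr rfl fun q _ => ?_
  unfold Rpq
  module

end Crest.Agent.Thorp
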