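import Crest.Agent.Lib.Thorp.HighAlpha

/-!
# The Dyson bound (blueprint section 10a)

Fourier projections `PiS ρ S` of the flip group; the recursion
`‖Π_S (RR w)‖ ≤ ∑_p ∑_{q≠p} ‖Π_{S Δ {p,q}} w‖ + |S| ‖Π_S w‖` and the comparison with the moments
of the Rademacher sum:  `⟪ψ, exp (s • RR) ψ⟫ ≤ ‖ψ‖² E exp (s̃ (S² - N'))`, `s̃ = s e^{2s}`.
-/

set_option autoImplicit false

namespace Crest.Agent.Thorp

open Finset
open scoped InnerProductSpace

variable {V : Type*} [NormedAddCommGroup V] [InnerProductSpace ℝ V] {L : ℕ}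
variable (ρ : Equiv.Perm (Deck (L + 1)) →* (V →L[ℝ] V))

/-- `flipPerm e * swap x y = swap (flip x) (flip y) * flipPerm e`. -/
theorem flip_mul_swap (e : Flips L) (b c : Bool) (p q : Deck L) :
    flipPerm e * Equiv.swap (dk b p) (dk c q)
      = Equiv.swap (dk (xor b (e p)) p) (dk (xor c (e q)) q) * flipPerm e := by
  rw [Equiv.mul_swap_eq_swap_mul]
  rfl

/-- Commutation of a flip with `R p q`. -/
theorem rho_flip_Rpq (e : Flips L) (p q : Deck L) :
    ρ (flipPerm e) * Rpq ρ p q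
      = (sgn (e p) * sgn (e q)) • (Rpq ρ p q * ρ (flipPerm e)) := by
  unfold Rpq
  simp only [mul_sub, mul_add, sub_mul, add_mul, ← map_mul, flip_mul_swap]
  cases e p <;> cases e q <;> simp only [sgn, Bool.false_eq_true, if_false, if_true,
    Bool.xor_false, Bool.xor_true, Bool.not_false, Bool.not_true] <;> module

/-- The Fourier projection `Π_S = E_e χ_S(e) ρ(flipPerm e)`. -/
noncomputable def PiS (S : Finset (Deck L)) : V →L[ℝ] V :=
  (Fintype.card (Flips L) : ℝ)⁻¹ • ∑ e : Flips L, chi S e • ρ (flipPerm e)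

theorem PiS_mul_Rpq (S : Finset (Deck L)) (p q : Deck L) :
    PiS ρ S * Rpq ρ p q = Rpq ρ p q * PiS ρ (sd S p q) := by
  unfold PiS
  rw [smul_mul_assoc, mul_smul_comm, Finset.sum_mul, Finset.mul_sum]
  congr 1
  refine Finset.sum_congr rfl fun e _ => ?_
  rw [smul_mul_assoc, mul_smul_comm, rho_flip_Rpq, smul_smul, chi_sd]

/-- The flip at one site. -/
def delP (p : Deck L) : Flips L := flipOn {p} (fun _ => false)

theorem flipPerm_mul_flipPerm (e e' : Flips L) :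
    flipPerm e * flipPerm e' = flipPerm (fun c => xor (e c) (e' c)) := by
  refine Equiv.ext fun x => ?_
  obtain ⟨b, p, rfl⟩ := deck_cases x
  change dk (xor (xor b (e' p)) (e p)) p = dk (xor b (xor (e p) (e' p))) p
  cases b <;> cases e p <;> cases e' p <;> rfl

theorem flipPerm_delP (p : Deck L) :
    flipPerm (delP p) = Equiv.swap (dk false p) (dk true p) := by
  refine Equiv.ext fun x => ?_
  obtain ⟨b, u, rfl⟩ := deck_cases x
  by_cases hu : u = p
  · subst hu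
    have hd : delP u u = true := by simp [delP, flipOn]
    rw [flipPerm_dk, hd]
    cases b
    · exact (Equiv.swap_apply_left _ _).symm
    · exact (Equiv.swap_apply_right _ _).symm
  · have hd : delP p u = false := by simp [delP, flipOn, hu]
    rw [flipPerm_dk, hd, Equiv.swap_apply_of_ne_of_ne]
    · simp
    · intro h; exact hu (dk_inj.1 h).2
    · intro h; exact hu (dk_inj.1 h).2

theorem PiS_mul_flip_delP (S : Finset (Deck L)) (p : Deck L) :
    PiS ρ S * ρ (flipPerm (delP p)) = (if p ∈ S then (-1 : ℝ) else 1) • PiS ρ S := by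
  unfold PiS
  rw [smul_mul_assoc, smul_comm (if p ∈ S then (-1 : ℝ) else 1), Finset.sum_mul]
  congr 1
  rw [Finset.smul_sum]
  have h : ∀ e : Flips L, (fun c => xor (e c) (delP p c)) = flipOn {p} e := by
    intro e
    funext c
    by_cases hc : c = p
    · subst hc; simp [delP, flipOn]
    · simp [delP, flipOn, hc]
  have h2 : ∀ e : Flips L, chi S e • ρ (flipPerm e) * ρ (flipPerm (delP p))
      = chi S e • ρ (flipPerm (flipOn {p} e)) := by
    intro e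
    rw [smul_mul_assoc, ← map_mul, flipPerm_mul_flipPerm, h]
  simp only [h2]
  have h3 := (flipOnEquiv (K := Deck L) {p}).sum_comp
    (fun e : Deck L → Bool => chi S (flipOn {p} e) • ρ (flipPerm e))
  have h4 : ∀ e : Deck L → Bool, chi S (flipOn {p} (flipOn {p} e)) • ρ (flipPerm (flipOn {p} e))
      = chi S e • ρ (flipPerm (flipOn {p} e)) := by
    intro e
    rw [flipOn_flipOn]
  change ∑ e : Deck L → Bool, chi S (flipOn {p} (flipOn {p} e)) • ρ (flipPerm (flipOn {p} e))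
    = ∑ e : Deck L → Bool, chi S (flipOn {p} e) • ρ (flipPerm e) at h3
  simp only [h4] at h3
  refine h3.trans ?_
  refine Finset.sum_congr rfl fun e _ => ?_
  rw [chi_flipOn_singleton, smul_smul]

theorem Rpq_self (p : Deck L) :
    Rpq ρ p p = (2 : ℝ) • (1 : V →L[ℝ] V) - (2 : ℝ) • ρ (flipPerm (delP p)) := by
  unfold Rpq
  rw [flipPerm_delP, Equiv.swap_comm (dk true p) (dk false p), Equiv.swap_self, Equiv.swap_self]
  have : ρ (Equiv.refl (Deck (L + 1))) = 1 := map_one ρ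
  rw [this]
  module

theorem PiS_mul_Rpq_self (S : Finset (Deck L)) (p : Deck L) :
    PiS ρ S * Rpq ρ p p = (if p ∈ S then (4 : ℝ) else 0) • PiS ρ S := by
  rw [Rpq_self, mul_sub, mul_smul_comm, mul_smul_comm, mul_one, PiS_mul_flip_delP, smul_smul]
  by_cases h : p ∈ S <;> simp only [h, if_true, if_false] <;> module

variable {ρ}

theorem norm_Rpq_apply_le (hρ : ∀ σ v, ‖ρ σ v‖ = ‖v‖) (p q : Deck L) (w : V) :
    ‖Rpq ρ p q w‖ ≤ 4 * ‖w‖ := by
  unfold Rpq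
  simp only [_root_.sub_apply, _root_.add_apply]
  calc _ ≤ ‖ρ (Equiv.swap (dk false p) (dk false q)) w‖ + ‖ρ (Equiv.swap (dk true p) (dk true q)) w‖
        + ‖ρ (Equiv.swap (dk false p) (dk true q)) w‖
        + ‖ρ (Equiv.swap (dk true p) (dk false q)) w‖ := by
        refine (norm_sub_le _ _).trans ?_
        refine add_le_add_left ((norm_sub_le _ _).trans ?_) _
        exact add_le_add_left (norm_add_le _ _) _
    _ = 4 * ‖w‖ := by simp only [hρ]; ring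

/-- The recursion for the Fourier norms. -/
theorem norm_PiS_RR_le (hρ : ∀ σ v, ‖ρ σ v‖ = ‖v‖) (S : Finset (Deck L)) (w : V) :
    ‖PiS ρ S (RR ρ w)‖
      ≤ ∑ p, ∑ q ∈ univ.erase p, ‖PiS ρ (sd S p q) w‖ + (S.card : ℝ) * ‖PiS ρ S w‖ := by
  have h1 : PiS ρ S (RR ρ w)
      = (1 / 4 : ℝ) • ∑ p, ((if p ∈ S then (4 : ℝ) else 0) • PiS ρ S w
          + ∑ q ∈ univ.erase p, Rpq ρ p q (PiS ρ (sd S p q) w)) := by
    unfold RR
    simp only [_root_.smul_apply, _root_.sum_apply, map_smul, map_sum]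
    congr 1
    refine Finset.sum_congr rfl fun p _ => ?_
    rw [← Finset.add_sum_erase univ _ (mem_univ p)]
    congr 1
    · exact congrArg (fun T : V →L[ℝ] V => T w) (PiS_mul_Rpq_self ρ S p)
    · refine Finset.sum_congr rfl fun q _ => ?_
      exact congrArg (fun T : V →L[ℝ] V => T w) (PiS_mul_Rpq ρ S p q)
  rw [h1, norm_smul]
  have h2 : ‖∑ p, ((if p ∈ S then (4 : ℝ) else 0) • PiS ρ S w
          + ∑ q ∈ univ.erase p, Rpq ρ p q (PiS ρ (sd S p q) w))‖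
      ≤ ∑ p, ((if p ∈ S then (4 : ℝ) else 0) * ‖PiS ρ S w‖
          + ∑ q ∈ univ.erase p, 4 * ‖PiS ρ (sd S p q) w‖) := by
    refine (norm_sum_le _ _).trans (Finset.sum_le_sum fun p _ => ?_)
    refine (norm_add_le _ _).trans (add_le_add ?_ ?_)
    · rw [norm_smul]
      refine mul_le_mul_of_nonneg_right ?_ (norm_nonneg _)
      by_cases h : p ∈ S <;> simp [h]
    · refine (norm_sum_le _ _).trans (Finset.sum_le_sum fun q _ => ?_)
      exact norm_Rpq_apply_le hρ p q _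
  have h3 : ∑ p, ((if p ∈ S then (4 : ℝ) else 0) * ‖PiS ρ S w‖
          + ∑ q ∈ univ.erase p, 4 * ‖PiS ρ (sd S p q) w‖)
      = 4 * (∑ p, ∑ q ∈ univ.erase p, ‖PiS ρ (sd S p q) w‖ + (S.card : ℝ) * ‖PiS ρ S w‖) := by
    rw [Finset.sum_add_distrib, ← Finset.sum_mul, mul_add]
    have h4 : ∑ p, (if p ∈ S then (4 : ℝ) else 0) = 4 * (S.card : ℝ) := by
      simp [Finset.sum_ite_mem]
      ring
    rw [h4, add_comm]
    simp only [← Finset.mul_sum]
    ring
  have h5 : ‖(1 / 4 : ℝ)‖ = 1 / 4 := by norm_num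
  rw [h5]
  rw [h3] at h2
  linarith

/-- Flip-invariant vectors: `Π_S ψ = α₀(S) ψ`. -/
theorem PiS_apply_of_inv {ψ : V} (hψ : ∀ e : Flips L, ρ (flipPerm e) ψ = ψ) (S : Finset (Deck L)) :
    PiS ρ S ψ = alpha L 0 S • ψ := by
  unfold PiS alpha Ex
  simp only [_root_.smul_apply, _root_.sum_apply, hψ, pow_zero, mul_one]
  rw [← Finset.sum_smul, smul_smul]

/-- The main induction. -/
theorem norm_PiS_pow_le (hρ : ∀ σ v, ‖ρ σ v‖ = ‖v‖) {ψ : V}
    (hψ : ∀ e : Flips L, ρ (flipPerm e) ψ = ψ) (n : ℕ) :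
    ∀ (S : Finset (Deck L)) (M : ℕ), n < M →
      ‖PiS ρ S (((RR ρ) ^ n : V →L[ℝ] V) ψ)‖ ≤ ‖ψ‖ * ∑ a ∈ range M, Bco n a * alpha L a S := by
  induction n with
  | zero =>
    intro S M hM
    rw [Bco_zero_sum M hM (fun a => alpha L a S), pow_zero]
    change ‖PiS ρ S ψ‖ ≤ _
    rw [PiS_apply_of_inv hψ, norm_smul, Real.norm_eq_abs, abs_of_nonneg (alpha_nonneg 0 S), mul_comm]
  | succ n ih =>
    intro S M hM
    obtain ⟨m, rfl⟩ : ∃ m, M = m + 1 := ⟨M - 1, by omega⟩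
    have hnm : n < m := by omega
    rw [pow_succ']
    change ‖PiS ρ S (RR ρ (((RR ρ) ^ n : V →L[ℝ] V) ψ))‖ ≤ _
    refine (norm_PiS_RR_le hρ S _).trans ?_
    set w := ((RR ρ) ^ n : V →L[ℝ] V) ψ with hw
    have h1 : ∑ p, ∑ q ∈ univ.erase p, ‖PiS ρ (sd S p q) w‖
        ≤ ‖ψ‖ * ∑ a ∈ range m, Bco n a * alpha L (a + 1) S := by
      have : ∑ a ∈ range m, Bco n a * alpha L (a + 1) S
          = ∑ p, ∑ q ∈ univ.erase p, ∑ a ∈ range m, Bco n a * alpha L a (sd S p q) := by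
        simp only [alpha_succ, Finset.mul_sum]
        rw [Finset.sum_comm]
        refine Finset.sum_congr rfl fun p _ => ?_
        rw [Finset.sum_comm]
      rw [this, Finset.mul_sum]
      refine Finset.sum_le_sum fun p _ => ?_
      rw [Finset.mul_sum]
      exact Finset.sum_le_sum fun q _ => ih _ m hnm
    have h2 : (S.card : ℝ) * ‖PiS ρ S w‖
        ≤ ‖ψ‖ * ∑ a ∈ range m, Bco n (a + 1) * (2 * ((a + 1 : ℕ) : ℝ)) * alpha L (a + 1) S := by
      have h3 := ih S (m + 1) (by omega)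
      have h4 : (S.card : ℝ) * ∑ a ∈ range (m + 1), Bco n a * alpha L a S
          ≤ ∑ a ∈ range m, Bco n (a + 1) * (2 * ((a + 1 : ℕ) : ℝ)) * alpha L (a + 1) S := by
        rw [Finset.sum_range_succ', mul_add, Finset.mul_sum]
        have h5 : (S.card : ℝ) * (Bco n 0 * alpha L 0 S) = 0 := by
          by_cases hS : S = ∅
          · simp [hS]
          · rw [alpha_zero_of_ne hS]; simp
        rw [h5, add_zero]
        refine Finset.sum_le_sum fun a _ => ?_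
        have h6 := mul_le_mul_of_nonneg_left (card_mul_alpha_le (a + 1) S) (Bco_nonneg n (a + 1))
        calc _ = Bco n (a + 1) * ((S.card : ℝ) * alpha L (a + 1) S) := by ring
          _ ≤ _ := h6
          _ = _ := by ring
      calc (S.card : ℝ) * ‖PiS ρ S w‖
          ≤ (S.card : ℝ) * (‖ψ‖ * ∑ a ∈ range (m + 1), Bco n a * alpha L a S) :=
            mul_le_mul_of_nonneg_left h3 (by positivity)
        _ = ‖ψ‖ * ((S.card : ℝ) * ∑ a ∈ range (m + 1), Bco n a * alpha L a S) := by ring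
        _ ≤ _ := mul_le_mul_of_nonneg_left h4 (norm_nonneg _)
    refine (add_le_add h1 h2).trans ?_
    rw [← mul_add, ← Finset.sum_add_distrib]
    refine mul_le_mul_of_nonneg_left ?_ (norm_nonneg _)
    rw [Finset.sum_range_succ' _ m]
    have h0 : 0 ≤ Bco (n + 1) 0 * alpha L 0 S := mul_nonneg (Bco_nonneg _ _) (alpha_nonneg _ _)
    have h7 : ∑ a ∈ range m, (Bco n a * alpha L (a + 1) S
          + Bco n (a + 1) * (2 * ((a + 1 : ℕ) : ℝ)) * alpha L (a + 1) S)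
        ≤ ∑ a ∈ range m, Bco (n + 1) (a + 1) * alpha L (a + 1) S := by
      refine Finset.sum_le_sum fun a _ => ?_
      have := mul_le_mul_of_nonneg_right (Bco_step n a) (alpha_nonneg (a + 1) S)
      calc _ = (Bco n a + Bco n (a + 1) * (2 * ((a + 1 : ℕ) : ℝ))) * alpha L (a + 1) S := by ring
        _ ≤ _ := this
    linarith

/-- A representation by isometries preserves inner products. -/
theorem inner_rho_rho (hρ : ∀ σ v, ‖ρ σ v‖ = ‖v‖) (σ : Equiv.Perm (Deck (L + 1))) (v w : V) :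
    ⟪ρ σ v, ρ σ w⟫_ℝ = ⟪v, w⟫_ℝ :=
  (LinearIsometry.mk (ρ σ).toLinearMap (hρ σ)).inner_map_map v w

/-- `⟪ψ, w⟫ = ⟪ψ, Π_∅ w⟫`. -/
theorem inner_PiS_empty (hρ : ∀ σ v, ‖ρ σ v‖ = ‖v‖) {ψ : V}
    (hψ : ∀ e : Flips L, ρ (flipPerm e) ψ = ψ) (w : V) :
    ⟪ψ, PiS ρ ∅ w⟫_ℝ = ⟪ψ, w⟫_ℝ := by
  unfold PiS
  simp only [_root_.smul_apply, _root_.sum_apply, inner_smul_right,
    inner_sum]
  have : ∀ e : Flips L, chi ∅ e * ⟪ψ, ρ (flipPerm e) w⟫_ℝ = ⟪ψ, w⟫_ℝ := by
    intro e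
    have h := inner_rho_rho hρ (flipPerm e) ψ w
    rw [hψ] at h
    rw [h]
    simp [chi]
  simp only [this, Finset.sum_const, card_univ, nsmul_eq_mul]
  have hc : (Fintype.card (Flips L) : ℝ) ≠ 0 := by exact_mod_cast Fintype.card_ne_zero
  field_simp

/-- Moments of `RR`. -/
theorem inner_pow_le (hρ : ∀ σ v, ‖ρ σ v‖ = ‖v‖) {ψ : V}
    (hψ : ∀ e : Flips L, ρ (flipPerm e) ψ = ψ) (n M : ℕ) (hM : n < M) :
    ⟪ψ, ((RR ρ) ^ n : V →L[ℝ] V) ψ⟫_ℝ ≤ ‖ψ‖ ^ 2 * ∑ a ∈ range M, Bco n a * alpha L a ∅ := by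
  rw [← inner_PiS_empty hρ hψ]
  refine (real_inner_le_norm _ _).trans ?_
  have := mul_le_mul_of_nonneg_left (norm_PiS_pow_le hρ hψ n ∅ M hM) (norm_nonneg ψ)
  calc _ ≤ _ := this
    _ = _ := by ring

/-- Partial sums of the exponential series. -/
theorem partial_sum_le (hρ : ∀ σ v, ‖ρ σ v‖ = ‖v‖) {ψ : V}
    (hψ : ∀ e : Flips L, ρ (flipPerm e) ψ = ψ) {s : ℝ} (hs : 0 ≤ s) (M : ℕ) :
    ∑ n ∈ range M, ((n.factorial : ℝ)⁻¹ * s ^ n) * ⟪ψ, ((RR ρ) ^ n : V →L[ℝ] V) ψ⟫_ℝ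
      ≤ ‖ψ‖ ^ 2 * Ex (fun x : Deck L → Bool => Real.exp (s * Real.exp (2 * s) * Yy L x)) := by
  have h1 : ∑ n ∈ range M, ((n.factorial : ℝ)⁻¹ * s ^ n) * ⟪ψ, ((RR ρ) ^ n : V →L[ℝ] V) ψ⟫_ℝ
      ≤ ∑ n ∈ range M, ((n.factorial : ℝ)⁻¹ * s ^ n)
          * (‖ψ‖ ^ 2 * ∑ a ∈ range M, Bco n a * alpha L a ∅) := by
    refine Finset.sum_le_sum fun n hn => mul_le_mul_of_nonneg_left ?_ (by positivity)
    exact inner_pow_le hρ hψ n M (mem_range.1 hn)
  refine h1.trans ?_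
  have h2 : ∑ n ∈ range M, ((n.factorial : ℝ)⁻¹ * s ^ n)
          * (‖ψ‖ ^ 2 * ∑ a ∈ range M, Bco n a * alpha L a ∅)
      = ‖ψ‖ ^ 2 * ∑ a ∈ range M, (∑ n ∈ range M, s ^ n / (n.factorial : ℝ) * Bco n a)
          * alpha L a ∅ := by
    simp only [Finset.mul_sum, Finset.sum_mul]
    rw [Finset.sum_comm]
    refine Finset.sum_congr rfl fun a _ => Finset.sum_congr rfl fun n _ => ?_
    ring
  rw [h2]
  refine mul_le_mul_of_nonneg_left ?_ (by positivity)
  refine le_trans (Finset.sum_le_sum fun a _ =>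
    mul_le_mul_of_nonneg_right (sum_Bco_le hs a M) (alpha_nonneg a ∅)) ?_
  exact sum_alpha_le (by positivity) M

/-- The Dyson bound, with the moment generating function of the Rademacher sum on the right. -/
theorem dyson_bound_mgf [CompleteSpace V] (hρ : ∀ σ v, ‖ρ σ v‖ = ‖v‖) {ψ : V}
    (hψ : ∀ e : Flips L, ρ (flipPerm e) ψ = ψ) {s : ℝ} (hs : 0 ≤ s) :
    ⟪ψ, NormedSpace.exp (s • RR ρ) ψ⟫_ℝ
      ≤ ‖ψ‖ ^ 2 * Ex (fun x : Deck L → Bool => Real.exp (s * Real.exp (2 * s) * Yy L x)) := by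
  let Φ : (V →L[ℝ] V) →L[ℝ] ℝ := (innerSL ℝ ψ).comp (ContinuousLinearMap.apply ℝ V ψ)
  have hΦ : ∀ T : V →L[ℝ] V, Φ T = ⟪ψ, T ψ⟫_ℝ := fun T => rfl
  have h1 := Φ.hasSum (NormedSpace.exp_series_hasSum_exp' (𝕂 := ℝ) (s • RR ρ))
  have h2 := h1.tendsto_sum_nat
  rw [hΦ] at h2
  refine le_of_tendsto' h2 fun M => ?_
  refine le_trans (le_of_eq ?_) (partial_sum_le hρ hψ hs M)
  refine Finset.sum_congr rfl fun n _ => ?_
  rw [hΦ, smul_pow]
  simp only [_root_.smul_apply, inner_smul_right]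
  ring

end Crest.Agent.Thorp
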