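import Crest.Agent.Lib.Thorp.HighDyson

/-!
# The moment generating function of the square of a Rademacher sum, and the Dyson bound
-/

set_option autoImplicit false

namespace Crest.Agent.Thorp

open Finset
open scoped InnerProductSpace

section RadMgf

variable {K : Type*} [DecidableEq K]

theorem hd_signSum_insert {c : K} {M : Finset K} (hc : c ∉ M) (ε : K → Bool) :
    signSum (insert c M) ε = sgn (ε c) + signSum M ε := by
  unfold signSum
  rw [Finset.sum_insert hc]

theorem hd_signSum_flipOn_of_not_mem {c : K} {M : Finset K} (hc : c ∉ M) (ε : K → Bool) :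
    signSum M (flipOn {c} ε) = signSum M ε := by
  unfold signSum
  refine Finset.sum_congr rfl fun d hd => ?_
  have : d ≠ c := fun h => hc (h ▸ hd)
  rw [sgn_flipOn_singleton]
  simp [this]

theorem sgn_flipOn_self (c : K) (ε : K → Bool) : sgn (flipOn {c} ε c) = - sgn (ε c) := by
  rw [sgn_flipOn_singleton]
  simp

variable [Fintype K]

/-- The pointwise inequality behind the induction step. -/
theorem two_exp_avg_le (t x S : ℝ) (hx : x * x = 1) :
    (Real.exp (t * (x + S) ^ 2) + Real.exp (t * (-x + S) ^ 2)) / 2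
      ≤ Real.exp t * Real.exp ((t + 2 * t ^ 2) * S ^ 2) := by
  set y := 2 * t * x * S with hy
  have h1 : t * (x + S) ^ 2 = (t + t * S ^ 2) + y := by
    have : (x + S) ^ 2 = x * x + 2 * x * S + S ^ 2 := by ring
    rw [this, hx, hy]; ring
  have h2 : t * (-x + S) ^ 2 = (t + t * S ^ 2) + (-y) := by
    have : (-x + S) ^ 2 = x * x - 2 * x * S + S ^ 2 := by ring
    rw [this, hx, hy]; ring
  rw [h1, h2, Real.exp_add, Real.exp_add _ (-y)]
  have h3 : Real.exp y + Real.exp (-y) = 2 * Real.cosh y := by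
    rw [Real.cosh_eq]; ring
  have h4 := Real.cosh_le_exp_half_sq y
  have h5 : y ^ 2 / 2 = 2 * t ^ 2 * S ^ 2 := by
    have : y ^ 2 = 4 * t ^ 2 * (x * x) * S ^ 2 := by rw [hy]; ring
    rw [this, hx]; ring
  rw [h5] at h4
  have h6 : (Real.exp (t + t * S ^ 2) * Real.exp y + Real.exp (t + t * S ^ 2) * Real.exp (-y)) / 2
      = Real.exp (t + t * S ^ 2) * Real.cosh y := by
    rw [← mul_add, h3]; ring
  rw [h6]
  calc Real.exp (t + t * S ^ 2) * Real.cosh y
      ≤ Real.exp (t + t * S ^ 2) * Real.exp (2 * t ^ 2 * S ^ 2) :=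
        mul_le_mul_of_nonneg_left h4 (Real.exp_pos _).le
    _ = Real.exp t * Real.exp ((t + 2 * t ^ 2) * S ^ 2) := by
        rw [← Real.exp_add, ← Real.exp_add]
        congr 1
        ring

/-- The induction step in expectation. -/
theorem Ex_exp_insert_le {c : K} {M : Finset K} (hc : c ∉ M) (t : ℝ) :
    Ex (fun ε : K → Bool => Real.exp (t * signSum (insert c M) ε ^ 2))
      ≤ Real.exp t * Ex (fun ε : K → Bool => Real.exp ((t + 2 * t ^ 2) * signSum M ε ^ 2)) := by
  set g : (K → Bool) → ℝ := fun ε => Real.exp (t * signSum (insert c M) ε ^ 2) with hg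
  have h1 : Ex g = Ex (fun ε => (g ε + g (flipOn {c} ε)) / 2) := by
    have h2 := Ex_flipOn {c} g
    have h3 : Ex (fun ε => (g ε + g (flipOn {c} ε)) / 2)
        = (Ex g + Ex (fun ε => g (flipOn {c} ε))) / 2 := by
      have : (fun ε => (g ε + g (flipOn {c} ε)) / 2)
          = fun ε => (1 / 2 : ℝ) * (g ε + g (flipOn {c} ε)) := by
        funext ε; ring
      rw [this, Ex_const_mul, Ex_add]
      ring
    rw [h3, h2]
    ring
  rw [h1, ← Ex_const_mul]
  refine Ex_mono fun ε => ?_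
  have h4 : g ε = Real.exp (t * (sgn (ε c) + signSum M ε) ^ 2) := by
    rw [hg]
    simp only
    rw [hd_signSum_insert hc]
  have h5 : g (flipOn {c} ε) = Real.exp (t * (- sgn (ε c) + signSum M ε) ^ 2) := by
    rw [hg]
    simp only
    rw [hd_signSum_insert hc, sgn_flipOn_self, hd_signSum_flipOn_of_not_mem hc]
  rw [h4, h5]
  exact two_exp_avg_le t _ _ (hd_sgn_mul_self _)

/-- `e^{2t} (1 - 2t n - 2t) ≤ 1 - 2t n - 4t² n`. -/
theorem exp_two_mul_le {t n : ℝ} (ht : 0 ≤ t) (hn : 0 ≤ n) (h : 0 < 1 - 2 * t * (n + 1)) :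
    Real.exp (2 * t) * (1 - 2 * t * (n + 1)) ≤ 1 - 2 * t * n - 4 * t ^ 2 * n := by
  have hu : 0 < 1 - 2 * t := by nlinarith [mul_nonneg ht hn]
  have h1 : Real.exp (2 * t) * (1 - 2 * t) ≤ 1 := by
    have h2 := Real.add_one_le_exp (-(2 * t))
    have h3 : 1 - 2 * t ≤ Real.exp (-(2 * t)) := by linarith
    calc Real.exp (2 * t) * (1 - 2 * t)
        ≤ Real.exp (2 * t) * Real.exp (-(2 * t)) :=
          mul_le_mul_of_nonneg_left h3 (Real.exp_pos _).le
      _ = 1 := by rw [← Real.exp_add]; simp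
  have h4 : 1 - 2 * t * (n + 1) ≤ (1 - 2 * t * n - 4 * t ^ 2 * n) * (1 - 2 * t) := by
    have : 0 ≤ t ^ 3 * n := by positivity
    nlinarith [this]
  have h5 : Real.exp (2 * t) * (1 - 2 * t * (n + 1)) * (1 - 2 * t) ≤
      (1 - 2 * t * n - 4 * t ^ 2 * n) * (1 - 2 * t) := by
    calc Real.exp (2 * t) * (1 - 2 * t * (n + 1)) * (1 - 2 * t)
        = (Real.exp (2 * t) * (1 - 2 * t)) * (1 - 2 * t * (n + 1)) := by ring
      _ ≤ 1 * (1 - 2 * t * (n + 1)) := mul_le_mul_of_nonneg_right h1 h.le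
      _ = 1 - 2 * t * (n + 1) := one_mul _
      _ ≤ _ := h4
  exact le_of_mul_le_mul_right h5 hu

/-- The sub-Gaussian bound on `E exp (t S²)`. -/
theorem rad_mgf_le_aux (M : Finset K) :
    ∀ t : ℝ, 0 ≤ t → 2 * t * (M.card : ℝ) < 1 →
      Ex (fun ε : K → Bool => Real.exp (t * signSum M ε ^ 2))
        ≤ (Real.sqrt (1 - 2 * t * (M.card : ℝ)))⁻¹ := by
  induction M using Finset.induction_on with
  | empty =>
    intro t _ _
    simp [signSum, Ex_const]
  | insert c M hc ih =>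
    intro t ht h
    rw [Finset.card_insert_of_notMem hc] at h ⊢
    push_cast at h ⊢
    set n : ℝ := (M.card : ℝ) with hn
    have hn0 : 0 ≤ n := by positivity
    have hB : 0 < 1 - 2 * t * (n + 1) := by linarith
    have hu : 0 < 1 - 2 * t := by nlinarith [mul_nonneg ht hn0]
    have hA : 2 * (t + 2 * t ^ 2) * n < 1 := by
      have h1 : 2 * t * n < 1 - 2 * t := by nlinarith
      have h2 : 2 * t * n * (1 + 2 * t) ≤ (1 - 2 * t) * (1 + 2 * t) :=
        mul_le_mul_of_nonneg_right h1.le (by positivity)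
      nlinarith [mul_nonneg ht ht, mul_nonneg (mul_nonneg ht ht) hn0]
    have hih := ih (t + 2 * t ^ 2) (by positivity) hA
    have hA' : 0 < 1 - 2 * (t + 2 * t ^ 2) * n := by linarith
    refine (Ex_exp_insert_le hc t).trans ?_
    refine (mul_le_mul_of_nonneg_left hih (Real.exp_pos _).le).trans ?_
    rw [← div_eq_mul_inv]
    rw [div_le_iff₀ (Real.sqrt_pos.2 hA')]
    rw [inv_mul_eq_div, le_div_iff₀ (Real.sqrt_pos.2 hB)]
    have h3 := exp_two_mul_le ht hn0 hB
    have h4 : Real.exp t * Real.sqrt (1 - 2 * t * (n + 1))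
        = Real.sqrt (Real.exp (2 * t) * (1 - 2 * t * (n + 1))) := by
      rw [Real.sqrt_mul (Real.exp_pos _).le]
      congr 1
      rw [show 2 * t = t + t by ring, Real.exp_add, Real.sqrt_mul_self (Real.exp_pos _).le]
    rw [h4]
    apply Real.sqrt_le_sqrt
    calc _ ≤ _ := h3
      _ = _ := by ring

end RadMgf

variable {V : Type*} [NormedAddCommGroup V] [InnerProductSpace ℝ V] {L : ℕ}
variable {ρ : Equiv.Perm (Deck (L + 1)) →* (V →L[ℝ] V)}

/-- The Dyson bound (blueprint section 10a). -/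
theorem dyson_bound [CompleteSpace V] (hρ : ∀ σ v, ‖ρ σ v‖ = ‖v‖) (ψ : V)
    (hψ : ∀ e : Flips L, ρ (flipPerm e) ψ = ψ) (s : ℝ) (hs : 0 ≤ s)
    (h : 2 * (s * Real.exp (2 * s)) * (2 : ℝ) ^ L < 1) :
    ⟪ψ, NormedSpace.exp (s • RR ρ) ψ⟫_ℝ
      ≤ ‖ψ‖ ^ 2 * Real.exp (-(s * Real.exp (2 * s) * (2 : ℝ) ^ L))
        * (Real.sqrt (1 - 2 * (s * Real.exp (2 * s)) * (2 : ℝ) ^ L))⁻¹ := by
  refine (dyson_bound_mgf hρ hψ hs).trans ?_
  set t := s * Real.exp (2 * s) with ht
  have ht0 : 0 ≤ t := by positivity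
  have hcard : ((Finset.univ : Finset (Deck L)).card : ℝ) = (2 : ℝ) ^ L := by
    rw [Finset.card_univ, card_deck]; push_cast; ring
  have h1 := rad_mgf_le_aux (Finset.univ : Finset (Deck L)) t ht0 (by rw [hcard]; exact h)
  rw [hcard] at h1
  have h2 : Ex (fun x : Deck L → Bool => Real.exp (t * Yy L x))
      = Real.exp (-(t * (2 : ℝ) ^ L))
        * Ex (fun x : Deck L → Bool => Real.exp (t * signSum Finset.univ x ^ 2)) := by
    rw [← Ex_const_mul]
    refine Ex_congr fun x => ?_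
    rw [← Real.exp_add]
    congr 1
    unfold Yy
    ring
  rw [h2]
  calc _ ≤ ‖ψ‖ ^ 2 * (Real.exp (-(t * (2 : ℝ) ^ L)) * (Real.sqrt (1 - 2 * t * (2 : ℝ) ^ L))⁻¹) :=
        mul_le_mul_of_nonneg_left (mul_le_mul_of_nonneg_left h1 (Real.exp_pos _).le)
          (sq_nonneg ‖ψ‖)
    _ = _ := by ring

end Crest.Agent.Thorp
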