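import Crest.Agent.Lib.Thorp.HighDefs

/-!
# High part: a lower bound for the Casimir (blueprint §10c, representation lemma)
-/

set_option autoImplicit false
set_option linter.unusedSectionVars false

namespace Crest.Agent.Thorp

open scoped InnerProductSpace

section Rep

variable {V : Type*} [NormedAddCommGroup V] [InnerProductSpace ℝ V]
variable {X : Type*} [DecidableEq X]
variable (ρ : Equiv.Perm X →* (V →L[ℝ] V))

/-- The Casimir of a finite set of sites. -/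
noncomputable def CasB (B : Finset X) : V →L[ℝ] V :=
  (1 / 2 : ℝ) • ∑ x ∈ B, ∑ y ∈ B, (1 - ρ (Equiv.swap x y))

theorem Cas_eq_CasB [Fintype X] : Cas ρ = CasB ρ Finset.univ := rfl

theorem CasB_apply (B : Finset X) (w : V) :
    CasB ρ B w = (1 / 2 : ℝ) • ∑ x ∈ B, ∑ y ∈ B, (w - ρ (Equiv.swap x y) w) := by
  simp [CasB]

/-- `w` is invariant under all transpositions of `A`. -/
def InvOn (A : Finset X) (w : V) : Prop := ∀ x ∈ A, ∀ y ∈ A, ρ (Equiv.swap x y) w = w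

theorem rho_conj (f : Equiv.Perm X) (p q : X) (w : V) :
    ρ f (ρ (Equiv.swap p q) w) = ρ (Equiv.swap (f p) (f q)) (ρ f w) := by
  have h : f * Equiv.swap p q = Equiv.swap (f p) (f q) * f := Equiv.mul_swap_eq_swap_mul f p q
  have h2 := congrArg (fun g => ρ g w) h
  simpa [map_mul] using h2

theorem rho_swap_self (x : X) (w : V) : ρ (Equiv.swap x x) w = w := by
  have h : Equiv.swap x x = 1 := Equiv.swap_self x
  rw [h, map_one]
  rfl

theorem rho_swap_swap (x y : X) (w : V) : ρ (Equiv.swap x y) (ρ (Equiv.swap x y) w) = w := by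
  have h : ρ (Equiv.swap x y) * ρ (Equiv.swap x y) = 1 := by
    rw [← map_mul, Equiv.swap_mul_self, map_one]
  have := congrArg (fun g : V →L[ℝ] V => g w) h
  simpa using this

theorem rho_inner (hρ : ∀ σ v, ‖ρ σ v‖ = ‖v‖) (σ : Equiv.Perm X) (v w : V) :
    ⟪ρ σ v, ρ σ w⟫_ℝ = ⟪v, w⟫_ℝ := by
  let f : V →ₗᵢ[ℝ] V := { toLinearMap := (ρ σ).toLinearMap, norm_map' := hρ σ }
  exact f.inner_map_map v w

theorem rho_swap_adj (hρ : ∀ σ v, ‖ρ σ v‖ = ‖v‖) (x y : X) (v w : V) :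
    ⟪ρ (Equiv.swap x y) v, w⟫_ℝ = ⟪v, ρ (Equiv.swap x y) w⟫_ℝ := by
  conv_lhs => rw [← rho_swap_swap ρ x y w]
  exact rho_inner ρ hρ _ _ _

theorem swap_mem_iff {B : Finset X} {x y : X} (hx : x ∈ B) (hy : y ∈ B) (a : X) :
    a ∈ B ↔ Equiv.swap x y a ∈ B := by
  by_cases hax : a = x
  · subst hax; simp [hx, hy]
  by_cases hay : a = y
  · subst hay; simp [hx, hy]
  rw [Equiv.swap_apply_of_ne_of_ne hax hay]

/-- The Casimir of `B` commutes with the transpositions of `B`. -/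
theorem CasB_comm (B : Finset X) {x y : X} (hx : x ∈ B) (hy : y ∈ B) (w : V) :
    ρ (Equiv.swap x y) (CasB ρ B w) = CasB ρ B (ρ (Equiv.swap x y) w) := by
  rw [CasB_apply, CasB_apply, map_smul, map_sum]
  congr 1
  simp only [map_sum, map_sub]
  simp only [rho_conj ρ (Equiv.swap x y)]
  refine Finset.sum_equiv (Equiv.swap x y) (swap_mem_iff hx hy) fun a _ => ?_
  refine Finset.sum_equiv (Equiv.swap x y) (swap_mem_iff hx hy) fun b _ => ?_
  rfl

/-- Transpositions away from `A` preserve invariance under `A`. -/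
theorem InvOn_swap {A : Finset X} {w : V} (hw : InvOn ρ A w) {x y : X} (hx : x ∉ A) (hy : y ∉ A) :
    InvOn ρ A (ρ (Equiv.swap x y) w) := by
  intro p hp q hq
  have h1 : Equiv.swap p q x = x :=
    Equiv.swap_apply_of_ne_of_ne (fun h => hx (h ▸ hp)) (fun h => hx (h ▸ hq))
  have h2 : Equiv.swap p q y = y :=
    Equiv.swap_apply_of_ne_of_ne (fun h => hy (h ▸ hp)) (fun h => hy (h ▸ hq))
  rw [rho_conj ρ (Equiv.swap p q) x y, hw p hp q hq, h1, h2]

/-- The symmetrizer over `A ∪ {y}`. -/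
theorem InvOn_symm {A : Finset X} {w : V} (hw : InvOn ρ A w) {y : X} (hy : y ∉ A) :
    InvOn ρ (insert y A) (w + ∑ x ∈ A, ρ (Equiv.swap x y) w) := by
  have h1 : ∀ p ∈ A, ∀ q ∈ A, ρ (Equiv.swap p q) (w + ∑ x ∈ A, ρ (Equiv.swap x y) w)
      = w + ∑ x ∈ A, ρ (Equiv.swap x y) w := by
    intro p hp q hq
    rw [map_add, map_sum, hw p hp q hq]
    congr 1
    have hyy : Equiv.swap p q y = y :=
      Equiv.swap_apply_of_ne_of_ne (fun h => hy (h ▸ hp)) (fun h => hy (h ▸ hq))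
    simp only [rho_conj ρ (Equiv.swap p q), hw p hp q hq, hyy]
    exact Finset.sum_equiv (Equiv.swap p q) (swap_mem_iff hp hq) (fun x _ => rfl)
  have h2 : ∀ p ∈ A, ρ (Equiv.swap p y) (w + ∑ x ∈ A, ρ (Equiv.swap x y) w)
      = w + ∑ x ∈ A, ρ (Equiv.swap x y) w := by
    intro p hp
    rw [map_add, map_sum]
    have hterm : ∀ x ∈ A.erase p, ρ (Equiv.swap p y) (ρ (Equiv.swap x y) w) = ρ (Equiv.swap x y) w := by
      intro x hx
      have hxA := Finset.mem_of_mem_erase hx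
      have hxp : x ≠ p := Finset.ne_of_mem_erase hx
      have hpy : p ≠ y := fun h => hy (h ▸ hp)
      have h3 := rho_conj ρ (Equiv.swap x y) p x w
      rw [hw p hp x hxA, Equiv.swap_apply_of_ne_of_ne (Ne.symm hxp) hpy, Equiv.swap_apply_left] at h3
      exact h3.symm
    rw [← Finset.add_sum_erase A _ hp, ← Finset.add_sum_erase A (fun x => ρ (Equiv.swap x y) w) hp,
      rho_swap_swap, Finset.sum_congr rfl hterm]
    abel
  intro p hp q hq
  rcases Finset.mem_insert.1 hp with hp' | hp' <;> rcases Finset.mem_insert.1 hq with hq' | hq'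
  · rw [hp', hq', rho_swap_self]
  · rw [hp', Equiv.swap_comm]; exact h2 q hq'
  · rw [hq']; exact h2 p hp'
  · exact h1 p hp' q hq'

/-- The decomposition of the Casimir on `A`-invariant vectors. -/
theorem CasB_decomp {A B : Finset X} (hAB : A ⊆ B) {w : V} (hw : InvOn ρ A w)
    (hrel : ∀ y ∈ B \ A, ∑ x ∈ A, ρ (Equiv.swap x y) w = -w) :
    CasB ρ B w = (((B \ A).card : ℝ) * ((A.card : ℝ) + 1)) • w + CasB ρ (B \ A) w := by
  rw [CasB_apply, CasB_apply]
  set C := B \ A with hC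
  have hsplit : ∀ g : X → V, ∑ p ∈ B, g p = ∑ p ∈ C, g p + ∑ p ∈ A, g p :=
    fun g => (Finset.sum_sdiff hAB).symm
  have hAA : ∑ p ∈ A, ∑ q ∈ A, (w - ρ (Equiv.swap p q) w) = 0 := by
    refine Finset.sum_eq_zero fun p hp => Finset.sum_eq_zero fun q hq => ?_
    rw [hw p hp q hq, sub_self]
  have hinner : ∀ q ∈ C, ∑ p ∈ A, (w - ρ (Equiv.swap p q) w) = ((A.card : ℝ) + 1) • w := by
    intro q hq
    rw [Finset.sum_sub_distrib, hrel q hq, Finset.sum_const, sub_neg_eq_add, add_smul, one_smul,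
      Nat.cast_smul_eq_nsmul]
  have hAC : ∑ p ∈ A, ∑ q ∈ C, (w - ρ (Equiv.swap p q) w)
      = ((C.card : ℝ) * ((A.card : ℝ) + 1)) • w := by
    rw [Finset.sum_comm, Finset.sum_congr rfl hinner, Finset.sum_const, ← Nat.cast_smul_eq_nsmul ℝ,
      smul_smul]
  have hCA : ∑ p ∈ C, ∑ q ∈ A, (w - ρ (Equiv.swap p q) w)
      = ((C.card : ℝ) * ((A.card : ℝ) + 1)) • w := by
    rw [← hAC, Finset.sum_comm]
    refine Finset.sum_congr rfl fun p _ => Finset.sum_congr rfl fun q _ => ?_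
    rw [Equiv.swap_comm]
  have h : ∑ p ∈ B, ∑ q ∈ B, (w - ρ (Equiv.swap p q) w)
      = ∑ p ∈ C, ∑ q ∈ C, (w - ρ (Equiv.swap p q) w)
        + (2 : ℝ) • (((C.card : ℝ) * ((A.card : ℝ) + 1)) • w) := by
    rw [hsplit]
    simp only [hsplit (fun q => (w - ρ (Equiv.swap _ q) w)), Finset.sum_add_distrib]
    rw [hCA, hAC, hAA, two_smul]
    abel
  rw [h, smul_add, smul_smul]
  norm_num
  abel

/-- The norm argument: an `A`-antisymmetrised vector has no large invariance. -/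
theorem card_le_of_relation (hρ : ∀ σ v, ‖ρ σ v‖ = ‖v‖) {A B' : Finset X} (hdisj : Disjoint A B')
    {w : V} (hw0 : w ≠ 0) (hw' : InvOn ρ B' w)
    (hrel : ∀ y ∈ B', ∑ x ∈ A, ρ (Equiv.swap x y) w = -w) (hB' : B'.Nonempty) :
    B'.card ≤ A.card := by
  obtain ⟨y0, hy0⟩ := hB'
  set N : ℝ := ⟪w, w⟫_ℝ with hN
  have hNpos : 0 < N := real_inner_self_pos.2 hw0
  let c : X → ℝ := fun x => ⟪w, ρ (Equiv.swap x y0) w⟫_ℝ
  have hnot : ∀ x ∈ A, x ∉ B' := fun x hx => Finset.disjoint_left.1 hdisj hx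
  -- (α)
  have halpha : ∀ x ∈ A, ∀ y ∈ B', ⟪w, ρ (Equiv.swap x y) w⟫_ℝ = c x := by
    intro x hx y hy
    have hxy : x ≠ y := fun h => hnot x hx (h ▸ hy)
    have hxy0 : x ≠ y0 := fun h => hnot x hx (h ▸ hy0)
    have h1 := rho_conj ρ (Equiv.swap y y0) x y w
    rw [hw' y hy y0 hy0, Equiv.swap_apply_of_ne_of_ne hxy hxy0, Equiv.swap_apply_left] at h1
    simp only [c]
    rw [← h1, ← rho_swap_adj ρ hρ y y0 w, hw' y hy y0 hy0]
  -- (G)
  have hG : ∀ x ∈ A, ∀ y ∈ B', ∀ y' ∈ B', y ≠ y' →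
      ⟪ρ (Equiv.swap x y) w, ρ (Equiv.swap x y') w⟫_ℝ = c x := by
    intro x hx y hy y' hy' hne
    have hxy : x ≠ y := fun h => hnot x hx (h ▸ hy)
    have hxy' : x ≠ y' := fun h => hnot x hx (h ▸ hy')
    have h1 := rho_conj ρ (Equiv.swap x y') y y' w
    rw [hw' y hy y' hy', Equiv.swap_apply_of_ne_of_ne (Ne.symm hxy) hne, Equiv.swap_apply_right,
      Equiv.swap_comm y x] at h1
    rw [rho_swap_adj ρ hρ, ← h1]
    exact halpha x hx y' hy'
  have hGd : ∀ x y, ⟪ρ (Equiv.swap x y) w, ρ (Equiv.swap x y) w⟫_ℝ = N := fun x y =>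
    rho_inner ρ hρ _ _ _
  have hsum : ∀ x ∈ A, ∀ y ∈ B', ∑ y' ∈ B', ⟪ρ (Equiv.swap x y) w, ρ (Equiv.swap x y') w⟫_ℝ
      = N + ((B'.card : ℝ) - 1) * c x := by
    intro x hx y hy
    rw [← Finset.add_sum_erase B' _ hy, hGd]
    congr 1
    rw [Finset.sum_congr rfl (fun y' hy' => hG x hx y hy y' (Finset.mem_of_mem_erase hy')
      (Ne.symm (Finset.ne_of_mem_erase hy'))), Finset.sum_const, Finset.card_erase_of_mem hy,
      nsmul_eq_mul]
    have : 1 ≤ B'.card := Finset.card_pos.2 ⟨y, hy⟩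
    rw [Nat.cast_sub this]
    simp
  -- (β)
  have hbeta : ∀ x ∈ A, 0 ≤ N + (B'.card : ℝ) * c x := by
    intro x hx
    have h0 : 0 ≤ ⟪w + ∑ y ∈ B', ρ (Equiv.swap x y) w, w + ∑ y ∈ B', ρ (Equiv.swap x y) w⟫_ℝ :=
      real_inner_self_nonneg
    rw [inner_add_left, inner_add_right, inner_add_right, real_inner_comm w (∑ y ∈ B', _),
      inner_sum, sum_inner] at h0
    simp only [inner_sum] at h0
    rw [Finset.sum_congr rfl (hsum x hx), Finset.sum_congr rfl (halpha x hx)] at h0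
    simp only [Finset.sum_const, nsmul_eq_mul] at h0
    have hb : (0 : ℝ) ≤ B'.card := Nat.cast_nonneg _
    have h1 : 0 ≤ ((B'.card : ℝ) + 1) * (N + (B'.card : ℝ) * c x) := by
      nlinarith [h0]
    exact nonneg_of_mul_nonneg_right h1 (by positivity) |> fun h => h
  -- (γ)
  have hgamma : ∑ x ∈ A, c x = -N := by
    simp only [c]
    rw [← inner_sum, hrel y0 hy0, inner_neg_right]
  have hfinal : 0 ≤ ∑ x ∈ A, (N + (B'.card : ℝ) * c x) := Finset.sum_nonneg hbeta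
  rw [Finset.sum_add_distrib, ← Finset.mul_sum, hgamma, Finset.sum_const, nsmul_eq_mul] at hfinal
  have h2 : 0 ≤ ((A.card : ℝ) - B'.card) * N := by nlinarith
  have h3 : 0 ≤ (A.card : ℝ) - B'.card := nonneg_of_mul_nonneg_left h2 hNpos
  have h4 : (B'.card : ℝ) ≤ A.card := by linarith
  exact_mod_cast h4

/-- The vectors invariant under `A`. -/
noncomputable def InvSub (A : Finset X) : Submodule ℝ V where
  carrier := {w | InvOn ρ A w}
  add_mem' := by
    intro a b ha hb x hx y hy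
    rw [map_add, ha x hx y hy, hb x hx y hy]
  zero_mem' := by
    intro x _ y _
    simp
  smul_mem' := by
    intro r a ha x hx y hy
    rw [map_smul, ha x hx y hy]

/-- The eigenspace of `CasB` in `X₀`. -/
noncomputable def EigSub (B : Finset X) (X₀ : Submodule ℝ V) (μ : ℝ) : Submodule ℝ V where
  carrier := {w | w ∈ X₀ ∧ CasB ρ B w = μ • w}
  add_mem' := by
    rintro a b ⟨ha, ha'⟩ ⟨hb, hb'⟩
    refine ⟨X₀.add_mem ha hb, ?_⟩
    rw [map_add, ha', hb', smul_add]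
  zero_mem' := by
    refine ⟨X₀.zero_mem, ?_⟩
    simp
  smul_mem' := by
    rintro r a ⟨ha, ha'⟩
    refine ⟨X₀.smul_mem r ha, ?_⟩
    rw [map_smul, ha', smul_comm]

/-- **The representation lemma**: if `X₀` has no vector invariant under `S_A` for `A ⊆ B` with
`|A| ≥ |B| - m + 1`, then every eigenvalue of `Cas_B` on `X₀` is at least `|B| m / 2`. -/
theorem rep_lemma (hρ : ∀ σ v, ‖ρ σ v‖ = ‖v‖) (B : Finset X) :
    ∀ (X₀ : Submodule ℝ V) (m : ℕ)
      (_hinv : ∀ x ∈ B, ∀ y ∈ B, ∀ v ∈ X₀, ρ (Equiv.swap x y) v ∈ X₀)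
      (_hno : ∀ A ⊆ B, B.card < A.card + m → ∀ w ∈ X₀, InvOn ρ A w → w = 0)
      (μ : ℝ) (v : V) (_hv : v ∈ X₀) (_hv0 : v ≠ 0) (_heig : CasB ρ B v = μ • v),
      ((B.card : ℝ) * m) / 2 ≤ μ := by
  induction B using Finset.strongInduction with
  | H B IH =>
  intro X₀ m hinv hno μ v hv hv0 heig
  classical
  by_cases hB : B = ∅
  · subst hB
    have h0 : μ • v = 0 := by
      rw [← heig]
      simp [CasB]
    have hμ : μ = 0 := (smul_eq_zero.1 h0).resolve_right hv0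
    simp [hμ]
  obtain ⟨x0, hx0⟩ := Finset.nonempty_iff_ne_empty.2 hB
  let Z := EigSub ρ B X₀ μ
  have hZt : ∀ x ∈ B, ∀ y ∈ B, ∀ w ∈ Z, ρ (Equiv.swap x y) w ∈ Z := by
    rintro x hx y hy w ⟨hw, hw'⟩
    refine ⟨hinv x hx y hy w hw, ?_⟩
    rw [← CasB_comm ρ B hx hy, hw', map_smul]
  -- a maximal `A`
  let S := B.powerset.filter (fun A => ∃ w, w ∈ Z ∧ w ≠ 0 ∧ InvOn ρ A w)
  have hS : S.Nonempty := by
    refine ⟨{x0}, Finset.mem_filter.2 ⟨Finset.mem_powerset.2 (Finset.singleton_subset_iff.2 hx0),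
      v, ⟨hv, heig⟩, hv0, ?_⟩⟩
    intro x hx y hy
    rw [Finset.mem_singleton.1 hx, Finset.mem_singleton.1 hy, rho_swap_self]
  obtain ⟨A, hA, hAmax⟩ := Finset.exists_max_image S Finset.card hS
  obtain ⟨hAB', w0, hw0Z, hw00, hw0A⟩ := Finset.mem_filter.1 hA
  have hAB : A ⊆ B := Finset.mem_powerset.1 hAB'
  have ha1 : 1 ≤ A.card := by
    have h1 : ({x0} : Finset X) ∈ S := by
      refine Finset.mem_filter.2 ⟨Finset.mem_powerset.2 (Finset.singleton_subset_iff.2 hx0),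
        v, ⟨hv, heig⟩, hv0, ?_⟩
      intro x hx y hy
      rw [Finset.mem_singleton.1 hx, Finset.mem_singleton.1 hy, rho_swap_self]
    simpa using hAmax _ h1
  set C := B \ A with hC
  have hCcard : C.card + A.card = B.card := Finset.card_sdiff_add_card_eq_card hAB
  have hCsub : C ⊂ B := by
    refine Finset.ssubset_iff_subset_ne.2 ⟨Finset.sdiff_subset, fun h => ?_⟩
    rw [h] at hCcard
    omega
  have hCB : ∀ y ∈ C, y ∈ B := fun y hy => (Finset.mem_sdiff.1 hy).1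
  have hCA : ∀ y ∈ C, y ∉ A := fun y hy => (Finset.mem_sdiff.1 hy).2
  -- the relation
  have hrel : ∀ w, w ∈ Z → InvOn ρ A w → ∀ y ∈ C, ∑ x ∈ A, ρ (Equiv.swap x y) w = -w := by
    intro w hwZ hwA y hy
    by_contra hne
    have hs0 : w + ∑ x ∈ A, ρ (Equiv.swap x y) w ≠ 0 := by
      intro h
      apply hne
      exact eq_neg_of_add_eq_zero_right h
    have hsZ : w + ∑ x ∈ A, ρ (Equiv.swap x y) w ∈ Z :=
      Z.add_mem hwZ (Z.sum_mem fun x hx => hZt x (hAB hx) y (hCB y hy) w hwZ)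
    have hmem : insert y A ∈ S := by
      refine Finset.mem_filter.2 ⟨Finset.mem_powerset.2 (Finset.insert_subset (hCB y hy) hAB),
        _, hsZ, hs0, InvOn_symm ρ hwA (hCA y hy)⟩
    have := hAmax _ hmem
    rw [Finset.card_insert_of_notMem (hCA y hy)] at this
    omega
  -- `W`
  let W : Submodule ℝ V := Z ⊓ InvSub ρ A
  let μ' : ℝ := μ - (C.card : ℝ) * ((A.card : ℝ) + 1)
  have hCeig : ∀ w ∈ W, CasB ρ C w = μ' • w := by
    rintro w ⟨hwZ, hwA⟩
    have h1 := CasB_decomp ρ hAB hwA (hrel w hwZ hwA)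
    rw [hwZ.2] at h1
    simp only [μ', sub_smul]
    rw [h1]
    abel
  have hinv' : ∀ x ∈ C, ∀ y ∈ C, ∀ w ∈ W, ρ (Equiv.swap x y) w ∈ W := by
    rintro x hx y hy w ⟨hwZ, hwA⟩
    exact ⟨hZt x (hCB x hx) y (hCB y hy) w hwZ, InvOn_swap ρ hwA (hCA x hx) (hCA y hy)⟩
  have hno' : ∀ A' ⊆ C, C.card < A'.card + (C.card - A.card) → ∀ w ∈ W, InvOn ρ A' w → w = 0 := by
    rintro A' hA'C hcard w ⟨hwZ, hwA⟩ hwA'
    by_contra hw
    have hlt : A.card < A'.card := by
      have := Finset.card_le_card hA'C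
      omega
    have hdisj : Disjoint A A' := Finset.disjoint_left.2 fun x hx hx' => hCA x (hA'C hx') hx
    have hne : A'.Nonempty := Finset.card_pos.1 (by omega)
    have := card_le_of_relation ρ hρ hdisj hw hwA' (fun y hy => hrel w hwZ hwA y (hA'C hy)) hne
    omega
  have key := IH C hCsub W (C.card - A.card) hinv' hno' μ' w0 ⟨hw0Z, hw0A⟩ hw00
    (hCeig w0 ⟨hw0Z, hw0A⟩)
  have hmj : m ≤ C.card := by
    by_contra hlt
    exact hw00 (hno A hAB (by omega) w0 hw0Z.1 hw0A)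
  -- numerics
  have hBc : (B.card : ℝ) = (C.card : ℝ) + A.card := by
    rw [← hCcard]; push_cast; ring
  have hmj' : (m : ℝ) ≤ C.card := by exact_mod_cast hmj
  have hC0 : (0 : ℝ) ≤ C.card := Nat.cast_nonneg _
  have hA0 : (0 : ℝ) ≤ A.card := Nat.cast_nonneg _
  have hmain : ((C.card : ℝ) * ((C.card - A.card : ℕ) : ℝ)) / 2 + (C.card : ℝ) * ((A.card : ℝ) + 1) ≤ μ := by
    simp only [μ'] at key
    linarith
  have hbound : ((C.card : ℝ) + A.card) * (C.card : ℝ) / 2 ≤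
      ((C.card : ℝ) * ((C.card - A.card : ℕ) : ℝ)) / 2 + (C.card : ℝ) * ((A.card : ℝ) + 1) := by
    by_cases hle : A.card ≤ C.card
    · rw [Nat.cast_sub hle]
      nlinarith
    · have : C.card - A.card = 0 := by omega
      rw [this]
      have hlt : (C.card : ℝ) ≤ A.card := by
        have : C.card ≤ A.card := by omega
        exact_mod_cast this
      simp only [Nat.cast_zero, mul_zero, zero_div, zero_add]
      nlinarith
  have hfin : ((B.card : ℝ) * m) / 2 ≤ ((C.card : ℝ) + A.card) * (C.card : ℝ) / 2 := by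
    rw [hBc]
    have : (0:ℝ) ≤ (C.card : ℝ) + A.card := by positivity
    nlinarith
  linarith

end Rep

end Crest.Agent.Thorp
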