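import Crest.Agent.Lib.Thorp.HighGibbs
import Crest.Agent.Lib.Thorp.HighDysonFinal

/-!
# High part: the Gibbs bound (section 10b of the blueprint), final form
-/

set_option autoImplicit false

namespace Crest.Agent.Thorp

open scoped InnerProductSpace

variable {V : Type*} [NormedAddCommGroup V] [InnerProductSpace ℝ V] [CompleteSpace V]

/-- The Gibbs bound: `‖T v‖² ≤ e^{h L} ⟪v, exp(-(τ/2^L) Cas) v⟫`, `τ = 1/40`. -/
theorem gibbs (L : ℕ) (ρ : Equiv.Perm (Deck L) →* (V →L[ℝ] V)) (hρ : ∀ σ v, ‖ρ σ v‖ = ‖v‖) (v : V) :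
    ‖Trho L ρ v‖ ^ 2 ≤
      Real.exp (hh L) * ⟪v, NormedSpace.exp ((-((1 / 40) / 2 ^ L : ℝ)) • Cas ρ) v⟫_ℝ :=
  gibbs_of_dyson (fun _ _ hρ' ψ hψ s hs h => dyson_bound hρ' ψ hψ s hs h) L ρ hρ v

end Crest.Agent.Thorp
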