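import Crest.Agent.Lib.Thorp.HighSpec
import Crest.Agent.Lib.Thorp.HighGibbsFinal

/-!
# The high regime (blueprint §10d): `high_pure`
-/

set_option autoImplicit false

namespace Crest.Agent.Thorp

/-- The contraction on pure functions for a large number of tokens. -/
theorem high_pure (K : Type) [Fintype K] [DecidableEq K] (L : ℕ) :
    PureBound L K (Real.exp ((73 / 100000) * 2 ^ L - (Fintype.card K : ℝ) / 80)) := by
  have h := high_pure_of_gibbs (K := K) (L := L) (hh L)
    (fun u => gibbs L (rhoFn K L) rhoFn_norm u)
  intro u hu
  refine (h u hu).trans ?_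
  refine mul_le_mul_of_nonneg_right ?_ (nsq_nonneg u)
  apply Real.exp_le_exp.2
  have := hh_le L
  linarith

end Crest.Agent.Thorp
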