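import Crest.Agent.Lib.Thorp.HighDefs

/-!
# High part: the Gibbs induction (section 10b of the blueprint)

`gibbs_step`: from the bound for `L` (for all orthogonal representations) and the Dyson bound for the
flip-invariant vectors, the bound for `L + 1`.
-/

set_option autoImplicit false

namespace Crest.Agent.Thorp

open scoped InnerProductSpace

variable {V : Type*} [NormedAddCommGroup V] [InnerProductSpace ℝ V]

section Rep

variable {G : Type*} [Group G]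

theorem rep_mul_inv_apply (ρ : G →* (V →L[ℝ] V)) (σ : G) (b : V) : ρ σ (ρ σ⁻¹ b) = b := by
  have h : ρ σ * ρ σ⁻¹ = 1 := by rw [← map_mul, mul_inv_cancel, map_one]
  have := congrArg (fun A : V →L[ℝ] V => A b) h
  simpa using this

theorem rep_inner (ρ : G →* (V →L[ℝ] V)) (hρ : ∀ σ v, ‖ρ σ v‖ = ‖v‖) (σ : G) (a b : V) :
    ⟪ρ σ a, ρ σ b⟫_ℝ = ⟪a, b⟫_ℝ := by
  rw [real_inner_eq_norm_add_mul_self_sub_norm_mul_self_sub_norm_mul_self_div_two,
    real_inner_eq_norm_add_mul_self_sub_norm_mul_self_sub_norm_mul_self_div_two a b,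
    ← map_add, hρ, hρ, hρ]

theorem rep_adjoint (ρ : G →* (V →L[ℝ] V)) (hρ : ∀ σ v, ‖ρ σ v‖ = ‖v‖) (σ : G) (a b : V) :
    ⟪ρ σ a, b⟫_ℝ = ⟪a, ρ σ⁻¹ b⟫_ℝ := by
  rw [← rep_inner ρ hρ σ a (ρ σ⁻¹ b), rep_mul_inv_apply]

variable [CompleteSpace V]

theorem star_rep (ρ : G →* (V →L[ℝ] V)) (hρ : ∀ σ v, ‖ρ σ v‖ = ‖v‖) (σ : G) :
    star (ρ σ) = ρ σ⁻¹ := by
  rw [ContinuousLinearMap.star_eq_adjoint]
  refine ((ContinuousLinearMap.eq_adjoint_iff _ _).2 ?_).symm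
  intro a b
  have := rep_adjoint ρ hρ σ⁻¹ a b
  rwa [inv_inv] at this

end Rep

section Cas

variable {X : Type*} [Fintype X] [DecidableEq X]

theorem commute_Cas_of (ρ : Equiv.Perm X →* (V →L[ℝ] V)) (A : V →L[ℝ] V)
    (h : ∀ σ, Commute A (ρ σ)) : Commute A (Cas ρ) := by
  unfold Cas
  refine Commute.smul_right ?_ _
  refine Commute.sum_right _ _ _ fun x _ => Commute.sum_right _ _ _ fun y _ => ?_
  exact (Commute.one_right A).sub_right (h _)

theorem commute_rep_Cas (ρ : Equiv.Perm X →* (V →L[ℝ] V)) (σ : Equiv.Perm X) :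
    Commute (ρ σ) (Cas ρ) := by
  unfold Cas
  refine Commute.smul_right ?_ _
  have key : ∀ x y : X, ρ σ * (1 - ρ (Equiv.swap x y)) = (1 - ρ (Equiv.swap (σ x) (σ y))) * ρ σ := by
    intro x y
    rw [mul_sub, sub_mul, mul_one, one_mul, ← map_mul, ← map_mul, Equiv.mul_swap_eq_swap_mul]
  change ρ σ * _ = _ * ρ σ
  rw [Finset.mul_sum, Finset.sum_mul]
  simp only [Finset.mul_sum, Finset.sum_mul, key]
  -- reindex both sums by `σ`
  refine (Equiv.sum_comp σ (fun x => ∑ y, (1 - ρ (Equiv.swap x y)) * ρ σ)).symm ▸ ?_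
  refine Finset.sum_congr rfl fun x _ => ?_
  exact Equiv.sum_comp σ (fun y => (1 - ρ (Equiv.swap (σ x) y)) * ρ σ)

variable [CompleteSpace V]

theorem isSelfAdjoint_rep_swap (ρ : Equiv.Perm X →* (V →L[ℝ] V)) (hρ : ∀ σ v, ‖ρ σ v‖ = ‖v‖) (x y : X) :
    IsSelfAdjoint (ρ (Equiv.swap x y)) := by
  unfold IsSelfAdjoint
  rw [star_rep ρ hρ, Equiv.swap_inv]

theorem isSelfAdjoint_Cas (ρ : Equiv.Perm X →* (V →L[ℝ] V)) (hρ : ∀ σ v, ‖ρ σ v‖ = ‖v‖) :
    IsSelfAdjoint (Cas ρ) := by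
  unfold Cas
  refine IsSelfAdjoint.smul (IsSelfAdjoint.all _) ?_
  refine isSelfAdjoint_sum _ fun x _ => isSelfAdjoint_sum _ fun y _ => ?_
  exact (IsSelfAdjoint.one _).sub (isSelfAdjoint_rep_swap ρ hρ x y)

end Cas

section Blocks

variable {L : ℕ}

theorem tau_succ_perm (e : Flips L) (ω0 ω1 : TΩ L) :
    tau (L + 1) (e, ω0, ω1) = blockPerm (tau L ω0) (tau L ω1) * flipPerm e := rfl

theorem blockEmb_false_apply (a : Equiv.Perm (Deck L)) : blockEmb false a = blockPerm a 1 := rfl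

theorem blockEmb_true_apply (b : Equiv.Perm (Deck L)) : blockEmb true b = blockPerm 1 b := rfl

theorem blockPerm_eq_emb (a b : Equiv.Perm (Deck L)) :
    blockPerm a b = blockEmb false a * blockEmb true b := by
  rw [blockEmb_false_apply, blockEmb_true_apply, blockPerm_mul_blockPerm, mul_one, one_mul]

theorem blockEmb_comm (a b : Equiv.Perm (Deck L)) :
    Commute (blockEmb false a) (blockEmb true b) := by
  unfold Commute SemiconjBy
  rw [blockEmb_false_apply, blockEmb_true_apply, blockPerm_mul_blockPerm, blockPerm_mul_blockPerm,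
    mul_one, one_mul, mul_one, one_mul]

/-- The average of the flips. -/
noncomputable def Fl (ρ : Equiv.Perm (Deck (L + 1)) →* (V →L[ℝ] V)) : V →L[ℝ] V :=
  (Fintype.card (Flips L) : ℝ)⁻¹ • ∑ e : Flips L, ρ (flipPerm e)

theorem commute_Fl_of (ρ : Equiv.Perm (Deck (L + 1)) →* (V →L[ℝ] V)) (A : V →L[ℝ] V)
    (h : ∀ σ, Commute A (ρ σ)) : Commute A (Fl ρ) := by
  unfold Fl
  exact Commute.smul_right (Commute.sum_right _ _ _ fun e _ => h _) _

theorem commute_Trho_of (ρ : Equiv.Perm (Deck L) →* (V →L[ℝ] V)) (A : V →L[ℝ] V)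
    (h : ∀ σ, Commute A (ρ σ)) : Commute A (Trho L ρ) := by
  unfold Trho
  exact Commute.smul_right (Commute.sum_right _ _ _ fun ω _ => h _) _

theorem flipPerm_mul (e e' : Flips L) :
    flipPerm e * flipPerm e' = flipPerm (fun u => xor (e u) (e' u)) := by
  refine Equiv.ext fun x => ?_
  obtain ⟨b, u, rfl⟩ := deck_cases x
  rw [Equiv.Perm.mul_apply, flipPerm_dk, flipPerm_dk, flipPerm_dk]
  congr 1
  cases b <;> cases e u <;> cases e' u <;> rfl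

/-- `xor` with a fixed flip pattern, as an equivalence. -/
def xorEquiv (e : Flips L) : Flips L ≃ Flips L where
  toFun e' := fun u => xor (e u) (e' u)
  invFun e' := fun u => xor (e u) (e' u)
  left_inv e' := by
    funext u
    change xor (e u) (xor (e u) (e' u)) = e' u
    cases e u <;> cases e' u <;> rfl
  right_inv e' := by
    funext u
    change xor (e u) (xor (e u) (e' u)) = e' u
    cases e u <;> cases e' u <;> rfl

theorem rep_flip_Fl (ρ : Equiv.Perm (Deck (L + 1)) →* (V →L[ℝ] V)) (e : Flips L) :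
    ρ (flipPerm e) * Fl ρ = Fl ρ := by
  unfold Fl
  rw [mul_smul_comm, Finset.mul_sum]
  congr 1
  simp only [← map_mul, flipPerm_mul]
  exact Equiv.sum_comp (xorEquiv e) (fun e' => ρ (flipPerm e'))

theorem norm_Fl_le (ρ : Equiv.Perm (Deck (L + 1)) →* (V →L[ℝ] V)) (hρ : ∀ σ v, ‖ρ σ v‖ = ‖v‖) (x : V) :
    ‖Fl ρ x‖ ≤ ‖x‖ := by
  unfold Fl
  have hc : (0 : ℝ) < Fintype.card (Flips L) := by exact_mod_cast Fintype.card_pos
  rw [smul_apply, norm_smul, sum_apply,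
    norm_inv, Real.norm_of_nonneg hc.le]
  have h2 : ‖∑ e : Flips L, ρ (flipPerm e) x‖ ≤ (Fintype.card (Flips L) : ℝ) * ‖x‖ := by
    refine (norm_sum_le _ _).trans (le_of_eq ?_)
    simp only [hρ]
    rw [Finset.sum_const, Finset.card_univ, nsmul_eq_mul]
  calc (Fintype.card (Flips L) : ℝ)⁻¹ * ‖∑ e : Flips L, ρ (flipPerm e) x‖
      ≤ (Fintype.card (Flips L) : ℝ)⁻¹ * ((Fintype.card (Flips L) : ℝ) * ‖x‖) :=
        mul_le_mul_of_nonneg_left h2 (by positivity)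
    _ = ‖x‖ := by field_simp

/-- `T_{L+1} = T₀ T₁ P₁`. -/
theorem Trho_succ (ρ : Equiv.Perm (Deck (L + 1)) →* (V →L[ℝ] V)) :
    Trho (L + 1) ρ =
      Trho L (ρ.comp (blockEmb false)) * Trho L (ρ.comp (blockEmb true)) * Fl ρ := by
  unfold Trho Fl
  have hc : (Fintype.card (TΩ (L + 1)) : ℝ) =
      (Fintype.card (Flips L) : ℝ) * ((Fintype.card (TΩ L) : ℝ) * (Fintype.card (TΩ L) : ℝ)) := by
    have : Fintype.card (TΩ (L + 1)) = Fintype.card (Flips L × TΩ L × TΩ L) := rfl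
    rw [this, Fintype.card_prod, Fintype.card_prod]
    push_cast
    ring
  have hs : ∑ ω : TΩ (L + 1), ρ (tau (L + 1) ω) =
      ∑ e : Flips L, ∑ ω0 : TΩ L, ∑ ω1 : TΩ L, ρ (tau (L + 1) (e, ω0, ω1)) := by
    refine (Fintype.sum_prod_type (α₁ := Flips L) (α₂ := TΩ L × TΩ L) _).trans ?_
    refine Finset.sum_congr rfl fun e _ => ?_
    exact Fintype.sum_prod_type (α₁ := TΩ L) (α₂ := TΩ L) _
  have hterm : ∀ (e : Flips L) (ω0 ω1 : TΩ L), ρ (tau (L + 1) (e, ω0, ω1)) =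
      ρ (blockEmb false (tau L ω0)) * ρ (blockEmb true (tau L ω1)) * ρ (flipPerm e) := by
    intro e ω0 ω1
    rw [tau_succ_perm, blockPerm_eq_emb, map_mul, map_mul]
  rw [hs, hc]
  simp only [MonoidHom.comp_apply, hterm, smul_mul_assoc, mul_smul_comm, smul_smul]
  congr 1
  · field_simp
  · rw [Finset.mul_sum]
    refine Finset.sum_congr rfl fun e _ => ?_
    rw [Finset.sum_mul_sum, Finset.sum_mul]
    refine Finset.sum_congr rfl fun ω0 _ => ?_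
    rw [Finset.sum_mul]

end Blocks

section Step

variable [CompleteSpace V]

/-- Symmetric operators. -/
theorem inner_sa {S : V →L[ℝ] V} (hS : IsSelfAdjoint S) (x y : V) : ⟪S x, y⟫_ℝ = ⟪x, S y⟫_ℝ :=
  (ContinuousLinearMap.isSelfAdjoint_iff_isSymmetric.1 hS) x y

theorem isSelfAdjoint_exp_smul {A : V →L[ℝ] V} (hA : IsSelfAdjoint A) (r : ℝ) :
    IsSelfAdjoint (NormedSpace.exp (r • A)) :=
  ((IsSelfAdjoint.all r).smul hA).exp

theorem exp_add_comm' {x y : V →L[ℝ] V} (h : Commute x y) :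
    NormedSpace.exp (x + y) = NormedSpace.exp x * NormedSpace.exp y := by
  let +nondep : NormedAlgebra ℚ (V →L[ℝ] V) := .restrictScalars ℚ ℝ _
  exact NormedSpace.exp_add_of_commute h

theorem exp_smul_add (A : V →L[ℝ] V) (r t : ℝ) :
    NormedSpace.exp ((r + t) • A) = NormedSpace.exp (r • A) * NormedSpace.exp (t • A) := by
  rw [add_smul]
  exact exp_add_comm' ((Commute.refl A).smul_left r |>.smul_right t)

theorem commute_rep0_rep1 {L : ℕ} (ρ : Equiv.Perm (Deck (L + 1)) →* (V →L[ℝ] V))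
    (a b : Equiv.Perm (Deck L)) :
    Commute ((ρ.comp (blockEmb false)) a) ((ρ.comp (blockEmb true)) b) := by
  unfold Commute SemiconjBy
  simp only [MonoidHom.comp_apply]
  rw [← map_mul, ← map_mul, (blockEmb_comm a b).eq]

theorem commute_Cas_RR {L : ℕ} (ρ : Equiv.Perm (Deck (L + 1)) →* (V →L[ℝ] V)) :
    Commute (Cas ρ) (RR ρ) := by
  unfold RR
  refine Commute.smul_right ?_ _
  refine Commute.sum_right _ _ _ fun p _ => Commute.sum_right _ _ _ fun q _ => ?_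
  unfold Rpq
  exact (((commute_rep_Cas ρ _).symm.add_right (commute_rep_Cas ρ _).symm).sub_right
    (commute_rep_Cas ρ _).symm).sub_right (commute_rep_Cas ρ _).symm

/-- The induction step of the Gibbs bound. -/
theorem gibbs_step {L : ℕ} (h c G : ℝ) (hG : 0 ≤ G)
    (IH : ∀ ρ' : Equiv.Perm (Deck L) →* (V →L[ℝ] V), (∀ σ v, ‖ρ' σ v‖ = ‖v‖) → ∀ v,
      ‖Trho L ρ' v‖ ^ 2 ≤ Real.exp h * ⟪v, NormedSpace.exp ((-c) • Cas ρ') v⟫_ℝ)
    (ρ : Equiv.Perm (Deck (L + 1)) →* (V →L[ℝ] V)) (hρ : ∀ σ v, ‖ρ σ v‖ = ‖v‖)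
    (hD : ∀ ψ, (∀ e : Flips L, ρ (flipPerm e) ψ = ψ) →
      ⟪ψ, NormedSpace.exp (c • RR ρ) ψ⟫_ℝ ≤ G * ‖ψ‖ ^ 2)
    (u : V) :
    ‖Trho (L + 1) ρ u‖ ^ 2 ≤
      Real.exp h * (Real.exp h * (G * ⟪u, NormedSpace.exp ((-(c / 2)) • Cas ρ) u⟫_ℝ)) := by
  obtain ⟨ρ0, hρ0⟩ : ∃ ρ0, ρ0 = ρ.comp (blockEmb false) := ⟨_, rfl⟩
  obtain ⟨ρ1, hρ1⟩ : ∃ ρ1, ρ1 = ρ.comp (blockEmb true) := ⟨_, rfl⟩
  have h0 : ∀ σ v, ‖ρ0 σ v‖ = ‖v‖ := fun σ v => by rw [hρ0]; exact hρ _ v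
  have h1 : ∀ σ v, ‖ρ1 σ v‖ = ‖v‖ := fun σ v => by rw [hρ1]; exact hρ _ v
  have hcomm : ∀ a b, Commute (ρ0 a) (ρ1 b) := fun a b => by
    rw [hρ0, hρ1]; exact commute_rep0_rep1 ρ a b
  have hsa0 := isSelfAdjoint_Cas ρ0 h0
  have hsa1 := isSelfAdjoint_Cas ρ1 h1
  have hsa := isSelfAdjoint_Cas ρ hρ
  -- the operators
  obtain ⟨w, hw⟩ : ∃ w, w = Fl ρ u := ⟨_, rfl⟩
  obtain ⟨C0h, hC0h⟩ : ∃ A, A = NormedSpace.exp ((-(c / 2)) • Cas ρ0) := ⟨_, rfl⟩
  obtain ⟨C0, hC0⟩ : ∃ A, A = NormedSpace.exp ((-c) • Cas ρ0) := ⟨_, rfl⟩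
  obtain ⟨C1, hC1⟩ : ∃ A, A = NormedSpace.exp ((-c) • Cas ρ1) := ⟨_, rfl⟩
  obtain ⟨E, hE⟩ : ∃ A, A = NormedSpace.exp ((-(c / 4)) • Cas ρ) := ⟨_, rfl⟩
  obtain ⟨D, hD'⟩ : ∃ A, A = NormedSpace.exp (c • RR ρ) := ⟨_, rfl⟩
  have hC0hsa : IsSelfAdjoint C0h := by rw [hC0h]; exact isSelfAdjoint_exp_smul hsa0 _
  have hEsa : IsSelfAdjoint E := by rw [hE]; exact isSelfAdjoint_exp_smul hsa _
  have hC0half : C0 = C0h * C0h := by
    rw [hC0, hC0h, ← exp_smul_add]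
    congr 2
    ring
  -- commutations
  have hT1C0h : Commute (Trho L ρ1) C0h := by
    rw [hC0h]
    refine Commute.exp_right ?_
    refine Commute.smul_right ?_ _
    refine commute_Cas_of ρ0 _ fun a => ?_
    exact (commute_Trho_of ρ1 _ fun b => (hcomm a b)).symm
  have hC0hC1 : Commute C0h C1 := by
    rw [hC0h, hC1]
    refine Commute.exp ?_
    refine (Commute.smul_left ?_ _).smul_right _
    refine commute_Cas_of ρ1 _ fun b => ?_
    exact (commute_Cas_of ρ0 _ fun a => (hcomm a b).symm).symm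
  have hC0C1 : C0 * C1 = E * E * D := by
    have hadd : (-c) • Cas ρ0 + (-c) • Cas ρ1 = (-(c / 4) + -(c / 4)) • Cas ρ + c • RR ρ := by
      have := cas_block_add ρ
      rw [← hρ0, ← hρ1] at this
      rw [← smul_add, this]
      module
    have hcomm01 : Commute ((-c) • Cas ρ0) ((-c) • Cas ρ1) := by
      refine (Commute.smul_left ?_ _).smul_right _
      refine commute_Cas_of ρ1 _ fun b => ?_
      exact (commute_Cas_of ρ0 _ fun a => (hcomm a b).symm).symm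
    have hcomm2 : Commute ((-(c / 4) + -(c / 4)) • Cas ρ) (c • RR ρ) :=
      ((commute_Cas_RR ρ).smul_left _).smul_right _
    rw [hC0, hC1, ← exp_add_comm' hcomm01, hadd,
      exp_add_comm' hcomm2, exp_smul_add, hE, hD']
  have hED : Commute E D := by
    rw [hE, hD']
    exact Commute.exp (((commute_Cas_RR ρ).smul_left _).smul_right _)
  have hEFl : Commute E (Fl ρ) := by
    refine commute_Fl_of ρ _ fun σ => ?_
    rw [hE]
    exact Commute.exp_left ((commute_rep_Cas ρ σ).symm.smul_left _)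
  have hERep : ∀ σ, Commute (ρ σ) E := fun σ => by
    rw [hE]
    exact Commute.exp_right ((commute_rep_Cas ρ σ).smul_right _)
  -- step 1
  have hdec : Trho (L + 1) ρ u = Trho L ρ0 (Trho L ρ1 w) := by
    rw [Trho_succ, ← hρ0, ← hρ1, hw]
    rfl
  have step1 : ‖Trho L ρ0 (Trho L ρ1 w)‖ ^ 2 ≤ Real.exp h * ⟪Trho L ρ1 w, C0 (Trho L ρ1 w)⟫_ℝ := by
    rw [hC0]
    exact IH ρ0 h0 _
  have step2 : ⟪Trho L ρ1 w, C0 (Trho L ρ1 w)⟫_ℝ = ‖Trho L ρ1 (C0h w)‖ ^ 2 := by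
    rw [hC0half, mul_apply_eq_comp, ← inner_sa hC0hsa, ← real_inner_self_eq_norm_sq]
    have : C0h (Trho L ρ1 w) = Trho L ρ1 (C0h w) := by
      have := congrArg (fun A : V →L[ℝ] V => A w) hT1C0h.eq
      exact this.symm
    rw [this]
  have step3 : ‖Trho L ρ1 (C0h w)‖ ^ 2 ≤ Real.exp h * ⟪C0h w, C1 (C0h w)⟫_ℝ := by
    rw [hC1]
    exact IH ρ1 h1 _
  have step4 : ⟪C0h w, C1 (C0h w)⟫_ℝ = ⟪w, (C0 * C1) w⟫_ℝ := by
    rw [inner_sa hC0hsa, hC0half, mul_assoc]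
    have := congrArg (fun A : V →L[ℝ] V => A w) hC0hC1.eq
    simp only [mul_apply_eq_comp] at this ⊢
    rw [this]
  have step5 : ⟪w, (C0 * C1) w⟫_ℝ = ⟪E w, D (E w)⟫_ℝ := by
    rw [hC0C1, inner_sa hEsa]
    have := congrArg (fun A : V →L[ℝ] V => A w) hED.eq
    simp only [mul_apply_eq_comp] at this ⊢
    rw [this]
  have step6 : ∀ e : Flips L, ρ (flipPerm e) (E w) = E w := by
    intro e
    have h1 := congrArg (fun A : V →L[ℝ] V => A w) (hERep (flipPerm e)).eq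
    have h2 := congrArg (fun A : V →L[ℝ] V => A u) (rep_flip_Fl ρ e)
    simp only [mul_apply_eq_comp] at h1 h2
    rw [h1, hw, h2]
  have step7 : ⟪E w, D (E w)⟫_ℝ ≤ G * ‖E w‖ ^ 2 := by
    rw [hD']
    exact hD _ step6
  have step8 : ‖E w‖ ^ 2 ≤ ⟪u, NormedSpace.exp ((-(c / 2)) • Cas ρ) u⟫_ℝ := by
    have hEE : NormedSpace.exp ((-(c / 2)) • Cas ρ) = E * E := by
      rw [hE, ← exp_smul_add]
      congr 2
      ring
    have h3 : E w = Fl ρ (E u) := by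
      have := congrArg (fun A : V →L[ℝ] V => A u) hEFl.eq
      simp only [mul_apply_eq_comp] at this
      rw [hw, this]
    have h4 : ‖E w‖ ≤ ‖E u‖ := by
      rw [h3]
      exact norm_Fl_le ρ hρ _
    have h5 : ⟪u, NormedSpace.exp ((-(c / 2)) • Cas ρ) u⟫_ℝ = ‖E u‖ ^ 2 := by
      rw [hEE, mul_apply_eq_comp, ← inner_sa hEsa, real_inner_self_eq_norm_sq]
    rw [h5]
    exact pow_le_pow_left₀ (norm_nonneg _) h4 2
  have hexp := (Real.exp_pos h).le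
  rw [hdec]
  calc ‖Trho L ρ0 (Trho L ρ1 w)‖ ^ 2
      ≤ Real.exp h * ⟪Trho L ρ1 w, C0 (Trho L ρ1 w)⟫_ℝ := step1
    _ = Real.exp h * ‖Trho L ρ1 (C0h w)‖ ^ 2 := by rw [step2]
    _ ≤ Real.exp h * (Real.exp h * ⟪C0h w, C1 (C0h w)⟫_ℝ) :=
        mul_le_mul_of_nonneg_left step3 hexp
    _ = Real.exp h * (Real.exp h * ⟪E w, D (E w)⟫_ℝ) := by rw [step4, step5]
    _ ≤ Real.exp h * (Real.exp h * (G * ‖E w‖ ^ 2)) :=
        mul_le_mul_of_nonneg_left (mul_le_mul_of_nonneg_left step7 hexp) hexp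
    _ ≤ _ := mul_le_mul_of_nonneg_left (mul_le_mul_of_nonneg_left
        (mul_le_mul_of_nonneg_left step8 hG) hexp) hexp

end Step

/-! ### The constants -/

/-- `τ̃ = s̃ N'`, where `s = τ / 2^L`, `τ = 1/40`, `N' = 2^L`. -/
noncomputable def tilT (L : ℕ) : ℝ :=
  ((1 / 40) / 2 ^ L) * Real.exp (2 * ((1 / 40) / 2 ^ L)) * 2 ^ L

/-- `ln G = -τ̃ - ½ ln (1 - 2 τ̃)`. -/
noncomputable def logG (L : ℕ) : ℝ := -(tilT L) - (1 / 2) * Real.log (1 - 2 * tilT L)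

/-- `h 0 = 0`, `h (L+1) = 2 h L + ln G (2^L)`. -/
noncomputable def hh : ℕ → ℝ
  | 0 => 0
  | L + 1 => 2 * hh L + logG L

theorem tilT_eq (L : ℕ) : tilT L = (1 / 40) * Real.exp (2 * ((1 / 40) / 2 ^ L)) := by
  unfold tilT
  have : (2 : ℝ) ^ L ≠ 0 := by positivity
  field_simp

theorem tilT_nonneg (L : ℕ) : 0 ≤ tilT L := by
  rw [tilT_eq]
  positivity

theorem tilT_le (L : ℕ) : tilT L ≤ 1 / 38 := by
  rw [tilT_eq]
  have h1 : (1 : ℝ) ≤ 2 ^ L := one_le_pow₀ (by norm_num)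
  have h2 : 2 * ((1 / 40 : ℝ) / 2 ^ L) ≤ 1 / 20 := by
    rw [mul_div_assoc', div_le_iff₀ (by positivity)]
    nlinarith
  have h3 : Real.exp (2 * ((1 / 40 : ℝ) / 2 ^ L)) ≤ Real.exp (1 / 20) := Real.exp_le_exp.2 h2
  have h4 : Real.exp (1 / 20 : ℝ) ≤ 1 / (1 - 1 / 20) :=
    Real.exp_bound_div_one_sub_of_interval (by norm_num) (by norm_num)
  have h5 : Real.exp (2 * ((1 / 40 : ℝ) / 2 ^ L)) ≤ 20 / 19 := by
    refine h3.trans (h4.trans (le_of_eq ?_))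
    norm_num
  linarith

theorem logG_le (L : ℕ) : logG L ≤ 73 / 100000 := by
  unfold logG
  obtain ⟨x, hx⟩ : ∃ x, x = 2 * tilT L := ⟨_, rfl⟩
  have hx0 : 0 ≤ x := by rw [hx]; linarith [tilT_nonneg L]
  have hx1 : x ≤ 1 / 19 := by rw [hx]; linarith [tilT_le L]
  have habs : |x| < 1 := by rw [abs_of_nonneg hx0]; linarith
  have key := Real.abs_log_sub_add_sum_range_le habs 3
  simp only [Finset.sum_range_succ, Finset.sum_range_zero] at key
  rw [abs_of_nonneg hx0] at key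
  have hlow := (abs_le.1 key).1
  have h1mx : 0 < 1 - x := by linarith
  have hq : x ^ (3 + 1) / (1 - x) ≤ (1 / 19) ^ 4 * (19 / 18) := by
    rw [div_le_iff₀ h1mx]
    have hx4 : x ^ 4 ≤ (1 / 19 : ℝ) ^ 4 := pow_le_pow_left₀ hx0 hx1 4
    have h18 : (18 / 19 : ℝ) ≤ 1 - x := by linarith
    calc x ^ (3 + 1) ≤ (1 / 19 : ℝ) ^ 4 := hx4
      _ = (1 / 19) ^ 4 * (19 / 18) * (18 / 19) := by norm_num
      _ ≤ (1 / 19) ^ 4 * (19 / 18) * (1 - x) :=
          mul_le_mul_of_nonneg_left h18 (by norm_num)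
  have hx2 : x ^ 2 ≤ (1 / 19 : ℝ) ^ 2 := pow_le_pow_left₀ hx0 hx1 2
  have hx3 : x ^ 3 ≤ (1 / 19 : ℝ) ^ 3 := pow_le_pow_left₀ hx0 hx1 3
  have hlog : Real.log (1 - x) ≥ -(x + x ^ 2 / 2 + x ^ 3 / 3) - (1 / 19) ^ 4 * (19 / 18) := by
    norm_num at hlow ⊢
    linarith
  have hT : tilT L = x / 2 := by rw [hx]; ring
  have h2T : 2 * tilT L = x := hx.symm
  rw [h2T, hT]
  have h2num : (1 / 19 : ℝ) ^ 2 / 2 + (1 / 19) ^ 3 / 3 + (1 / 19) ^ 4 * (19 / 18) ≤ 146 / 100000 := by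
    norm_num
  nlinarith

theorem hh_le' (L : ℕ) : hh L ≤ (73 / 100000) * (2 ^ L - 1) := by
  induction L with
  | zero => simp [hh]
  | succ L ih =>
    have := logG_le L
    simp only [hh, pow_succ]
    linarith

/-- `h L ≤ 0.00073 · 2^L`. -/
theorem hh_le (L : ℕ) : hh L ≤ (73 / 100000) * 2 ^ L := by
  have := hh_le' L
  linarith

section Gibbs

variable [CompleteSpace V]

theorem Cas_zero_of_deck_zero (ρ : Equiv.Perm (Deck 0) →* (V →L[ℝ] V)) : Cas ρ = 0 := by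
  unfold Cas
  have h : ∀ x y : Deck 0, (1 : V →L[ℝ] V) - ρ (Equiv.swap x y) = 0 := by
    intro x y
    have hxy : x = y := rfl
    rw [hxy, Equiv.swap_self]
    have : ρ (Equiv.refl (Deck 0)) = 1 := map_one ρ
    rw [this, sub_self]
  simp only [h, Finset.sum_const_zero, smul_zero]

theorem Trho_zero (ρ : Equiv.Perm (Deck 0) →* (V →L[ℝ] V)) : Trho 0 ρ = 1 := by
  unfold Trho
  have h1 : Fintype.card (TΩ 0) = 1 := Fintype.card_unit
  have h2 : ∑ ω : TΩ 0, ρ (tau 0 ω) = 1 := by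
    have : ∀ ω : TΩ 0, ρ (tau 0 ω) = 1 := fun ω => map_one ρ
    simp only [this, Finset.sum_const, Finset.card_univ, h1, one_smul]
  rw [h1, h2]
  simp

/-- The Gibbs bound, given the Dyson bound. -/
theorem gibbs_of_dyson
    (hdyson : ∀ (L : ℕ) (ρ : Equiv.Perm (Deck (L + 1)) →* (V →L[ℝ] V)),
      (∀ σ v, ‖ρ σ v‖ = ‖v‖) → ∀ ψ : V, (∀ e : Flips L, ρ (flipPerm e) ψ = ψ) → ∀ s : ℝ, 0 ≤ s →
      2 * (s * Real.exp (2 * s)) * 2 ^ L < 1 →
      ⟪ψ, NormedSpace.exp (s • RR ρ) ψ⟫_ℝ ≤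
        ‖ψ‖ ^ 2 * Real.exp (-(s * Real.exp (2 * s) * 2 ^ L)) *
          (Real.sqrt (1 - 2 * (s * Real.exp (2 * s)) * 2 ^ L))⁻¹)
    (L : ℕ) (ρ : Equiv.Perm (Deck L) →* (V →L[ℝ] V)) (hρ : ∀ σ v, ‖ρ σ v‖ = ‖v‖) (v : V) :
    ‖Trho L ρ v‖ ^ 2 ≤
      Real.exp (hh L) * ⟪v, NormedSpace.exp ((-((1 / 40) / 2 ^ L : ℝ)) • Cas ρ) v⟫_ℝ := by
  induction L generalizing v with
  | zero =>
    rw [Trho_zero, Cas_zero_of_deck_zero]
    simp only [hh, Real.exp_zero, one_mul, smul_zero, NormedSpace.exp_zero]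
    change ‖v‖ ^ 2 ≤ ⟪v, v⟫_ℝ
    rw [real_inner_self_eq_norm_sq]
  | succ L ih =>
    -- constants
    obtain ⟨c, hc⟩ : ∃ c : ℝ, c = (1 / 40) / 2 ^ L := ⟨_, rfl⟩
    have hc0 : 0 ≤ c := by rw [hc]; positivity
    have hT : c * Real.exp (2 * c) * 2 ^ L = tilT L := by rw [hc]; rfl
    have hT2 : 2 * (c * Real.exp (2 * c)) * 2 ^ L = 2 * tilT L := by rw [← hT]; ring
    have hT3 : tilT L ≤ 1 / 38 := tilT_le L
    have hpos : 0 < 1 - 2 * tilT L := by linarith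
    have hstep := gibbs_step (hh L) c (Real.exp (logG L)) (Real.exp_pos _).le
      (fun ρ' hρ' w => by rw [hc]; exact ih ρ' hρ' w) ρ hρ ?_ v
    · have hc2 : c / 2 = (1 / 40) / 2 ^ (L + 1) := by
        rw [hc, pow_succ]
        field_simp
      rw [hc2] at hstep
      refine hstep.trans (le_of_eq ?_)
      have hexp : Real.exp (hh (L + 1)) =
          Real.exp (hh L) * (Real.exp (hh L) * Real.exp (logG L)) := by
        rw [← Real.exp_add, ← Real.exp_add]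
        congr 1
        simp only [hh]
        ring
      rw [hexp]
      ring
    · intro ψ hψ
      have := hdyson L ρ hρ ψ hψ c hc0 (by rw [hT2]; linarith)
      rw [hT, hT2] at this
      refine this.trans (le_of_eq ?_)
      have hsqrt : (Real.sqrt (1 - 2 * tilT L))⁻¹ =
          Real.exp (-((1 / 2) * Real.log (1 - 2 * tilT L))) := by
        have h1 : Real.exp ((1 / 2) * Real.log (1 - 2 * tilT L)) = Real.sqrt (1 - 2 * tilT L) := by
          rw [show (1 / 2) * Real.log (1 - 2 * tilT L) = Real.log (1 - 2 * tilT L) / 2 by ring,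
            ← Real.log_sqrt hpos.le, Real.exp_log (Real.sqrt_pos.2 hpos)]
        rw [Real.exp_neg, h1]
      rw [hsqrt, mul_assoc, ← Real.exp_add, mul_comm]
      unfold logG
      congr 2

end Gibbs

end Crest.Agent.Thorp
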