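import Crest.Agent.Lib.Thorp.HighEnergy
import Crest.Agent.Lib.Thorp.Levels

/-!
# High part: the exponential of the Casimir on the pure functions (blueprint §10c, §10d)
-/

set_option autoImplicit false
set_option linter.unusedSectionVars false

namespace Crest.Agent.Thorp

open scoped InnerProductSpace

section Spectral

variable {V : Type*} [NormedAddCommGroup V] [InnerProductSpace ℝ V] [CompleteSpace V]

/-- The exponential on an eigenvector. -/
theorem exp_apply_eigen (A : V →L[ℝ] V) (lam : ℝ) (e : V) (h : A e = lam • e) :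
    NormedSpace.exp A e = Real.exp lam • e := by
  have h1 := NormedSpace.exp_series_hasSum_exp' (𝕂 := ℝ) A
  have h2 := h1.mapL (ContinuousLinearMap.apply ℝ V e)
  have hpow : ∀ n : ℕ, (A ^ n) e = lam ^ n • e := by
    intro n
    induction n with
    | zero => simp
    | succ n ih =>
      rw [pow_succ', ContinuousLinearMap.mul_apply, ih, map_smul, h, smul_smul, pow_succ]
  have h3 := NormedSpace.exp_series_hasSum_exp' (𝕂 := ℝ) lam
  rw [← Real.exp_eq_exp_ℝ] at h3
  have h4 := h3.smul_const e
  refine HasSum.unique h2 ?_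
  convert h4 using 2 with n
  simp only [ContinuousLinearMap.apply_apply, ContinuousLinearMap.smul_apply, hpow, smul_smul,
    smul_eq_mul]

/-- If `A` is symmetric, leaves the finite dimensional subspace `W` invariant and has all
eigenvalues on `W` at least `μ₀`, then `⟪u, exp(-s A) u⟫ ≤ exp(-s μ₀) ‖u‖²` on `W`. -/
theorem inner_exp_neg_le (A : V →L[ℝ] V) (hsym : ∀ a b, ⟪A a, b⟫_ℝ = ⟪a, A b⟫_ℝ)
    (W : Submodule ℝ V) [FiniteDimensional ℝ W] (hinv : ∀ w ∈ W, A w ∈ W) (μ₀ : ℝ)
    (hμ : ∀ (μ : ℝ) (v : V), v ∈ W → v ≠ 0 → A v = μ • v → μ₀ ≤ μ) (s : ℝ) (hs : 0 ≤ s)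
    (u : V) (hu : u ∈ W) :
    ⟪u, NormedSpace.exp ((-s) • A) u⟫_ℝ ≤ Real.exp (-s * μ₀) * ‖u‖ ^ 2 := by
  let G : W →ₗ[ℝ] W := (A.toLinearMap).restrict hinv
  have hG : G.IsSymmetric := by
    intro x y
    rw [Submodule.coe_inner, Submodule.coe_inner]
    exact hsym _ _
  let B := hG.eigenvectorBasis rfl
  let ev := hG.eigenvalues rfl
  have hev : ∀ j, A (B j : V) = ev j • (B j : V) := by
    intro j
    have h := hG.apply_eigenvectorBasis rfl j
    have h3 := congrArg (fun w : W => (w : V)) h
    exact h3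
  have hev0 : ∀ j, μ₀ ≤ ev j := by
    intro j
    refine hμ _ _ (B j).2 ?_ (hev j)
    intro h0
    have h1 : (B j) = 0 := Subtype.ext h0
    exact B.orthonormal.ne_zero j h1
  let u' : W := ⟨u, hu⟩
  have hexp : ∀ j, NormedSpace.exp ((-s) • A) (B j : V) = Real.exp (-s * ev j) • (B j : V) := by
    intro j
    apply exp_apply_eigen
    rw [ContinuousLinearMap.smul_apply, hev, smul_smul]
  have hsum : u = ∑ j, ⟪(B j : V), u⟫_ℝ • (B j : V) := by
    have h := B.sum_repr' u'
    have h2 := congrArg (fun w : W => (w : V)) h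
    simp only [Submodule.coe_sum, Submodule.coe_smul, Submodule.coe_inner] at h2
    exact h2.symm
  have hnorm : ‖u‖ ^ 2 = ∑ j, ⟪(B j : V), u⟫_ℝ ^ 2 := by
    have h := B.sum_sq_inner_right u'
    simp only [Submodule.coe_inner] at h
    rw [h]
    rfl
  have hmain : ⟪u, NormedSpace.exp ((-s) • A) u⟫_ℝ
      = ∑ j, Real.exp (-s * ev j) * ⟪(B j : V), u⟫_ℝ ^ 2 := by
    have hE : NormedSpace.exp ((-s) • A) u
        = ∑ j, (⟪(B j : V), u⟫_ℝ * Real.exp (-s * ev j)) • (B j : V) := by
      conv_lhs => rw [hsum]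
      simp only [map_sum, map_smul, hexp, smul_smul]
    rw [hE, inner_sum]
    refine Finset.sum_congr rfl fun j _ => ?_
    rw [inner_smul_right, real_inner_comm]
    ring
  rw [hmain, hnorm, Finset.mul_sum]
  refine Finset.sum_le_sum fun j _ => ?_
  refine mul_le_mul_of_nonneg_right ?_ (sq_nonneg _)
  apply Real.exp_le_exp.2
  have := hev0 j
  nlinarith

end Spectral

section Concrete

variable (K : Type*) [Fintype K] [DecidableEq K] (L : ℕ)

/-- The Euclidean space of tuple functions. -/
abbrev EE := EuclideanSpace ℝ (K → Deck L)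

/-- The action on tuple functions: `(ρ σ u) x = u (σ⁻¹ ∘ x)`. -/
noncomputable def rhoLin (σ : Equiv.Perm (Deck L)) : EE K L →ₗ[ℝ] EE K L where
  toFun u := WithLp.toLp 2 (fun x => u.ofLp (fun c => σ⁻¹ (x c)))
  map_add' _ _ := rfl
  map_smul' _ _ := rfl

/-- The orthogonal representation on tuple functions. -/
noncomputable def rhoFn : Equiv.Perm (Deck L) →* (EE K L →L[ℝ] EE K L) where
  toFun σ := (rhoLin K L σ).toContinuousLinearMap
  map_one' := by
    ext u x
    rfl
  map_mul' σ τ := by
    ext u x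
    rfl

variable {K L}

theorem rhoFn_apply (σ : Equiv.Perm (Deck L)) (u : EE K L) (x : K → Deck L) :
    (rhoFn K L σ u).ofLp x = u.ofLp (fun c => σ⁻¹ (x c)) := rfl

theorem rhoFn_norm (σ : Equiv.Perm (Deck L)) (v : EE K L) : ‖rhoFn K L σ v‖ = ‖v‖ := by
  rw [norm_eq_sqrt_real_inner, norm_eq_sqrt_real_inner, Levels_inner_eq_ip, Levels_inner_eq_ip]
  congr 1
  have := sum_tup_perm (K := K) σ⁻¹ (fun x => v.ofLp x * v.ofLp x)
  exact this

theorem Trho_rhoFn (u : EE K L) : (Trho L (rhoFn K L) u).ofLp = TS L u.ofLp := by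
  funext y
  simp only [Trho, TS, Ex, ContinuousLinearMap.smul_apply, ContinuousLinearMap.sum_apply]
  simp only [WithLp.ofLp_smul, WithLp.ofLp_sum, Pi.smul_apply, Finset.sum_apply, smul_eq_mul,
    rhoFn_apply]

theorem nsq_TS_eq_norm (u : EE K L) : nsq (TS L u.ofLp) = ‖Trho L (rhoFn K L) u‖ ^ 2 := by
  rw [← real_inner_self_eq_norm_sq, Levels_inner_eq_ip, Trho_rhoFn]
  rfl

/-- Composition with a permutation preserves purity. -/
theorem IsPure_perm {u : Fn K L} (hu : IsPure u) (σ : Equiv.Perm (Deck L)) :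
    IsPure (fun x : K → Deck L => u (fun c => σ (x c))) := by
  refine ⟨fun x hx => hu.1 _ fun h => hx fun a b hab => h (by simp [hab]), fun c x => ?_⟩
  rw [sum_update_perm]
  exact hu.2 c _

/-- The number of tokens of `z` sitting in `A`. -/
noncomputable def tokensIn (A : Finset (Deck L)) (z : K → Deck L) : ℕ :=
  (Finset.univ.filter fun c => z c ∈ A).card

/-- A pure function with tokens `K` has no invariance under `S_A` when `A` is large. -/
theorem pure_invariant_zero {u : Fn K L} (hu : IsPure u) (A : Finset (Deck L))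
    (hcard : 2 ^ L < A.card + Fintype.card K)
    (hinv : ∀ x ∈ A, ∀ y ∈ A, ∀ z : K → Deck L, u (fun c => Equiv.swap x y (z c)) = u z) :
    u = 0 := by
  classical
  by_contra hne
  obtain ⟨z1, hz1⟩ : ∃ z, u z ≠ 0 := by
    by_contra h
    push Not at h
    exact hne (funext h)
  -- the minimiser
  obtain ⟨z, hz, hmin⟩ := Finset.exists_min_image (Finset.univ.filter fun z => u z ≠ 0)
    (tokensIn A) ⟨z1, by simpa using hz1⟩
  have hz0 : u z ≠ 0 := by simpa using hz
  have hinj : Function.Injective z := by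
    by_contra h
    exact hz0 (hu.1 z h)
  -- a token in `A`
  obtain ⟨c, hc⟩ : ∃ c, z c ∈ A := by
    by_contra h
    push Not at h
    have h1 : Fintype.card K ≤ (Finset.univ \ A).card := by
      have := Finset.card_le_card_of_injOn (s := Finset.univ) (t := Finset.univ \ A) z
        (fun c _ => by simpa using h c) (hinj.injOn)
      simpa using this
    have h2 : (Finset.univ \ A).card + A.card = 2 ^ L := by
      rw [Finset.card_sdiff_add_card_eq_card (Finset.subset_univ A), Finset.card_univ, card_deck]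
    omega
  -- the good sites
  let Y := Finset.univ.filter fun y : Deck L => y ∈ A ∧ Function.Injective (Function.update z c y)
  have hterm : ∀ y : Deck L, u (Function.update z c y) = if y ∈ Y then u z else 0 := by
    intro y
    by_cases hyinj : Function.Injective (Function.update z c y)
    · by_cases hyA : y ∈ A
      · rw [if_pos (by simp [Y, hyA, hyinj])]
        have hsw : (fun d => Equiv.swap (z c) y (z d)) = Function.update z c y := by
          funext d
          by_cases hd : d = c
          · subst hd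
            simp
          · rw [Function.update_of_ne hd]
            refine Equiv.swap_apply_of_ne_of_ne (fun h => hd (hinj h)) ?_
            intro h
            have h2 : Function.update z c y d = Function.update z c y c := by
              rw [Function.update_of_ne hd, Function.update_self, h]
            exact hd (hyinj h2)
        rw [← hsw]
        exact hinv _ hc _ hyA z
      · rw [if_neg (by simp [Y, hyA])]
        by_contra hny
        have hmem : Function.update z c y ∈ Finset.univ.filter fun z => u z ≠ 0 := by simpa using hny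
        have hle := hmin _ hmem
        have hlt : tokensIn A (Function.update z c y) < tokensIn A z := by
          unfold tokensIn
          apply Finset.card_lt_card
          refine Finset.ssubset_iff_of_subset ?_ |>.2 ⟨c, by simpa using hc, ?_⟩
          · intro d hd
            simp only [Finset.mem_filter, Finset.mem_univ, true_and] at hd ⊢
            by_cases hdc : d = c
            · subst hdc
              exact hc
            · rwa [Function.update_of_ne hdc] at hd
          · simp [hyA]
        omega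
    · rw [hu.1 _ hyinj, if_neg (by simp [Y, hyinj])]
  have hsum := hu.2 c z
  simp only [hterm] at hsum
  rw [Finset.sum_ite_mem, Finset.univ_inter, Finset.sum_const, nsmul_eq_mul] at hsum
  have hYpos : z c ∈ Y := by
    simp only [Y, Finset.mem_filter, Finset.mem_univ, true_and]
    refine ⟨hc, ?_⟩
    rw [Function.update_eq_self]
    exact hinj
  have hYcard : (Y.card : ℝ) ≠ 0 := by
    have : 0 < Y.card := Finset.card_pos.2 ⟨_, hYpos⟩
    positivity
  exact hz0 ((mul_eq_zero.1 hsum).resolve_left hYcard)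

/-- The Casimir is symmetric. -/
theorem Cas_symm {X : Type*} [Fintype X] [DecidableEq X] {V : Type*} [NormedAddCommGroup V]
    [InnerProductSpace ℝ V] (ρ : Equiv.Perm X →* (V →L[ℝ] V)) (hρ : ∀ σ v, ‖ρ σ v‖ = ‖v‖) (a b : V) :
    ⟪Cas ρ a, b⟫_ℝ = ⟪a, Cas ρ b⟫_ℝ := by
  rw [Cas_eq_CasB, CasB_apply, CasB_apply, real_inner_smul_left, real_inner_smul_right]
  congr 1
  rw [sum_inner, inner_sum]
  refine Finset.sum_congr rfl fun x _ => ?_
  rw [sum_inner, inner_sum]
  refine Finset.sum_congr rfl fun y _ => ?_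
  rw [inner_sub_left, inner_sub_right, rho_swap_adj ρ hρ]

/-- Every eigenvalue of the Casimir on the pure functions is at least `2^L k / 2`. -/
theorem eig_pure_ge (μ : ℝ) (v : EE K L) (hv : v ∈ Levels_W K L) (hv0 : v ≠ 0)
    (heig : Cas (rhoFn K L) v = μ • v) :
    ((2 : ℝ) ^ L * Fintype.card K) / 2 ≤ μ := by
  have hinv : ∀ σ : Equiv.Perm (Deck L), ∀ w ∈ Levels_W K L, rhoFn K L σ w ∈ Levels_W K L :=
    fun σ w hw => IsPure_perm (u := w.ofLp) hw σ⁻¹
  have h := rep_lemma (rhoFn K L) rhoFn_norm Finset.univ (Levels_W K L) (Fintype.card K)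
    (fun x _ y _ w hw => hinv _ w hw) ?_ μ v hv hv0 heig
  · have hc : ((Finset.univ : Finset (Deck L)).card : ℝ) = 2 ^ L := by
      rw [Finset.card_univ, card_deck]
      push_cast
      rfl
    rwa [hc] at h
  · intro A _ hA w hw hwA
    have hA' : 2 ^ L < A.card + Fintype.card K := by
      rwa [Finset.card_univ, card_deck] at hA
    have h0 := pure_invariant_zero (u := w.ofLp) hw A hA' (by
      intro x hx y hy z
      have := congrArg (fun w' : EE K L => w'.ofLp z) (hwA x hx y hy)
      simp only [rhoFn_apply, Equiv.swap_inv] at this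
      exact this)
    have : w = WithLp.toLp 2 w.ofLp := rfl
    rw [this, h0]
    rfl

/-- The exponential of the Casimir on the pure functions. -/
theorem inner_exp_Cas_pure_le (s : ℝ) (hs : 0 ≤ s) (u : EE K L) (hu : u ∈ Levels_W K L) :
    ⟪u, NormedSpace.exp ((-s) • Cas (rhoFn K L)) u⟫_ℝ
      ≤ Real.exp (-s * (((2 : ℝ) ^ L * Fintype.card K) / 2)) * ‖u‖ ^ 2 := by
  refine inner_exp_neg_le (Cas (rhoFn K L)) (Cas_symm _ rhoFn_norm) (Levels_W K L) ?_ _
    eig_pure_ge s hs u hu
  intro w hw
  rw [Cas_eq_CasB, CasB_apply]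
  refine Submodule.smul_mem _ _ (Submodule.sum_mem _ fun x _ => Submodule.sum_mem _ fun y _ => ?_)
  exact Submodule.sub_mem _ hw (IsPure_perm (u := w.ofLp) hw _)

/-- The high regime from the Gibbs bound. -/
theorem high_pure_of_gibbs (C : ℝ)
    (hgibbs : ∀ u : EE K L, ‖Trho L (rhoFn K L) u‖ ^ 2 ≤
      Real.exp C * ⟪u, NormedSpace.exp ((-((1 / 40 : ℝ) / 2 ^ L)) • Cas (rhoFn K L)) u⟫_ℝ) :
    PureBound L K (Real.exp (C - (Fintype.card K : ℝ) / 80)) := by
  intro u hu
  let w : EE K L := WithLp.toLp 2 u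
  have h1 : nsq (TS L u) = ‖Trho L (rhoFn K L) w‖ ^ 2 := nsq_TS_eq_norm w
  have h2 : ‖w‖ ^ 2 = nsq u := by
    rw [← real_inner_self_eq_norm_sq, Levels_inner_eq_ip]
    rfl
  have hs : (0 : ℝ) ≤ (1 / 40 : ℝ) / 2 ^ L := by positivity
  have h3 := inner_exp_Cas_pure_le (K := K) (L := L) _ hs w hu
  have h4 := hgibbs w
  rw [h1]
  refine h4.trans ?_
  have h5 : Real.exp (C - (Fintype.card K : ℝ) / 80) = Real.exp C *
      Real.exp (-((1 / 40 : ℝ) / 2 ^ L) * (((2 : ℝ) ^ L * Fintype.card K) / 2)) := by
    rw [← Real.exp_add]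
    congr 1
    have : (2 : ℝ) ^ L ≠ 0 := by positivity
    field_simp
    ring
  rw [h5, mul_assoc, ← h2]
  exact mul_le_mul_of_nonneg_left h3 (Real.exp_pos C).le

end Concrete

end Crest.Agent.Thorp
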