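import Crest.Agent.Lib.Thorp.LowChargeC

/-!
# Charge inequality, part D: the summation
-/

set_option autoImplicit false

namespace Crest.Agent.Thorp

open Finset

variable {K : Type*} [Fintype K] [DecidableEq K] {L : ℕ}

/-- The weight of a `U`-decomposition of a pairing. -/
theorem sum_powerset_pairUp {y : K → Deck L} (θ : ℝ) :
    ∀ (n : ℕ) (T : Finset K), T.card = n → PairUp T y →
      ∑ U ∈ T.powerset, θ ^ U.card * ind (Set.InjOn y (T \ U : Finset K)) = (2 * θ + θ ^ 2) ^ (T.card / 2) := by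
  intro n
  induction n using Nat.strong_induction_on with
  | _ n ih =>
    intro T hT hp
    by_cases hne : T.Nonempty
    swap
    · rw [not_nonempty_iff_eq_empty] at hne
      subst hne
      simp only [powerset_empty, sum_singleton, card_empty, pow_zero, one_mul, Nat.zero_div]
      apply ind_true
      intro a ha
      simp at ha
    obtain ⟨c, hc⟩ := hne
    obtain ⟨d, ⟨hd, hdc, hy⟩, hdu⟩ := hp c hc
    set T' := (T.erase c).erase d with hT'
    have hp' : PairUp T' y := hp.erase_pair hc hd hdc hy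
    have hdmem : d ∈ T.erase c := mem_erase.2 ⟨hdc, hd⟩
    have hcard : T.card = T'.card + 2 := by
      rw [hT', card_erase_of_mem hdmem, card_erase_of_mem hc]
      have h1 : 1 ≤ (T.erase c).card := card_pos.2 ⟨d, hdmem⟩
      have h2 : (T.erase c).card = T.card - 1 := card_erase_of_mem hc
      have h3 : 1 ≤ T.card := card_pos.2 ⟨c, hc⟩
      omega
    have hih := ih T'.card (by omega) T' rfl hp'
    have hTe : T = insert c (insert d T') := by
      rw [hT', insert_erase hdmem, insert_erase hc]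
    have hcT' : c ∉ T' := by
      simp [hT']
    have hdT' : d ∉ T' := by
      simp [hT']
    have hcd : c ∉ insert d T' := by
      simp [Ne.symm hdc, hcT']
    -- tokens of `T'` do not share the site of `c`
    have hsite : ∀ a ∈ T', y a ≠ y c := by
      intro a ha hay
      have hac : a ≠ c := fun h => hcT' (h ▸ ha)
      have haT : a ∈ T := mem_of_mem_erase (mem_of_mem_erase ha)
      exact hdT' ((hdu a ⟨haT, hac, hay⟩) ▸ ha)
    have hUsub : ∀ U ∈ T'.powerset, c ∉ U ∧ d ∉ U := by
      intro U hU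
      have hU' := mem_powerset.1 hU
      exact ⟨fun h => hcT' (hU' h), fun h => hdT' (hU' h)⟩
    conv_lhs => rw [hTe]
    rw [sum_powerset_insert hcd, sum_powerset_insert hdT', sum_powerset_insert hdT']
    -- set up the four kinds of terms
    have hTsd : ∀ U ∈ T'.powerset, ((insert c (insert d T')) \ U : Finset K) =
        insert c (insert d (T' \ U)) := by
      intro U hU
      obtain ⟨h1, h2⟩ := hUsub U hU
      ext a
      simp only [mem_sdiff, mem_insert]
      by_cases ha : a = c
      · subst ha; simp [h1]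
      · by_cases hb : a = d
        · subst hb; simp [h2]
        · simp [ha, hb]
    have hcase0 : ∀ U ∈ T'.powerset, θ ^ U.card *
        ind (Set.InjOn y ((insert c (insert d T')) \ U : Finset K)) = 0 := by
      intro U hU
      rw [ind_false, mul_zero]
      intro hinj
      rw [hTsd U hU] at hinj
      apply hdc
      apply hinj
      · simp
      · simp
      · exact hy
    have hcase1 : ∀ U ∈ T'.powerset, θ ^ (insert d U).card *
        ind (Set.InjOn y ((insert c (insert d T')) \ (insert d U) : Finset K)) =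
        θ * (θ ^ U.card * ind (Set.InjOn y (T' \ U : Finset K))) := by
      intro U hU
      obtain ⟨h1, h2⟩ := hUsub U hU
      rw [card_insert_of_notMem h2, pow_succ]
      have hset : ((insert c (insert d T')) \ (insert d U) : Finset K) = insert c (T' \ U) := by
        ext a
        simp only [mem_sdiff, mem_insert, not_or]
        by_cases ha : a = c
        · subst ha; simp [h1, Ne.symm hdc]
        · by_cases hb : a = d
          · subst hb; simp [hdT', ha]
          · simp [ha, hb]
      rw [hset]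
      have hiff : Set.InjOn y (insert c (T' \ U) : Finset K) ↔ Set.InjOn y (T' \ U : Finset K) := by
        constructor
        · intro h a ha b hb hab
          exact h (mem_coe.2 (mem_insert_of_mem (mem_coe.1 ha))) (mem_coe.2 (mem_insert_of_mem (mem_coe.1 hb))) hab
        · intro h a ha b hb hab
          have ha' := mem_insert.1 (mem_coe.1 ha)
          have hb' := mem_insert.1 (mem_coe.1 hb)
          rcases ha' with rfl | ha'
          · rcases hb' with rfl | hb'
            · rfl
            · exact absurd hab.symm (hsite b (mem_sdiff.1 hb').1)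
          · rcases hb' with rfl | hb'
            · exact absurd hab (hsite a (mem_sdiff.1 ha').1)
            · exact h (mem_coe.2 ha') (mem_coe.2 hb') hab
      rw [ind_congr hiff]
      ring
    have hcase2 : ∀ U ∈ T'.powerset, θ ^ (insert c U).card *
        ind (Set.InjOn y ((insert c (insert d T')) \ (insert c U) : Finset K)) =
        θ * (θ ^ U.card * ind (Set.InjOn y (T' \ U : Finset K))) := by
      intro U hU
      obtain ⟨h1, h2⟩ := hUsub U hU
      rw [card_insert_of_notMem h1, pow_succ]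
      have hset : ((insert c (insert d T')) \ (insert c U) : Finset K) = insert d (T' \ U) := by
        ext a
        simp only [mem_sdiff, mem_insert, not_or]
        by_cases hb : a = d
        · subst hb; simp [h2, hdc]
        · by_cases ha : a = c
          · subst ha; simp [hcT', hb]
          · simp [ha, hb]
      rw [hset]
      have hsite' : ∀ a ∈ T', y a ≠ y d := by
        intro a ha; rw [hy]; exact hsite a ha
      have hiff : Set.InjOn y (insert d (T' \ U) : Finset K) ↔ Set.InjOn y (T' \ U : Finset K) := by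
        constructor
        · intro h a ha b hb hab
          exact h (mem_coe.2 (mem_insert_of_mem (mem_coe.1 ha))) (mem_coe.2 (mem_insert_of_mem (mem_coe.1 hb))) hab
        · intro h a ha b hb hab
          have ha' := mem_insert.1 (mem_coe.1 ha)
          have hb' := mem_insert.1 (mem_coe.1 hb)
          rcases ha' with rfl | ha'
          · rcases hb' with rfl | hb'
            · rfl
            · exact absurd hab.symm (hsite' b (mem_sdiff.1 hb').1)
          · rcases hb' with rfl | hb'
            · exact absurd hab (hsite' a (mem_sdiff.1 ha').1)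
            · exact h (mem_coe.2 ha') (mem_coe.2 hb') hab
      rw [ind_congr hiff]
      ring
    have hcase3 : ∀ U ∈ T'.powerset, θ ^ (insert c (insert d U)).card *
        ind (Set.InjOn y ((insert c (insert d T')) \ (insert c (insert d U)) : Finset K)) =
        θ ^ 2 * (θ ^ U.card * ind (Set.InjOn y (T' \ U : Finset K))) := by
      intro U hU
      obtain ⟨h1, h2⟩ := hUsub U hU
      have hcdU : c ∉ insert d U := by simp [Ne.symm hdc, h1]
      rw [card_insert_of_notMem hcdU, card_insert_of_notMem h2]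
      have hset : ((insert c (insert d T')) \ (insert c (insert d U)) : Finset K) = T' \ U := by
        ext a
        simp only [mem_sdiff, mem_insert, not_or]
        by_cases ha : a = c
        · subst ha; simp [hcT']
        · by_cases hb : a = d
          · subst hb; simp [hdT']
          · simp [ha, hb]
      rw [hset]
      ring
    rw [sum_congr rfl hcase0, sum_congr rfl hcase1, sum_congr rfl hcase2]
    have hcase3' : ∑ t ∈ T'.powerset, θ ^ (insert c (insert d t)).card *
        ind (Set.InjOn y ((insert c (insert d T')) \ (insert c (insert d t)) : Finset K)) =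
        ∑ t ∈ T'.powerset, θ ^ 2 * (θ ^ t.card * ind (Set.InjOn y (T' \ t : Finset K))) :=
      sum_congr rfl hcase3
    simp only [sum_const_zero, zero_add]
    rw [hcase3', ← mul_sum, ← mul_sum, hih, hcard]
    have : (T'.card + 2) / 2 = T'.card / 2 + 1 := by omega
    rw [this, pow_succ]
    ring

/-- The sites of pairs. -/
theorem card_pairSites {Z : Finset K} {y : K → Deck L} (hnt : NoTriple Z y) :
    ((PairTok Z y).image y).card = pcount Z y := by
  have hp : PairUp (PairTok Z y) y := by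
    intro c hc
    obtain ⟨hcZ, d, hd, hdc, hy⟩ := mem_PairTok.1 hc
    refine ⟨d, ⟨mem_PairTok.2 ⟨hd, c, hcZ, Ne.symm hdc, hy.symm⟩, hdc, hy⟩, ?_⟩
    rintro e ⟨he, hec, hey⟩
    by_contra hne
    exact hnt c hcZ d hd e (mem_PairTok.1 he).1 (Ne.symm hdc) (Ne.symm hec) (Ne.symm hne) hy.symm hey.symm
  have h1 := hp.two_mul_card_image
  have h2 := card_pairTok hnt
  omega

/-- The sum over the `T` matching a fixed site pattern. -/
theorem sum_match_le {Z : Finset K} {y : K → Deck L} (hnt : NoTriple Z y) (f : ℕ → ℝ)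
    (hf : ∀ p, 0 ≤ f p) :
    ∑ T ∈ (univ : Finset (Finset K)).erase ∅, ind (MatchT T Z y) * f (T.card / 2) ≤
      ∑ p ∈ Icc 1 (pcount Z y), ((pcount Z y).choose p : ℝ) * f p := by
  classical
  set D := (PairTok Z y).image y with hD
  have hDcard : D.card = pcount Z y := card_pairSites hnt
  set Tset := ((univ : Finset (Finset K)).erase ∅).filter (fun T => MatchT T Z y) with hTset
  have h1 : ∑ T ∈ (univ : Finset (Finset K)).erase ∅, ind (MatchT T Z y) * f (T.card / 2) =
      ∑ T ∈ Tset, f (T.card / 2) := by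
    rw [hTset, sum_filter]
    refine sum_congr rfl fun T _ => ?_
    by_cases h : MatchT T Z y <;> simp [h]
  rw [h1]
  -- injection into nonempty subsets of `D`
  have hinj : Set.InjOn (fun T : Finset K => T.image y) (Tset : Set (Finset K)) := by
    intro T hT T' hT' hEq
    have hT1 := (mem_filter.1 (mem_coe.1 hT)).2
    have hT2 := (mem_filter.1 (mem_coe.1 hT')).2
    have hEq' : T.image y = T'.image y := hEq
    ext c
    constructor
    · intro hc
      have : y c ∈ T'.image y := hEq' ▸ mem_image_of_mem y hc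
      obtain ⟨d, hd, hdy⟩ := mem_image.1 this
      by_contra hne
      exact hne (hT2.2.2 d hd c (hT1.1 hc) (fun h => hne (h ▸ hd)) hdy.symm)
    · intro hc
      have : y c ∈ T.image y := hEq' ▸ mem_image_of_mem y hc
      obtain ⟨d, hd, hdy⟩ := mem_image.1 this
      by_contra hne
      exact hne (hT1.2.2 d hd c (hT2.1 hc) (fun h => hne (h ▸ hd)) hdy.symm)
  have hcardT : ∀ T ∈ Tset, T.card / 2 = (T.image y).card := by
    intro T hT
    have := (mem_filter.1 hT).2.2.1.two_mul_card_image
    omega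
  have h2 : ∑ T ∈ Tset, f (T.card / 2) = ∑ S ∈ Tset.image (fun T : Finset K => T.image y), f S.card := by
    rw [sum_image hinj]
    exact sum_congr rfl fun T hT => by rw [hcardT T hT]
  rw [h2]
  have hsub : Tset.image (fun T : Finset K => T.image y) ⊆ D.powerset.erase ∅ := by
    intro S hS
    obtain ⟨T, hT, rfl⟩ := mem_image.1 hS
    obtain ⟨hne, hm⟩ := mem_filter.1 hT
    refine mem_erase.2 ⟨?_, mem_powerset.2 ?_⟩
    · intro h
      have hTe : T = ∅ := image_eq_empty.1 h
      exact (mem_erase.1 hne).1 hTe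
    · intro s hs
      obtain ⟨c, hc, rfl⟩ := mem_image.1 hs
      obtain ⟨d, ⟨hd, hdc, hy⟩, -⟩ := hm.2.1 c hc
      exact mem_image.2 ⟨c, mem_PairTok.2 ⟨hm.1 hc, d, hm.1 hd, hdc, hy⟩, rfl⟩
  calc ∑ S ∈ Tset.image (fun T : Finset K => T.image y), f S.card
      ≤ ∑ S ∈ D.powerset.erase ∅, f S.card :=
        sum_le_sum_of_subset_of_nonneg hsub fun _ _ _ => hf _
    _ = ∑ S ∈ D.powerset, f S.card - f 0 := by
        rw [← add_sum_erase D.powerset _ (empty_mem_powerset D)]
        simp
    _ = ∑ p ∈ Icc 1 (pcount Z y), ((pcount Z y).choose p : ℝ) * f p := by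
        rw [sum_powerset_apply_card, hDcard, sum_range_succ', Nat.choose_zero_right]
        simp only [nsmul_eq_mul, Nat.cast_one, one_mul, add_sub_cancel_right]
        rw [← Finset.sum_image (f := fun p => ((pcount Z y).choose p : ℝ) * f p) (s := range (pcount Z y))
          (g := fun p => p + 1) (by intro a _ b _ h; simpa using h)]
        apply sum_congr
        · ext p
          simp only [mem_image, mem_range, mem_Icc]
          constructor
          · rintro ⟨a, ha, rfl⟩
            omega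
          · rintro ⟨h1, h2⟩
            exact ⟨p - 1, by omega, by omega⟩
        · intro _ _
          rfl

/-- The arithmetic inequality used in the charge step. -/
theorem choose_pairCount_le (q p : ℕ) (hp : 1 ≤ p) :
    (q.choose p : ℝ) * ((pairCount p : ℝ) * (1 / 2) ^ p) ≤ (q : ℝ) ^ p / 2 := by
  obtain ⟨n, rfl⟩ : ∃ n, p = n + 1 := ⟨p - 1, by omega⟩
  have h1 : (2 : ℝ) * pairCount (n + 1) ≤ 2 ^ (n + 1) * ((n + 1).factorial : ℝ) := by
    exact_mod_cast two_mul_pairCount_le n
  have h2 : ((q.choose (n + 1) : ℝ)) * ((n + 1).factorial : ℝ) ≤ (q : ℝ) ^ (n + 1) := by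
    have := Nat.descFactorial_le_pow q (n + 1)
    rw [Nat.descFactorial_eq_factorial_mul_choose] at this
    have h3 : ((n + 1).factorial * q.choose (n + 1) : ℕ) ≤ q ^ (n + 1) := this
    have h4 : (((n + 1).factorial * q.choose (n + 1) : ℕ) : ℝ) ≤ ((q ^ (n + 1) : ℕ) : ℝ) := by
      exact_mod_cast h3
    push_cast at h4
    linarith
  have h5 : (pairCount (n + 1) : ℝ) * (1 / 2) ^ (n + 1) ≤ ((n + 1).factorial : ℝ) / 2 := by
    have hpow : (0 : ℝ) < (1 / 2) ^ (n + 1) := by positivity
    have h6 : (2 : ℝ) ^ (n + 1) * (1 / 2) ^ (n + 1) = 1 := by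
      rw [← mul_pow]
      norm_num
    nlinarith [mul_le_mul_of_nonneg_right h1 hpow.le]
  calc (q.choose (n + 1) : ℝ) * ((pairCount (n + 1) : ℝ) * (1 / 2) ^ (n + 1))
      ≤ (q.choose (n + 1) : ℝ) * (((n + 1).factorial : ℝ) / 2) :=
        mul_le_mul_of_nonneg_left h5 (by positivity)
    _ ≤ (q : ℝ) ^ (n + 1) / 2 := by linarith

/-- Resampling inside a sum over all tuples. -/
theorem sum_Ex_ow {α : Type*} [Fintype α] [Nonempty α] (g : (K → α) → ℝ) (S : Finset K) :
    ∑ v, Ex (fun z : K → α => g (ow v z S)) = ∑ v, g v := by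
  rw [sum_eq_card_mul_Ex (fun v => Ex (fun z : K → α => g (ow v z S))), sum_eq_card_mul_Ex g, Ex_ow]

/-- Nonneg sums over `R`, reindexed by `(R \ T, R ∩ T)`. -/
theorem sum_sdiff_inter_le (T : Finset K) (G : Finset K → Finset K → ℝ) (hG : ∀ Y U, 0 ≤ G Y U) :
    ∑ R : Finset K, G (R \ T) (R ∩ T) ≤ ∑ Y : Finset K, ∑ U ∈ T.powerset, G Y U := by
  classical
  rw [← sum_product' (f := fun Y U => G Y U)]
  have hinj : Function.Injective (fun R : Finset K => (R \ T, R ∩ T)) := by
    intro R R' h
    have h1 : R \ T = R' \ T := (Prod.ext_iff.1 h).1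
    have h2 : R ∩ T = R' ∩ T := (Prod.ext_iff.1 h).2
    rw [← sdiff_union_inter R T, ← sdiff_union_inter R' T, h1, h2]
  have h3 : ∑ R : Finset K, G (R \ T) (R ∩ T) =
      ∑ p ∈ (univ : Finset (Finset K)).image (fun R : Finset K => (R \ T, R ∩ T)), G p.1 p.2 := by
    rw [sum_image]
    intro a _ b _ hab
    exact hinj hab
  rw [h3]
  apply sum_le_sum_of_subset_of_nonneg
  · intro p hp
    obtain ⟨R, -, rfl⟩ := mem_image.1 hp
    exact mem_product.2 ⟨mem_univ _, mem_powerset.2 inter_subset_right⟩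
  · intro p _ _
    exact hG _ _

/-- The weight on the cube with sign variables `M`. -/
noncomputable def Bw (κ t : ℝ) (M : Finset K) : (K → Bool) → ℝ :=
  fun ε => κ * Real.exp (t * signSum M ε ^ 2)

theorem Bw_pos {κ t : ℝ} (hκ : 0 < κ) (M : Finset K) (ε : K → Bool) : 0 < Bw κ t M ε := by
  unfold Bw
  positivity

theorem Ex_Bw_pos {κ t : ℝ} (hκ : 0 < κ) (M : Finset K) : 0 < Ex (Bw κ t M) := by
  unfold Ex
  apply mul_pos
  · have : (Fintype.card (K → Bool) : ℝ) ≠ 0 := by
      exact_mod_cast Fintype.card_ne_zero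
    positivity
  · exact Finset.sum_pos (fun ε _ => Bw_pos hκ M ε) Finset.univ_nonempty

/-- The charge coefficient of a set `T`. -/
noncomputable def Dco (C : ℕ → ℝ) (L p : ℕ) : ℝ :=
  C p * ((pairCount p : ℝ) * (((2 : ℝ) ^ L)⁻¹) ^ p * (1 / 2) ^ p)

/-- The cube step in charged form. -/
theorem step1 {w : Fn K (L + 1)} (hw : InjSupp w) (hf : FlipInv w) (κ t : ℝ) (hκ : 0 < κ)
    (a C : ℕ → ℝ)
    (ha : ∀ (M : Finset K) (q : ℕ), M.card + 2 * q = Fintype.card K →
        Ex (Bw κ t M) + VarE (Bw κ t M) / Ex (Bw κ t M) ≤ a q)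
    (hC : ∀ (M : Finset K) (p : ℕ), 2 * Ex (Bw κ t M) + Real.sqrt (VarE (Bw κ t M)) * 9 ^ p ≤ C p)
    (R : Finset K) (v : K → Deck L) :
    Ex (fun ε : K → Bool => κ * Real.exp (t * signSum univ ε ^ 2) * (Mbar R w ε v) ^ 2)
      ≤ a (pcount Rᶜ v) * PhiQ w R v + ∑ T ∈ Finset.univ.erase ∅, Dco C L (T.card / 2) *
        Ex (fun z : K → Deck L => PhiQ w (R \ T) (ow v z (R ∩ T)) *
          ind (MatchT T (R \ T)ᶜ (ow v z (R ∩ T)) ∧ Set.InjOn (ow v z (R ∩ T)) (T \ R : Finset K))) := by
  have hCnn : ∀ p, 0 ≤ C p := by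
    intro p
    have h1 := hC ∅ p
    have h2 := Ex_Bw_pos (t := t) hκ (∅ : Finset K)
    have h3 : 0 ≤ Real.sqrt (VarE (Bw κ t (∅ : Finset K))) * 9 ^ p := by positivity
    linarith
  have hDnn : ∀ p, 0 ≤ Dco C L p := fun p => mul_nonneg (hCnn p) (by positivity)
  have hEnn : ∀ T : Finset K, 0 ≤ Ex (fun z : K → Deck L => PhiQ w (R \ T) (ow v z (R ∩ T)) *
      ind (MatchT T (R \ T)ᶜ (ow v z (R ∩ T)) ∧ Set.InjOn (ow v z (R ∩ T)) (T \ R : Finset K))) :=
    fun T => Ex_nonneg fun _ => mul_nonneg (PhiQ_nonneg _ _ _) (ind_nonneg _)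
  by_cases hnt : NoTriple Rᶜ v
  · have h0 := cube_step hw hf R v κ t hκ (Bw κ t (MSet R v)) rfl (a (pcount Rᶜ v))
      (ha _ _ (card_MSet hnt))
    refine h0.trans (add_le_add le_rfl ?_)
    apply sum_le_sum
    intro T hTm
    split_ifs with hT
    · set p := T.card / 2 with hp
      have hb := fhat_bound hw hf R T v hT
      by_cases hev : Even T.card
      · have h9 : (3 : ℝ) ^ T.card = 9 ^ p := by
          obtain ⟨r, hr⟩ := hev
          have hr' : T.card = 2 * p := by omega
          rw [hr', pow_mul]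
          norm_num
        rw [h9]
        calc (2 * Ex (Bw κ t (MSet R v)) + Real.sqrt (VarE (Bw κ t (MSet R v))) * 9 ^ p) *
              (fhat (fun ε => Mbar R w ε v) T) ^ 2 / pic Rᶜ v
            = (2 * Ex (Bw κ t (MSet R v)) + Real.sqrt (VarE (Bw κ t (MSet R v))) * 9 ^ p) *
              ((fhat (fun ε => Mbar R w ε v) T) ^ 2 / pic Rᶜ v) := by ring
          _ ≤ C p * ((fhat (fun ε => Mbar R w ε v) T) ^ 2 / pic Rᶜ v) :=
              mul_le_mul_of_nonneg_right (hC _ _) (div_nonneg (sq_nonneg _) (pic_nonneg _ _))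
          _ ≤ C p * ((pairCount p : ℝ) * (((2 : ℝ) ^ L)⁻¹) ^ p * (1 / 2) ^ p *
                Ex (fun z : K → Deck L => PhiQ w (R \ T) (ow v z (R ∩ T)) *
                  ind (MatchT T (R \ T)ᶜ (ow v z (R ∩ T)) ∧
                    Set.InjOn (ow v z (R ∩ T)) (T \ R : Finset K)))) :=
              mul_le_mul_of_nonneg_left hb (hCnn p)
          _ = _ := by
              unfold Dco
              ring
      · have hzero : fhat (fun ε => Mbar R w ε v) T = 0 := by
          rw [fhat_Mbar hw hf]
          have : ∀ z : K → Deck L, phiT w (R \ T) (ow v z (R ∩ T)) * pic (R \ T)ᶜ (ow v z (R ∩ T)) *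
              ind (MatchT T (R \ T)ᶜ (ow v z (R ∩ T))) = 0 := by
            intro z
            rw [ind_false (fun h => hev h.2.1.even), mul_zero]
          simp only [this]
          have h0 : Ex (fun _ : K → Deck L => (0 : ℝ)) = 0 := Ex_const 0
          rw [h0, mul_zero]
        rw [hzero]
        simp only [ne_eq, OfNat.ofNat_ne_zero, not_false_eq_true, zero_pow, mul_zero, zero_div]
        exact mul_nonneg (hDnn _) (hEnn T)
    · exact mul_nonneg (hDnn _) (hEnn T)
  · have hzero : ∀ ε, Mbar R w ε v = 0 := fun ε =>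
      Mbar_eq_zero hw (fun h => hnt h.noTriple)
    have hL : Ex (fun ε : K → Bool => κ * Real.exp (t * signSum univ ε ^ 2) * (Mbar R w ε v) ^ 2) = 0 := by
      simp [hzero, Ex]
    have hP : PhiQ w R v = 0 := by
      rw [PhiQ_eq hw hf, phiT_eq_zero_of_triple hnt]
      ring
    rw [hL, hP, mul_zero, zero_add]
    exact sum_nonneg fun T _ => mul_nonneg (hDnn _) (hEnn T)

/-- The bracket for fixed `(Y, y)`. -/
theorem bracket_le {Y : Finset K} {y : K → Deck L} (hnt : NoTriple Yᶜ y) (θ : ℝ) (hθ : 0 ≤ θ)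
    (C : ℕ → ℝ) (hCnn : ∀ p, 0 ≤ C p) :
    ∑ T ∈ Finset.univ.erase ∅, Dco C L (T.card / 2) * ∑ U ∈ T.powerset, θ ^ U.card *
        ind (MatchT T Yᶜ y ∧ Set.InjOn y (T \ U : Finset K))
      ≤ (1 / 2) * ∑ p ∈ Icc 1 (pcount Yᶜ y),
          ((2 * θ + θ ^ 2) * (pcount Yᶜ y : ℝ) / 2 ^ L) ^ p * C p := by
  set w := 2 * θ + θ ^ 2 with hw
  have hw0 : 0 ≤ w := by positivity
  set f : ℕ → ℝ := fun p => Dco C L p * w ^ p with hfdef
  have hfnn : ∀ p, 0 ≤ f p := fun p =>
    mul_nonneg (mul_nonneg (hCnn p) (by positivity)) (by positivity)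
  have h1 : ∀ T : Finset K, Dco C L (T.card / 2) * ∑ U ∈ T.powerset, θ ^ U.card *
        ind (MatchT T Yᶜ y ∧ Set.InjOn y (T \ U : Finset K)) = ind (MatchT T Yᶜ y) * f (T.card / 2) := by
    intro T
    by_cases hm : MatchT T Yᶜ y
    · rw [ind_true hm, one_mul]
      simp only [hfdef]
      congr 1
      rw [← sum_powerset_pairUp θ _ T rfl hm.2.1]
      refine sum_congr rfl fun U _ => ?_
      congr 1
      apply ind_congr
      simp [hm]
    · rw [ind_false hm, zero_mul]
      have : ∑ U ∈ T.powerset, θ ^ U.card * ind (MatchT T Yᶜ y ∧ Set.InjOn y (T \ U : Finset K)) = 0 :=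
        sum_eq_zero fun U _ => by rw [ind_false (fun h => hm h.1), mul_zero]
      rw [this, mul_zero]
  simp only [h1]
  refine (sum_match_le hnt f hfnn).trans ?_
  rw [mul_sum]
  apply sum_le_sum
  intro p hp
  have hp1 : 1 ≤ p := (mem_Icc.1 hp).1
  have h2 := choose_pairCount_le (pcount Yᶜ y) p hp1
  have h3 : ((pcount Yᶜ y).choose p : ℝ) * f p = C p * w ^ p * (((2 : ℝ) ^ L)⁻¹) ^ p *
      (((pcount Yᶜ y).choose p : ℝ) * ((pairCount p : ℝ) * (1 / 2) ^ p)) := by
    simp only [hfdef, Dco]
    ring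
  rw [h3]
  have h4 : 0 ≤ C p * w ^ p * (((2 : ℝ) ^ L)⁻¹) ^ p := by
    have := hCnn p
    positivity
  calc _ ≤ C p * w ^ p * (((2 : ℝ) ^ L)⁻¹) ^ p * ((pcount Yᶜ y : ℝ) ^ p / 2) :=
        mul_le_mul_of_nonneg_left h2 h4
    _ = _ := by
        rw [div_pow, mul_pow, inv_pow]
        field_simp

/-- **The charge inequality.** -/
theorem charge {w : Fn K (L + 1)} (hw : InjSupp w) (hf : FlipInv w) (θ κ t Abar : ℝ) (hθ : 0 ≤ θ)
    (hκ : 0 < κ) (a C : ℕ → ℝ)
    (ha : ∀ (M : Finset K) (q : ℕ), M.card + 2 * q = Fintype.card K →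
        Ex (Bw κ t M) + VarE (Bw κ t M) / Ex (Bw κ t M) ≤ a q)
    (hC : ∀ (M : Finset K) (p : ℕ), 2 * Ex (Bw κ t M) + Real.sqrt (VarE (Bw κ t M)) * 9 ^ p ≤ C p)
    (hA : ∀ q : ℕ, 2 * q ≤ Fintype.card K →
        a q + (1 / 2) * ∑ p ∈ Icc 1 q, ((2 * θ + θ ^ 2) * q / 2 ^ L) ^ p * C p ≤ Abar) :
    ∑ R : Finset K, θ ^ R.card * ∑ ε : K → Bool, κ * Real.exp (t * signSum univ ε ^ 2) *
        ∑ v : K → Deck L, (Mbar R w ε v) ^ 2
      ≤ Abar * ∑ R : Finset K, θ ^ R.card * nsq (MM (L + 1) R w) := by
  classical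
  have hCnn : ∀ p, 0 ≤ C p := by
    intro p
    have h1 := hC ∅ p
    have h2 := Ex_Bw_pos (t := t) hκ (∅ : Finset K)
    have h3 : 0 ≤ Real.sqrt (VarE (Bw κ t (∅ : Finset K))) * 9 ^ p := by positivity
    linarith
  have hDnn : ∀ p, 0 ≤ Dco C L p := fun p => mul_nonneg (hCnn p) (by positivity)
  set n : ℝ := (2 : ℝ) ^ Fintype.card K with hn
  have hnpos : 0 < n := by positivity
  -- abbreviations
  set X : Finset K → (K → Deck L) → ℝ := fun R v =>
    Ex (fun ε : K → Bool => κ * Real.exp (t * signSum univ ε ^ 2) * (Mbar R w ε v) ^ 2) with hX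
  have hLHS : ∀ R : Finset K, ∑ ε : K → Bool, κ * Real.exp (t * signSum univ ε ^ 2) *
        ∑ v : K → Deck L, (Mbar R w ε v) ^ 2 = n * ∑ v, X R v := by
    intro R
    have hXv : ∀ v, n * X R v = ∑ ε : K → Bool, κ * Real.exp (t * signSum univ ε ^ 2) *
        (Mbar R w ε v) ^ 2 := by
      intro v
      simp only [hX, Ex, Fintype.card_fun, Fintype.card_bool, Nat.cast_pow, Nat.cast_ofNat]
      rw [← mul_assoc, hn]
      have : (2 : ℝ) ^ Fintype.card K * ((2 : ℝ) ^ Fintype.card K)⁻¹ = 1 := by
        field_simp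
      rw [this, one_mul]
    rw [mul_sum]
    simp only [hXv]
    rw [sum_comm]
    simp only [mul_sum]
  simp only [hLHS]
  -- the doubly charged sum
  have hstep : ∀ R : Finset K, ∑ v, X R v ≤
      (∑ v, a (pcount Rᶜ v) * PhiQ w R v) + ∑ T ∈ Finset.univ.erase ∅, Dco C L (T.card / 2) *
        ∑ y : K → Deck L, PhiQ w (R \ T) y *
          ind (MatchT T (R \ T)ᶜ y ∧ Set.InjOn y (T \ R : Finset K)) := by
    intro R
    calc ∑ v, X R v ≤ ∑ v, (a (pcount Rᶜ v) * PhiQ w R v +
          ∑ T ∈ Finset.univ.erase ∅, Dco C L (T.card / 2) *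
            Ex (fun z : K → Deck L => PhiQ w (R \ T) (ow v z (R ∩ T)) *
              ind (MatchT T (R \ T)ᶜ (ow v z (R ∩ T)) ∧
                Set.InjOn (ow v z (R ∩ T)) (T \ R : Finset K)))) :=
          sum_le_sum fun v _ => step1 hw hf κ t hκ a C ha hC R v
      _ = _ := by
          rw [sum_add_distrib]
          congr 1
          rw [sum_comm]
          refine sum_congr rfl fun T _ => ?_
          rw [← mul_sum]
          congr 1
          exact sum_Ex_ow (fun y : K → Deck L => PhiQ w (R \ T) y *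
            ind (MatchT T (R \ T)ᶜ y ∧ Set.InjOn y (T \ R : Finset K))) (R ∩ T)
  -- reorganise the charged part
  have hcharged : ∑ R : Finset K, θ ^ R.card * ∑ T ∈ Finset.univ.erase ∅, Dco C L (T.card / 2) *
        ∑ y : K → Deck L, PhiQ w (R \ T) y *
          ind (MatchT T (R \ T)ᶜ y ∧ Set.InjOn y (T \ R : Finset K)) ≤
      ∑ Y : Finset K, θ ^ Y.card * ∑ y : K → Deck L, PhiQ w Y y *
        ∑ T ∈ Finset.univ.erase ∅, Dco C L (T.card / 2) * ∑ U ∈ T.powerset, θ ^ U.card *
          ind (MatchT T Yᶜ y ∧ Set.InjOn y (T \ U : Finset K)) := by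
    have h1 : ∑ R : Finset K, θ ^ R.card * ∑ T ∈ Finset.univ.erase ∅, Dco C L (T.card / 2) *
        ∑ y : K → Deck L, PhiQ w (R \ T) y *
          ind (MatchT T (R \ T)ᶜ y ∧ Set.InjOn y (T \ R : Finset K)) =
        ∑ T ∈ Finset.univ.erase ∅, Dco C L (T.card / 2) * ∑ R : Finset K, θ ^ R.card *
        ∑ y : K → Deck L, PhiQ w (R \ T) y *
          ind (MatchT T (R \ T)ᶜ y ∧ Set.InjOn y (T \ R : Finset K)) := by
      simp only [mul_sum]
      rw [sum_comm]
      refine sum_congr rfl fun T _ => sum_congr rfl fun R _ => sum_congr rfl fun y _ => ?_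
      ring
    have h2 : ∀ T : Finset K, ∑ R : Finset K, θ ^ R.card *
        ∑ y : K → Deck L, PhiQ w (R \ T) y *
          ind (MatchT T (R \ T)ᶜ y ∧ Set.InjOn y (T \ R : Finset K)) ≤
        ∑ Y : Finset K, ∑ U ∈ T.powerset, θ ^ Y.card * θ ^ U.card *
        ∑ y : K → Deck L, PhiQ w Y y *
          ind (MatchT T Yᶜ y ∧ Set.InjOn y (T \ U : Finset K)) := by
      intro T
      have h3 := sum_sdiff_inter_le T (fun Y U => θ ^ Y.card * θ ^ U.card *
        ∑ y : K → Deck L, PhiQ w Y y *
          ind (MatchT T Yᶜ y ∧ Set.InjOn y (T \ U : Finset K))) (by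
            intro Y U
            exact mul_nonneg (by positivity) (sum_nonneg fun y _ =>
              mul_nonneg (PhiQ_nonneg _ _ _) (ind_nonneg _)))
      refine le_trans (le_of_eq ?_) h3
      refine sum_congr rfl fun R _ => ?_
      have hcard : R.card = (R \ T).card + (R ∩ T).card := (card_sdiff_add_card_inter R T).symm
      have hsd : T \ (R ∩ T) = T \ R := by
        ext c
        simp only [mem_sdiff, mem_inter, not_and]
        tauto
      rw [hsd, hcard, pow_add]
    rw [h1]
    calc _ ≤ ∑ T ∈ Finset.univ.erase ∅, Dco C L (T.card / 2) *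
          ∑ Y : Finset K, ∑ U ∈ T.powerset, θ ^ Y.card * θ ^ U.card *
            ∑ y : K → Deck L, PhiQ w Y y *
              ind (MatchT T Yᶜ y ∧ Set.InjOn y (T \ U : Finset K)) :=
          sum_le_sum fun T _ => mul_le_mul_of_nonneg_left (h2 T) (hDnn _)
      _ = _ := by
          simp only [mul_sum]
          rw [sum_comm]
          refine sum_congr rfl fun Y _ => ?_
          have hswap : ∀ T ∈ (Finset.univ.erase ∅ : Finset (Finset K)),
              ∑ U ∈ T.powerset, ∑ y : K → Deck L, Dco C L (T.card / 2) * (θ ^ Y.card * θ ^ U.card *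
                (PhiQ w Y y * ind (MatchT T Yᶜ y ∧ Set.InjOn y (T \ U : Finset K)))) =
              ∑ y : K → Deck L, ∑ U ∈ T.powerset, Dco C L (T.card / 2) * (θ ^ Y.card * θ ^ U.card *
                (PhiQ w Y y * ind (MatchT T Yᶜ y ∧ Set.InjOn y (T \ U : Finset K)))) :=
            fun T _ => sum_comm
          rw [sum_congr rfl hswap, sum_comm]
          refine sum_congr rfl fun y _ => sum_congr rfl fun T _ => sum_congr rfl fun U _ => ?_
          ring
  -- the final bound for each `(Y, y)`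
  have hfinal : ∀ (Y : Finset K) (y : K → Deck L), a (pcount Yᶜ y) * PhiQ w Y y +
      PhiQ w Y y * ∑ T ∈ Finset.univ.erase ∅, Dco C L (T.card / 2) * ∑ U ∈ T.powerset, θ ^ U.card *
          ind (MatchT T Yᶜ y ∧ Set.InjOn y (T \ U : Finset K)) ≤ Abar * PhiQ w Y y := by
    intro Y y
    by_cases hnt : NoTriple Yᶜ y
    · have hb := bracket_le (L := L) (Y := Y) (y := y) hnt θ hθ C hCnn
      have hq : 2 * pcount Yᶜ y ≤ Fintype.card K := by
        have := card_MSet (R := Y) (v := y) hnt
        omega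
      have hA' := hA _ hq
      have hP := PhiQ_nonneg w Y y
      calc _ = PhiQ w Y y * (a (pcount Yᶜ y) + ∑ T ∈ Finset.univ.erase ∅, Dco C L (T.card / 2) *
            ∑ U ∈ T.powerset, θ ^ U.card *
              ind (MatchT T Yᶜ y ∧ Set.InjOn y (T \ U : Finset K))) := by ring
        _ ≤ PhiQ w Y y * Abar := by
            apply mul_le_mul_of_nonneg_left _ hP
            linarith
        _ = _ := by ring
    · have hP : PhiQ w Y y = 0 := by
        rw [PhiQ_eq hw hf, phiT_eq_zero_of_triple hnt]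
        ring
      rw [hP]
      simp
  have hθR : ∀ R : Finset K, 0 ≤ θ ^ R.card := fun R => by positivity
  calc ∑ R : Finset K, θ ^ R.card * (n * ∑ v, X R v)
      = n * ∑ R : Finset K, θ ^ R.card * ∑ v, X R v := by
        rw [mul_sum]
        refine sum_congr rfl fun R _ => ?_
        ring
    _ ≤ n * ∑ R : Finset K, θ ^ R.card * ((∑ v, a (pcount Rᶜ v) * PhiQ w R v) +
          ∑ T ∈ Finset.univ.erase ∅, Dco C L (T.card / 2) *
        ∑ y : K → Deck L, PhiQ w (R \ T) y *
          ind (MatchT T (R \ T)ᶜ y ∧ Set.InjOn y (T \ R : Finset K))) := by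
        apply mul_le_mul_of_nonneg_left _ hnpos.le
        exact sum_le_sum fun R _ => mul_le_mul_of_nonneg_left (hstep R) (hθR R)
    _ = n * ((∑ R : Finset K, θ ^ R.card * ∑ v, a (pcount Rᶜ v) * PhiQ w R v) +
          ∑ R : Finset K, θ ^ R.card * ∑ T ∈ Finset.univ.erase ∅, Dco C L (T.card / 2) *
        ∑ y : K → Deck L, PhiQ w (R \ T) y *
          ind (MatchT T (R \ T)ᶜ y ∧ Set.InjOn y (T \ R : Finset K))) := by
        rw [← sum_add_distrib]
        congr 1
        refine sum_congr rfl fun R _ => ?_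
        ring
    _ ≤ n * ((∑ R : Finset K, θ ^ R.card * ∑ v, a (pcount Rᶜ v) * PhiQ w R v) +
          ∑ Y : Finset K, θ ^ Y.card * ∑ y : K → Deck L, PhiQ w Y y *
        ∑ T ∈ Finset.univ.erase ∅, Dco C L (T.card / 2) * ∑ U ∈ T.powerset, θ ^ U.card *
          ind (MatchT T Yᶜ y ∧ Set.InjOn y (T \ U : Finset K))) := by
        apply mul_le_mul_of_nonneg_left _ hnpos.le
        exact add_le_add le_rfl hcharged
    _ = n * ∑ Y : Finset K, θ ^ Y.card * ∑ y : K → Deck L, (a (pcount Yᶜ y) * PhiQ w Y y +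
          PhiQ w Y y * ∑ T ∈ Finset.univ.erase ∅, Dco C L (T.card / 2) * ∑ U ∈ T.powerset, θ ^ U.card *
          ind (MatchT T Yᶜ y ∧ Set.InjOn y (T \ U : Finset K))) := by
        rw [← sum_add_distrib]
        congr 1
        refine sum_congr rfl fun R _ => ?_
        rw [← mul_add, ← sum_add_distrib]
    _ ≤ n * ∑ Y : Finset K, θ ^ Y.card * ∑ y : K → Deck L, Abar * PhiQ w Y y := by
        apply mul_le_mul_of_nonneg_left _ hnpos.le
        exact sum_le_sum fun Y _ => mul_le_mul_of_nonneg_left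
          (sum_le_sum fun y _ => hfinal Y y) (hθR Y)
    _ = Abar * ∑ R : Finset K, θ ^ R.card * nsq (MM (L + 1) R w) := by
        rw [mul_sum, mul_sum]
        refine sum_congr rfl fun R _ => ?_
        rw [← mul_sum, sum_PhiQ, ← hn]
        field_simp

end Crest.Agent.Thorp
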