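import Crest.Agent.Lib.Thorp.ExTools

/-!
# Charge inequality, part A: the structure of flip invariant injectively supported functions

`Cons Z ε v` : tokens of `Z` on a common site have opposite signs.
`MM Y w (mk ε v) = phiT w Y v * ind (Cons Yᶜ ε v)`, `pic Z v = P(Cons Z ε v) = 2^{-pcount Z v}`.
-/

set_option autoImplicit false

namespace Crest.Agent.Thorp

open Finset

variable {K : Type*} [Fintype K] [DecidableEq K] {L : ℕ}

/-- Real indicator of a proposition. -/
noncomputable def ind (P : Prop) : ℝ := by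
  classical exact if P then 1 else 0

@[simp] theorem ind_true {P : Prop} (h : P) : ind P = 1 := by
  simp [ind, h]

@[simp] theorem ind_false {P : Prop} (h : ¬ P) : ind P = 0 := by
  simp [ind, h]

theorem ind_nonneg (P : Prop) : 0 ≤ ind P := by
  by_cases h : P <;> simp [h]

theorem ind_le_one (P : Prop) : ind P ≤ 1 := by
  by_cases h : P <;> simp [h]

theorem ind_sq (P : Prop) : ind P ^ 2 = ind P := by
  by_cases h : P <;> simp [h]

theorem ind_mul_self (P : Prop) : ind P * ind P = ind P := by
  by_cases h : P <;> simp [h]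

theorem ind_congr {P Q : Prop} (h : P ↔ Q) : ind P = ind Q := by
  by_cases hp : P
  · simp [hp, h.1 hp]
  · rw [ind_false hp, ind_false (fun hq => hp (h.2 hq))]

/-! ### Tuples of `Deck (L+1)` as signs and sites -/

omit [Fintype K] [DecidableEq K] in
@[simp] theorem mk_fst (ε : K → Bool) (v : K → Deck L) (c : K) : (mk ε v c).1 = ε c := rfl

omit [Fintype K] [DecidableEq K] in
@[simp] theorem mk_snd (ε : K → Bool) (v : K → Deck L) (c : K) : (mk ε v c).2 = v c := rfl

omit [Fintype K] in
theorem ow_mk (ε η : K → Bool) (v z : K → Deck L) (R : Finset K) :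
    ow (mk ε v) (mk η z) R = mk (ow ε η R) (ow v z R) := by
  funext c
  by_cases h : c ∈ R <;> simp [ow, mk, h] <;> rfl

/-- A tuple as signs and sites. -/
def mkEquiv (K : Type*) (L : ℕ) : (K → Bool) × (K → Deck L) ≃ (K → Deck (L + 1)) where
  toFun p := mk p.1 p.2
  invFun x := (fun c => (x c).1, fun c => (x c).2)
  left_inv p := rfl
  right_inv x := rfl

theorem Ex_tuple_succ (g : (K → Deck (L + 1)) → ℝ) :
    Ex g = Ex (fun ε : K → Bool => Ex (fun v : K → Deck L => g (mk ε v))) := by
  rw [← Ex_equiv (mkEquiv K L) g, Ex_prod]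
  rfl

theorem sum_tuple_succ (g : (K → Deck (L + 1)) → ℝ) :
    ∑ x, g x = ∑ ε : K → Bool, ∑ v : K → Deck L, g (mk ε v) := by
  rw [← (mkEquiv K L).sum_comp g, Fintype.sum_prod_type]
  rfl

theorem nsq_tuple_succ (u : Fn K (L + 1)) :
    nsq u = ∑ ε : K → Bool, ∑ v : K → Deck L, u (mk ε v) ^ 2 := by
  unfold nsq ip
  rw [sum_tuple_succ]
  simp only [sq]

theorem card_cube : (Fintype.card (K → Bool) : ℝ) = 2 ^ Fintype.card K := by
  simp

theorem MM_mk (R : Finset K) (w : Fn K (L + 1)) (ε : K → Bool) (v : K → Deck L) :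
    MM (L + 1) R w (mk ε v) = Ex (fun η : K → Bool => Mbar R w (ow ε η R) v) := by
  unfold MM Mbar
  rw [Ex_tuple_succ]
  refine Ex_congr fun η => Ex_congr fun z => ?_
  rw [ow_mk]

/-! ### Elementary properties of `MM` -/

omit [Fintype K] in
theorem ow_flipTup (e : Flips L) (x z : K → Deck (L + 1)) (Y : Finset K) :
    ow (flipTup e x) (flipTup e z) Y = flipTup e (ow x z Y) := by
  funext c
  by_cases h : c ∈ Y <;> simp [ow, flipTup, h]

omit [Fintype K] [DecidableEq K] in
theorem flipTup_flipTup (e : Flips L) (x : K → Deck (L + 1)) : flipTup e (flipTup e x) = x := by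
  funext c
  simp only [flipTup]
  rcases x c with ⟨b, u⟩
  change (xor (xor b (e u)) (e u), u) = (b, u)
  simp

/-- The action of a flip pattern on tuples, as an equivalence. -/
def flipTupEquiv (K : Type*) (e : Flips L) : (K → Deck (L + 1)) ≃ (K → Deck (L + 1)) where
  toFun := flipTup e
  invFun := flipTup e
  left_inv := flipTup_flipTup e
  right_inv := flipTup_flipTup e

theorem FlipInv.MM {w : Fn K (L + 1)} (hf : FlipInv w) (Y : Finset K) :
    FlipInv (MM (L + 1) Y w) := by
  intro e x
  unfold Crest.Agent.Thorp.MM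
  rw [← Ex_equiv (flipTupEquiv K e)]
  refine Ex_congr fun z => ?_
  change w (ow (flipTup e x) (flipTup e z) Y) = w (ow x z Y)
  rw [ow_flipTup, hf]

theorem MM_congr (L' : ℕ) (Y : Finset K) (w : Fn K L') {x x' : K → Deck L'}
    (h : ∀ c, c ∉ Y → x c = x' c) : MM L' Y w x = MM L' Y w x' := by
  unfold MM
  refine Ex_congr fun z => ?_
  congr 1
  funext c
  by_cases hc : c ∈ Y
  · simp [hc]
  · simp [hc, h c hc]

theorem MM_eq_zero (L' : ℕ) (Y : Finset K) {w : Fn K L'} (hw : InjSupp w) {x : K → Deck L'}
    {c d : K} (hc : c ∉ Y) (hd : d ∉ Y) (hcd : c ≠ d) (h : x c = x d) : MM L' Y w x = 0 := by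
  unfold MM
  have : ∀ z : K → Deck L', w (ow x z Y) = 0 := by
    intro z
    apply hw
    intro hinj
    apply hcd
    apply hinj
    simp [hc, hd, h]
  simp [this, Ex]

/-! ### Consistency -/

/-- Tokens of `Z` on a common site have opposite signs. -/
def Cons (Z : Finset K) (ε : K → Bool) (v : K → Deck L) : Prop :=
  ∀ c ∈ Z, ∀ d ∈ Z, c ≠ d → v c = v d → ε c ≠ ε d

/-- No three tokens of `Z` share a site. -/
def NoTriple (Z : Finset K) (v : K → Deck L) : Prop :=
  ∀ c ∈ Z, ∀ d ∈ Z, ∀ e ∈ Z, c ≠ d → c ≠ e → d ≠ e → v c = v d → v c = v e → False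

omit [Fintype K] [DecidableEq K] in
theorem Cons.noTriple {Z : Finset K} {ε : K → Bool} {v : K → Deck L} (h : Cons Z ε v) :
    NoTriple Z v := by
  intro c hc d hd e he hcd hce hde h1 h2
  have h12 := h c hc d hd hcd h1
  have h13 := h c hc e he hce h2
  have h23 := h d hd e he hde (h1.symm.trans h2)
  cases hx : ε c <;> cases hy : ε d <;> cases hz : ε e <;> simp_all

omit [Fintype K] in
/-- Two consistent sign patterns differ by a flip. -/
theorem exists_flip_between {Z : Finset K} {ε ε₀ : K → Bool} {v : K → Deck L}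
    (h : Cons Z ε v) (h₀ : Cons Z ε₀ v) :
    ∃ e : Flips L, ∀ c ∈ Z, xor (ε c) (e (v c)) = ε₀ c := by
  classical
  refine ⟨fun s => if hs : ∃ c, c ∈ Z ∧ v c = s then
      xor (ε (Classical.choose hs)) (ε₀ (Classical.choose hs)) else false, ?_⟩
  intro c hc
  have hs : ∃ d, d ∈ Z ∧ v d = v c := ⟨c, hc, rfl⟩
  simp only [dif_pos hs]
  obtain ⟨hd, hdv⟩ := Classical.choose_spec hs
  set d := Classical.choose hs
  by_cases hdc : d = c
  · rw [hdc]
    cases ε c <;> cases ε₀ c <;> rfl
  · have h1 := h d hd c hc hdc hdv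
    have h2 := h₀ d hd c hc hdc hdv
    cases hx : ε c <;> cases hy : ε d <;> cases hz : ε₀ c <;> cases hu : ε₀ d <;> simp_all

open Classical in
/-- The site profile of `MM Y w`. -/
noncomputable def phiT (w : Fn K (L + 1)) (Y : Finset K) (v : K → Deck L) : ℝ :=
  if h : ∃ ε : K → Bool, Cons Yᶜ ε v then MM (L + 1) Y w (mk (Classical.choose h) v) else 0

theorem phi_eq {w : Fn K (L + 1)} (hw : InjSupp w) (hf : FlipInv w) (Y : Finset K)
    (ε : K → Bool) (v : K → Deck L) :
    MM (L + 1) Y w (mk ε v) = phiT w Y v * ind (Cons Yᶜ ε v) := by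
  by_cases h : Cons Yᶜ ε v
  · have hex : ∃ ε : K → Bool, Cons Yᶜ ε v := ⟨ε, h⟩
    rw [ind_true h, mul_one, phiT, dif_pos hex]
    obtain ⟨e, he⟩ := exists_flip_between h (Classical.choose_spec hex)
    rw [← hf.MM Y e (mk ε v)]
    apply MM_congr
    intro c hc
    have hc' : c ∈ Yᶜ := by simpa using hc
    have := he c hc'
    simp only [flipTup, mk]
    change (xor (ε c) (e (v c)), v c) = _
    rw [this]
  · rw [ind_false h, mul_zero]
    unfold Cons at h
    push Not at h
    obtain ⟨c, hc, d, hd, hcd, hv, hε⟩ := h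
    apply MM_eq_zero _ Y hw (by simpa using hc) (by simpa using hd) hcd
    change (ε c, v c) = (ε d, v d)
    rw [hv, hε]

omit [Fintype K] [DecidableEq K] in
theorem phiT_eq_zero_of_triple {w : Fn K (L + 1)} [Fintype K] [DecidableEq K] {Y : Finset K}
    {v : K → Deck L} (h : ¬ NoTriple Yᶜ v) : phiT w Y v = 0 := by
  rw [phiT, dif_neg]
  rintro ⟨ε, hε⟩
  exact h hε.noTriple

/-! ### The probability of consistency -/

/-- The probability that `ε` is consistent. -/
noncomputable def pic (Z : Finset K) (v : K → Deck L) : ℝ :=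
  Ex (fun ε : K → Bool => ind (Cons Z ε v))

/-- The number of pairs when there is no triple. -/
def pcount (Z : Finset K) (v : K → Deck L) : ℕ := Z.card - (Z.image v).card

theorem pic_eq {Z : Finset K} {v : K → Deck L} (h : NoTriple Z v) :
    pic Z v = (1 / 2 : ℝ) ^ pcount Z v := by
  induction Z using Finset.induction_on with
  | empty =>
    simp only [pic, pcount, card_empty, image_empty, Nat.sub_self, pow_zero]
    have : ∀ ε : K → Bool, ind (Cons (∅ : Finset K) ε v) = 1 := fun ε =>
      ind_true (by intro c hc; simp at hc)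
    simp only [this]
    exact Ex_const 1
  | insert c Z hcZ ih =>
    have hZ : NoTriple Z v := fun a ha b hb e he => h a (mem_insert_of_mem ha) b
      (mem_insert_of_mem hb) e (mem_insert_of_mem he)
    have hih := ih hZ
    by_cases hs : v c ∈ Z.image v
    · obtain ⟨d, hd, hdv⟩ := mem_image.1 hs
      have hdc : d ≠ c := fun h => hcZ (h ▸ hd)
      -- `Cons (insert c Z)` is `Cons Z` and `ε c ≠ ε d`
      have hiff : ∀ ε : K → Bool, Cons (insert c Z) ε v ↔ (Cons Z ε v ∧ ε c ≠ ε d) := by
        intro ε
        constructor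
        · intro hc'
          refine ⟨fun a ha b hb => hc' a (mem_insert_of_mem ha) b (mem_insert_of_mem hb), ?_⟩
          exact hc' c (mem_insert_self _ _) d (mem_insert_of_mem hd) hdc.symm hdv.symm
        · rintro ⟨h1, h2⟩ a ha b hb hab hv
          rcases mem_insert.1 ha with hac | ha'
          · rcases mem_insert.1 hb with hbc | hb'
            · exact absurd (hac.trans hbc.symm) hab
            · by_cases hbd : b = d
              · rw [hac, hbd]; exact h2
              · exact (h c (mem_insert_self _ _) d (mem_insert_of_mem hd) b (mem_insert_of_mem hb')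
                  hdc.symm (by rw [← hac]; exact hab) (Ne.symm hbd) hdv.symm
                  (by rw [← hac]; exact hv)).elim
          · rcases mem_insert.1 hb with hbc | hb'
            · by_cases had : a = d
              · rw [had, hbc]; exact h2.symm
              · exact (h c (mem_insert_self _ _) d (mem_insert_of_mem hd) a (mem_insert_of_mem ha')
                  hdc.symm (by rw [← hbc]; exact Ne.symm hab) (Ne.symm had) hdv.symm
                  (by rw [← hbc]; exact hv.symm)).elim
            · exact h1 a ha' b hb' hab hv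
      have hcard : pcount (insert c Z) v = pcount Z v + 1 := by
        unfold pcount
        have himg : (insert c Z).image v = Z.image v := by
          rw [image_insert, insert_eq_of_mem hs]
        have hle : (Z.image v).card ≤ Z.card := card_image_le
        rw [himg, card_insert_of_notMem hcZ]
        omega
      rw [hcard, pow_succ, ← hih]
      unfold pic
      simp only [fun ε => ind_congr (hiff ε)]
      -- average over the flip of `c`
      have hflip := Ex_flipOn ({c} : Finset K)
        (fun ε => ind (Cons Z ε v ∧ ε c ≠ ε d))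
      have hsum : ∀ ε : K → Bool,
          ind (Cons Z ε v ∧ ε c ≠ ε d) + ind (Cons Z (flipOn {c} ε) v ∧ (flipOn {c} ε) c ≠ (flipOn {c} ε) d)
            = ind (Cons Z ε v) := by
        intro ε
        have hz : Cons Z (flipOn {c} ε) v ↔ Cons Z ε v := by
          have hagree : ∀ a ∈ Z, flipOn {c} ε a = ε a := by
            intro a ha
            have : a ≠ c := fun h => hcZ (h ▸ ha)
            simp [flipOn, this]
          constructor
          · intro hh a ha b hb hab hv
            have := hh a ha b hb hab hv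
            rwa [hagree a ha, hagree b hb] at this
          · intro hh a ha b hb hab hv
            rw [hagree a ha, hagree b hb]
            exact hh a ha b hb hab hv
        have hc1 : flipOn {c} ε c = !ε c := by simp [flipOn]
        have hd1 : flipOn {c} ε d = ε d := by simp [flipOn, hdc]
        rw [hc1, hd1]
        by_cases hC : Cons Z ε v
        · have hC' := hz.2 hC
          by_cases hne : ε c = ε d
          · have h1 : ¬ (Cons Z ε v ∧ ε c ≠ ε d) := fun h => h.2 hne
            have h2 : Cons Z (flipOn {c} ε) v ∧ (!ε c) ≠ ε d := ⟨hC', by rw [hne]; simp⟩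
            rw [ind_false h1, ind_true h2, ind_true hC, zero_add]
          · have h1 : Cons Z ε v ∧ ε c ≠ ε d := ⟨hC, hne⟩
            have h2 : ¬ (Cons Z (flipOn {c} ε) v ∧ (!ε c) ≠ ε d) := by
              rintro ⟨-, h3⟩
              apply h3
              cases hx : ε c <;> cases hy : ε d <;> simp_all
            rw [ind_true h1, ind_false h2, ind_true hC, add_zero]
        · have h1 : ¬ (Cons Z ε v ∧ ε c ≠ ε d) := fun h => hC h.1
          have h2 : ¬ (Cons Z (flipOn {c} ε) v ∧ (!ε c) ≠ ε d) := fun h => hC (hz.1 h.1)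
          rw [ind_false h1, ind_false h2, ind_false hC, add_zero]
      have hE := Ex_add (fun ε => ind (Cons Z ε v ∧ ε c ≠ ε d))
        (fun ε => ind (Cons Z (flipOn {c} ε) v ∧ (flipOn {c} ε) c ≠ (flipOn {c} ε) d))
      rw [Ex_congr hsum, hflip] at hE
      unfold pic at hih
      linarith
    · have hiff : ∀ ε : K → Bool, Cons (insert c Z) ε v ↔ Cons Z ε v := by
        intro ε
        constructor
        · exact fun hc' a ha b hb => hc' a (mem_insert_of_mem ha) b (mem_insert_of_mem hb)
        · intro h1 a ha b hb hab hv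
          rcases mem_insert.1 ha with hac | ha'
          · rcases mem_insert.1 hb with hbc | hb'
            · exact absurd (hac.trans hbc.symm) hab
            · exact absurd (mem_image.2 ⟨b, hb', by rw [hac] at hv; exact hv.symm⟩) hs
          · rcases mem_insert.1 hb with hbc | hb'
            · exact absurd (mem_image.2 ⟨a, ha', by rw [hbc] at hv; exact hv⟩) hs
            · exact h1 a ha' b hb' hab hv
      have hcard : pcount (insert c Z) v = pcount Z v := by
        unfold pcount
        rw [image_insert, card_insert_of_notMem hs, card_insert_of_notMem hcZ]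
        omega
      rw [hcard, ← hih]
      unfold pic
      simp only [fun ε => ind_congr (hiff ε)]

theorem pic_nonneg (Z : Finset K) (v : K → Deck L) : 0 ≤ pic Z v :=
  Ex_nonneg fun _ => ind_nonneg _

/-- `Φ_Y(y) = E_ε (M_Y w)(mk ε y)²`. -/
noncomputable def PhiQ (w : Fn K (L + 1)) (Y : Finset K) (y : K → Deck L) : ℝ :=
  Ex (fun ε : K → Bool => (MM (L + 1) Y w (mk ε y)) ^ 2)

theorem PhiQ_nonneg (w : Fn K (L + 1)) (Y : Finset K) (y : K → Deck L) : 0 ≤ PhiQ w Y y :=
  Ex_nonneg fun _ => sq_nonneg _

theorem PhiQ_eq {w : Fn K (L + 1)} (hw : InjSupp w) (hf : FlipInv w) (Y : Finset K)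
    (y : K → Deck L) : PhiQ w Y y = phiT w Y y ^ 2 * pic Yᶜ y := by
  unfold PhiQ pic
  rw [← Ex_const_mul]
  refine Ex_congr fun ε => ?_
  rw [phi_eq hw hf, mul_pow, ind_sq]

theorem sum_PhiQ (w : Fn K (L + 1)) (Y : Finset K) :
    ∑ y : K → Deck L, PhiQ w Y y = ((2 : ℝ) ^ Fintype.card K)⁻¹ * nsq (MM (L + 1) Y w) := by
  rw [nsq_tuple_succ]
  unfold PhiQ
  rw [Finset.sum_comm]
  simp only [Ex, Fintype.card_fun, Fintype.card_bool, Nat.cast_pow, Nat.cast_ofNat, Finset.mul_sum]

end Crest.Agent.Thorp
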