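import Crest.Agent.Lib.Thorp.Ops
import Crest.Agent.Lib.Thorp.LowChargeA

/-!
# Low domination: slices and `P₁`

`slice_bound`: domination on token subsets implies the bound for the two-block operator.
Also: `P₁` facts, monotonicity in `θ`, exact cases `card K ≤ 1`.
-/

set_option autoImplicit false

namespace Crest.Agent.Thorp

open Finset

variable {K : Type*} [Fintype K] [DecidableEq K] {L : ℕ}

/-- Partial `T*` on the tokens of `B`. -/
noncomputable def TSB (L : ℕ) (B : Finset K) (g : (K → Deck L) → ℝ) : (K → Deck L) → ℝ :=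
  fun v => Ex (fun ω : TΩ L => g (fun c => if c ∈ B then (tau L ω)⁻¹ (v c) else v c))

/-- The free average over `R` of a function of tuples in `Deck L`. -/
noncomputable def Av (R : Finset K) (g : (K → Deck L) → ℝ) : (K → Deck L) → ℝ :=
  fun v => Ex (fun z : K → Deck L => g (ow v z R))

/-- `g` vanishes unless the tuple is injective on `B`. -/
def InjOnSupp (B : Finset K) (g : (K → Deck L) → ℝ) : Prop :=
  ∀ v, ¬ Set.InjOn v (B : Set K) → g v = 0

/-- Merge a `B`-tuple and a `Bᶜ`-tuple. -/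
def mergeEquiv (B : Finset K) (L : ℕ) :
    (K → Deck L) ≃ (({c // c ∈ B} → Deck L) × ({c // ¬ c ∈ B} → Deck L)) :=
  Equiv.piEquivPiSubtypeProd (fun c => c ∈ B) (fun _ => Deck L)

/-- The merge of a `B`-tuple and a `Bᶜ`-tuple. -/
def merge (B : Finset K) (y : {c // c ∈ B} → Deck L) (v0 : {c // ¬ c ∈ B} → Deck L) : K → Deck L :=
  (mergeEquiv B L).symm (y, v0)

omit [Fintype K] in
theorem merge_mem (B : Finset K) (y : {c // c ∈ B} → Deck L) (v0 : {c // ¬ c ∈ B} → Deck L)
    {c : K} (h : c ∈ B) : merge B y v0 c = y ⟨c, h⟩ := by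
  simp [merge, mergeEquiv, Equiv.piEquivPiSubtypeProd, h]

omit [Fintype K] in
theorem merge_not_mem (B : Finset K) (y : {c // c ∈ B} → Deck L) (v0 : {c // ¬ c ∈ B} → Deck L)
    {c : K} (h : c ∉ B) : merge B y v0 c = v0 ⟨c, h⟩ := by
  simp [merge, mergeEquiv, Equiv.piEquivPiSubtypeProd, h]

theorem sum_merge (B : Finset K) (f : (K → Deck L) → ℝ) :
    ∑ v, f v = ∑ v0 : {c // ¬ c ∈ B} → Deck L, ∑ y : {c // c ∈ B} → Deck L, f (merge B y v0) := by
  rw [← (mergeEquiv B L).symm.sum_comp f, Fintype.sum_prod_type_right]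
  rfl

/-- The marginal of a tuple on the tokens of `B`. -/
theorem Ex_restrict (B : Finset K) (h : ({c // c ∈ B} → Deck L) → ℝ) :
    Ex (fun Z : K → Deck L => h (fun c => Z c.1)) = Ex h := by
  rw [← Ex_equiv (mergeEquiv B L).symm (fun Z : K → Deck L => h (fun c => Z c.1)), Ex_prod]
  have h1 : ∀ (a : {c // c ∈ B} → Deck L) (b : {c // ¬ c ∈ B} → Deck L),
      h (fun c => (mergeEquiv B L).symm (a, b) c.1) = h a := by
    intro a b
    congr 1
    funext c
    exact merge_mem B a b c.2
  simp only [h1, Ex_const]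

/-- The slice of `g` at `v0`. -/
def sliceOf (B : Finset K) (g : (K → Deck L) → ℝ) (v0 : {c // ¬ c ∈ B} → Deck L) :
    Fn {c // c ∈ B} L := fun y => g (merge B y v0)

theorem sliceOf_injSupp {B : Finset K} {g : (K → Deck L) → ℝ} (hg : InjOnSupp B g)
    (v0 : {c // ¬ c ∈ B} → Deck L) : InjSupp (sliceOf B g v0) := by
  intro y hy
  apply hg
  intro hinj
  apply hy
  intro a b hab
  have ha := merge_mem B y v0 a.2
  have hb := merge_mem B y v0 b.2
  have := hinj (mem_coe.2 a.2) (mem_coe.2 b.2) (by rw [ha, hb]; exact hab)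
  exact Subtype.ext this

theorem TS_sliceOf (B : Finset K) (g : (K → Deck L) → ℝ) (v0 : {c // ¬ c ∈ B} → Deck L)
    (y : {c // c ∈ B} → Deck L) :
    TS L (sliceOf B g v0) y = TSB L B g (merge B y v0) := by
  unfold TS TSB sliceOf
  refine Ex_congr fun ω => ?_
  congr 1
  funext c
  by_cases hc : c ∈ B
  · simp [hc, merge_mem B _ v0 hc, merge_mem B y v0 hc]
  · simp [hc, merge_not_mem B _ v0 hc, merge_not_mem B y v0 hc]

/-- The image of a subset of `↥B` in `K`. -/
def liftSet (B : Finset K) (R : Finset {c // c ∈ B}) : Finset K := R.map (Function.Embedding.subtype _)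

omit [Fintype K] in
theorem mem_liftSet {B : Finset K} {R : Finset {c // c ∈ B}} {c : K} :
    c ∈ liftSet B R ↔ ∃ h : c ∈ B, (⟨c, h⟩ : {c // c ∈ B}) ∈ R := by
  simp [liftSet]

theorem MM_sliceOf (B : Finset K) (g : (K → Deck L) → ℝ) (v0 : {c // ¬ c ∈ B} → Deck L)
    (R : Finset {c // c ∈ B}) (y : {c // c ∈ B} → Deck L) :
    MM L R (sliceOf B g v0) y = Av (liftSet B R) g (merge B y v0) := by
  unfold MM Av sliceOf
  rw [← Ex_restrict B (fun z : {c // c ∈ B} → Deck L => g (merge B (ow y z R) v0))]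
  refine Ex_congr fun Z => ?_
  congr 1
  funext c
  by_cases hc : c ∈ B
  · by_cases hr : (⟨c, hc⟩ : {c // c ∈ B}) ∈ R
    · have h1 : c ∈ liftSet B R := mem_liftSet.2 ⟨hc, hr⟩
      rw [merge_mem B _ v0 hc, ow_apply_mem hr, ow_apply_mem h1]
    · have h1 : c ∉ liftSet B R := fun h => by
        obtain ⟨_, h3⟩ := mem_liftSet.1 h
        exact hr h3
      rw [merge_mem B _ v0 hc, ow_apply_not_mem hr, ow_apply_not_mem h1, merge_mem B y v0 hc]
  · have h1 : c ∉ liftSet B R := fun h => by
      obtain ⟨h2, _⟩ := mem_liftSet.1 h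
      exact hc h2
    rw [merge_not_mem B _ v0 hc, ow_apply_not_mem h1, merge_not_mem B y v0 hc]

/-- Sums over subsets of `↥B` are sums over the powerset of `B`. -/
theorem sum_liftSet (B : Finset K) (F : Finset K → ℝ) :
    ∑ R : Finset {c // c ∈ B}, F (liftSet B R) = ∑ R ∈ B.powerset, F R := by
  refine Finset.sum_bij (fun R _ => liftSet B R) ?_ ?_ ?_ ?_
  · intro R _
    refine mem_powerset.2 fun c hc => ?_
    exact (mem_liftSet.1 hc).1
  · intro R _ R' _ h
    exact Finset.map_injective _ h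
  · intro R hR
    refine ⟨R.subtype (· ∈ B), mem_univ _, ?_⟩
    ext c
    rw [mem_liftSet]
    constructor
    · rintro ⟨h1, h2⟩
      simpa using h2
    · intro hc
      have hcB := mem_powerset.1 hR hc
      exact ⟨hcB, by simpa using hc⟩
  · intro R _
    rfl

theorem card_liftSet (B : Finset K) (R : Finset {c // c ∈ B}) : (liftSet B R).card = R.card := by
  simp [liftSet]

/-- The slice lemma: domination on the tokens of `B` with the other coordinates frozen. -/
theorem sum_TSB_le {B : Finset K} {θ A : ℝ}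
    (hdom : DomBound L {c // c ∈ B} θ A) (hA : 0 ≤ A) {g : (K → Deck L) → ℝ} (hg : InjOnSupp B g) :
    ∑ v, (TSB L B g v) ^ 2 ≤ A * ((1 + θ) ^ B.card)⁻¹ *
      ∑ R ∈ B.powerset, θ ^ R.card * ∑ v, (Av R g v) ^ 2 := by
  have hcardB : Fintype.card {c // c ∈ B} = B.card := by simp
  have h1 : ∀ v0 : {c // ¬ c ∈ B} → Deck L,
      ∑ y : {c // c ∈ B} → Deck L, (TSB L B g (merge B y v0)) ^ 2 ≤
        A * (((1 + θ) ^ B.card)⁻¹ * ∑ R : Finset {c // c ∈ B}, θ ^ (liftSet B R).card *
          ∑ y : {c // c ∈ B} → Deck L, (Av (liftSet B R) g (merge B y v0)) ^ 2) := by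
    intro v0
    have h2 := hdom (sliceOf B g v0) (sliceOf_injSupp hg v0)
    unfold nsq ip at h2
    simp only [TS_sliceOf, ← sq] at h2
    refine h2.trans (le_of_eq ?_)
    unfold QQ nsq ip
    rw [hcardB]
    congr 2
    refine sum_congr rfl fun R _ => ?_
    rw [card_liftSet]
    congr 1
    refine sum_congr rfl fun y _ => ?_
    rw [MM_sliceOf, sq]
  rw [sum_merge B]
  calc _ ≤ ∑ v0 : {c // ¬ c ∈ B} → Deck L, A * (((1 + θ) ^ B.card)⁻¹ *
        ∑ R : Finset {c // c ∈ B}, θ ^ (liftSet B R).card *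
          ∑ y : {c // c ∈ B} → Deck L, (Av (liftSet B R) g (merge B y v0)) ^ 2) :=
        sum_le_sum fun v0 _ => h1 v0
    _ = A * ((1 + θ) ^ B.card)⁻¹ * ∑ R : Finset {c // c ∈ B}, θ ^ (liftSet B R).card *
          ∑ v : K → Deck L, (Av (liftSet B R) g v) ^ 2 := by
        simp only [← mul_sum]
        rw [← mul_assoc]
        congr 1
        simp only [mul_sum]
        rw [sum_comm]
        refine sum_congr rfl fun R _ => ?_
        rw [sum_merge B (fun v => θ ^ (liftSet B R).card * (Av (liftSet B R) g v) ^ 2)]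
    _ = _ := by
        rw [sum_liftSet B (fun R => θ ^ R.card * ∑ v : K → Deck L, (Av R g v) ^ 2)]

/-- `Av` and a partial `T*` on a disjoint set commute. -/
theorem Av_TSB_comm {R B : Finset K} (h : Disjoint R B) (g : (K → Deck L) → ℝ) (v : K → Deck L) :
    Av R (TSB L B g) v = TSB L B (Av R g) v := by
  unfold Av TSB
  rw [Ex_comm]
  refine Ex_congr fun ω => Ex_congr fun z => ?_
  congr 1
  funext c
  by_cases hc : c ∈ B
  · have hr : c ∉ R := fun hr => (disjoint_left.1 h hr) hc
    simp [hc, hr]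
  · by_cases hr : c ∈ R <;> simp [hc, hr]

/-- `InjOnSupp` is inherited by `TSB` on a disjoint set. -/
theorem InjOnSupp.TSB {B B' : Finset K} (h : Disjoint B B') {g : (K → Deck L) → ℝ}
    (hg : InjOnSupp B g) : InjOnSupp B (Crest.Agent.Thorp.TSB L B' g) := by
  intro v hv
  unfold Crest.Agent.Thorp.TSB
  have : ∀ ω : TΩ L, g (fun c => if c ∈ B' then (tau L ω)⁻¹ (v c) else v c) = 0 := by
    intro ω
    apply hg
    intro hinj
    apply hv
    intro a ha b hb hab
    have ha' : a ∉ B' := fun h' => (disjoint_left.1 h (mem_coe.1 ha)) h'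
    have hb' : b ∉ B' := fun h' => (disjoint_left.1 h (mem_coe.1 hb)) h'
    apply hinj ha hb
    simp [ha', hb', hab]
  rw [Ex_congr this]
  exact Ex_const 0

/-- `InjOnSupp` is inherited by `Av` on a disjoint set. -/
theorem InjOnSupp.Av {B R : Finset K} (h : Disjoint B R) {g : (K → Deck L) → ℝ}
    (hg : InjOnSupp B g) : InjOnSupp B (Crest.Agent.Thorp.Av R g) := by
  intro v hv
  unfold Crest.Agent.Thorp.Av
  have : ∀ z : K → Deck L, g (ow v z R) = 0 := by
    intro z
    apply hg
    intro hinj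
    apply hv
    intro a ha b hb hab
    have ha' : a ∉ R := fun h' => (disjoint_left.1 h (mem_coe.1 ha)) h'
    have hb' : b ∉ R := fun h' => (disjoint_left.1 h (mem_coe.1 hb)) h'
    apply hinj ha hb
    simp [ha', hb', hab]
  rw [Ex_congr this]
  exact Ex_const 0

/-- Composition of averages on disjoint sets. -/
theorem Av_Av {R S : Finset K} (h : Disjoint R S) (g : (K → Deck L) → ℝ) (v : K → Deck L) :
    Av R (Av S g) v = Av (R ∪ S) g v := by
  unfold Av
  rw [← Ex_ow (fun z : K → Deck L => g (ow v z (R ∪ S))) S]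
  refine Ex_congr fun z => Ex_congr fun z' => ?_
  congr 1
  funext c
  by_cases hs : c ∈ S
  · have hr : c ∉ R := fun hr => (disjoint_left.1 h hr) hs
    simp [hs]
  · by_cases hr : c ∈ R <;> simp [hs, hr]

/-- The two blocks of a sign pattern. -/
def blockOf (ε : K → Bool) (b : Bool) : Finset K := univ.filter fun c => ε c = b

omit [Fintype K] [DecidableEq K] in
theorem mem_blockOf [Fintype K] {ε : K → Bool} {b : Bool} {c : K} : c ∈ blockOf ε b ↔ ε c = b := by
  simp [blockOf]

theorem disjoint_blockOf (ε : K → Bool) : Disjoint (blockOf ε false) (blockOf ε true) := by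
  rw [disjoint_left]
  intro c h1 h2
  rw [mem_blockOf] at h1 h2
  simp [h1] at h2

theorem card_blockOf_add (ε : K → Bool) :
    (blockOf ε false).card + (blockOf ε true).card = Fintype.card K := by
  rw [← card_union_of_disjoint (disjoint_blockOf ε)]
  have : blockOf ε false ∪ blockOf ε true = univ := by
    ext c
    simp only [mem_union, mem_blockOf, mem_univ, iff_true]
    cases ε c <;> simp
  rw [this, card_univ]

theorem injOnSupp_blockOf {w : Fn K (L + 1)} (hw : InjSupp w) (ε : K → Bool) (b : Bool) :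
    InjOnSupp (blockOf ε b) (fun v : K → Deck L => w (mk ε v)) := by
  intro v hv
  apply hw
  intro hinj
  apply hv
  intro c hc d hd hcd
  apply hinj
  have h1 := mem_blockOf.1 (mem_coe.1 hc)
  have h2 := mem_blockOf.1 (mem_coe.1 hd)
  change (ε c, v c) = (ε d, v d)
  rw [h1, h2, hcd]

/-- The two-block operator acting on `w`. -/
noncomputable def twoBlock (w : Fn K (L + 1)) (ε : K → Bool) (v : K → Deck L) : ℝ :=
  Ex (fun ω0 : TΩ L => Ex (fun ω1 : TΩ L =>
    w (mk ε (fun c => (if ε c then tau L ω1 else tau L ω0)⁻¹ (v c)))))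

theorem twoBlock_eq (w : Fn K (L + 1)) (ε : K → Bool) (v : K → Deck L) :
    twoBlock w ε v = TSB L (blockOf ε false) (TSB L (blockOf ε true) (fun v => w (mk ε v))) v := by
  unfold twoBlock TSB
  refine Ex_congr fun ω0 => Ex_congr fun ω1 => ?_
  congr 2
  funext c
  cases hc : ε c
  · have h1 : c ∉ blockOf ε true := by simp [mem_blockOf, hc]
    have h2 : c ∈ blockOf ε false := by simp [mem_blockOf, hc]
    simp [h1, h2]
  · have h1 : c ∈ blockOf ε true := by simp [mem_blockOf, hc]
    have h2 : c ∉ blockOf ε false := by simp [mem_blockOf, hc]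
    simp [h1, h2]

/-- **The slice bound.** -/
theorem slice_bound {θ : ℝ} (hθ : 0 ≤ θ) (AA : ℕ → ℝ) (hAA : ∀ n, 0 ≤ AA n)
    (IH : ∀ (B : Finset K), DomBound L {c // c ∈ B} θ (AA B.card))
    {w : Fn K (L + 1)} (hw : InjSupp w) (ε : K → Bool) :
    ∑ v, (twoBlock w ε v) ^ 2 ≤ AA (blockOf ε false).card * AA (blockOf ε true).card *
      ((1 + θ) ^ Fintype.card K)⁻¹ * ∑ R : Finset K, θ ^ R.card * ∑ v, (Mbar R w ε v) ^ 2 := by
  set B0 := blockOf ε false with hB0
  set B1 := blockOf ε true with hB1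
  have hdisj : Disjoint B0 B1 := disjoint_blockOf ε
  set g : (K → Deck L) → ℝ := fun v => w (mk ε v) with hg
  have hg0 : InjOnSupp B0 g := injOnSupp_blockOf hw ε false
  have hg1 : InjOnSupp B1 g := injOnSupp_blockOf hw ε true
  have hpos : 0 < 1 + θ := by linarith
  simp only [twoBlock_eq]
  -- first block
  have h1 := sum_TSB_le (IH B0) (hAA _) (hg0.TSB hdisj (B' := B1))
  refine h1.trans ?_
  -- second block
  have h2 : ∀ R0 ∈ B0.powerset, ∑ v, (Av R0 (TSB L B1 g) v) ^ 2 ≤
      AA B1.card * ((1 + θ) ^ B1.card)⁻¹ * ∑ R1 ∈ B1.powerset, θ ^ R1.card *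
        ∑ v, (Av (R1 ∪ R0) g v) ^ 2 := by
    intro R0 hR0
    have hR0sub := mem_powerset.1 hR0
    have hdR : Disjoint R0 B1 := disjoint_of_subset_left hR0sub hdisj
    have hsupp : InjOnSupp B1 (Av R0 g) := hg1.Av hdR.symm
    have h3 := sum_TSB_le (IH B1) (hAA _) hsupp
    simp only [Av_TSB_comm hdR]
    refine h3.trans (le_of_eq ?_)
    congr 1
    refine sum_congr rfl fun R1 hR1 => ?_
    have hR1sub := mem_powerset.1 hR1
    have hd1 : Disjoint R1 R0 := (disjoint_of_subset_right hR1sub hdR).symm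
    simp only [Av_Av hd1]
  have hθ0 : ∀ n : ℕ, 0 ≤ θ ^ n := fun n => by positivity
  have hcard := card_blockOf_add ε
  have hinv : ((1 + θ) ^ B0.card)⁻¹ * ((1 + θ) ^ B1.card)⁻¹ = ((1 + θ) ^ Fintype.card K)⁻¹ := by
    rw [← mul_inv, ← pow_add, hB0, hB1, hcard]
  have hMbar : ∀ (R : Finset K) (v : K → Deck L), Av R g v = Mbar R w ε v := fun _ _ => rfl
  have hsumR : ∑ R0 ∈ B0.powerset, θ ^ R0.card * ∑ R1 ∈ B1.powerset, θ ^ R1.card *
        ∑ v, (Av (R1 ∪ R0) g v) ^ 2 ≤ ∑ R : Finset K, θ ^ R.card * ∑ v, (Mbar R w ε v) ^ 2 := by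
    have hinj : Set.InjOn (fun p : Finset K × Finset K => p.2 ∪ p.1) (B0.powerset ×ˢ B1.powerset : Finset _) := by
      rintro ⟨a, b⟩ hp ⟨a', b'⟩ hp' h
      simp only [coe_product, Set.mem_prod, mem_coe, mem_powerset] at hp hp'
      have h' : b ∪ a = b' ∪ a' := h
      have ea : a = a' := by
        have e1 : a = (b ∪ a) ∩ B0 := by
          ext c
          simp only [mem_inter, mem_union]
          constructor
          · intro hc
            exact ⟨Or.inr hc, hp.1 hc⟩
          · rintro ⟨h1 | h1, h2⟩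
            · exact absurd (hp.2 h1) (disjoint_left.1 hdisj h2)
            · exact h1
        have e2 : a' = (b' ∪ a') ∩ B0 := by
          ext c
          simp only [mem_inter, mem_union]
          constructor
          · intro hc
            exact ⟨Or.inr hc, hp'.1 hc⟩
          · rintro ⟨h1 | h1, h2⟩
            · exact absurd (hp'.2 h1) (disjoint_left.1 hdisj h2)
            · exact h1
        rw [e1, e2, h']
      have eb : b = b' := by
        have e1 : b = (b ∪ a) ∩ B1 := by
          ext c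
          simp only [mem_inter, mem_union]
          constructor
          · intro hc
            exact ⟨Or.inl hc, hp.2 hc⟩
          · rintro ⟨h1 | h1, h2⟩
            · exact h1
            · exact absurd (hp.1 h1) (disjoint_right.1 hdisj h2)
        have e2 : b' = (b' ∪ a') ∩ B1 := by
          ext c
          simp only [mem_inter, mem_union]
          constructor
          · intro hc
            exact ⟨Or.inl hc, hp'.2 hc⟩
          · rintro ⟨h1 | h1, h2⟩
            · exact h1
            · exact absurd (hp'.1 h1) (disjoint_right.1 hdisj h2)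
        rw [e1, e2, h']
      rw [ea, eb]
    have hterm : ∀ p ∈ B0.powerset ×ˢ B1.powerset, θ ^ p.1.card *
        (θ ^ p.2.card * ∑ i : K → Deck L, (Av (p.2 ∪ p.1) g i) ^ 2) =
        θ ^ (p.2 ∪ p.1).card * ∑ v, (Mbar (p.2 ∪ p.1) w ε v) ^ 2 := by
      rintro ⟨a, b⟩ hp
      simp only [mem_product, mem_powerset] at hp
      have hdab : Disjoint b a := (disjoint_of_subset_left hp.2 (disjoint_of_subset_right hp.1 hdisj.symm))
      rw [card_union_of_disjoint hdab, pow_add]
      simp only [hMbar]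
      ring
    calc _ = ∑ p ∈ B0.powerset ×ˢ B1.powerset, θ ^ p.1.card *
          (θ ^ p.2.card * ∑ i : K → Deck L, (Av (p.2 ∪ p.1) g i) ^ 2) := by
          rw [sum_product]
          refine sum_congr rfl fun R0 _ => ?_
          rw [mul_sum]
      _ = ∑ p ∈ B0.powerset ×ˢ B1.powerset, θ ^ (p.2 ∪ p.1).card *
          ∑ v, (Mbar (p.2 ∪ p.1) w ε v) ^ 2 := sum_congr rfl hterm
      _ = ∑ R ∈ (B0.powerset ×ˢ B1.powerset).image (fun p : Finset K × Finset K => p.2 ∪ p.1),
            θ ^ R.card * ∑ v, (Mbar R w ε v) ^ 2 := by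
          rw [sum_image]
          exact fun a ha b hb h => hinj (mem_coe.2 ha) (mem_coe.2 hb) h
      _ ≤ _ := by
          apply sum_le_sum_of_subset_of_nonneg (subset_univ _)
          intro R _ _
          exact mul_nonneg (hθ0 _) (sum_nonneg fun v _ => sq_nonneg _)
  have hcoef0 : 0 ≤ AA B0.card * ((1 + θ) ^ B0.card)⁻¹ := mul_nonneg (hAA _) (by positivity)
  have hcoef1 : 0 ≤ AA B1.card * ((1 + θ) ^ B1.card)⁻¹ := mul_nonneg (hAA _) (by positivity)
  calc AA B0.card * ((1 + θ) ^ B0.card)⁻¹ * ∑ R ∈ B0.powerset, θ ^ R.card *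
        ∑ v, (Av R (TSB L B1 g) v) ^ 2
      ≤ AA B0.card * ((1 + θ) ^ B0.card)⁻¹ * ∑ R0 ∈ B0.powerset, θ ^ R0.card *
        (AA B1.card * ((1 + θ) ^ B1.card)⁻¹ * ∑ R1 ∈ B1.powerset, θ ^ R1.card *
          ∑ v, (Av (R1 ∪ R0) g v) ^ 2) := by
        apply mul_le_mul_of_nonneg_left _ hcoef0
        exact sum_le_sum fun R0 hR0 => mul_le_mul_of_nonneg_left (h2 R0 hR0) (hθ0 _)
    _ = AA B0.card * AA B1.card * (((1 + θ) ^ B0.card)⁻¹ * ((1 + θ) ^ B1.card)⁻¹) *
        ∑ R0 ∈ B0.powerset, θ ^ R0.card * ∑ R1 ∈ B1.powerset, θ ^ R1.card *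
          ∑ v, (Av (R1 ∪ R0) g v) ^ 2 := by
        simp only [mul_sum]
        refine sum_congr rfl fun R0 _ => sum_congr rfl fun R1 _ => sum_congr rfl fun v _ => ?_
        ring
    _ ≤ _ := by
        rw [hinv]
        exact mul_le_mul_of_nonneg_left hsumR
          (mul_nonneg (mul_nonneg (hAA _) (hAA _)) (by positivity))

/-! ### Facts on `P₁` -/

omit [Fintype K] [DecidableEq K] in
theorem flipTup_flipTup' (e e' : Flips L) (x : K → Deck (L + 1)) :
    flipTup e' (flipTup e x) = flipTup (fun s => xor (e' s) (e s)) x := by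
  funext c
  simp only [flipTup]
  rcases x c with ⟨b, u⟩
  change (xor (xor b (e u)) (e' u), u) = (xor b (xor (e' u) (e u)), u)
  congr 1
  cases b <;> cases e u <;> cases e' u <;> rfl

theorem InjSupp.P1 {u : Fn K (L + 1)} (hu : InjSupp u) : InjSupp (P1 u) := by
  intro x hx
  unfold Crest.Agent.Thorp.P1
  have : ∀ e : Flips L, u (flipTup e x) = 0 := by
    intro e
    apply hu
    intro hinj
    apply hx
    intro a b hab
    apply hinj
    simp [flipTup, hab]
  rw [Ex_congr this]
  exact Ex_const 0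

theorem FlipInv_P1 (u : Fn K (L + 1)) : FlipInv (P1 u) := by
  intro e x
  unfold P1
  have he : Function.Involutive (fun e' : Flips L => (fun s => xor (e' s) (e s) : Flips L)) := by
    intro e'
    funext s
    simp
  rw [← Ex_equiv he.toPerm (fun e' => u (flipTup e' x))]
  refine Ex_congr fun e' => ?_
  rw [flipTup_flipTup']
  rfl

theorem sum_flipTup (e : Flips L) (g : (K → Deck (L + 1)) → ℝ) :
    ∑ x, g (flipTup e x) = ∑ x, g x :=
  (flipTupEquiv K e).sum_comp g

theorem nsq_P1_le (u : Fn K (L + 1)) : nsq (P1 u) ≤ nsq u := by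
  unfold nsq ip P1
  calc ∑ x, Ex (fun e : Flips L => u (flipTup e x)) * Ex (fun e : Flips L => u (flipTup e x))
      ≤ ∑ x, Ex (fun e : Flips L => u (flipTup e x) ^ 2) := by
        refine sum_le_sum fun x _ => ?_
        rw [← sq]
        exact Ex_sq_le _
    _ = Ex (fun e : Flips L => ∑ x, u (flipTup e x) ^ 2) := (Ex_sum _ _).symm
    _ = Ex (fun _ : Flips L => ∑ x, u x * u x) := by
        refine Ex_congr fun e => ?_
        rw [sum_flipTup e (fun x => u x ^ 2)]
        simp only [sq]
    _ = ∑ x, u x * u x := Ex_const _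

theorem MM_P1 (R : Finset K) (u : Fn K (L + 1)) : MM (L + 1) R (P1 u) = P1 (MM (L + 1) R u) := by
  funext x
  unfold MM P1
  rw [Ex_comm]
  refine Ex_congr fun e => ?_
  change _ = Ex (fun z => u (ow (flipTup e x) z R))
  rw [← Ex_equiv (flipTupEquiv K e) (fun z => u (ow (flipTup e x) z R))]
  refine Ex_congr fun z => ?_
  change u (flipTup e (ow x z R)) = u (ow (flipTup e x) (flipTup e z) R)
  rw [ow_flipTup]

theorem nsq_MM_P1_le (R : Finset K) (u : Fn K (L + 1)) :
    nsq (MM (L + 1) R (P1 u)) ≤ nsq (MM (L + 1) R u) := by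
  rw [MM_P1]
  exact nsq_P1_le _

theorem nsq_TS_succ (u : Fn K (L + 1)) :
    nsq (TS (L + 1) u) = ∑ ε : K → Bool, ∑ v : K → Deck L, (twoBlock (P1 u) ε v) ^ 2 := by
  rw [nsq_tuple_succ]
  refine sum_congr rfl fun ε _ => sum_congr rfl fun v _ => ?_
  rw [TS_succ]
  rfl

/-- The reduction of the node to the charge inequality. -/
theorem node_reduction {θ : ℝ} (hθ : 0 ≤ θ) (AA : ℕ → ℝ) (hAA : ∀ n, 0 ≤ AA n)
    (IH : ∀ (B : Finset K), DomBound L {c // c ∈ B} θ (AA B.card))
    {u : Fn K (L + 1)} (hu : InjSupp u) :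
    nsq (TS (L + 1) u) ≤ ((1 + θ) ^ Fintype.card K)⁻¹ * ∑ R : Finset K, θ ^ R.card *
      ∑ ε : K → Bool, AA (blockOf ε false).card * AA (blockOf ε true).card *
        ∑ v : K → Deck L, (Mbar R (P1 u) ε v) ^ 2 := by
  rw [nsq_TS_succ]
  calc _ ≤ ∑ ε : K → Bool, AA (blockOf ε false).card * AA (blockOf ε true).card *
      ((1 + θ) ^ Fintype.card K)⁻¹ * ∑ R : Finset K, θ ^ R.card * ∑ v, (Mbar R (P1 u) ε v) ^ 2 :=
        sum_le_sum fun ε _ => slice_bound hθ AA hAA IH hu.P1 ε
    _ = _ := by
        simp only [mul_sum]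
        rw [sum_comm]
        refine sum_congr rfl fun R _ => ?_
        refine sum_congr rfl fun ε _ => ?_
        refine sum_congr rfl fun v _ => ?_
        ring

/-! ### Elementary facts on `QQ` -/

theorem nsq_nonneg' (u : Fn K L) : 0 ≤ nsq u :=
  Finset.sum_nonneg fun x _ => mul_self_nonneg _

theorem MM_empty (u : Fn K L) : MM L ∅ u = u := by
  funext x
  unfold MM
  have : ∀ z : K → Deck L, u (ow x z ∅) = u x := by
    intro z
    have h : ow x z ∅ = x := by
      funext c
      simp [ow]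
    rw [h]
  rw [Ex_congr this]
  exact Ex_const _

/-- Trivial cap: `‖u‖² ≤ (1+θ)^k Q_θ(u)`. -/
theorem nsq_le_QQ (θ : ℝ) (hθ : 0 ≤ θ) (u : Fn K L) :
    nsq u ≤ (1 + θ) ^ Fintype.card K * QQ L θ u := by
  unfold QQ
  have hp : 0 < (1 + θ) ^ Fintype.card K := by positivity
  rw [mul_inv_cancel_left₀ hp.ne']
  have h1 := single_le_sum (f := fun R : Finset K => θ ^ R.card * nsq (MM L R u))
    (fun R _ => mul_nonneg (by positivity) (nsq_nonneg' _)) (mem_univ (∅ : Finset K))
  simpa [MM_empty] using h1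

/-- Monotonicity in `θ`. -/
theorem QQ_mono {θ θ' : ℝ} (h0 : 0 ≤ θ) (h : θ ≤ θ') (u : Fn K L) :
    QQ L θ u ≤ ((1 + θ') / (1 + θ)) ^ Fintype.card K * QQ L θ' u := by
  unfold QQ
  have hp : 0 < 1 + θ := by linarith
  have hp' : 0 < 1 + θ' := by linarith
  have hsum : ∑ R : Finset K, θ ^ R.card * nsq (MM L R u) ≤ ∑ R : Finset K, θ' ^ R.card * nsq (MM L R u) :=
    sum_le_sum fun R _ => mul_le_mul_of_nonneg_right (pow_le_pow_left₀ h0 h _) (nsq_nonneg' _)
  rw [div_pow]
  have h3 : ((1 + θ') ^ Fintype.card K / (1 + θ) ^ Fintype.card K) * (((1 + θ') ^ Fintype.card K)⁻¹ *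
      ∑ R : Finset K, θ' ^ R.card * nsq (MM L R u)) = ((1 + θ) ^ Fintype.card K)⁻¹ *
      ∑ R : Finset K, θ' ^ R.card * nsq (MM L R u) := by
    field_simp
  rw [h3]
  exact mul_le_mul_of_nonneg_left hsum (by positivity)

/-- A pure function has vanishing free averages. -/
theorem IsPure.MM_eq_zero {u : Fn K L} (hu : IsPure u) {R : Finset K} (hR : R.Nonempty) :
    MM L R u = 0 := by
  funext x
  obtain ⟨c, hc⟩ := hR
  change Ex (fun z : K → Deck L => u (ow x z R)) = 0
  rw [← Ex_ow (fun z : K → Deck L => u (ow x z R)) {c}]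
  have h1 : ∀ z z' : K → Deck L, ow x (ow z z' {c}) R = Function.update (ow x z R) c (z' c) := by
    intro z z'
    funext a
    by_cases ha : a = c
    · subst ha
      simp [hc]
    · by_cases hb : a ∈ R <;> simp [ow, ha, hb]
  simp only [h1]
  have h2 : ∀ z : K → Deck L, Ex (fun z' : K → Deck L => u (Function.update (ow x z R) c (z' c))) = 0 := by
    intro z
    rw [Ex_eval c (fun s => u (Function.update (ow x z R) c s))]
    unfold Ex
    rw [hu.2 c (ow x z R), mul_zero]
  simp only [h2]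
  exact Ex_const 0

/-- On pure functions the form is a multiple of the norm. -/
theorem IsPure.QQ_eq {u : Fn K L} (hu : IsPure u) (θ : ℝ) :
    QQ L θ u = ((1 + θ) ^ Fintype.card K)⁻¹ * nsq u := by
  unfold QQ
  congr 1
  rw [← add_sum_erase univ _ (mem_univ (∅ : Finset K))]
  have : ∀ R ∈ (univ : Finset (Finset K)).erase ∅, θ ^ R.card * nsq (MM L R u) = 0 := by
    intro R hR
    have hne : R.Nonempty := nonempty_iff_ne_empty.2 (mem_erase.1 hR).1
    rw [hu.MM_eq_zero hne]
    simp [nsq, ip]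
  rw [sum_eq_zero this, MM_empty]
  simp

/-- Exact small cases: domination with constant one when there is at most one token. -/
theorem nsq_TS_le_QQ_of_card_le_one (hK : Fintype.card K ≤ 1) (θ : ℝ) (hθ : 0 ≤ θ) (u : Fn K L) :
    nsq (TS L u) ≤ QQ L θ u := by
  have hp : 0 < 1 + θ := by linarith
  have hnn : ∀ R : Finset K, 0 ≤ θ ^ R.card * nsq (MM L R u) := fun R =>
    mul_nonneg (by positivity) (nsq_nonneg' _)
  rcases Nat.le_one_iff_eq_zero_or_eq_one.1 hK with h0 | h1
  · -- no tokens
    have hemp : IsEmpty K := Fintype.card_eq_zero_iff.1 h0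
    have hTS : TS L u = u := by
      funext x
      unfold TS
      have : ∀ ω : TΩ L, u (fun c => (tau L ω)⁻¹ (x c)) = u x := by
        intro ω
        congr 1
        funext c
        exact hemp.elim c
      rw [Ex_congr this]
      exact Ex_const _
    rw [hTS]
    have h2 := (nsq_le_QQ θ hθ u)
    simpa [h0] using h2
  · -- one token
    obtain ⟨c, hc⟩ := Fintype.card_eq_one_iff.1 h1
    have hTS : TS L u = MM L {c} u := by
      funext x
      unfold TS MM
      -- both sides are the average over the position of `c`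
      have e1 : ∀ (s : Deck L), (fun a : K => if a = c then s else x a) = fun _ => s := by
        intro s
        funext a
        simp [hc a]
      have h3 : Ex (fun ω : TΩ L => u (fun a => (tau L ω)⁻¹ (x a))) =
          Ex (fun ω : TΩ L => (fun s : Deck L => u (fun _ => s)) ((tau L ω)⁻¹ (x c))) := by
        refine Ex_congr fun ω => ?_
        congr 1
        funext a
        rw [hc a]
      rw [h3, Ex_tau_inv_apply L (x c) (fun s : Deck L => u (fun _ => s))]
      have h4 : Ex (fun z : K → Deck L => u (ow x z {c})) =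
          Ex (fun z : K → Deck L => (fun s : Deck L => u (fun _ => s)) (z c)) := by
        refine Ex_congr fun z => ?_
        congr 1
        funext a
        rw [hc a]
        simp
      rw [h4, Ex_eval c (fun s : Deck L => u (fun _ => s))]
    have hmain : nsq (MM L {c} u) ≤ nsq u := by
      rw [← hTS]
      exact nsq_TS_le u
    rw [hTS]
    unfold QQ
    rw [h1, pow_one]
    have h5 : ∑ R : Finset K, θ ^ R.card * nsq (MM L R u) = nsq u + θ * nsq (MM L {c} u) := by
      have huniv : (univ : Finset (Finset K)) = {∅, {c}} := by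
        ext R
        simp only [mem_univ, mem_insert, mem_singleton, true_iff]
        by_cases hR : c ∈ R
        · right
          ext a
          rw [hc a]
          simp [hR]
        · left
          ext a
          rw [hc a]
          simp [hR]
      rw [huniv, sum_pair (by simp)]
      simp [MM_empty]
    rw [h5, inv_mul_eq_div, le_div_iff₀ hp]
    nlinarith [nsq_nonneg' (MM L {c} u)]

end Crest.Agent.Thorp
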