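import Crest.Agent.Lib.Thorp.LowScalar
import Crest.Agent.Lib.Thorp.LowChargeD
import Crest.Agent.Lib.Thorp.LowSlice

/-!
# Thorp shuffle: the low ladder (blueprint section 9d)

`low_dom`: the domination of `T T*` by the free-noise form along the ladder `θ_i`, by induction on the
rung `i` and then on the level `L`; `low_pure` is the consequence for pure functions.
-/

set_option autoImplicit false

namespace Crest.Agent.Thorp

open Finset

section Steps

variable {K : Type} [Fintype K] [DecidableEq K] {L : ℕ}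

omit [DecidableEq K] in
theorem signSum_univ_eq (ε : K → Bool) :
    signSum univ ε = ((univ.filter fun c => ε c = true).card : ℝ) -
      ((univ.filter fun c => ε c = false).card : ℝ) := by
  unfold signSum
  rw [Finset.card_filter, Finset.card_filter]
  push_cast
  rw [← Finset.sum_sub_distrib]
  refine Finset.sum_congr rfl fun c _ => ?_
  cases ε c <;> simp [sgn]

theorem QQ_nonneg (θ : ℝ) (hθ : 0 ≤ θ) (u : Fn K L) : 0 ≤ QQ L θ u := by
  unfold QQ
  have : ∀ R : Finset K, 0 ≤ θ ^ R.card * nsq (MM L R u) := fun R =>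
    mul_nonneg (by positivity) (nsq_nonneg _)
  exact mul_nonneg (by positivity) (Finset.sum_nonneg fun R _ => this R)

/-- Dense step for rung `0`. -/
theorem low_dense_zero (hk : 2 ≤ Fintype.card K)
    (hd : (32 * betaInf 0)⁻¹ ≤ (Fintype.card K : ℝ) / 2 ^ L) :
    DomBound L K (thetaSeq 0) (Acap 0 (Fintype.card K) (2 ^ L)) := by
  intro u _
  have h0 := thetaSeq_nonneg 0
  have h1 := nsq_TS_le u
  have h2 := nsq_le_QQ (thetaSeq 0) h0 u
  have h3 := ladder_dense_zero (Fintype.card K) (2 ^ L) (by positivity) hk hd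
  have h4 := QQ_nonneg (thetaSeq 0) h0 u
  calc nsq (TS L u) ≤ nsq u := h1
    _ ≤ _ := h2
    _ ≤ _ := mul_le_mul_of_nonneg_right h3 h4

/-- Dense step for rung `i + 1`. -/
theorem low_dense_succ (i : ℕ) (IH : DomBound L K (thetaSeq i) (Acap i (Fintype.card K) (2 ^ L)))
    (hk : 2 ≤ Fintype.card K)
    (hd : (32 * betaInf (i + 1))⁻¹ ≤ (Fintype.card K : ℝ) / 2 ^ L) :
    DomBound L K (thetaSeq (i + 1)) (Acap (i + 1) (Fintype.card K) (2 ^ L)) := by
  intro u hu
  have h0 := thetaSeq_nonneg i
  have h1 := IH u hu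
  have h2 := QQ_mono h0 (thetaSeq_mono i) u
  have hr : (1 + thetaSeq (i + 1)) / (1 + thetaSeq i) = 1 + 3 / 512 := by
    rw [one_add_thetaSeq_succ]
    field_simp
  rw [hr] at h2
  have h3 := ladder_dense_succ i (Fintype.card K) (2 ^ L) (by positivity) hk hd
  have h4 := QQ_nonneg (thetaSeq (i + 1)) (thetaSeq_nonneg _) u
  have hA : 0 < Acap i (Fintype.card K) (2 ^ L) := Real.exp_pos _
  calc nsq (TS L u) ≤ _ := h1
    _ ≤ Acap i (Fintype.card K) (2 ^ L) * ((1 + 3 / 512) ^ Fintype.card K *
          QQ L (thetaSeq (i + 1)) u) := mul_le_mul_of_nonneg_left h2 hA.le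
    _ = (Acap i (Fintype.card K) (2 ^ L) * (1 + 3 / 512) ^ Fintype.card K) *
          QQ L (thetaSeq (i + 1)) u := by ring
    _ ≤ _ := mul_le_mul_of_nonneg_right h3 h4

theorem Acap_of_card_le_one (i k : ℕ) (N : ℝ) (hk : k ≤ 1) : Acap i k N = 1 := by
  unfold Acap
  have : (k : ℝ) * ((k : ℝ) - 1) = 0 := by
    interval_cases k <;> simp
  rw [this]
  simp

/-- The case of at most one token. -/
theorem low_small (i : ℕ) (hk : Fintype.card K ≤ 1) :
    DomBound L K (thetaSeq i) (Acap i (Fintype.card K) (2 ^ L)) := by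
  intro u hu
  rw [Acap_of_card_le_one i _ _ hk, one_mul]
  exact nsq_TS_le_QQ_of_card_le_one hk _ (thetaSeq_nonneg i) u

/-- The sparse step: `k / N < ρt`. -/
theorem low_sparse (i : ℕ)
    (IH : ∀ (K : Type) [Fintype K] [DecidableEq K],
      DomBound L K (thetaSeq i) (Acap i (Fintype.card K) (2 ^ L)))
    (hk : 2 ≤ Fintype.card K)
    (hs : (Fintype.card K : ℝ) / (2 * 2 ^ L) < (32 * betaInf i)⁻¹) :
    DomBound (L + 1) K (thetaSeq i) (Acap i (Fintype.card K) (2 ^ (L + 1))) := by
  intro u hu
  set θ := thetaSeq i with hθdef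
  have hθ : 0 ≤ θ := thetaSeq_nonneg i
  set k := Fintype.card K with hkdef
  set N' : ℝ := 2 ^ L with hN'
  have hNpos : 0 < N' := by positivity
  set w : Fn K (L + 1) := P1 u with hw
  have hwI : InjSupp w := hu.P1
  have hwF : FlipInv w := FlipInv_P1 u
  set κ := ladKappa i k N' with hκ
  set t := ladT i N' with ht
  have hκpos : 0 < κ := ladKappa_pos _ _ _
  -- the charge inequality
  have hcharge := charge (K := K) (L := L) hwI hwF θ κ t (ladAbar i k N') hθ hκpos
    (ladA i k N') (ladC i k N')
    (fun M q hM => by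
      have := lad_ha (α := K → Bool) (signSum M) i k q M.card N' hNpos hs hM
        (fun t ht => rad_mgf_ge M t ht) (fun t ht h => rad_mgf_le M t ht h)
      exact this)
    (fun M p => by
      have hm : M.card ≤ k := by
        rw [hkdef]; exact Finset.card_le_univ M
      have := lad_hC (α := K → Bool) (signSum M) i k M.card N' hNpos hs hm
        (fun t ht => rad_mgf_ge M t ht) (fun t ht h => rad_mgf_le M t ht h) p
      exact this)
    (fun q hq => lad_hA i k q N' hNpos hq hs)
  -- the reduction to the charge inequality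
  have hsum : nsq (TS (L + 1) u) ≤ ((1 + θ) ^ k)⁻¹ * ∑ R : Finset K, θ ^ R.card *
      ∑ ε : K → Bool, κ * Real.exp (t * signSum univ ε ^ 2) *
        ∑ v : K → Deck L, (Mbar R w ε v) ^ 2 := by
    have h := node_reduction (L := L) hθ (fun n => Acap i n N') (fun n => (Real.exp_pos _).le)
      (fun B => by
        have := IH {c // c ∈ B}
        rwa [Fintype.card_coe] at this) hu
    refine h.trans (le_of_eq ?_)
    congr 1
    refine Finset.sum_congr rfl fun R _ => ?_
    congr 1
    refine Finset.sum_congr rfl fun ε _ => ?_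
    congr 1
    rw [acap_mul_acap i _ _ k N' hNpos (card_blockOf_add ε), signSum_univ_eq]
    rfl
  have hMM : ∑ R : Finset K, θ ^ R.card * nsq (MM (L + 1) R w) ≤
      ∑ R : Finset K, θ ^ R.card * nsq (MM (L + 1) R u) :=
    Finset.sum_le_sum fun R _ => mul_le_mul_of_nonneg_left (nsq_MM_P1_le R u) (by positivity)
  have hAbar := ladAbar_le i k N' hNpos hk hs
  have hAbarpos : 0 < ladAbar i k N' := mul_pos (ladHat_pos _ _ _) (Real.exp_pos _)
  have hinv : 0 ≤ ((1 + θ) ^ k)⁻¹ := by positivity
  have hQ := QQ_nonneg θ hθ u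
  have hN : (2 : ℝ) ^ (L + 1) = 2 * N' := by rw [hN', pow_succ]; ring
  rw [hN]
  calc nsq (TS (L + 1) u) ≤ _ := hsum
    _ ≤ ((1 + θ) ^ k)⁻¹ * (ladAbar i k N' * ∑ R : Finset K, θ ^ R.card * nsq (MM (L + 1) R u)) := by
        apply mul_le_mul_of_nonneg_left _ hinv
        exact hcharge.trans (mul_le_mul_of_nonneg_left hMM hAbarpos.le)
    _ = ladAbar i k N' * QQ (L + 1) θ u := by unfold QQ; ring
    _ ≤ _ := mul_le_mul_of_nonneg_right hAbar hQ

end Steps

/-- From the dense case to all cases, by induction on `L`. -/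
theorem low_dom_of_dense (i : ℕ)
    (hdense : ∀ (L : ℕ) (K : Type) [Fintype K] [DecidableEq K], 2 ≤ Fintype.card K →
      (32 * betaInf i)⁻¹ ≤ (Fintype.card K : ℝ) / 2 ^ L →
      DomBound L K (thetaSeq i) (Acap i (Fintype.card K) (2 ^ L))) :
    ∀ (L : ℕ) (K : Type) [Fintype K] [DecidableEq K],
      DomBound L K (thetaSeq i) (Acap i (Fintype.card K) (2 ^ L)) := by
  intro L
  induction L with
  | zero =>
    intro K _ _
    by_cases hk : Fintype.card K ≤ 1
    · exact low_small i hk
    · push Not at hk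
      apply hdense 0 K hk
      have hb := betaInf_ge i
      have h2 : (2 : ℝ) ≤ Fintype.card K := by exact_mod_cast hk
      have : (32 * betaInf i)⁻¹ ≤ 1 := by
        apply inv_le_one_of_one_le₀
        linarith
      rw [pow_zero, div_one]
      linarith
  | succ L IH =>
    intro K _ _
    by_cases hk : Fintype.card K ≤ 1
    · exact low_small i hk
    · push Not at hk
      by_cases hd : (32 * betaInf i)⁻¹ ≤ (Fintype.card K : ℝ) / 2 ^ (L + 1)
      · exact hdense (L + 1) K hk hd
      · push Not at hd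
        apply low_sparse i IH hk
        rwa [pow_succ, mul_comm] at hd

/-- **The low ladder**: domination by the free-noise form at every rung. -/
theorem low_dom (i : ℕ) : ∀ (L : ℕ) (K : Type) [Fintype K] [DecidableEq K],
    DomBound L K (thetaSeq i) (Acap i (Fintype.card K) (2 ^ L)) := by
  induction i with
  | zero =>
    apply low_dom_of_dense
    intro L K _ _ hk hd
    exact low_dense_zero hk hd
  | succ i IH =>
    apply low_dom_of_dense
    intro L K _ _ hk hd
    exact low_dense_succ i (IH L K) hk hd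

section Pure

variable {K : Type} [Fintype K] [DecidableEq K] {L : ℕ}

end Pure

/-- The consequence for pure functions. -/
theorem low_pure (K : Type) [Fintype K] [DecidableEq K] (i L : ℕ) :
    PureBound L K (Acap i (Fintype.card K) (2 ^ L) * ((1 + thetaSeq i) ^ Fintype.card K)⁻¹) := by
  intro u hu
  have h := low_dom i L K u hu.1
  rw [hu.QQ_eq] at h
  rw [mul_assoc]
  exact h

end Crest.Agent.Thorp
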