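import Crest.Agent.Lib.Thorp.ExTools

/-!
# Thorp shuffle, blueprint section 9a: analysis on the cube `K → Bool`

`parseval`, `bonami` (the `(2,4)` hypercontractive inequality), `cube_ineq`, `rad_mgf_le`, `rad_mgf_ge`.
-/

set_option autoImplicit false
set_option linter.unusedSectionVars false

namespace Crest.Agent.Thorp

/-- The variance of a real function under the uniform measure. -/
noncomputable def VarE {α : Type*} [Fintype α] (B : α → ℝ) : ℝ := Ex (fun a => (B a - Ex B) ^ 2)

theorem VarE_nonneg {α : Type*} [Fintype α] (B : α → ℝ) : 0 ≤ VarE B :=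
  Ex_nonneg fun _ => sq_nonneg _

/-- Cauchy-Schwarz for `Ex`. -/
theorem Ex_cs {α : Type*} [Fintype α] (f g : α → ℝ) :
    (Ex (fun a => f a * g a)) ^ 2 ≤ Ex (fun a => f a ^ 2) * Ex (fun a => g a ^ 2) := by
  unfold Ex
  have h := Finset.sum_mul_sq_le_sq_mul_sq Finset.univ f g
  have hc : 0 ≤ ((Fintype.card α : ℝ)⁻¹) ^ 2 := sq_nonneg _
  calc ((Fintype.card α : ℝ)⁻¹ * ∑ a, f a * g a) ^ 2
      = ((Fintype.card α : ℝ)⁻¹) ^ 2 * (∑ a, f a * g a) ^ 2 := by ring
    _ ≤ ((Fintype.card α : ℝ)⁻¹) ^ 2 * ((∑ a, f a ^ 2) * ∑ a, g a ^ 2) :=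
        mul_le_mul_of_nonneg_left h hc
    _ = _ := by ring

/-- Cauchy-Schwarz, absolute form with square roots. -/
theorem Ex_cs_sqrt {α : Type*} [Fintype α] (f g : α → ℝ) :
    Ex (fun a => f a * g a) ≤
      Real.sqrt (Ex (fun a => f a ^ 2)) * Real.sqrt (Ex (fun a => g a ^ 2)) := by
  rw [← Real.sqrt_mul (Ex_nonneg fun _ => sq_nonneg _)]
  exact Real.le_sqrt_of_sq_le (Ex_cs f g)

section Cube

variable {K : Type*} [DecidableEq K]

@[simp] theorem sgn_true : sgn true = 1 := rfl
@[simp] theorem sgn_false : sgn false = -1 := rfl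

theorem sgn_mul_self (b : Bool) : sgn b * sgn b = 1 := by cases b <;> simp

theorem sgn_sq (b : Bool) : sgn b ^ 2 = 1 := by cases b <;> simp

theorem sgn_not (b : Bool) : sgn (!b) = - sgn b := by cases b <;> simp

theorem flipOn_singleton_self (c : K) (ε : K → Bool) : flipOn {c} ε c = !ε c := by
  simp [flipOn]

theorem flipOn_singleton_ne {c d : K} (h : d ≠ c) (ε : K → Bool) : flipOn {c} ε d = ε d := by
  simp [flipOn, h]

theorem chi_empty (ε : K → Bool) : chi (∅ : Finset K) ε = 1 := by simp [chi]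

theorem chi_insert {T : Finset K} {c : K} (hc : c ∉ T) (ε : K → Bool) :
    chi (insert c T) ε = sgn (ε c) * chi T ε := by
  simp [chi, Finset.prod_insert hc]

theorem chi_of_mem {T : Finset K} {c : K} (hc : c ∈ T) (ε : K → Bool) :
    chi T ε = sgn (ε c) * chi (T.erase c) ε := by
  conv_lhs => rw [← Finset.insert_erase hc]
  exact chi_insert (Finset.notMem_erase c T) ε

theorem chi_flipOn_of_not_mem {T : Finset K} {c : K} (hc : c ∉ T) (ε : K → Bool) :
    chi T (flipOn {c} ε) = chi T ε := by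
  unfold chi
  refine Finset.prod_congr rfl fun d hd => ?_
  rw [flipOn_singleton_ne (by rintro rfl; exact hc hd)]

theorem chi_flipOn_of_mem {T : Finset K} {c : K} (hc : c ∈ T) (ε : K → Bool) :
    chi T (flipOn {c} ε) = - chi T ε := by
  rw [chi_of_mem hc, chi_of_mem hc ε, chi_flipOn_of_not_mem (Finset.notMem_erase c T),
    flipOn_singleton_self, sgn_not]
  ring

theorem signSum_insert {M : Finset K} {c : K} (hc : c ∉ M) (ε : K → Bool) :
    signSum (insert c M) ε = sgn (ε c) + signSum M ε := by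
  simp [signSum, Finset.sum_insert hc]

theorem signSum_flipOn_of_not_mem {M : Finset K} {c : K} (hc : c ∉ M) (ε : K → Bool) :
    signSum M (flipOn {c} ε) = signSum M ε := by
  unfold signSum
  refine Finset.sum_congr rfl fun d hd => ?_
  rw [flipOn_singleton_ne (by rintro rfl; exact hc hd)]

theorem chi_sq (T : Finset K) (ε : K → Bool) : chi T ε * chi T ε = 1 := by
  unfold chi
  rw [← Finset.prod_mul_distrib]
  exact Finset.prod_eq_one fun c _ => sgn_mul_self _

variable [Fintype K]

theorem Ex_chi_of_ne {T : Finset K} (hT : T ≠ ∅) : Ex (chi T) = 0 := by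
  obtain ⟨c, hc⟩ := Finset.nonempty_iff_ne_empty.mpr hT
  exact Ex_eq_zero_of_flipOn_neg {c} _ (chi_flipOn_of_mem hc)

theorem fhat_empty (G : (K → Bool) → ℝ) : fhat G ∅ = Ex G := by
  unfold fhat
  simp [chi_empty]

/-- The reproducing identity of the characters. -/
theorem sum_chi_mul_chi (ε ε' : K → Bool) :
    ∑ T : Finset K, chi T ε * chi T ε' = if ε = ε' then (2 : ℝ) ^ Fintype.card K else 0 := by
  have h1 : ∀ T : Finset K, chi T ε * chi T ε' = ∏ c ∈ T, (sgn (ε c) * sgn (ε' c)) := by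
    intro T
    simp [chi, Finset.prod_mul_distrib]
  have h2 : ∑ T : Finset K, chi T ε * chi T ε' = ∏ c : K, (1 + sgn (ε c) * sgn (ε' c)) := by
    rw [Finset.prod_one_add, Finset.powerset_univ]
    exact Finset.sum_congr rfl fun T _ => h1 T
  rw [h2]
  split_ifs with h
  · subst h
    simp only [sgn_mul_self]
    rw [Finset.prod_const, Finset.card_univ]
    norm_num
  · obtain ⟨c, hc⟩ := Function.ne_iff.mp h
    refine Finset.prod_eq_zero (Finset.mem_univ c) ?_
    cases h3 : ε c <;> cases h4 : ε' c <;> simp_all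

/-- **Parseval**. -/
theorem parseval (G : (K → Bool) → ℝ) : Ex (fun ε => G ε ^ 2) = ∑ T, fhat G T ^ 2 := by
  have hcard : (Fintype.card (K → Bool) : ℝ) = 2 ^ Fintype.card K := by
    simp
  have hpos : (0 : ℝ) < 2 ^ Fintype.card K := by positivity
  have h1 : ∀ T : Finset K, fhat G T ^ 2 =
      ((2 : ℝ) ^ Fintype.card K)⁻¹ ^ 2 * ∑ ε, ∑ ε', G ε * G ε' * (chi T ε * chi T ε') := by
    intro T
    unfold fhat Ex
    rw [hcard, mul_pow, sq (∑ ε, chi T ε * G ε), Finset.sum_mul_sum]
    congr 1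
    refine Finset.sum_congr rfl fun ε _ => Finset.sum_congr rfl fun ε' _ => ?_
    ring
  calc Ex (fun ε => G ε ^ 2)
      = ((2 : ℝ) ^ Fintype.card K)⁻¹ ^ 2 * ∑ ε, ∑ ε', G ε * G ε' *
          (if ε = ε' then (2 : ℝ) ^ Fintype.card K else 0) := by
        unfold Ex
        rw [hcard]
        have : ∀ ε : K → Bool, ∑ ε', G ε * G ε' *
            (if ε = ε' then (2 : ℝ) ^ Fintype.card K else 0)
            = G ε ^ 2 * (2 : ℝ) ^ Fintype.card K := by
          intro ε
          simp only [mul_ite, mul_zero, Finset.sum_ite_eq, Finset.mem_univ, if_true]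
          ring
        simp only [this, ← Finset.sum_mul]
        field_simp
    _ = ((2 : ℝ) ^ Fintype.card K)⁻¹ ^ 2 * ∑ ε, ∑ ε', ∑ T : Finset K,
          G ε * G ε' * (chi T ε * chi T ε') := by
        congr 1
        refine Finset.sum_congr rfl fun ε _ => Finset.sum_congr rfl fun ε' _ => ?_
        rw [← Finset.mul_sum, sum_chi_mul_chi]
    _ = ∑ T, fhat G T ^ 2 := by
        simp only [h1]
        rw [← Finset.mul_sum]
        congr 1
        symm
        rw [Finset.sum_comm]
        exact Finset.sum_congr rfl fun ε _ => Finset.sum_comm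

/-- The weighted Fourier form of Bonami's inequality. -/
noncomputable def cubeForm (G : (K → Bool) → ℝ) : ℝ := ∑ T, (3 : ℝ) ^ T.card * fhat G T ^ 2

theorem cubeForm_nonneg (G : (K → Bool) → ℝ) : 0 ≤ cubeForm G :=
  Finset.sum_nonneg fun _ _ => by positivity

/-- `G` depends only on the coordinates of `S`. -/
def DepOn (S : Finset K) (G : (K → Bool) → ℝ) : Prop :=
  ∀ ε ε', (∀ c ∈ S, ε c = ε' c) → G ε = G ε'

/-- The even part in coordinate `c`. -/
noncomputable def evenPart (c : K) (G : (K → Bool) → ℝ) : (K → Bool) → ℝ :=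
  fun ε => (G ε + G (flipOn {c} ε)) / 2

/-- The odd part in coordinate `c`, divided by the sign of `c`. -/
noncomputable def oddPart (c : K) (G : (K → Bool) → ℝ) : (K → Bool) → ℝ :=
  fun ε => sgn (ε c) * (G ε - G (flipOn {c} ε)) / 2

theorem G_eq_even_add_odd (c : K) (G : (K → Bool) → ℝ) (ε : K → Bool) :
    G ε = evenPart c G ε + sgn (ε c) * oddPart c G ε := by
  unfold evenPart oddPart
  have := sgn_mul_self (ε c)
  linear_combination (-(G ε - G (flipOn {c} ε)) / 2) * this

theorem evenPart_flip (c : K) (G : (K → Bool) → ℝ) (ε : K → Bool) :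
    evenPart c G (flipOn {c} ε) = evenPart c G ε := by
  unfold evenPart
  rw [flipOn_flipOn]
  ring

theorem oddPart_flip (c : K) (G : (K → Bool) → ℝ) (ε : K → Bool) :
    oddPart c G (flipOn {c} ε) = oddPart c G ε := by
  unfold oddPart
  rw [flipOn_flipOn, flipOn_singleton_self, sgn_not]
  ring

theorem Ex_chi_mul_flip (T : Finset K) (c : K) (G : (K → Bool) → ℝ) :
    Ex (fun ε => chi T ε * G (flipOn {c} ε)) = if c ∈ T then - fhat G T else fhat G T := by
  have h := Ex_flipOn {c} (fun ε => chi T ε * G (flipOn {c} ε))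
  simp only [flipOn_flipOn] at h
  rw [← h]
  split_ifs with hc
  · simp only [chi_flipOn_of_mem hc, neg_mul]
    rw [Ex_neg]
    rfl
  · simp only [chi_flipOn_of_not_mem hc]
    rfl

theorem fhat_evenPart (c : K) (G : (K → Bool) → ℝ) (T : Finset K) :
    fhat (evenPart c G) T = if c ∈ T then 0 else fhat G T := by
  have h : fhat (evenPart c G) T =
      (fhat G T + Ex (fun ε => chi T ε * G (flipOn {c} ε))) / 2 := by
    unfold fhat evenPart
    rw [← Ex_add]
    rw [div_eq_mul_inv, mul_comm _ (2 : ℝ)⁻¹, ← Ex_const_mul]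
    refine Ex_congr fun ε => ?_
    ring
  rw [h, Ex_chi_mul_flip]
  split_ifs <;> ring

theorem fhat_oddPart (c : K) (G : (K → Bool) → ℝ) (T : Finset K) :
    fhat (oddPart c G) T = if c ∈ T then 0 else fhat G (insert c T) := by
  split_ifs with hc
  · have h : fhat (oddPart c G) T =
        (fhat G (T.erase c) - Ex (fun ε => chi (T.erase c) ε * G (flipOn {c} ε))) / 2 := by
      unfold fhat oddPart
      rw [← Ex_sub]
      rw [div_eq_mul_inv, mul_comm _ (2 : ℝ)⁻¹, ← Ex_const_mul]
      refine Ex_congr fun ε => ?_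
      rw [chi_of_mem hc]
      have := sgn_mul_self (ε c)
      linear_combination ((2 : ℝ)⁻¹ * chi (T.erase c) ε * (G ε - G (flipOn {c} ε))) * this
    rw [h, Ex_chi_mul_flip, if_neg (Finset.notMem_erase c T)]
    ring
  · have h : fhat (oddPart c G) T =
        (fhat G (insert c T) - Ex (fun ε => chi (insert c T) ε * G (flipOn {c} ε))) / 2 := by
      unfold fhat oddPart
      rw [← Ex_sub]
      rw [div_eq_mul_inv, mul_comm _ (2 : ℝ)⁻¹, ← Ex_const_mul]
      refine Ex_congr fun ε => ?_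
      rw [chi_insert hc]
      ring
    rw [h, Ex_chi_mul_flip, if_pos (Finset.mem_insert_self c T)]
    ring

/-- Split a sum over all token subsets according to the membership of `c`. -/
theorem sum_finset_split (c : K) (F : Finset K → ℝ) :
    ∑ T, F T = ∑ T ∈ (Finset.univ.erase c).powerset, F T
      + ∑ T ∈ (Finset.univ.erase c).powerset, F (insert c T) := by
  have h := Finset.sum_powerset_insert (Finset.notMem_erase c (Finset.univ : Finset K)) F
  rw [Finset.insert_erase (Finset.mem_univ c), Finset.powerset_univ] at h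
  exact h

theorem cubeForm_split (c : K) (G : (K → Bool) → ℝ) :
    cubeForm G = cubeForm (evenPart c G) + 3 * cubeForm (oddPart c G) := by
  unfold cubeForm
  rw [sum_finset_split c, sum_finset_split c (fun T => (3 : ℝ) ^ T.card * fhat (evenPart c G) T ^ 2),
    sum_finset_split c (fun T => (3 : ℝ) ^ T.card * fhat (oddPart c G) T ^ 2)]
  have hmem : ∀ T ∈ (Finset.univ.erase c).powerset, c ∉ T := by
    intro T hT hc
    exact (Finset.mem_erase.mp (Finset.mem_powerset.mp hT hc)).1 rfl
  have h1 : ∑ T ∈ (Finset.univ.erase c).powerset,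
      (3 : ℝ) ^ (insert c T).card * fhat (evenPart c G) (insert c T) ^ 2 = 0 := by
    refine Finset.sum_eq_zero fun T _ => ?_
    rw [fhat_evenPart, if_pos (Finset.mem_insert_self c T)]
    simp
  have h2 : ∑ T ∈ (Finset.univ.erase c).powerset,
      (3 : ℝ) ^ (insert c T).card * fhat (oddPart c G) (insert c T) ^ 2 = 0 := by
    refine Finset.sum_eq_zero fun T _ => ?_
    rw [fhat_oddPart, if_pos (Finset.mem_insert_self c T)]
    simp
  have h3 : ∑ T ∈ (Finset.univ.erase c).powerset,
      (3 : ℝ) ^ T.card * fhat (evenPart c G) T ^ 2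
      = ∑ T ∈ (Finset.univ.erase c).powerset, (3 : ℝ) ^ T.card * fhat G T ^ 2 := by
    refine Finset.sum_congr rfl fun T hT => ?_
    rw [fhat_evenPart, if_neg (hmem T hT)]
  have h4 : ∑ T ∈ (Finset.univ.erase c).powerset,
      (3 : ℝ) ^ (insert c T).card * fhat G (insert c T) ^ 2
      = 3 * ∑ T ∈ (Finset.univ.erase c).powerset, (3 : ℝ) ^ T.card * fhat (oddPart c G) T ^ 2 := by
    rw [Finset.mul_sum]
    refine Finset.sum_congr rfl fun T hT => ?_
    rw [fhat_oddPart, if_neg (hmem T hT), Finset.card_insert_of_notMem (hmem T hT), pow_succ]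
    ring
  rw [h1, h2, h3, h4]
  ring

theorem Ex_fourth_split (c : K) (G : (K → Bool) → ℝ) :
    Ex (fun ε => G ε ^ 4) = Ex (fun ε => evenPart c G ε ^ 4)
      + 6 * Ex (fun ε => evenPart c G ε ^ 2 * oddPart c G ε ^ 2) + Ex (fun ε => oddPart c G ε ^ 4) := by
  set g := evenPart c G with hg
  set h := oddPart c G with hh
  have hzero : Ex (fun ε : K → Bool =>
      sgn (ε c) * (4 * g ε ^ 3 * h ε + 4 * g ε * h ε ^ 3)) = 0 := by
    refine Ex_eq_zero_of_flipOn_neg {c} _ fun ε => ?_
    rw [flipOn_singleton_self, sgn_not, hg, hh, evenPart_flip, oddPart_flip]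
    ring
  have hpt : ∀ ε, G ε ^ 4 = g ε ^ 4 + (6 * (g ε ^ 2 * h ε ^ 2) + h ε ^ 4)
      + sgn (ε c) * (4 * g ε ^ 3 * h ε + 4 * g ε * h ε ^ 3) := by
    intro ε
    have h1 := G_eq_even_add_odd c G ε
    have h2 := sgn_mul_self (ε c)
    rw [h1, ← hg, ← hh]
    linear_combination
      ((6 * g ε ^ 2 * h ε ^ 2) + 4 * sgn (ε c) * g ε * h ε ^ 3 +
        (sgn (ε c) * sgn (ε c) + 1) * h ε ^ 4) * h2
  simp only [hpt]
  rw [Ex_add, hzero, Ex_add, Ex_add, Ex_const_mul]
  ring

/-- Bonami's inequality for functions depending on the coordinates of `S`. -/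
theorem bonami_aux (S : Finset K) : ∀ G : (K → Bool) → ℝ, DepOn S G →
    Ex (fun ε => G ε ^ 4) ≤ (cubeForm G) ^ 2 := by
  induction S using Finset.induction_on with
  | empty =>
    intro G hG
    have hconst : ∀ ε, G ε = G (fun _ => false) := fun ε =>
      hG ε _ (fun c hc => absurd hc (Finset.notMem_empty c))
    have h1 : Ex (fun ε => G ε ^ 4) = G (fun _ => false) ^ 4 := by
      simp only [hconst]
      rw [hconst fun _ => false]
      exact Ex_const _
    have h2 : fhat G ∅ = G (fun _ => false) := by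
      rw [fhat_empty]
      calc Ex G = Ex (fun _ : K → Bool => G (fun _ => false)) := Ex_congr hconst
        _ = _ := Ex_const _
    have h3 : G (fun _ => false) ^ 2 ≤ cubeForm G := by
      unfold cubeForm
      have := Finset.single_le_sum (s := Finset.univ)
        (f := fun T : Finset K => (3 : ℝ) ^ T.card * fhat G T ^ 2)
        (fun _ _ => by positivity) (Finset.mem_univ (∅ : Finset K))
      simpa [h2] using this
    rw [h1]
    calc G (fun _ => false) ^ 4 = (G (fun _ => false) ^ 2) ^ 2 := by ring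
      _ ≤ (cubeForm G) ^ 2 := pow_le_pow_left₀ (sq_nonneg _) h3 2
  | insert c S hc IH =>
    intro G hG
    have hag : ∀ ε ε' : K → Bool, (∀ d ∈ S, ε d = ε' d) → ε c = ε' c →
        G ε = G ε' ∧ G (flipOn {c} ε) = G (flipOn {c} ε') := by
      intro ε ε' h1 h2
      constructor
      · refine hG _ _ fun d hd => ?_
        rcases Finset.mem_insert.mp hd with rfl | hd'
        · exact h2
        · exact h1 d hd'
      · refine hG _ _ fun d hd => ?_
        rcases Finset.mem_insert.mp hd with rfl | hd'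
        · simp [flipOn_singleton_self, h2]
        · have hne : d ≠ c := by rintro rfl; exact hc hd'
          rw [flipOn_singleton_ne hne, flipOn_singleton_ne hne]
          exact h1 d hd'
    have hag' : ∀ ε ε' : K → Bool, (∀ d ∈ S, ε d = ε' d) → ε c ≠ ε' c →
        G ε = G (flipOn {c} ε') ∧ G (flipOn {c} ε) = G ε' := by
      intro ε ε' h1 h2
      constructor
      · refine hG _ _ fun d hd => ?_
        rcases Finset.mem_insert.mp hd with rfl | hd'
        · rw [flipOn_singleton_self]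
          cases h3 : ε d <;> cases h4 : ε' d <;> simp_all
        · have hne : d ≠ c := by rintro rfl; exact hc hd'
          rw [flipOn_singleton_ne hne]
          exact h1 d hd'
      · refine hG _ _ fun d hd => ?_
        rcases Finset.mem_insert.mp hd with rfl | hd'
        · rw [flipOn_singleton_self]
          cases h3 : ε d <;> cases h4 : ε' d <;> simp_all
        · have hne : d ≠ c := by rintro rfl; exact hc hd'
          rw [flipOn_singleton_ne hne]
          exact h1 d hd'
    have hev : DepOn S (evenPart c G) := by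
      intro ε ε' h1
      unfold evenPart
      by_cases h2 : ε c = ε' c
      · obtain ⟨h3, h4⟩ := hag ε ε' h1 h2
        rw [h3, h4]
      · obtain ⟨h3, h4⟩ := hag' ε ε' h1 h2
        rw [h3, h4]
        ring
    have hod : DepOn S (oddPart c G) := by
      intro ε ε' h1
      unfold oddPart
      by_cases h2 : ε c = ε' c
      · obtain ⟨h3, h4⟩ := hag ε ε' h1 h2
        rw [h3, h4, h2]
      · obtain ⟨h3, h4⟩ := hag' ε ε' h1 h2
        have h5 : sgn (ε c) = - sgn (ε' c) := by
          cases h6 : ε c <;> cases h7 : ε' c <;> simp_all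
        rw [h3, h4, h5]
        ring
    have Ig := IH _ hev
    have Ih := IH _ hod
    set g := evenPart c G with hg
    set h := oddPart c G with hh
    have ha := cubeForm_nonneg g
    have hb := cubeForm_nonneg h
    have hcs : Ex (fun ε => g ε ^ 2 * h ε ^ 2) ≤ cubeForm g * cubeForm h := by
      have h1 := Ex_cs (fun ε => g ε ^ 2) (fun ε => h ε ^ 2)
      have h2 : Ex (fun ε => (g ε ^ 2) ^ 2) = Ex (fun ε => g ε ^ 4) :=
        Ex_congr fun ε => by ring
      have h3 : Ex (fun ε => (h ε ^ 2) ^ 2) = Ex (fun ε => h ε ^ 4) :=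
        Ex_congr fun ε => by ring
      rw [h2, h3] at h1
      have h4 : (Ex (fun ε => g ε ^ 2 * h ε ^ 2)) ^ 2 ≤ (cubeForm g * cubeForm h) ^ 2 := by
        calc _ ≤ _ := h1
          _ ≤ cubeForm g ^ 2 * cubeForm h ^ 2 :=
            mul_le_mul Ig Ih (Ex_nonneg fun _ => by positivity) (sq_nonneg _)
          _ = _ := by ring
      exact le_trans (le_abs_self _) (abs_le_of_sq_le_sq h4 (mul_nonneg ha hb))
    rw [Ex_fourth_split c G, cubeForm_split c G, ← hg, ← hh]
    nlinarith [mul_nonneg ha hb, sq_nonneg (cubeForm h)]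

/-- **Bonami's inequality** (the `(2,4)` hypercontractive bound). -/
theorem bonami (G : (K → Bool) → ℝ) :
    Ex (fun ε => G ε ^ 4) ≤ (∑ T, (3 : ℝ) ^ T.card * fhat G T ^ 2) ^ 2 :=
  bonami_aux Finset.univ G fun ε ε' h => by
    have : ε = ε' := funext fun c => h c (Finset.mem_univ c)
    rw [this]

/-- The inequality for a weight against a low-degree-controlled function. -/
theorem cube_ineq (B G : (K → Bool) → ℝ) (_hB : ∀ ε, 0 ≤ B ε) (hB0 : 0 < Ex B) :
    Ex (fun ε => B ε * G ε ^ 2) ≤ (Ex B + VarE B / Ex B) * fhat G ∅ ^ 2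
       + ∑ T ∈ Finset.univ.erase ∅, (2 * Ex B + Real.sqrt (VarE B) * 3 ^ T.card) * fhat G T ^ 2 := by
  set c := fhat G ∅ with hc
  set B₀ := Ex B with hB₀
  set V := VarE B with hV
  set G₁ : (K → Bool) → ℝ := fun ε => G ε - c with hG₁
  set B₁ : (K → Bool) → ℝ := fun ε => B ε - B₀ with hB₁
  have hV0 : 0 ≤ V := VarE_nonneg B
  have hExG : Ex G = c := (fhat_empty G).symm
  have hExG₁ : Ex G₁ = 0 := by
    rw [hG₁, Ex_sub, Ex_const, hExG]
    ring
  have hExB₁ : Ex (fun ε => B₁ ε ^ 2) = V := rfl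
  have hf0 : fhat G₁ ∅ = 0 := by rw [fhat_empty, hExG₁]
  have hfT : ∀ T : Finset K, T ≠ ∅ → fhat G₁ T = fhat G T := by
    intro T hT
    unfold fhat
    have : (fun ε => chi T ε * G₁ ε) = fun ε => chi T ε * G ε - c * chi T ε := by
      funext ε
      simp only [hG₁]
      ring
    rw [this, Ex_sub, Ex_const_mul, Ex_chi_of_ne hT]
    ring
  have hsplit : ∀ F : Finset K → ℝ, ∑ T, F T = F ∅ + ∑ T ∈ Finset.univ.erase ∅, F T := by
    intro F
    rw [Finset.add_sum_erase _ _ (Finset.mem_univ _)]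
  set P₀ := ∑ T ∈ (Finset.univ.erase ∅ : Finset (Finset K)), fhat G T ^ 2 with hP₀
  set P₃ := ∑ T ∈ (Finset.univ.erase ∅ : Finset (Finset K)), (3 : ℝ) ^ T.card * fhat G T ^ 2
    with hP₃
  have hP₀0 : 0 ≤ P₀ := Finset.sum_nonneg fun _ _ => sq_nonneg _
  have hP₃0 : 0 ≤ P₃ := Finset.sum_nonneg fun _ _ => by positivity
  have hE : Ex (fun ε => G₁ ε ^ 2) = P₀ := by
    rw [parseval, hsplit, hf0]
    simp only [ne_eq, OfNat.ofNat_ne_zero, not_false_eq_true, zero_pow, zero_add]
    refine Finset.sum_congr rfl fun T hT => ?_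
    rw [hfT T (Finset.mem_erase.mp hT).1]
  have hF : Ex (fun ε => G₁ ε ^ 4) ≤ P₃ ^ 2 := by
    have h := bonami G₁
    have h2 : ∑ T, (3 : ℝ) ^ T.card * fhat G₁ T ^ 2 = P₃ := by
      rw [hsplit, hf0]
      simp only [ne_eq, OfNat.ofNat_ne_zero, not_false_eq_true, zero_pow, mul_zero, zero_add]
      refine Finset.sum_congr rfl fun T hT => ?_
      rw [hfT T (Finset.mem_erase.mp hT).1]
    rwa [h2] at h
  -- the pointwise expansion
  have hpt : ∀ ε, B ε * G ε ^ 2 = c ^ 2 * B ε + (2 * c * (B₁ ε * G₁ ε) + 2 * c * B₀ * G₁ ε)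
      + (B₀ * G₁ ε ^ 2 + B₁ ε * G₁ ε ^ 2) := by
    intro ε
    simp only [hG₁, hB₁]
    ring
  have hL : Ex (fun ε => B ε * G ε ^ 2) = c ^ 2 * B₀ + 2 * c * Ex (fun ε => B₁ ε * G₁ ε)
      + (B₀ * P₀ + Ex (fun ε => B₁ ε * G₁ ε ^ 2)) := by
    simp only [hpt]
    rw [Ex_add, Ex_add, Ex_add, Ex_add, Ex_const_mul, Ex_const_mul, Ex_const_mul, Ex_const_mul, hExG₁, hE]
    ring
  -- the two Cauchy-Schwarz terms
  have h1 : (Ex (fun ε => B₁ ε * G₁ ε)) ^ 2 ≤ V * P₀ := by
    have := Ex_cs B₁ G₁
    rwa [hExB₁, hE] at this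
  have h2 : Ex (fun ε => B₁ ε * G₁ ε ^ 2) ≤ Real.sqrt V * P₃ := by
    have h3 := Ex_cs B₁ (fun ε => G₁ ε ^ 2)
    have h4 : Ex (fun ε => (G₁ ε ^ 2) ^ 2) = Ex (fun ε => G₁ ε ^ 4) := Ex_congr fun ε => by ring
    rw [h4, hExB₁] at h3
    have h5 : (Ex (fun ε => B₁ ε * G₁ ε ^ 2)) ^ 2 ≤ (Real.sqrt V * P₃) ^ 2 := by
      rw [mul_pow, Real.sq_sqrt hV0]
      exact h3.trans (mul_le_mul_of_nonneg_left hF hV0)
    exact le_trans (le_abs_self _) (abs_le_of_sq_le_sq h5 (by positivity))
  have h3 : 2 * c * Ex (fun ε => B₁ ε * G₁ ε) ≤ c ^ 2 * (V / B₀) + B₀ * P₀ := by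
    set X := Ex (fun ε => B₁ ε * G₁ ε) with hX
    have ha : 0 ≤ c ^ 2 * (V / B₀) := by positivity
    have hb : 0 ≤ B₀ * P₀ := by positivity
    have hab : (c ^ 2 * (V / B₀)) * (B₀ * P₀) = c ^ 2 * (V * P₀) := by
      field_simp
    have h5 : (2 * c * X) ^ 2 ≤ (c ^ 2 * (V / B₀) + B₀ * P₀) ^ 2 := by
      have h6 : (2 * c * X) ^ 2 = 4 * c ^ 2 * X ^ 2 := by ring
      have h7 : 4 * c ^ 2 * X ^ 2 ≤ 4 * c ^ 2 * (V * P₀) :=
        mul_le_mul_of_nonneg_left h1 (by positivity)
      nlinarith [sq_nonneg (c ^ 2 * (V / B₀) - B₀ * P₀)]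
    exact le_trans (le_abs_self _) (abs_le_of_sq_le_sq h5 (add_nonneg ha hb))
  have hR : ∑ T ∈ (Finset.univ.erase ∅ : Finset (Finset K)),
      (2 * B₀ + Real.sqrt V * 3 ^ T.card) * fhat G T ^ 2 = 2 * B₀ * P₀ + Real.sqrt V * P₃ := by
    rw [hP₀, hP₃, Finset.mul_sum, Finset.mul_sum, ← Finset.sum_add_distrib]
    refine Finset.sum_congr rfl fun T _ => ?_
    ring
  rw [hR, hL]
  have : (B₀ + V / B₀) * c ^ 2 = c ^ 2 * B₀ + c ^ 2 * (V / B₀) := by ring
  rw [this]
  linarith

/-- `E[S²] = |M|`. -/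
theorem Ex_signSum_sq (M : Finset K) : Ex (fun ε => signSum M ε ^ 2) = M.card := by
  induction M using Finset.induction_on with
  | empty => simp [signSum, Ex_const]
  | insert c M hc IH =>
    have hzero : Ex (fun ε : K → Bool => 2 * (sgn (ε c) * signSum M ε)) = 0 := by
      refine Ex_eq_zero_of_flipOn_neg {c} _ fun ε => ?_
      rw [flipOn_singleton_self, sgn_not, signSum_flipOn_of_not_mem hc]
      ring
    have hpt : ∀ ε : K → Bool, signSum (insert c M) ε ^ 2
        = 1 + (2 * (sgn (ε c) * signSum M ε) + signSum M ε ^ 2) := by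
      intro ε
      rw [signSum_insert hc]
      have := sgn_mul_self (ε c)
      linear_combination this
    simp only [hpt]
    rw [Ex_add, Ex_add, hzero, IH, Ex_const, Finset.card_insert_of_notMem hc]
    push_cast
    ring

theorem rad_mgf_ge (M : Finset K) (t : ℝ) (_h0 : 0 ≤ t) :
    Real.exp (t * M.card) ≤ Ex (fun ε : K → Bool => Real.exp (t * signSum M ε ^ 2)) := by
  have h1 : ∀ ε : K → Bool, Real.exp (t * M.card) * (1 + (t * signSum M ε ^ 2 - t * M.card))
      ≤ Real.exp (t * signSum M ε ^ 2) := by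
    intro ε
    have h2 := Real.add_one_le_exp (t * signSum M ε ^ 2 - t * M.card)
    have h3 : Real.exp (t * signSum M ε ^ 2) =
        Real.exp (t * M.card) * Real.exp (t * signSum M ε ^ 2 - t * M.card) := by
      rw [← Real.exp_add]
      congr 1
      ring
    rw [h3]
    exact mul_le_mul_of_nonneg_left (by linarith) (Real.exp_pos _).le
  have h2 : Ex (fun ε : K → Bool =>
      Real.exp (t * M.card) * (1 + (t * signSum M ε ^ 2 - t * M.card))) = Real.exp (t * M.card) := by
    rw [Ex_const_mul, Ex_add, Ex_sub, Ex_const_mul, Ex_signSum_sq, Ex_const, Ex_const]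
    ring
  calc Real.exp (t * M.card) = _ := h2.symm
    _ ≤ _ := Ex_mono h1

/-- The scalar step behind `rad_mgf_le`. -/
theorem rad_scalar (t n : ℝ) (h0 : 0 ≤ t) (hn : 0 ≤ n) :
    Real.exp (2 * t) * (1 - 2 * t * (n + 1)) ≤ 1 - 2 * (t + 2 * t ^ 2) * n := by
  set u := 2 * t with hu
  have hu0 : 0 ≤ u := by positivity
  have h1 : u + 1 ≤ Real.exp u := Real.add_one_le_exp u
  have h2 : (1 - u) * Real.exp u ≤ 1 := by
    have h3 : -u + 1 ≤ Real.exp (-u) := Real.add_one_le_exp (-u)
    have h4 : Real.exp (-u) * Real.exp u = 1 := by rw [← Real.exp_add]; simp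
    have h5 := mul_le_mul_of_nonneg_right h3 (Real.exp_pos u).le
    nlinarith
  have h3 : 0 ≤ u * n * (Real.exp u - 1 - u) := by
    apply mul_nonneg (mul_nonneg hu0 hn)
    linarith
  have h4 : 2 * (t + 2 * t ^ 2) * n = u * n + u ^ 2 * n := by
    rw [hu]
    ring
  have h5 : 2 * t * (n + 1) = u * n + u := by
    rw [hu]
    ring
  rw [h4, h5]
  nlinarith

theorem rad_mgf_le (M : Finset K) (t : ℝ) (h0 : 0 ≤ t) (h : 2 * t * M.card < 1) :
    Ex (fun ε : K → Bool => Real.exp (t * signSum M ε ^ 2)) ≤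
      (Real.sqrt (1 - 2 * t * M.card))⁻¹ := by
  induction M using Finset.induction_on generalizing t with
  | empty =>
    simp [signSum, Ex_const]
  | insert c M hc IH =>
    rw [Finset.card_insert_of_notMem hc] at h ⊢
    push_cast at h ⊢
    set n : ℝ := (M.card : ℝ) with hn
    have hn0 : 0 ≤ n := Nat.cast_nonneg _
    -- hypotheses for the induction
    have hIH1 : 0 ≤ t + 2 * t ^ 2 := by positivity
    have hIH2 : 2 * (t + 2 * t ^ 2) * n < 1 := by
      have h1 : 2 * t * n < 1 - 2 * t := by linarith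
      have h2 : 0 < 1 + 2 * t := by positivity
      have h3 := mul_lt_mul_of_pos_right h1 h2
      nlinarith [sq_nonneg t]
    have hI := IH (t + 2 * t ^ 2) hIH1 hIH2
    -- averaging over the flip of `c`
    have hflip : Ex (fun ε : K → Bool => Real.exp (t * signSum (insert c M) ε ^ 2)) =
        Ex (fun ε : K → Bool => (Real.exp (t * signSum (insert c M) ε ^ 2)
          + Real.exp (t * signSum (insert c M) (flipOn {c} ε) ^ 2)) / 2) := by
      have h1 := Ex_flipOn {c} (fun ε : K → Bool => Real.exp (t * signSum (insert c M) ε ^ 2))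
      have h2 : Ex (fun ε : K → Bool => (Real.exp (t * signSum (insert c M) ε ^ 2)
          + Real.exp (t * signSum (insert c M) (flipOn {c} ε) ^ 2)) / 2)
          = (Ex (fun ε : K → Bool => Real.exp (t * signSum (insert c M) ε ^ 2))
            + Ex (fun ε : K → Bool => Real.exp (t * signSum (insert c M) (flipOn {c} ε) ^ 2))) / 2 := by
        rw [← Ex_add, div_eq_mul_inv, mul_comm _ (2 : ℝ)⁻¹, ← Ex_const_mul]
        exact Ex_congr fun ε => by ring
      rw [h2, h1]
      ring
    have hpt : ∀ ε : K → Bool, (Real.exp (t * signSum (insert c M) ε ^ 2)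
          + Real.exp (t * signSum (insert c M) (flipOn {c} ε) ^ 2)) / 2
        ≤ Real.exp t * Real.exp ((t + 2 * t ^ 2) * signSum M ε ^ 2) := by
      intro ε
      set S := signSum M ε with hS
      set s := sgn (ε c) with hs
      have hss : s * s = 1 := sgn_mul_self _
      have e1 : t * signSum (insert c M) ε ^ 2 = (t + t * S ^ 2) + 2 * t * s * S := by
        rw [signSum_insert hc, ← hS, ← hs]
        linear_combination t * hss
      have e2 : t * signSum (insert c M) (flipOn {c} ε) ^ 2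
          = (t + t * S ^ 2) - 2 * t * s * S := by
        rw [signSum_insert hc, signSum_flipOn_of_not_mem hc, flipOn_singleton_self, sgn_not,
          ← hS, ← hs]
        linear_combination t * hss
      rw [e1, e2, Real.exp_add, Real.exp_sub]
      have hcosh : (Real.exp (2 * t * s * S) + (Real.exp (2 * t * s * S))⁻¹) / 2
          ≤ Real.exp (2 * t ^ 2 * S ^ 2) := by
        have h1 := Real.cosh_le_exp_half_sq (2 * t * s * S)
        rw [Real.cosh_eq, Real.exp_neg] at h1
        have e3 : (2 * t * s * S) ^ 2 / 2 = 2 * t ^ 2 * S ^ 2 := by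
          linear_combination (2 * t ^ 2 * S ^ 2) * hss
        rwa [e3] at h1
      have e4 : Real.exp ((t + 2 * t ^ 2) * S ^ 2) =
          Real.exp (t * S ^ 2) * Real.exp (2 * t ^ 2 * S ^ 2) := by
        rw [← Real.exp_add]
        congr 1
        ring
      have e5 : Real.exp (t + t * S ^ 2) = Real.exp t * Real.exp (t * S ^ 2) := Real.exp_add _ _
      rw [e4, e5]
      have hp : 0 < Real.exp t * Real.exp (t * S ^ 2) := by positivity
      have := mul_le_mul_of_nonneg_left hcosh hp.le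
      rw [div_eq_mul_inv] at this ⊢
      have e6 : Real.exp t * Real.exp (t * S ^ 2) * (Real.exp (2 * t * s * S)) +
          Real.exp t * Real.exp (t * S ^ 2) / Real.exp (2 * t * s * S) =
          Real.exp t * Real.exp (t * S ^ 2) * (Real.exp (2 * t * s * S) +
            (Real.exp (2 * t * s * S))⁻¹) := by
        rw [div_eq_mul_inv]
        ring
      rw [e6]
      calc _ = Real.exp t * Real.exp (t * S ^ 2) * ((Real.exp (2 * t * s * S) +
            (Real.exp (2 * t * s * S))⁻¹) * 2⁻¹) := by ring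
        _ ≤ _ := this
        _ = _ := by ring
    have hstep : Ex (fun ε : K → Bool => Real.exp (t * signSum (insert c M) ε ^ 2)) ≤
        Real.exp t * (Real.sqrt (1 - 2 * (t + 2 * t ^ 2) * n))⁻¹ := by
      rw [hflip]
      calc _ ≤ Ex (fun ε : K → Bool =>
            Real.exp t * Real.exp ((t + 2 * t ^ 2) * signSum M ε ^ 2)) := Ex_mono hpt
        _ = Real.exp t * Ex (fun ε : K → Bool =>
            Real.exp ((t + 2 * t ^ 2) * signSum M ε ^ 2)) := Ex_const_mul _ _
        _ ≤ _ := mul_le_mul_of_nonneg_left hI (Real.exp_pos _).le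
    refine hstep.trans ?_
    -- the scalar comparison
    have hX : 0 < 1 - 2 * (t + 2 * t ^ 2) * n := by linarith
    have hY : 0 < 1 - 2 * t * (n + 1) := by linarith
    have hsX : 0 < Real.sqrt (1 - 2 * (t + 2 * t ^ 2) * n) := Real.sqrt_pos.mpr hX
    have hsY : 0 < Real.sqrt (1 - 2 * t * (n + 1)) := Real.sqrt_pos.mpr hY
    have hsc := rad_scalar t n h0 hn0
    have hle : Real.exp t * Real.sqrt (1 - 2 * t * (n + 1)) ≤
        Real.sqrt (1 - 2 * (t + 2 * t ^ 2) * n) := by
      apply Real.le_sqrt_of_sq_le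
      rw [mul_pow, Real.sq_sqrt hY.le, ← Real.exp_nat_mul]
      have : ((2 : ℕ) : ℝ) * t = 2 * t := by norm_num
      rw [this]
      exact hsc
    rw [← div_eq_mul_inv, inv_eq_one_div, div_le_div_iff₀ hsX hsY]
    linarith

end Cube

end Crest.Agent.Thorp
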