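import Crest.Agent.Lib.Thorp.LowChargeA
import Crest.Agent.Lib.Thorp.LowCube

/-!
# Charge inequality, part B: the cube step for a fixed `(R, v)`
-/

set_option autoImplicit false

namespace Crest.Agent.Thorp

open Finset

variable {K : Type*} [Fintype K] [DecidableEq K] {L : ℕ}

/-- The tokens of `Z` that share their site with another token of `Z`. -/
def PairTok (Z : Finset K) (v : K → Deck L) : Finset K := by
  classical exact Z.filter fun c => ∃ d, d ∈ Z ∧ d ≠ c ∧ v d = v c

/-- The sign variables for `(R, v)`: everything except the paired tokens of `Rᶜ`. -/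
def MSet (R : Finset K) (v : K → Deck L) : Finset K := (PairTok Rᶜ v)ᶜ

omit [Fintype K] in
theorem mem_PairTok {Z : Finset K} {v : K → Deck L} {c : K} :
    c ∈ PairTok Z v ↔ c ∈ Z ∧ ∃ d, d ∈ Z ∧ d ≠ c ∧ v d = v c := by
  simp [PairTok]

theorem Mbar_eq_zero {w : Fn K (L + 1)} (hw : InjSupp w) {R : Finset K} {ε : K → Bool}
    {v : K → Deck L} (h : ¬ Cons Rᶜ ε v) : Mbar R w ε v = 0 := by
  unfold Cons at h
  push Not at h
  obtain ⟨c, hc, d, hd, hcd, hv, hε⟩ := h
  have hc' : c ∉ R := by simpa using hc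
  have hd' : d ∉ R := by simpa using hd
  have : ∀ z : K → Deck L, w (mk ε (ow v z R)) = 0 := by
    intro z
    apply hw
    intro hinj
    apply hcd
    apply hinj
    change (ε c, ow v z R c) = (ε d, ow v z R d)
    simp [hc', hd', hv, hε]
  simp [Mbar, this, Ex]

/-- Three tokens on one site force a non-injective tuple. -/
theorem eq_zero_of_three {w : Fn K (L + 1)} (hw : InjSupp w) (ε : K → Bool) (y : K → Deck L)
    {a b c : K} (hab : a ≠ b) (hac : a ≠ c) (hbc : b ≠ c) (h1 : y a = y b) (h2 : y a = y c) :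
    w (mk ε y) = 0 := by
  apply hw
  intro hinj
  have hab' : (mk ε y a) ≠ (mk ε y b) := fun h => hab (hinj h)
  have hac' : (mk ε y a) ≠ (mk ε y c) := fun h => hac (hinj h)
  have hbc' : (mk ε y b) ≠ (mk ε y c) := fun h => hbc (hinj h)
  have e1 : ε a ≠ ε b := fun h => hab' (by change (ε a, y a) = (ε b, y b); rw [h, h1])
  have e2 : ε a ≠ ε c := fun h => hac' (by change (ε a, y a) = (ε c, y c); rw [h, h2])
  have e3 : ε b ≠ ε c := fun h => hbc' (by change (ε b, y b) = (ε c, y c); rw [h, ← h1, h2])
  cases hx : ε a <;> cases hy : ε b <;> cases hz : ε c <;> simp_all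

/-- `F` only sees the signs off the paired tokens (for consistent signs). -/
theorem Mbar_agree {w : Fn K (L + 1)} (hw : InjSupp w) (hf : FlipInv w) {R : Finset K}
    {ε ε' : K → Bool} {v : K → Deck L} (h1 : Cons Rᶜ ε v) (h2 : Cons Rᶜ ε' v)
    (h : ∀ c, c ∉ PairTok Rᶜ v → ε c = ε' c) : Mbar R w ε v = Mbar R w ε' v := by
  classical
  unfold Mbar
  refine Ex_congr fun z => ?_
  set y := ow v z R with hy
  -- the flip pattern
  let e : Flips L := fun s => decide (∃ c, c ∈ PairTok Rᶜ v ∧ v c = s ∧ ε c ≠ ε' c)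
  by_cases hbad : ∃ r, r ∈ R ∧ e (z r) = true
  · -- a token of `R` on a flipped site: three tokens there
    obtain ⟨r, hr, hrs⟩ := hbad
    obtain ⟨c, hcP, hcs, -⟩ := of_decide_eq_true hrs
    obtain ⟨hcZ, d, hdZ, hdc, hdv⟩ := mem_PairTok.1 hcP
    have hcR : c ∉ R := by simpa using hcZ
    have hdR : d ∉ R := by simpa using hdZ
    have hrc : r ≠ c := fun h => hcR (h ▸ hr)
    have hrd : r ≠ d := fun h => hdR (h ▸ hr)
    have hyr : y r = z r := by simp [hy, hr]
    have hyc : y c = v c := by simp [hy, hcR]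
    have hyd : y d = v d := by simp [hy, hdR]
    have e1 : y r = y c := by rw [hyr, hyc, hcs]
    have e2 : y r = y d := by rw [hyr, hyd, hdv, hcs]
    rw [eq_zero_of_three hw ε y hrc hrd (Ne.symm hdc) e1 e2,
      eq_zero_of_three hw ε' y hrc hrd (Ne.symm hdc) e1 e2]
  · push Not at hbad
    have hflip : flipTup e (mk ε y) = mk ε' y := by
      funext c
      change (xor (ε c) (e (y c)), y c) = (ε' c, y c)
      congr 1
      by_cases hcR : c ∈ R
      · have hyc : y c = z c := by simp [hy, hcR]
        have he : e (y c) = false := by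
          rw [hyc]
          simpa using hbad c hcR
        have hcP : c ∉ PairTok Rᶜ v := fun hh => by
          have := (mem_PairTok.1 hh).1
          simp [hcR] at this
        rw [he, h c hcP]
        simp
      · have hyc : y c = v c := by simp [hy, hcR]
        have hcZ : c ∈ Rᶜ := by simpa using hcR
        rw [hyc]
        by_cases hcP : c ∈ PairTok Rᶜ v
        · by_cases hne : ε c = ε' c
          · have he : e (v c) = false := by
              apply decide_eq_false
              rintro ⟨d, hdP, hdv, hdne⟩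
              have hdZ := (mem_PairTok.1 hdP).1
              by_cases hdc : d = c
              · exact hdne (hdc ▸ hne)
              · have a1 := h1 d hdZ c hcZ hdc hdv
                have a2 := h2 d hdZ c hcZ hdc hdv
                apply hdne
                cases hx : ε c <;> cases hx' : ε d <;> cases hy1 : ε' c <;> cases hy2 : ε' d <;>
                  simp_all
            rw [he, hne]
            simp
          · have he : e (v c) = true := decide_eq_true ⟨c, hcP, rfl, hne⟩
            rw [he]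
            cases hx : ε c <;> cases hy1 : ε' c <;> simp_all
        · have he : e (v c) = false := by
            apply decide_eq_false
            rintro ⟨d, hdP, hdv, hdne⟩
            have hdZ := (mem_PairTok.1 hdP).1
            by_cases hdc : d = c
            · exact hdne (by rw [hdc]; exact h c hcP)
            · exact hcP (mem_PairTok.2 ⟨hcZ, d, hdZ, hdc, hdv⟩)
          rw [he, h c hcP]
          simp
    rw [← hflip, hf]

/-- The partner involution shows that paired signs cancel. -/
theorem sum_sgn_pairTok {Z : Finset K} {ε : K → Bool} {v : K → Deck L} (h : Cons Z ε v) :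
    ∑ c ∈ PairTok Z v, sgn (ε c) = 0 := by
  classical
  have hex : ∀ c, c ∈ PairTok Z v → ∃ d, d ∈ Z ∧ d ≠ c ∧ v d = v c :=
    fun c hc => (mem_PairTok.1 hc).2
  let g : ∀ a, a ∈ PairTok Z v → K := fun a ha => Classical.choose (hex a ha)
  have hg : ∀ a ha, g a ha ∈ Z ∧ g a ha ≠ a ∧ v (g a ha) = v a :=
    fun a ha => Classical.choose_spec (hex a ha)
  have hmem : ∀ a ha, g a ha ∈ PairTok Z v := by
    intro a ha
    obtain ⟨h1, h2, h3⟩ := hg a ha
    exact mem_PairTok.2 ⟨h1, a, (mem_PairTok.1 ha).1, Ne.symm h2, h3.symm⟩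
  refine Finset.sum_involution g ?_ ?_ hmem ?_
  · intro a ha
    obtain ⟨h1, h2, h3⟩ := hg a ha
    have := h (g a ha) h1 a (mem_PairTok.1 ha).1 h2 h3
    unfold sgn
    cases hx : ε a <;> cases hy : ε (g a ha) <;> simp_all
  · intro a ha _
    exact (hg a ha).2.1
  · intro a ha
    obtain ⟨h1, h2, h3⟩ := hg a ha
    obtain ⟨h4, h5, h6⟩ := hg (g a ha) (hmem a ha)
    by_contra hne
    exact h.noTriple a (mem_PairTok.1 ha).1 (g a ha) h1 _ h4 (Ne.symm h2) (Ne.symm hne) (Ne.symm h5)
      h3.symm (h6.trans h3).symm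

theorem signSum_eq_of_cons {R : Finset K} {ε : K → Bool} {v : K → Deck L} (h : Cons Rᶜ ε v) :
    signSum univ ε = signSum (MSet R v) ε := by
  unfold signSum MSet
  rw [← Finset.sum_add_sum_compl (PairTok Rᶜ v), sum_sgn_pairTok h, zero_add]

/-- The card of the paired tokens. -/
theorem card_pairTok {Z : Finset K} {v : K → Deck L} (h : NoTriple Z v) :
    (PairTok Z v).card = 2 * pcount Z v := by
  classical
  have h1 : Z.card = ∑ s ∈ Z.image v, (Z.filter (fun c => v c = s)).card :=
    Finset.card_eq_sum_card_image v Z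
  have h2 : (PairTok Z v).card = ∑ s ∈ Z.image v, ((PairTok Z v).filter (fun c => v c = s)).card :=
    Finset.card_eq_sum_card_fiberwise (fun c hc => by
      exact Finset.mem_coe.2 (mem_image_of_mem v (mem_PairTok.1 hc).1))
  have h3 : ∀ s ∈ Z.image v, ((PairTok Z v).filter (fun c => v c = s)).card + 2 =
      2 * (Z.filter (fun c => v c = s)).card := by
    intro s hs
    obtain ⟨c, hc, rfl⟩ := mem_image.1 hs
    have hcf : c ∈ Z.filter (fun a => v a = v c) := mem_filter.2 ⟨hc, rfl⟩
    by_cases hd : ∃ d, d ∈ Z ∧ d ≠ c ∧ v d = v c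
    · obtain ⟨d, hdZ, hdc, hdv⟩ := hd
      have hf : Z.filter (fun a => v a = v c) = {c, d} := by
        ext a
        simp only [mem_filter, mem_insert, mem_singleton]
        constructor
        · rintro ⟨haZ, hav⟩
          by_contra hne
          push Not at hne
          exact h c hc d hdZ a haZ (Ne.symm hdc) (Ne.symm hne.1) (Ne.symm hne.2) hdv.symm hav.symm
        · rintro (rfl | rfl)
          · exact ⟨hc, rfl⟩
          · exact ⟨hdZ, hdv⟩
      have hg : (PairTok Z v).filter (fun a => v a = v c) = {c, d} := by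
        ext a
        simp only [mem_filter, mem_insert, mem_singleton, mem_PairTok]
        constructor
        · rintro ⟨⟨haZ, -⟩, hav⟩
          by_contra hne
          push Not at hne
          exact h c hc d hdZ a haZ (Ne.symm hdc) (Ne.symm hne.1) (Ne.symm hne.2) hdv.symm hav.symm
        · rintro (rfl | rfl)
          · exact ⟨⟨hc, d, hdZ, hdc, hdv⟩, rfl⟩
          · exact ⟨⟨hdZ, c, hc, Ne.symm hdc, hdv.symm⟩, hdv⟩
      rw [hf, hg, card_pair (Ne.symm hdc)]
    · have hf : Z.filter (fun a => v a = v c) = {c} := by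
        ext a
        simp only [mem_filter, mem_singleton]
        constructor
        · rintro ⟨haZ, hav⟩
          by_contra hne
          exact hd ⟨a, haZ, hne, hav⟩
        · rintro rfl
          exact ⟨hc, rfl⟩
      have hg : (PairTok Z v).filter (fun a => v a = v c) = ∅ := by
        ext a
        simp only [mem_filter, mem_PairTok, notMem_empty, iff_false, not_and]
        rintro ⟨haZ, b, hbZ, hba, hbv⟩ hav
        by_cases hac : a = c
        · exact hd ⟨b, hbZ, hac ▸ hba, hac ▸ hbv⟩
        · exact hd ⟨a, haZ, hac, hav⟩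
      rw [hf, hg]
      simp
  have hle : (Z.image v).card ≤ Z.card := card_image_le
  have h4 : (PairTok Z v).card + 2 * (Z.image v).card = 2 * Z.card := by
    rw [h2, h1, Finset.mul_sum]
    have h5 : 2 * (Z.image v).card = ∑ _s ∈ Z.image v, 2 := by simp [mul_comm]
    rw [h5, ← Finset.sum_add_distrib]
    exact Finset.sum_congr rfl h3
  unfold pcount
  omega

theorem card_MSet {R : Finset K} {v : K → Deck L} (h : NoTriple Rᶜ v) :
    (MSet R v).card + 2 * pcount Rᶜ v = Fintype.card K := by
  unfold MSet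
  rw [card_compl, card_pairTok h]
  have h1 : (PairTok Rᶜ v).card ≤ Fintype.card K := card_le_univ _
  rw [card_pairTok h] at h1
  omega

theorem pic_pos {Z : Finset K} {v : K → Deck L} (h : NoTriple Z v) : 0 < pic Z v := by
  rw [pic_eq h]
  positivity

/-- The cube step for a fixed `(R, v)`. -/
theorem cube_step {w : Fn K (L + 1)} (hw : InjSupp w) (hf : FlipInv w) (R : Finset K)
    (v : K → Deck L) (κ t : ℝ) (hκ : 0 < κ)
    (B : (K → Bool) → ℝ) (hBdef : B = fun ε => κ * Real.exp (t * signSum (MSet R v) ε ^ 2))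
    (aval : ℝ) (ha : Ex B + VarE B / Ex B ≤ aval) :
    Ex (fun ε : K → Bool => κ * Real.exp (t * signSum univ ε ^ 2) * (Mbar R w ε v) ^ 2)
      ≤ aval * PhiQ w R v + ∑ T ∈ Finset.univ.erase ∅,
        (if T ⊆ MSet R v then
          (2 * Ex B + Real.sqrt (VarE B) * 3 ^ T.card) * (fhat (fun ε => Mbar R w ε v) T) ^ 2 / pic Rᶜ v
         else 0) := by
  classical
  have hBpos : ∀ ε, 0 < B ε := by
    intro ε
    rw [hBdef]
    positivity
  have hB0 : 0 < Ex B := by
    unfold Ex
    apply mul_pos
    · have : (Fintype.card (K → Bool) : ℝ) ≠ 0 := by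
        exact_mod_cast Fintype.card_ne_zero
      positivity
    · apply Finset.sum_pos (fun ε _ => hBpos ε)
      exact Finset.univ_nonempty
  have hVar : 0 ≤ VarE B := Ex_nonneg fun _ => sq_nonneg _
  have hA0 : 0 ≤ Ex B + VarE B / Ex B := by positivity
  have haval : 0 ≤ aval := hA0.trans ha
  have hcoef : ∀ T : Finset K, 0 ≤ 2 * Ex B + Real.sqrt (VarE B) * 3 ^ T.card := by
    intro T
    positivity
  by_cases hcons : ∃ o : K → Bool, Cons Rᶜ o v
  swap
  · -- nothing is consistent
    have hzero : ∀ ε, Mbar R w ε v = 0 := fun ε =>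
      Mbar_eq_zero hw (fun h => hcons ⟨ε, h⟩)
    have hL : Ex (fun ε : K → Bool => κ * Real.exp (t * signSum univ ε ^ 2) * (Mbar R w ε v) ^ 2) = 0 := by
      simp [hzero, Ex]
    rw [hL]
    apply add_nonneg (mul_nonneg haval (PhiQ_nonneg _ _ _))
    apply Finset.sum_nonneg
    intro T _
    split_ifs
    · apply div_nonneg (mul_nonneg (hcoef T) (sq_nonneg _)) (pic_nonneg _ _)
    · exact le_rfl
  obtain ⟨o, ho⟩ := hcons
  have hnt : NoTriple Rᶜ v := ho.noTriple
  have hpi : 0 < pic Rᶜ v := pic_pos hnt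
  set P := PairTok Rᶜ v with hP
  set G : (K → Bool) → ℝ := fun ε => Mbar R w (ow ε o P) v with hG
  have hconsow : ∀ ε : K → Bool, Cons Rᶜ (ow ε o P) v := by
    intro ε c hc d hd hcd hvv
    have hcP : c ∈ P := mem_PairTok.2 ⟨hc, d, hd, Ne.symm hcd, hvv.symm⟩
    have hdP : d ∈ P := mem_PairTok.2 ⟨hd, c, hc, hcd, hvv⟩
    rw [ow_apply_mem hcP, ow_apply_mem hdP]
    exact ho c hc d hd hcd hvv
  have hF : ∀ ε, Mbar R w ε v = G ε * ind (Cons Rᶜ ε v) := by
    intro ε
    by_cases hc : Cons Rᶜ ε v
    · rw [ind_true hc, mul_one]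
      apply Mbar_agree hw hf hc (hconsow ε)
      intro c hcP
      rw [ow_apply_not_mem hcP]
    · rw [ind_false hc, mul_zero, Mbar_eq_zero hw hc]
  have hMem : ∀ c, c ∈ MSet R v ↔ c ∉ P := by
    intro c
    simp [MSet, hP]
  -- dependence on coordinates
  have hGdep : ∀ z z' : K → Bool, (∀ c, c ∉ P → z c = z' c) → G z = G z' := by
    intro z z' h
    simp only [hG]
    congr 1
    funext c
    by_cases hc : c ∈ P
    · simp [hc]
    · simp [hc, h c hc]
  have hCdep : ∀ z z' : K → Bool, (∀ c, c ∈ P → z c = z' c) →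
      ind (Cons Rᶜ z v) = ind (Cons Rᶜ z' v) := by
    intro z z' h
    apply ind_congr
    constructor
    · intro hh c hc d hd hcd hvv
      have hcP : c ∈ P := mem_PairTok.2 ⟨hc, d, hd, Ne.symm hcd, hvv.symm⟩
      have hdP : d ∈ P := mem_PairTok.2 ⟨hd, c, hc, hcd, hvv⟩
      rw [← h c hcP, ← h d hdP]
      exact hh c hc d hd hcd hvv
    · intro hh c hc d hd hcd hvv
      have hcP : c ∈ P := mem_PairTok.2 ⟨hc, d, hd, Ne.symm hcd, hvv.symm⟩
      have hdP : d ∈ P := mem_PairTok.2 ⟨hd, c, hc, hcd, hvv⟩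
      rw [h c hcP, h d hdP]
      exact hh c hc d hd hcd hvv
  have hSdep : ∀ z z' : K → Bool, (∀ c, c ∉ P → z c = z' c) →
      signSum (MSet R v) z = signSum (MSet R v) z' := by
    intro z z' h
    unfold signSum
    refine Finset.sum_congr rfl fun c hc => ?_
    rw [h c ((hMem c).1 hc)]
  -- independence
  have hind : ∀ f : (K → Bool) → ℝ, (∀ z z' : K → Bool, (∀ c, c ∉ P → z c = z' c) → f z = f z') →
      Ex (fun ε => f ε * ind (Cons Rᶜ ε v)) = Ex f * pic Rᶜ v := by
    intro f hdep
    apply Ex_indep Pᶜ f (fun ε => ind (Cons Rᶜ ε v))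
    · intro z z' h
      exact hdep z z' (fun c hc => h c (by simpa using hc))
    · intro z z' h
      exact hCdep z z' (fun c hc => h c (by simpa using hc))
  have hL : Ex (fun ε : K → Bool => κ * Real.exp (t * signSum univ ε ^ 2) * (Mbar R w ε v) ^ 2)
      = Ex (fun ε => B ε * G ε ^ 2) * pic Rᶜ v := by
    rw [← hind (fun ε => B ε * G ε ^ 2)]
    · refine Ex_congr fun ε => ?_
      by_cases hc : Cons Rᶜ ε v
      · rw [hF ε, ind_true hc, mul_one, mul_one, signSum_eq_of_cons hc, hBdef]
      · rw [hF ε, ind_false hc]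
        simp
    · intro z z' h
      simp only [hBdef]
      rw [hSdep z z' h, hGdep z z' h]
  have hGhat : ∀ T, T ⊆ MSet R v →
      fhat (fun ε => Mbar R w ε v) T = fhat G T * pic Rᶜ v := by
    intro T hT
    unfold fhat
    rw [← hind (fun ε => chi T ε * G ε)]
    · refine Ex_congr fun ε => ?_
      change chi T ε * Mbar R w ε v = _
      rw [hF ε]
      ring
    · intro z z' h
      rw [hGdep z z' h]
      congr 1
      unfold chi
      refine Finset.prod_congr rfl fun c hc => ?_
      rw [h c ((hMem c).1 (hT hc))]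
  have hGzero : ∀ T, ¬ T ⊆ MSet R v → fhat G T = 0 := by
    intro T hT
    obtain ⟨c, hcT, hcM⟩ := Finset.not_subset.1 hT
    have hcP : c ∈ P := by
      by_contra hh
      exact hcM ((hMem c).2 hh)
    apply Ex_eq_zero_of_flipOn_neg {c}
    intro ε
    have h1 : G (flipOn {c} ε) = G ε := by
      apply hGdep
      intro a ha
      have : a ≠ c := fun h => ha (h ▸ hcP)
      simp [flipOn, this]
    have h2 : chi T (flipOn {c} ε) = - chi T ε := by
      unfold chi
      rw [← Finset.mul_prod_erase T _ hcT, ← Finset.mul_prod_erase T (fun a => sgn (ε a)) hcT]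
      have h3 : ∏ x ∈ T.erase c, sgn (flipOn {c} ε x) = ∏ x ∈ T.erase c, sgn (ε x) := by
        refine Finset.prod_congr rfl fun a ha => ?_
        have : a ≠ c := (Finset.mem_erase.1 ha).1
        simp [flipOn, this]
      rw [h3]
      have h4 : sgn (flipOn {c} ε c) = - sgn (ε c) := by
        simp only [flipOn, mem_singleton, if_true, sgn]
        cases ε c <;> simp
      rw [h4]
      ring
    rw [h1, h2]
    ring
  have hphi : PhiQ w R v = (fhat (fun ε => Mbar R w ε v) ∅) ^ 2 / pic Rᶜ v := by
    have h1 : fhat (fun ε => Mbar R w ε v) ∅ = phiT w R v * pic Rᶜ v := by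
      unfold fhat chi pic
      simp only [Finset.prod_empty, one_mul]
      rw [← Ex_ow (fun ε => Mbar R w ε v) R, ← Ex_const_mul]
      refine Ex_congr fun ε => ?_
      rw [← MM_mk, phi_eq hw hf]
    rw [PhiQ_eq hw hf, h1]
    field_simp
  have hcube := cube_ineq B G (fun ε => (hBpos ε).le) hB0
  have hempty : (∅ : Finset K) ⊆ MSet R v := Finset.empty_subset _
  rw [hL]
  calc Ex (fun ε => B ε * G ε ^ 2) * pic Rᶜ v
      ≤ ((Ex B + VarE B / Ex B) * fhat G ∅ ^ 2
        + ∑ T ∈ Finset.univ.erase ∅, (2 * Ex B + Real.sqrt (VarE B) * 3 ^ T.card) * fhat G T ^ 2) * pic Rᶜ v :=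
        mul_le_mul_of_nonneg_right hcube hpi.le
    _ = (Ex B + VarE B / Ex B) * PhiQ w R v + ∑ T ∈ Finset.univ.erase ∅,
        (if T ⊆ MSet R v then
          (2 * Ex B + Real.sqrt (VarE B) * 3 ^ T.card) * (fhat (fun ε => Mbar R w ε v) T) ^ 2 / pic Rᶜ v
         else 0) := by
        rw [add_mul, Finset.sum_mul]
        congr 1
        · rw [hphi, hGhat ∅ hempty]
          field_simp
        · refine Finset.sum_congr rfl fun T _ => ?_
          split_ifs with hT
          · rw [hGhat T hT]
            field_simp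
          · rw [hGzero T hT]
            simp
    _ ≤ _ := by
        apply add_le_add_left
        exact mul_le_mul_of_nonneg_right ha (PhiQ_nonneg _ _ _)

end Crest.Agent.Thorp
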