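import Crest.Agent.Lib.Thorp.LowChargeB

/-!
# Charge inequality, part C: the Fourier coefficients of `Mbar`
-/

set_option autoImplicit false

namespace Crest.Agent.Thorp

open Finset

variable {K : Type*} [Fintype K] [DecidableEq K] {L : ℕ}

/-- Each token of `T` has exactly one partner in `T`. -/
def PairUp (T : Finset K) (y : K → Deck L) : Prop :=
  ∀ c ∈ T, ∃! d, d ∈ T ∧ d ≠ c ∧ y d = y c

/-- `T` is a union of pairs of `y` within `Z`. -/
def MatchT (T Z : Finset K) (y : K → Deck L) : Prop :=
  T ⊆ Z ∧ PairUp T y ∧ ∀ c ∈ T, ∀ d ∈ Z, d ≠ c → y d = y c → d ∈ T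

/-- Removing a pair from a `PairUp` set. -/
theorem PairUp.erase_pair {T : Finset K} {y : K → Deck L} (h : PairUp T y) {c d : K} (hc : c ∈ T)
    (hd : d ∈ T) (hdc : d ≠ c) (hy : y d = y c) : PairUp ((T.erase c).erase d) y := by
  intro a ha
  obtain ⟨had, ha'⟩ := mem_erase.1 ha
  obtain ⟨hac, haT⟩ := mem_erase.1 ha'
  obtain ⟨b, ⟨hbT, hba, hby⟩, hbu⟩ := h a haT
  have hcu : ∀ e, e ∈ T → e ≠ c → y e = y c → e = d := by
    intro e he hec hey
    obtain ⟨f, -, hfu⟩ := h c hc
    rw [hfu e ⟨he, hec, hey⟩, hfu d ⟨hd, hdc, hy⟩]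
  refine ⟨b, ⟨?_, hba, hby⟩, fun e he => hbu e ⟨mem_of_mem_erase (mem_of_mem_erase he.1), he.2⟩⟩
  refine mem_erase.2 ⟨?_, mem_erase.2 ⟨?_, hbT⟩⟩
  · intro hbd
    rw [hbd] at hby
    exact had (hcu a haT hac (hby.symm.trans hy))
  · intro hbc
    rw [hbc] at hby
    exact had (hcu a haT hac hby.symm)

/-- The structure of `PairUp` sets: evenness, image, and the character on consistent signs. -/
theorem PairUp.structure {y : K → Deck L} :
    ∀ (n : ℕ) (T : Finset K), T.card = n → PairUp T y →
      2 * (T.image y).card = T.card ∧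
      ∀ ε : K → Bool, Cons T ε y → chi T ε = (-1) ^ (T.card / 2) := by
  intro n
  induction n using Nat.strong_induction_on with
  | _ n ih =>
    intro T hT hp
    by_cases hne : T.Nonempty
    · obtain ⟨c, hc⟩ := hne
      obtain ⟨d, ⟨hd, hdc, hy⟩, -⟩ := hp c hc
      set T' := (T.erase c).erase d with hT'
      have hp' : PairUp T' y := hp.erase_pair hc hd hdc hy
      have hdmem : d ∈ T.erase c := mem_erase.2 ⟨hdc, hd⟩
      have hcard : T.card = T'.card + 2 := by
        rw [hT', card_erase_of_mem hdmem, card_erase_of_mem hc]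
        have h1 : 1 ≤ (T.erase c).card := card_pos.2 ⟨d, hdmem⟩
        have h2 : (T.erase c).card = T.card - 1 := card_erase_of_mem hc
        have h3 : 1 ≤ T.card := card_pos.2 ⟨c, hc⟩
        omega
      obtain ⟨h1, h2⟩ := ih T'.card (by omega) T' rfl hp'
      have hTe : T = insert c (insert d T') := by
        rw [hT', insert_erase hdmem, insert_erase hc]
      have hcT' : c ∉ T' := by
        simp [hT']
      have hdT' : d ∉ T' := by
        simp [hT']
      have hcd : c ∉ insert d T' := by
        simp [Ne.symm hdc, hcT']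
      have himg : y c ∉ T'.image y := by
        intro hh
        obtain ⟨a, ha, hay⟩ := mem_image.1 hh
        have hac : a ≠ c := fun h => hcT' (h ▸ ha)
        have haT : a ∈ T := mem_of_mem_erase (mem_of_mem_erase ha)
        obtain ⟨f, -, hfu⟩ := hp c hc
        have := (hfu a ⟨haT, hac, hay⟩).trans (hfu d ⟨hd, hdc, hy⟩).symm
        exact hdT' (this ▸ ha)
      constructor
      · have himage : T.image y = insert (y c) (T'.image y) := by
          conv_lhs => rw [hTe]
          rw [image_insert, image_insert, hy, insert_idem]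
        rw [himage, card_insert_of_notMem himg]
        omega
      · intro ε hε
        have hε' : Cons T' ε y := fun a ha b hb =>
          hε a (mem_of_mem_erase (mem_of_mem_erase ha)) b (mem_of_mem_erase (mem_of_mem_erase hb))
        have hne : ε d ≠ ε c := hε d hd c hc hdc hy
        have hchi : chi T ε = sgn (ε c) * (sgn (ε d) * chi T' ε) := by
          conv_lhs => rw [hTe]
          unfold chi
          rw [prod_insert hcd, prod_insert hdT']
        have hsg : sgn (ε c) * sgn (ε d) = -1 := by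
          revert hne
          unfold sgn
          cases ε c <;> cases ε d <;> simp
        rw [hchi, ← mul_assoc, hsg, h2 ε hε', hcard]
        have : (T'.card + 2) / 2 = T'.card / 2 + 1 := by omega
        rw [this, pow_succ]
        ring
    · rw [not_nonempty_iff_eq_empty] at hne
      subst hne
      simp [chi]

theorem PairUp.two_mul_card_image {T : Finset K} {y : K → Deck L} (h : PairUp T y) :
    2 * (T.image y).card = T.card :=
  (PairUp.structure _ T rfl h).1

theorem PairUp.even {T : Finset K} {y : K → Deck L} (h : PairUp T y) : Even T.card :=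
  ⟨(T.image y).card, by have := h.two_mul_card_image; omega⟩

theorem PairUp.chi_eq {T : Finset K} {y : K → Deck L} (h : PairUp T y) {ε : K → Bool}
    (hε : Cons T ε y) : chi T ε = (-1) ^ (T.card / 2) :=
  (PairUp.structure _ T rfl h).2 ε hε

/-- Flipping changes the character by a sign. -/
theorem chi_flipOn (T C : Finset K) (ε : K → Bool) :
    chi T (flipOn C ε) = (-1) ^ (T ∩ C).card * chi T ε := by
  unfold chi
  have h : ∀ c, sgn (flipOn C ε c) = (if c ∈ C then -1 else 1) * sgn (ε c) := by
    intro c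
    by_cases hc : c ∈ C
    · simp only [flipOn, hc, if_true, sgn]
      cases ε c <;> simp
    · simp [flipOn, hc]
  simp only [h]
  rw [prod_mul_distrib]
  congr 1
  rw [prod_ite, prod_const_one, mul_one, prod_const]
  congr 2

/-- Flipping a set that respects pairs keeps consistency. -/
theorem cons_flipOn {Z C : Finset K} {y : K → Deck L}
    (hC : ∀ a ∈ Z, ∀ b ∈ Z, a ≠ b → y a = y b → (a ∈ C ↔ b ∈ C)) (ε : K → Bool) :
    Cons Z (flipOn C ε) y ↔ Cons Z ε y := by
  have key : ∀ ε : K → Bool, Cons Z ε y → Cons Z (flipOn C ε) y := by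
    intro ε h a ha b hb hab hv
    have := h a ha b hb hab hv
    have hiff := hC a ha b hb hab hv
    by_cases hm : a ∈ C
    · have hm' := hiff.1 hm
      simp only [flipOn, hm, hm', if_true]
      cases hx : ε a <;> cases hx' : ε b <;> simp_all
    · have hm' : b ∉ C := fun h => hm (hiff.2 h)
      simpa [flipOn, hm, hm'] using this
  refine ⟨fun h => ?_, key ε⟩
  have := key _ h
  rwa [flipOn_flipOn] at this

/-- Vanishing of the Fourier coefficient of consistency. -/
theorem Ex_chi_cons_eq_zero_of_flip {T Z C : Finset K} {y : K → Deck L}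
    (hC : ∀ a ∈ Z, ∀ b ∈ Z, a ≠ b → y a = y b → (a ∈ C ↔ b ∈ C)) (h1 : (T ∩ C).card = 1) :
    Ex (fun ε : K → Bool => chi T ε * ind (Cons Z ε y)) = 0 := by
  apply Ex_eq_zero_of_flipOn_neg C
  intro ε
  rw [chi_flipOn, h1, ind_congr (cons_flipOn hC ε)]
  ring

theorem Ex_chi_cons_zero {T Z : Finset K} {y : K → Deck L} (hnt : NoTriple Z y)
    (h : ¬ MatchT T Z y) : Ex (fun ε : K → Bool => chi T ε * ind (Cons Z ε y)) = 0 := by
  by_cases hsub : T ⊆ Z
  swap
  · obtain ⟨c, hcT, hcZ⟩ := not_subset.1 hsub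
    apply Ex_chi_cons_eq_zero_of_flip (C := {c})
    · intro a ha b hb _ _
      have hac : a ≠ c := fun h => hcZ (h ▸ ha)
      have hbc : b ≠ c := fun h => hcZ (h ▸ hb)
      simp [hac, hbc]
    · rw [inter_singleton_of_mem hcT]
      simp
  by_cases hout : ∃ c ∈ T, ∃ d ∈ Z, d ≠ c ∧ y d = y c ∧ d ∉ T
  · obtain ⟨c, hcT, d, hdZ, hdc, hy, hdT⟩ := hout
    apply Ex_chi_cons_eq_zero_of_flip (C := {c, d})
    · intro a ha b hb hab hv
      simp only [mem_insert, mem_singleton]
      have hcZ := hsub hcT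
      constructor
      · rintro (rfl | rfl)
        · by_contra hne
          push Not at hne
          exact hnt a ha d hdZ b hb (Ne.symm hdc) hab (Ne.symm hne.2) hy.symm hv
        · by_contra hne
          push Not at hne
          exact hnt a ha c hcZ b hb hdc hab (Ne.symm hne.1) hy hv
      · rintro (rfl | rfl)
        · by_contra hne
          push Not at hne
          exact hnt b hb d hdZ a ha (Ne.symm hdc) (Ne.symm hab) (Ne.symm hne.2) hy.symm hv.symm
        · by_contra hne
          push Not at hne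
          exact hnt b hb c hcZ a ha hdc (Ne.symm hab) (Ne.symm hne.1) hy hv.symm
    · have : T ∩ {c, d} = {c} := by
        ext a
        simp only [mem_inter, mem_insert, mem_singleton]
        constructor
        · rintro ⟨ha, rfl | rfl⟩
          · rfl
          · exact absurd ha hdT
        · rintro rfl
          exact ⟨hcT, Or.inl rfl⟩
      rw [this]
      simp
  · push Not at hout
    -- all partners in `Z` lie in `T`; so `PairUp` must fail
    have hnp : ¬ PairUp T y := fun hp => h ⟨hsub, hp, fun c hc d hd hdc hy => hout c hc d hd hdc hy⟩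
    unfold PairUp at hnp
    push Not at hnp
    obtain ⟨c, hcT, hc⟩ := hnp
    by_cases hex : ∃ d, d ∈ T ∧ d ≠ c ∧ y d = y c
    · exfalso
      obtain ⟨d, hd⟩ := hex
      apply hc
      refine ⟨d, hd, fun e he => ?_⟩
      by_contra hed
      exact hnt c (hsub hcT) d (hsub hd.1) e (hsub he.1) (Ne.symm hd.2.1) (Ne.symm he.2.1)
        (Ne.symm hed) hd.2.2.symm he.2.2.symm
    · apply Ex_chi_cons_eq_zero_of_flip (C := {c})
      · intro a ha b hb hab hv
        simp only [mem_singleton]
        constructor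
        · rintro rfl
          exact absurd ⟨b, hout a hcT b hb (Ne.symm hab) hv.symm, Ne.symm hab, hv.symm⟩ hex
        · rintro rfl
          exact absurd ⟨a, hout b hcT a ha hab hv, hab, hv⟩ hex
      · rw [inter_singleton_of_mem hcT]
        simp

theorem Ex_chi_cons_match {T Z : Finset K} {y : K → Deck L} (h : MatchT T Z y) :
    Ex (fun ε : K → Bool => chi T ε * ind (Cons Z ε y)) = (-1) ^ (T.card / 2) * pic Z y := by
  unfold pic
  rw [← Ex_const_mul]
  refine Ex_congr fun ε => ?_
  by_cases hc : Cons Z ε y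
  · have hcT : Cons T ε y := fun a ha b hb => hc a (h.1 ha) b (h.1 hb)
    rw [h.2.1.chi_eq hcT]
  · simp [hc]

/-- The identity `ow (ow v z U) z' Y = ow v (ow z z' Y) R`. -/
theorem ow_ow_inter_sdiff {α : Type*} (v z z' : K → α) (R T : Finset K) :
    ow (ow v z (R ∩ T)) z' (R \ T) = ow v (ow z z' (R \ T)) R := by
  funext c
  by_cases h1 : c ∈ R <;> by_cases h2 : c ∈ T <;> simp [ow, h1, h2]

/-- `χ_T` does not see the coordinates of `R \ T`. -/
theorem chi_ow_sdiff (T R : Finset K) (ε η : K → Bool) : chi T (ow ε η (R \ T)) = chi T ε := by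
  unfold chi
  refine prod_congr rfl fun c hc => ?_
  simp [ow, hc]

/-- The main formula for the Fourier coefficient of `F = Mbar R w · v`. -/
theorem fhat_Mbar {w : Fn K (L + 1)} (hw : InjSupp w) (hf : FlipInv w) (R T : Finset K)
    (v : K → Deck L) :
    fhat (fun ε => Mbar R w ε v) T = (-1) ^ (T.card / 2) *
      Ex (fun z : K → Deck L => phiT w (R \ T) (ow v z (R ∩ T)) * pic (R \ T)ᶜ (ow v z (R ∩ T)) *
        ind (MatchT T (R \ T)ᶜ (ow v z (R ∩ T)))) := by
  -- Step 1: integrate out `R \ T`
  have h1 : fhat (fun ε => Mbar R w ε v) T = Ex (fun z : K → Deck L => Ex (fun ε : K → Bool =>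
      chi T ε * MM (L + 1) (R \ T) w (mk ε (ow v z (R ∩ T))))) := by
    unfold fhat
    have h2 : ∀ (z : K → Deck L),
        Ex (fun ε : K → Bool => chi T ε * MM (L + 1) (R \ T) w (mk ε (ow v z (R ∩ T))))
          = Ex (fun ε : K → Bool => chi T ε * Mbar (R \ T) w ε (ow v z (R ∩ T))) := by
      intro z
      simp only [MM_mk]
      simp only [← Ex_const_mul]
      have := Ex_ow (fun ε : K → Bool => chi T ε * Mbar (R \ T) w ε (ow v z (R ∩ T))) (R \ T)
      rw [← this]
      refine Ex_congr fun ε => Ex_congr fun η => ?_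
      rw [chi_ow_sdiff]
    simp only [h2]
    rw [Ex_comm]
    refine Ex_congr fun ε => ?_
    rw [Ex_const_mul]
    congr 1
    unfold Mbar
    simp only [ow_ow_inter_sdiff]
    exact (Ex_ow (fun z : K → Deck L => w (mk ε (ow v z R))) (R \ T)).symm
  rw [h1, ← Ex_const_mul]
  refine Ex_congr fun z => ?_
  set y := ow v z (R ∩ T) with hy
  have h3 : Ex (fun ε : K → Bool => chi T ε * MM (L + 1) (R \ T) w (mk ε y))
      = phiT w (R \ T) y * Ex (fun ε : K → Bool => chi T ε * ind (Cons (R \ T)ᶜ ε y)) := by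
    rw [← Ex_const_mul]
    refine Ex_congr fun ε => ?_
    rw [phi_eq hw hf]
    ring
  rw [h3]
  by_cases hnt : NoTriple (R \ T)ᶜ y
  · by_cases hm : MatchT T (R \ T)ᶜ y
    · rw [Ex_chi_cons_match hm, ind_true hm]
      ring
    · rw [Ex_chi_cons_zero hnt hm, ind_false hm]
      ring
  · rw [phiT_eq_zero_of_triple hnt]
    ring

/-! ### The relation of the two consistency probabilities -/

/-- The key count: `pcount` of `(R \ T)ᶜ` under `y` exceeds that of `Rᶜ` under `v` by `p`. -/
theorem pcount_relation {R T : Finset K} {v y : K → Deck L} (hT : T ⊆ MSet R v)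
    (hyv : ∀ c, c ∉ R → y c = v c) (hm : MatchT T (R \ T)ᶜ y) :
    pcount (R \ T)ᶜ y = pcount Rᶜ v + T.card / 2 := by
  classical
  set A := Rᶜ \ T with hA
  set B := T \ R with hB
  have hZ : (R \ T)ᶜ = A ∪ T := by
    ext c
    by_cases h1 : c ∈ R <;> by_cases h2 : c ∈ T <;> simp [hA, h1, h2]
  have hR : Rᶜ = A ∪ B := by
    ext c
    by_cases h1 : c ∈ R <;> by_cases h2 : c ∈ T <;> simp [hA, hB, h1, h2]
  have hAT : Disjoint A T := by
    simp [hA, Finset.disjoint_left]
  have hAB : Disjoint A B := by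
    simp [hA, hB, Finset.disjoint_left]
    tauto
  have hAy : A.image y = A.image v := by
    apply Finset.image_congr
    intro c hc
    have : c ∉ R := by
      have := (mem_sdiff.1 hc).1
      simpa using this
    exact hyv c this
  -- images over `(R\T)ᶜ`
  have hdisj1 : Disjoint (A.image y) (T.image y) := by
    rw [Finset.disjoint_left]
    intro s hs hs'
    obtain ⟨a, ha, rfl⟩ := mem_image.1 hs
    obtain ⟨c, hc, hcs⟩ := mem_image.1 hs'
    have haZ : a ∈ (R \ T)ᶜ := by rw [hZ]; exact mem_union_left _ ha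
    have hac : a ≠ c := fun h => (Finset.disjoint_left.1 hAT ha) (h ▸ hc)
    exact (Finset.disjoint_left.1 hAT ha) (hm.2.2 c hc a haZ hac hcs.symm)
  have himg1 : ((R \ T)ᶜ.image y).card = (A.image v).card + (T.image y).card := by
    rw [hZ, image_union, card_union_of_disjoint hdisj1, hAy]
  -- images over `Rᶜ`
  have hBsingle : ∀ c ∈ B, ∀ d ∈ Rᶜ, d ≠ c → v d ≠ v c := by
    intro c hc d hd hdc hv
    have hcT : c ∈ T := (mem_sdiff.1 hc).1
    have hcR : c ∉ R := (mem_sdiff.1 hc).2
    have hcM := hT hcT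
    simp only [MSet, mem_compl] at hcM
    exact hcM (mem_PairTok.2 ⟨by simpa using hcR, d, hd, hdc, hv⟩)
  have hdisj2 : Disjoint (A.image v) (B.image v) := by
    rw [Finset.disjoint_left]
    intro s hs hs'
    obtain ⟨a, ha, rfl⟩ := mem_image.1 hs
    obtain ⟨c, hc, hcs⟩ := mem_image.1 hs'
    have haZ : a ∈ Rᶜ := (mem_sdiff.1 ha).1
    have hac : a ≠ c := fun h => (Finset.disjoint_left.1 hAB ha) (h ▸ hc)
    exact hBsingle c hc a haZ hac hcs.symm
  have hBinj : (B.image v).card = B.card := by
    apply card_image_of_injOn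
    intro a ha b hb hab
    by_contra hne
    have hbR : b ∈ Rᶜ := by
      have : b ∉ R := (mem_sdiff.1 (mem_coe.1 hb)).2
      simpa using this
    exact hBsingle a (mem_coe.1 ha) b hbR (Ne.symm hne) hab.symm
  have himg2 : (Rᶜ.image v).card = (A.image v).card + B.card := by
    rw [hR, image_union, card_union_of_disjoint hdisj2, hBinj]
  have hc1 : (R \ T)ᶜ.card = A.card + T.card := by
    rw [hZ, card_union_of_disjoint hAT]
  have hc2 : Rᶜ.card = A.card + B.card := by
    rw [hR, card_union_of_disjoint hAB]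
  have hT2 := hm.2.1.two_mul_card_image
  have hle : (A.image v).card ≤ A.card := card_image_le
  unfold pcount
  omega

theorem noTriple_of_relation {R T : Finset K} {v y : K → Deck L} (hT : T ⊆ MSet R v)
    (hyv : ∀ c, c ∉ R → y c = v c) (hnt : NoTriple (R \ T)ᶜ y) : NoTriple Rᶜ v := by
  intro a ha b hb c hc hab hac hbc h1 h2
  have hnP : ∀ d, d ∈ Rᶜ → ∀ e ∈ Rᶜ, d ≠ e → v d = v e → d ∉ T := by
    intro d hd e he hde hv hdT
    have := hT hdT
    simp only [MSet, mem_compl] at this
    exact this (mem_PairTok.2 ⟨hd, e, he, Ne.symm hde, hv.symm⟩)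
  have haT := hnP a ha b hb hab h1
  have hbT := hnP b hb a ha (Ne.symm hab) h1.symm
  have hcT := hnP c hc a ha (Ne.symm hac) h2.symm
  have haR : a ∉ R := by simpa using ha
  have hbR : b ∉ R := by simpa using hb
  have hcR : c ∉ R := by simpa using hc
  have mem : ∀ d, d ∉ R → d ∈ (R \ T)ᶜ := by
    intro d hd
    simp [hd]
  exact hnt a (mem a haR) b (mem b hbR) c (mem c hcR) hab hac hbc
    (by rw [hyv a haR, hyv b hbR]; exact h1) (by rw [hyv a haR, hyv c hcR]; exact h2)

/-! ### Probability of matching -/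

/-- The number of perfect matchings of `2p` points. -/
def pairCount : ℕ → ℕ
  | 0 => 1
  | p + 1 => (2 * p + 1) * pairCount p

theorem two_mul_pairCount_le (p : ℕ) : 2 * pairCount (p + 1) ≤ 2 ^ (p + 1) * (p + 1).factorial := by
  induction p with
  | zero => simp [pairCount]
  | succ n ih =>
    have h1 : pairCount (n + 1 + 1) = (2 * (n + 1) + 1) * pairCount (n + 1) := rfl
    have h2 : (n + 1 + 1).factorial = (n + 2) * (n + 1).factorial := Nat.factorial_succ _
    rw [h1, h2, pow_succ 2 (n + 1)]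
    nlinarith [ih, Nat.zero_le (pairCount (n + 1)), Nat.zero_le (2 ^ (n + 1) * (n + 1).factorial)]

/-- A coordinate of a uniform tuple is uniform. -/
theorem Ex_coord {α : Type*} [Fintype α] [Nonempty α] (c : K) (h : α → ℝ) :
    Ex (fun z : K → α => h (z c)) = Ex h := by
  have := Ex_ow (fun z : K → α => h (z c)) {c}
  rw [← this]
  have h2 : ∀ z z' : K → α, h (ow z z' {c} c) = h (z' c) := by
    intro z z'
    simp
  simp only [h2]
  have h3 : ∀ z : K → α, Ex (fun z' : K → α => h (z' c)) = Ex (fun z' : K → α => h (z' c)) := fun _ => rfl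
  simp only [Ex_const]
  -- reduce to the splitting of the coordinate `c`
  let e : (K → α) ≃ α × ({j // j ≠ c} → α) := Equiv.funSplitAt c α
  have h4 := Ex_equiv e.symm (fun z : K → α => h (z c))
  rw [← h4, Ex_prod]
  have h5 : ∀ (a : α) (b : {j // j ≠ c} → α), h ((e.symm (a, b)) c) = h a := by
    intro a b
    simp [e, Equiv.funSplitAt, Equiv.piSplitAt]
  simp only [h5]
  simp only [Ex_const]

theorem Ex_ind_coord_eq (c : K) (s : Deck L) :
    Ex (fun z : K → Deck L => ind (z c = s)) = ((2 : ℝ) ^ L)⁻¹ := by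
  rw [Ex_coord c (fun a => ind (a = s))]
  unfold Ex
  rw [card_deck]
  have : ∑ a : Deck L, ind (a = s) = 1 := by
    rw [Finset.sum_eq_single s]
    · simp
    · intro b _ hb
      simp [hb]
    · simp
  rw [this]
  simp

theorem Ex_ind_coord_eq2 {c d : K} (hcd : c ≠ d) :
    Ex (fun z : K → Deck L => ind (z c = z d)) = ((2 : ℝ) ^ L)⁻¹ := by
  rw [← Ex_ow (fun z : K → Deck L => ind (z c = z d)) {c}]
  have h1 : ∀ z z' : K → Deck L, ind (ow z z' {c} c = ow z z' {c} d) = ind (z' c = z d) := by
    intro z z'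
    simp [hcd.symm]
  simp only [h1]
  simp only [Ex_ind_coord_eq]
  exact Ex_const _

/-- `PairUp` only depends on the coordinates in `T`. -/
theorem PairUp_congr {T : Finset K} {y y' : K → Deck L} (h : ∀ c ∈ T, y c = y' c) :
    PairUp T y ↔ PairUp T y' := by
  have key : ∀ {y y' : K → Deck L}, (∀ c ∈ T, y c = y' c) → PairUp T y → PairUp T y' := by
    intro y y' h hp c hc
    obtain ⟨d, ⟨hd, hdc, hv⟩, hu⟩ := hp c hc
    refine ⟨d, ⟨hd, hdc, by rw [← h d hd, ← h c hc]; exact hv⟩, fun e he => ?_⟩
    exact hu e ⟨he.1, he.2.1, by rw [h e he.1, h c hc]; exact he.2.2⟩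
  exact ⟨key h, key fun c hc => (h c hc).symm⟩

/-- The probability that a random placement of the tokens `U` pairs up `T`. -/
theorem prob_pairUp (v : K → Deck L) :
    ∀ (n : ℕ) (T U : Finset K), T.card = n → U ⊆ T → Set.InjOn v (T \ U : Finset K) →
      Ex (fun z : K → Deck L => ind (PairUp T (ow v z U)))
        ≤ (pairCount (T.card / 2) : ℝ) * (((2 : ℝ) ^ L)⁻¹) ^ (T.card / 2) := by
  intro n
  induction n using Nat.strong_induction_on with
  | _ n ih =>
    intro T U hTn hUT hinj
    by_cases hev : Even T.card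
    swap
    · have : ∀ z : K → Deck L, ind (PairUp T (ow v z U)) = 0 := fun z =>
        ind_false (fun h => hev h.even)
      simp only [this]
      have h0 : Ex (fun _ : K → Deck L => (0 : ℝ)) = 0 := Ex_const 0
      rw [h0]
      positivity
    by_cases hne : T.Nonempty
    swap
    · rw [not_nonempty_iff_eq_empty] at hne
      subst hne
      have h1 : ∀ z : K → Deck L, ind (PairUp (∅ : Finset K) (ow v z U)) = 1 := fun z =>
        ind_true (fun c hc => by simp at hc)
      simp only [h1]
      have h0 : Ex (fun _ : K → Deck L => (1 : ℝ)) = 1 := Ex_const 1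
      rw [h0]
      simp [pairCount]
    obtain ⟨c, hc⟩ := hne
    obtain ⟨p, hp⟩ := hev
    have hp1 : 1 ≤ p := by
      have : 1 ≤ T.card := card_pos.2 ⟨c, hc⟩
      omega
    obtain ⟨q, rfl⟩ : ∃ q, p = q + 1 := ⟨p - 1, by omega⟩
    have hcard2 : T.card / 2 = q + 1 := by omega
    -- pointwise bound
    have hpt : ∀ z : K → Deck L, ind (PairUp T (ow v z U)) ≤
        ∑ d ∈ T.erase c, ind (ow v z U c = ow v z U d) *
          ind (PairUp ((T.erase c).erase d) (ow v z U)) := by
      intro z
      by_cases hP : PairUp T (ow v z U)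
      · obtain ⟨d, ⟨hd, hdc, hy⟩, -⟩ := hP c hc
        have hdm : d ∈ T.erase c := mem_erase.2 ⟨hdc, hd⟩
        have h1 : ind (ow v z U c = ow v z U d) * ind (PairUp ((T.erase c).erase d) (ow v z U)) = 1 := by
          rw [ind_true hy.symm, ind_true (hP.erase_pair hc hd hdc hy), one_mul]
        rw [ind_true hP, ← Finset.add_sum_erase _ _ hdm, h1]
        have : 0 ≤ ∑ x ∈ (T.erase c).erase d, ind (ow v z U c = ow v z U x) *
            ind (PairUp ((T.erase c).erase x) (ow v z U)) :=
          Finset.sum_nonneg fun x _ => mul_nonneg (ind_nonneg _) (ind_nonneg _)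
        linarith
      · rw [ind_false hP]
        exact Finset.sum_nonneg fun x _ => mul_nonneg (ind_nonneg _) (ind_nonneg _)
    -- each summand
    have hterm : ∀ d ∈ T.erase c, Ex (fun z : K → Deck L => ind (ow v z U c = ow v z U d) *
          ind (PairUp ((T.erase c).erase d) (ow v z U)))
        ≤ ((2 : ℝ) ^ L)⁻¹ * ((pairCount q : ℝ) * (((2 : ℝ) ^ L)⁻¹) ^ q) := by
      intro d hd
      obtain ⟨hdc, hdT⟩ := mem_erase.1 hd
      set T' := (T.erase c).erase d with hT'
      set U' := U ∩ T' with hU'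
      have hcardT' : T'.card = 2 * q := by
        rw [hT', card_erase_of_mem hd, card_erase_of_mem hc]
        omega
      have hq2 : T'.card / 2 = q := by omega
      have hT'sub : T' ⊆ T := fun a ha => mem_of_mem_erase (mem_of_mem_erase ha)
      have hih := ih T'.card (by omega) T' U' rfl inter_subset_right (by
        intro a ha b hb hab
        have ha' := mem_coe.1 ha
        have hb' := mem_coe.1 hb
        simp only [hU', mem_sdiff, mem_inter, not_and] at ha' hb'
        apply hinj _ _ hab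
        · exact mem_coe.2 (mem_sdiff.2 ⟨hT'sub ha'.1, fun h => ha'.2 h ha'.1⟩)
        · exact mem_coe.2 (mem_sdiff.2 ⟨hT'sub hb'.1, fun h => hb'.2 h hb'.1⟩))
      rw [hq2] at hih
      have hsame : ∀ z : K → Deck L, ind (PairUp T' (ow v z U)) = ind (PairUp T' (ow v z U')) := by
        intro z
        apply ind_congr
        apply PairUp_congr
        intro a ha
        simp only [ow, hU', mem_inter, ha, and_true]
      have hindep : Ex (fun z : K → Deck L => ind (ow v z U c = ow v z U d) *
          ind (PairUp T' (ow v z U))) = Ex (fun z : K → Deck L => ind (ow v z U c = ow v z U d)) *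
          Ex (fun z : K → Deck L => ind (PairUp T' (ow v z U))) := by
        apply Ex_indep ({c, d} : Finset K)
        · intro z z' h
          have hc' := h c (by simp)
          have hd' := h d (by simp)
          apply ind_congr
          simp only [ow, hc', hd']
        · intro z z' h
          apply ind_congr
          apply PairUp_congr
          intro a ha
          have ha1 : a ≠ d := (mem_erase.1 ha).1
          have ha2 : a ≠ c := (mem_erase.1 (mem_of_mem_erase ha)).1
          have := h a (by simp [ha1, ha2])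
          simp only [ow, this]
      rw [hindep]
      have hE2 : Ex (fun z : K → Deck L => ind (PairUp T' (ow v z U)))
          ≤ (pairCount q : ℝ) * (((2 : ℝ) ^ L)⁻¹) ^ q := by
        simp only [hsame]
        exact hih
      have hE1 : Ex (fun z : K → Deck L => ind (ow v z U c = ow v z U d)) ≤ ((2 : ℝ) ^ L)⁻¹ := by
        by_cases hcU : c ∈ U <;> by_cases hdU : d ∈ U
        · simp only [ow, hcU, hdU, if_true]
          exact (Ex_ind_coord_eq2 (Ne.symm hdc)).le
        · simp only [ow, hcU, hdU, if_true, if_false]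
          exact (Ex_ind_coord_eq c (v d)).le
        · simp only [ow, hcU, hdU, if_true, if_false]
          have : ∀ z : K → Deck L, ind (v c = z d) = ind (z d = v c) := fun z =>
            ind_congr eq_comm
          simp only [this]
          exact (Ex_ind_coord_eq d (v c)).le
        · simp only [ow, hcU, hdU, if_false]
          have hne : v c ≠ v d := by
            intro hv
            have := hinj (mem_coe.2 (mem_sdiff.2 ⟨hc, hcU⟩)) (mem_coe.2 (mem_sdiff.2 ⟨hdT, hdU⟩)) hv
            exact hdc this.symm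
          have h0 : Ex (fun _ : K → Deck L => ind (v c = v d)) = 0 := by
            rw [ind_false hne]
            exact Ex_const 0
          rw [h0]
          positivity
      have hE2nn : 0 ≤ Ex (fun z : K → Deck L => ind (PairUp T' (ow v z U))) :=
        Ex_nonneg fun _ => ind_nonneg _
      calc _ ≤ ((2 : ℝ) ^ L)⁻¹ * Ex (fun z : K → Deck L => ind (PairUp T' (ow v z U))) :=
            mul_le_mul_of_nonneg_right hE1 hE2nn
        _ ≤ _ := mul_le_mul_of_nonneg_left hE2 (by positivity)
    calc Ex (fun z : K → Deck L => ind (PairUp T (ow v z U)))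
        ≤ Ex (fun z : K → Deck L => ∑ d ∈ T.erase c, ind (ow v z U c = ow v z U d) *
          ind (PairUp ((T.erase c).erase d) (ow v z U))) := Ex_mono hpt
      _ = ∑ d ∈ T.erase c, Ex (fun z : K → Deck L => ind (ow v z U c = ow v z U d) *
          ind (PairUp ((T.erase c).erase d) (ow v z U))) := Ex_sum _ _
      _ ≤ ∑ _d ∈ T.erase c, ((2 : ℝ) ^ L)⁻¹ * ((pairCount q : ℝ) * (((2 : ℝ) ^ L)⁻¹) ^ q) :=
          Finset.sum_le_sum hterm
      _ = _ := by
          rw [sum_const, card_erase_of_mem hc, hcard2, nsmul_eq_mul]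
          have h3 : T.card - 1 = 2 * q + 1 := by omega
          rw [h3]
          have h4 : pairCount (q + 1) = (2 * q + 1) * pairCount q := rfl
          rw [h4]
          push_cast
          ring

/-- Cauchy-Schwarz for `Ex`. -/
theorem Ex_mul_sq_le {α : Type*} [Fintype α] (f g : α → ℝ) :
    (Ex (fun a => f a * g a)) ^ 2 ≤ Ex (fun a => f a ^ 2) * Ex (fun a => g a ^ 2) := by
  unfold Ex
  have h := Finset.sum_mul_sq_le_sq_mul_sq Finset.univ f g
  have hn : 0 ≤ (Fintype.card α : ℝ)⁻¹ := by positivity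
  calc _ = ((Fintype.card α : ℝ)⁻¹) ^ 2 * (∑ a, f a * g a) ^ 2 := by ring
    _ ≤ ((Fintype.card α : ℝ)⁻¹) ^ 2 * ((∑ a, f a ^ 2) * (∑ a, g a ^ 2)) :=
        mul_le_mul_of_nonneg_left h (by positivity)
    _ = _ := by ring

/-- The bound on a Fourier coefficient charged to a smaller averaging set. -/
theorem fhat_bound {w : Fn K (L + 1)} (hw : InjSupp w) (hf : FlipInv w) (R T : Finset K)
    (v : K → Deck L) (hT : T ⊆ MSet R v) :
    (fhat (fun ε => Mbar R w ε v) T) ^ 2 / pic Rᶜ v ≤
      (pairCount (T.card / 2) : ℝ) * (((2 : ℝ) ^ L)⁻¹) ^ (T.card / 2) * (1 / 2) ^ (T.card / 2) *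
        Ex (fun z : K → Deck L => PhiQ w (R \ T) (ow v z (R ∩ T)) *
          ind (MatchT T (R \ T)ᶜ (ow v z (R ∩ T)) ∧ Set.InjOn (ow v z (R ∩ T)) (T \ R : Finset K))) := by
  classical
  set p := T.card / 2 with hp
  have hnnR : 0 ≤ (pairCount p : ℝ) * (((2 : ℝ) ^ L)⁻¹) ^ p * (1 / 2) ^ p := by positivity
  have hRnn : 0 ≤ Ex (fun z : K → Deck L => PhiQ w (R \ T) (ow v z (R ∩ T)) *
      ind (MatchT T (R \ T)ᶜ (ow v z (R ∩ T)) ∧ Set.InjOn (ow v z (R ∩ T)) (T \ R : Finset K))) :=
    Ex_nonneg fun _ => mul_nonneg (PhiQ_nonneg _ _ _) (ind_nonneg _)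
  by_cases hnt : NoTriple Rᶜ v
  swap
  · have h0 : pic Rᶜ v = 0 := by
      unfold pic
      have : ∀ ε : K → Bool, ind (Cons Rᶜ ε v) = 0 := fun ε =>
        ind_false fun h => hnt h.noTriple
      simp only [this]
      exact Ex_const 0
    rw [h0, div_zero]
    exact mul_nonneg hnnR hRnn
  have hpos := pic_pos hnt
  have hyv : ∀ (z : K → Deck L) c, c ∉ R → ow v z (R ∩ T) c = v c := by
    intro z c hc
    have : c ∉ R ∩ T := fun h => hc (mem_inter.1 h).1
    simp [this]
  have hinj : Set.InjOn v (T \ (R ∩ T) : Finset K) := by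
    intro a ha b hb hab
    have ha' := mem_sdiff.1 (mem_coe.1 ha)
    have hb' := mem_sdiff.1 (mem_coe.1 hb)
    have haR : a ∉ R := fun h => ha'.2 (mem_inter.2 ⟨h, ha'.1⟩)
    have hbR : b ∉ R := fun h => hb'.2 (mem_inter.2 ⟨h, hb'.1⟩)
    by_contra hne
    have haM := hT ha'.1
    simp only [MSet, mem_compl] at haM
    exact haM (mem_PairTok.2 ⟨by simpa using haR, b, by simpa using hbR, Ne.symm hne, hab.symm⟩)
  -- Cauchy-Schwarz
  rw [fhat_Mbar hw hf]
  set M : (K → Deck L) → Prop := fun z => MatchT T (R \ T)ᶜ (ow v z (R ∩ T)) with hM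
  set a : (K → Deck L) → ℝ := fun z => phiT w (R \ T) (ow v z (R ∩ T)) * pic (R \ T)ᶜ (ow v z (R ∩ T))
    with ha
  have hCS : (Ex (fun z => a z * ind (M z))) ^ 2 ≤
      Ex (fun z => ind (M z)) * Ex (fun z => a z ^ 2 * ind (M z)) := by
    have := Ex_mul_sq_le (fun z => ind (M z)) (fun z => a z * ind (M z))
    simp only [mul_pow, ind_sq] at this
    have h2 : (fun z => ind (M z) * (a z * ind (M z))) = fun z => a z * ind (M z) := by
      funext z
      by_cases h : M z <;> simp [h]
    rw [h2] at this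
    exact this
  have hPM : Ex (fun z => ind (M z)) ≤ (pairCount p : ℝ) * (((2 : ℝ) ^ L)⁻¹) ^ p := by
    calc Ex (fun z => ind (M z)) ≤ Ex (fun z : K → Deck L => ind (PairUp T (ow v z (R ∩ T)))) := by
          apply Ex_mono
          intro z
          by_cases h : M z
          · rw [ind_true h, ind_true h.2.1]
          · rw [ind_false h]
            exact ind_nonneg _
      _ ≤ _ := prob_pairUp v _ T (R ∩ T) rfl inter_subset_right hinj
  have hterm : ∀ z, a z ^ 2 * ind (M z) ≤ (1 / 2) ^ p * pic Rᶜ v *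
      (PhiQ w (R \ T) (ow v z (R ∩ T)) *
        ind (M z ∧ Set.InjOn (ow v z (R ∩ T)) (T \ R : Finset K))) := by
    intro z
    by_cases hMz : M z
    swap
    · rw [ind_false hMz, mul_zero, ind_false (fun h => hMz h.1), mul_zero, mul_zero]
    by_cases hntz : NoTriple (R \ T)ᶜ (ow v z (R ∩ T))
    swap
    · simp only [ha, phiT_eq_zero_of_triple hntz]
      have : PhiQ w (R \ T) (ow v z (R ∩ T)) = 0 := by
        rw [PhiQ_eq hw hf, phiT_eq_zero_of_triple hntz]
        ring
      rw [this]
      simp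
    have hrel := pcount_relation hT (hyv z) hMz
    have hpic : pic (R \ T)ᶜ (ow v z (R ∩ T)) = (1 / 2) ^ p * pic Rᶜ v := by
      rw [pic_eq hntz, pic_eq hnt, hrel, pow_add]
      ring
    have hinjz : Set.InjOn (ow v z (R ∩ T)) (T \ R : Finset K) := by
      intro x hx x' hx' hxx
      have hx1 := mem_sdiff.1 (mem_coe.1 hx)
      have hx2 := mem_sdiff.1 (mem_coe.1 hx')
      rw [hyv z x hx1.2, hyv z x' hx2.2] at hxx
      apply hinj _ _ hxx
      · exact mem_coe.2 (mem_sdiff.2 ⟨hx1.1, fun h => hx1.2 (mem_inter.1 h).1⟩)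
      · exact mem_coe.2 (mem_sdiff.2 ⟨hx2.1, fun h => hx2.2 (mem_inter.1 h).1⟩)
    rw [ind_true hMz, ind_true ⟨hMz, hinjz⟩, mul_one, mul_one, PhiQ_eq hw hf]
    simp only [ha]
    rw [hpic]
    apply le_of_eq
    ring
  have hE2 : Ex (fun z => a z ^ 2 * ind (M z)) ≤ (1 / 2) ^ p * pic Rᶜ v *
      Ex (fun z : K → Deck L => PhiQ w (R \ T) (ow v z (R ∩ T)) *
        ind (M z ∧ Set.InjOn (ow v z (R ∩ T)) (T \ R : Finset K))) := by
    rw [← Ex_const_mul]
    exact Ex_mono hterm
  have hE2nn : 0 ≤ Ex (fun z => a z ^ 2 * ind (M z)) :=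
    Ex_nonneg fun z => mul_nonneg (sq_nonneg _) (ind_nonneg _)
  have hsq : ((-1 : ℝ) ^ p * Ex (fun z => a z * ind (M z))) ^ 2 = (Ex (fun z => a z * ind (M z))) ^ 2 := by
    rw [mul_pow, ← pow_mul, mul_comm p 2, pow_mul]
    simp
  rw [div_le_iff₀ hpos]
  change ((-1 : ℝ) ^ p * Ex (fun z => a z * ind (M z))) ^ 2 ≤ _
  rw [hsq]
  calc (Ex (fun z => a z * ind (M z))) ^ 2 ≤ Ex (fun z => ind (M z)) * Ex (fun z => a z ^ 2 * ind (M z)) := hCS
    _ ≤ ((pairCount p : ℝ) * (((2 : ℝ) ^ L)⁻¹) ^ p) * Ex (fun z => a z ^ 2 * ind (M z)) :=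
        mul_le_mul_of_nonneg_right hPM hE2nn
    _ ≤ ((pairCount p : ℝ) * (((2 : ℝ) ^ L)⁻¹) ^ p) * ((1 / 2) ^ p * pic Rᶜ v *
      Ex (fun z : K → Deck L => PhiQ w (R \ T) (ow v z (R ∩ T)) *
        ind (M z ∧ Set.InjOn (ow v z (R ∩ T)) (T \ R : Finset K)))) :=
        mul_le_mul_of_nonneg_left hE2 (by positivity)
    _ = _ := by ring

end Crest.Agent.Thorp
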