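import Crest.Agent.Lib.Thorp.ExTools

/-!
# Thorp shuffle: scalar inequalities for the low ladder (blueprint section 9d)

Everything here is real analysis about the constants `betaInf`, `thetaSeq`, `betaN`, `Acap`
and about the moments of a bounded function on a finite probability space.
-/

set_option autoImplicit false

namespace Crest.Agent.Thorp

open Real Finset

/-! ### Elementary facts about the constants -/

theorem betaInf_pos (i : ℕ) : 0 < betaInf i := by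
  unfold betaInf; positivity

theorem betaInf_succ (i : ℕ) : betaInf (i + 1) = 4 * betaInf i := by
  unfold betaInf; rw [pow_succ]; ring

theorem betaInf_ge (i : ℕ) : 9 / 200 ≤ betaInf i := by
  unfold betaInf
  have : (1 : ℝ) ≤ 4 ^ i := one_le_pow₀ (by norm_num)
  linarith

theorem one_add_thetaSeq (i : ℕ) : 1 + thetaSeq i = (1 + 5 / 512) * (1 + 3 / 512) ^ i := by
  unfold thetaSeq; ring

theorem one_add_thetaSeq_succ (i : ℕ) :
    1 + thetaSeq (i + 1) = (1 + thetaSeq i) * (1 + 3 / 512) := by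
  rw [one_add_thetaSeq, one_add_thetaSeq, pow_succ]; ring

theorem thetaSeq_nonneg (i : ℕ) : 0 ≤ thetaSeq i := by
  have h : (1 : ℝ) ≤ (1 + 3 / 512) ^ i := one_le_pow₀ (by norm_num)
  have := one_add_thetaSeq i
  nlinarith

theorem thetaSeq_mono (i : ℕ) : thetaSeq i ≤ thetaSeq (i + 1) := by
  have h := one_add_thetaSeq_succ i
  have h0 := thetaSeq_nonneg i
  nlinarith

/-- `w_i = 2θ_i + θ_i² ≤ 4^i / 50`. -/
theorem w_le (i : ℕ) : 2 * thetaSeq i + thetaSeq i ^ 2 ≤ (1 / 50) * 4 ^ i := by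
  induction i with
  | zero =>
    unfold thetaSeq
    norm_num
  | succ n ih =>
    have h := one_add_thetaSeq_succ n
    have h1 : thetaSeq (n + 1) = (1 + thetaSeq n) * (1 + 3 / 512) - 1 := by linarith
    have h0 := thetaSeq_nonneg n
    have h4 : (1 : ℝ) ≤ 4 ^ n := one_le_pow₀ (by norm_num)
    rw [h1, pow_succ (4 : ℝ) n]
    nlinarith

theorem betaN_ge (i : ℕ) (N : ℝ) : (5 / 8) * betaInf i ≤ betaN i N := by
  unfold betaN
  have h := betaInf_pos i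
  have h2 : (5 / 8 : ℝ) ≤ max (5 / 8) (1 - 12 * betaInf i / N) := le_max_left _ _
  nlinarith

theorem betaN_le (i : ℕ) (N : ℝ) (hN : 0 < N) : betaN i N ≤ betaInf i := by
  unfold betaN
  have h := betaInf_pos i
  have h2 : max (5 / 8 : ℝ) (1 - 12 * betaInf i / N) ≤ 1 := by
    apply max_le (by norm_num)
    have : 0 ≤ 12 * betaInf i / N := by positivity
    linarith
  nlinarith

theorem betaN_pos (i : ℕ) (N : ℝ) : 0 < betaN i N := by
  have h := betaInf_pos i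
  have := betaN_ge i N
  linarith

theorem betaN_sparse (i : ℕ) (N : ℝ) (hN : 0 < N) (h : 32 * betaInf i ≤ N) :
    betaN i N = betaInf i - 12 * betaInf i ^ 2 / N := by
  unfold betaN
  have hb := betaInf_pos i
  have h1 : (12 * betaInf i / N) ≤ 3 / 8 := by
    rw [div_le_iff₀ hN]; linarith
  rw [max_eq_right (by linarith)]
  field_simp

/-! ### The dense step -/

/-- Elementary: the exponent comparison common to both dense cases. -/
theorem dense_exponent (k : ℕ) (N b D c : ℝ) (hN : 0 < N) (hk : 2 ≤ k) (hb : 0 < b)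
    (hd : (32 * b)⁻¹ ≤ (k : ℝ) / N) (hD : c / 8 * b ≤ D) (hc : 0 ≤ c) :
    c / 512 * (k : ℝ) ≤ D * ((k : ℝ) * ((k : ℝ) - 1)) / N := by
  have hk2 : (2 : ℝ) ≤ k := by exact_mod_cast hk
  have h1 : (k : ℝ) - 1 ≥ (k : ℝ) / 2 := by linarith
  have hknn : (0 : ℝ) ≤ k := by linarith
  have h2 : (1 / 64 : ℝ) ≤ b * ((k : ℝ) - 1) / N := by
    have h3 : 1 ≤ 32 * b * ((k : ℝ) / N) := by
      have := mul_le_mul_of_nonneg_left hd (by positivity : (0 : ℝ) ≤ 32 * b)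
      rwa [mul_inv_cancel₀ (by positivity)] at this
    have h4 : b * ((k : ℝ) / 2) / N ≤ b * ((k : ℝ) - 1) / N := by
      apply div_le_div_of_nonneg_right _ hN.le
      exact mul_le_mul_of_nonneg_left h1 hb.le
    have h5 : b * ((k : ℝ) / 2) / N = (32 * b * ((k : ℝ) / N)) / 64 := by
      field_simp; ring
    rw [h5] at h4
    linarith
  calc c / 512 * (k : ℝ) = c / 8 * (1 / 64) * k := by ring
    _ ≤ c / 8 * (b * ((k : ℝ) - 1) / N) * k := by
        apply mul_le_mul_of_nonneg_right _ hknn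
        exact mul_le_mul_of_nonneg_left h2 (by positivity)
    _ = (c / 8 * b) * ((k : ℝ) * ((k : ℝ) - 1)) / N := by ring
    _ ≤ D * ((k : ℝ) * ((k : ℝ) - 1)) / N := by
        apply div_le_div_of_nonneg_right _ hN.le
        apply mul_le_mul_of_nonneg_right hD
        have : (0 : ℝ) ≤ (k : ℝ) - 1 := by linarith
        positivity

theorem ladder_dense_succ (i k : ℕ) (N : ℝ) (hN : 0 < N) (hk : 2 ≤ k)
    (hd : (32 * betaInf (i + 1))⁻¹ ≤ (k : ℝ) / N) :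
    Acap i k N * (1 + 3 / 512) ^ k ≤ Acap (i + 1) k N := by
  have hb := betaInf_pos (i + 1)
  have hD : 3 / 8 * betaInf (i + 1) ≤ betaN (i + 1) N - betaN i N := by
    have h1 := betaN_ge (i + 1) N
    have h2 := betaN_le i N hN
    have h3 := betaInf_succ i
    have h4 := betaInf_pos i
    nlinarith
  have key := dense_exponent k N (betaInf (i + 1)) (betaN (i + 1) N - betaN i N) 3 hN hk hb hd hD
    (by norm_num)
  have hr : (1 + 3 / 512 : ℝ) ^ k ≤ exp (3 / 512 * k) := by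
    have : (1 + 3 / 512 : ℝ) ≤ exp (3 / 512) := by
      have := add_one_le_exp (3 / 512 : ℝ); linarith
    calc (1 + 3 / 512 : ℝ) ^ k ≤ exp (3 / 512) ^ k := pow_le_pow_left₀ (by norm_num) this k
      _ = exp (3 / 512 * k) := by rw [← exp_nat_mul]; ring_nf
  unfold Acap
  calc exp (betaN i N * ((k : ℝ) * ((k : ℝ) - 1)) / N) * (1 + 3 / 512) ^ k
      ≤ exp (betaN i N * ((k : ℝ) * ((k : ℝ) - 1)) / N) * exp (3 / 512 * k) :=
        mul_le_mul_of_nonneg_left hr (exp_pos _).le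
    _ = exp (betaN i N * ((k : ℝ) * ((k : ℝ) - 1)) / N + 3 / 512 * k) := (exp_add _ _).symm
    _ ≤ exp (betaN (i + 1) N * ((k : ℝ) * ((k : ℝ) - 1)) / N) := by
        apply exp_le_exp.mpr
        have : (betaN (i + 1) N - betaN i N) * ((k : ℝ) * ((k : ℝ) - 1)) / N =
            betaN (i + 1) N * ((k : ℝ) * ((k : ℝ) - 1)) / N -
              betaN i N * ((k : ℝ) * ((k : ℝ) - 1)) / N := by ring
        linarith

theorem ladder_dense_zero (k : ℕ) (N : ℝ) (hN : 0 < N) (hk : 2 ≤ k)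
    (hd : (32 * betaInf 0)⁻¹ ≤ (k : ℝ) / N) :
    (1 + thetaSeq 0) ^ k ≤ Acap 0 k N := by
  have hb := betaInf_pos 0
  have hD : 5 / 8 * betaInf 0 ≤ betaN 0 N := betaN_ge 0 N
  have key := dense_exponent k N (betaInf 0) (betaN 0 N) 5 hN hk hb hd hD (by norm_num)
  have hr : (1 + thetaSeq 0 : ℝ) ^ k ≤ exp (5 / 512 * k) := by
    have h0 := thetaSeq_nonneg 0
    have : (1 + thetaSeq 0 : ℝ) ≤ exp (5 / 512) := by
      have := add_one_le_exp (5 / 512 : ℝ)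
      have h2 : thetaSeq 0 = 5 / 512 := by unfold thetaSeq; norm_num
      linarith
    calc (1 + thetaSeq 0 : ℝ) ^ k ≤ exp (5 / 512) ^ k :=
          pow_le_pow_left₀ (by linarith) this k
      _ = exp (5 / 512 * k) := by rw [← exp_nat_mul]; ring_nf
  unfold Acap
  exact hr.trans (exp_le_exp.mpr key)

/-! ### The sparse step: the constants of `charge` -/

/-- `t = β'/N`, `N = 2 N'`. -/
noncomputable def ladT (i : ℕ) (N' : ℝ) : ℝ := betaN i N' / (2 * N')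

/-- `κ = exp(β'(k²-2k)/N)`. -/
noncomputable def ladKappa (i k : ℕ) (N' : ℝ) : ℝ :=
  exp (betaN i N' * ((k : ℝ) ^ 2 - 2 * k) / (2 * N'))

/-- `κ̂ = κ e^{tk} = exp(β' k (k-1)/N)`. -/
noncomputable def ladHat (i k : ℕ) (N' : ℝ) : ℝ :=
  exp (betaN i N' * ((k : ℝ) * ((k : ℝ) - 1)) / (2 * N'))

/-- `x = t k`. -/
noncomputable def ladX (i k : ℕ) (N' : ℝ) : ℝ := ladT i N' * k

/-- `a(q)`. -/
noncomputable def ladA (i k : ℕ) (N' : ℝ) (q : ℕ) : ℝ :=
  ladHat i k N' * exp (-(2 * (q : ℝ) * ladT i N')) * exp (11 / 10 * ladX i k N' ^ 2) *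
    exp (9 / 2 * ladX i k N' ^ 2)

/-- `C(p)`. -/
noncomputable def ladC (i k : ℕ) (N' : ℝ) (p : ℕ) : ℝ :=
  ladHat i k N' * exp (11 / 10 * ladX i k N' ^ 2) * (2 + 67 / 1000 * 9 ^ p)

/-- `Ā = κ̂ exp(5.6 x²)`. -/
noncomputable def ladAbar (i k : ℕ) (N' : ℝ) : ℝ :=
  ladHat i k N' * exp (28 / 5 * ladX i k N' ^ 2)

theorem ladKappa_pos (i k : ℕ) (N' : ℝ) : 0 < ladKappa i k N' := exp_pos _

theorem ladHat_pos (i k : ℕ) (N' : ℝ) : 0 < ladHat i k N' := exp_pos _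

theorem ladT_nonneg (i : ℕ) (N' : ℝ) (hN : 0 < N') : 0 ≤ ladT i N' := by
  unfold ladT
  have := betaN_pos i N'
  positivity

/-- `A(a₀,N') A(a₁,N') = κ exp(t S²)`, `S = a₁ - a₀`, `a₀ + a₁ = k`. -/
theorem acap_mul_acap (i a0 a1 k : ℕ) (N' : ℝ) (hN : 0 < N') (h : a0 + a1 = k) :
    Acap i a0 N' * Acap i a1 N' =
      ladKappa i k N' * exp (ladT i N' * ((a1 : ℝ) - (a0 : ℝ)) ^ 2) := by
  subst h
  unfold Acap ladKappa ladT
  rw [← exp_add, ← exp_add]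
  congr 1
  push_cast
  field_simp
  ring

/-- The sparse regime: `k / N < ρt` implies the large-`N'` hypothesis. -/
theorem sparse_large (i k : ℕ) (N' : ℝ) (hN : 0 < N') (hk : 2 ≤ k)
    (hs : (k : ℝ) / (2 * N') < (32 * betaInf i)⁻¹) : 32 * betaInf i < N' := by
  have hb := betaInf_pos i
  have hk2 : (2 : ℝ) ≤ k := by exact_mod_cast hk
  have h1 : (1 : ℝ) / N' ≤ (k : ℝ) / (2 * N') := by
    rw [div_le_div_iff₀ hN (by positivity)]
    nlinarith
  have h2 : (1 : ℝ) / N' < (32 * betaInf i)⁻¹ := lt_of_le_of_lt h1 hs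
  rw [one_div] at h2
  exact (inv_lt_inv₀ hN (by positivity)).mp h2

/-- `x = tk ≤ 1/32`. -/
theorem ladX_le (i k : ℕ) (N' : ℝ) (hN : 0 < N')
    (hs : (k : ℝ) / (2 * N') < (32 * betaInf i)⁻¹) : ladX i k N' ≤ 1 / 32 := by
  have hb := betaInf_pos i
  have hle := betaN_le i N' hN
  have hpos := betaN_pos i N'
  have h1 : ladX i k N' = betaN i N' * ((k : ℝ) / (2 * N')) := by
    unfold ladX ladT; ring
  rw [h1]
  have h3 : (0 : ℝ) ≤ (k : ℝ) / (2 * N') := by positivity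
  calc betaN i N' * ((k : ℝ) / (2 * N')) ≤ betaInf i * (32 * betaInf i)⁻¹ := by
        apply mul_le_mul hle hs.le h3 hb.le
    _ = 1 / 32 := by field_simp

theorem ladX_nonneg (i k : ℕ) (N' : ℝ) (hN : 0 < N') : 0 ≤ ladX i k N' := by
  unfold ladX
  have := ladT_nonneg i N' hN
  positivity

/-- `Ā ≤ A_i(k, N)`. -/
theorem ladAbar_le (i k : ℕ) (N' : ℝ) (hN : 0 < N') (hk : 2 ≤ k)
    (hs : (k : ℝ) / (2 * N') < (32 * betaInf i)⁻¹) :
    ladAbar i k N' ≤ Acap i k (2 * N') := by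
  have hb := betaInf_pos i
  have hlarge := sparse_large i k N' hN hk hs
  have h1 : betaN i N' = betaInf i - 12 * betaInf i ^ 2 / N' := betaN_sparse i N' hN hlarge.le
  have h2 : betaN i (2 * N') = betaInf i - 12 * betaInf i ^ 2 / (2 * N') :=
    betaN_sparse i (2 * N') (by positivity) (by linarith)
  have hle := betaN_le i N' hN
  have hpos := betaN_pos i N'
  have hk2 : (2 : ℝ) ≤ k := by exact_mod_cast hk
  unfold ladAbar ladHat Acap
  rw [← exp_add]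
  apply exp_le_exp.mpr
  have hx : ladX i k N' = betaN i N' * k / (2 * N') := by unfold ladX ladT; ring
  have hx2 : ladX i k N' ≤ betaInf i * k / (2 * N') := by
    rw [hx]
    apply div_le_div_of_nonneg_right _ (by positivity)
    exact mul_le_mul_of_nonneg_right hle (by positivity)
  have hx0 := ladX_nonneg i k N' hN
  have hx3 : ladX i k N' ^ 2 ≤ (betaInf i * k / (2 * N')) ^ 2 :=
    pow_le_pow_left₀ hx0 hx2 2
  -- difference of the exponents
  have hdiff : betaN i (2 * N') * ((k : ℝ) * ((k : ℝ) - 1)) / (2 * N') -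
      betaN i N' * ((k : ℝ) * ((k : ℝ) - 1)) / (2 * N') =
      3 * (betaInf i * k / N') ^ 2 * (((k : ℝ) - 1) / k) := by
    rw [h1, h2]
    have : (k : ℝ) ≠ 0 := by linarith
    field_simp
    ring
  have hfrac : (1 / 2 : ℝ) ≤ ((k : ℝ) - 1) / k := by
    rw [le_div_iff₀ (by linarith)]
    linarith
  have hsq : 0 ≤ (betaInf i * k / N') ^ 2 := sq_nonneg _
  have hsq2 : (betaInf i * k / (2 * N')) ^ 2 = (betaInf i * k / N') ^ 2 / 4 := by
    field_simp; ring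
  rw [hsq2] at hx3
  nlinarith

/-- A finite geometric series. -/
theorem geom_Icc_le (y : ℝ) (h0 : 0 ≤ y) (h1 : y < 1) (q : ℕ) :
    ∑ p ∈ Finset.Icc 1 q, y ^ p ≤ y / (1 - y) := by
  have hpos : 0 < 1 - y := by linarith
  have key : ∀ q : ℕ, (∑ p ∈ Finset.Icc 1 q, y ^ p) * (1 - y) = y - y ^ (q + 1) := by
    intro q
    induction q with
    | zero => simp
    | succ n ih =>
      rw [Finset.sum_Icc_succ_top (by omega), add_mul, ih]
      ring
  rw [le_div_iff₀ hpos, key q]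
  have : 0 ≤ y ^ (q + 1) := by positivity
  linarith

/-- The sum of `hA`. -/
theorem lad_sum_le (i k q : ℕ) (N' : ℝ) (hN : 0 < N') (hq : 2 * q ≤ k)
    (hs : (k : ℝ) / (2 * N') < (32 * betaInf i)⁻¹) :
    (1 / 2) * ∑ p ∈ Finset.Icc 1 q,
        ((2 * thetaSeq i + thetaSeq i ^ 2) * (q : ℝ) / N') ^ p * ladC i k N' p ≤
      ladHat i k N' * exp (11 / 10 * ladX i k N' ^ 2) *
        (63 / 64 * (2 * (q : ℝ) * ladT i N')) := by
  set H := ladHat i k N' * exp (11 / 10 * ladX i k N' ^ 2) with hH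
  have hHpos : 0 < H := mul_pos (ladHat_pos _ _ _) (exp_pos _)
  set w := 2 * thetaSeq i + thetaSeq i ^ 2 with hw
  have hθ := thetaSeq_nonneg i
  have hw0 : 0 ≤ w := by positivity
  have hwle := w_le i
  set y := w * (q : ℝ) / N' with hy
  have hy0 : 0 ≤ y := by positivity
  have hb := betaInf_pos i
  have hbdef : betaInf i = 9 / 200 * 4 ^ i := rfl
  -- `ϱ = q/N' ≤ k/N < ρt`
  have hρ : (q : ℝ) / N' ≤ (32 * betaInf i)⁻¹ := by
    have h2 : (2 * q : ℝ) ≤ k := by exact_mod_cast hq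
    have h3 : (q : ℝ) / N' ≤ (k : ℝ) / (2 * N') := by
      rw [div_le_div_iff₀ hN (by positivity)]
      nlinarith
    exact (h3.trans hs.le)
  have hy1 : y ≤ 1 / 72 := by
    have h4 : (0 : ℝ) < 4 ^ i := by positivity
    have h5 : y = w * ((q : ℝ) / N') := by rw [hy]; ring
    rw [h5]
    calc w * ((q : ℝ) / N') ≤ (1 / 50 * 4 ^ i) * (32 * betaInf i)⁻¹ :=
          mul_le_mul hwle hρ (by positivity) (by positivity)
      _ = 1 / 72 := by
          rw [hbdef]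
          field_simp
          norm_num
  have hs1 := geom_Icc_le y hy0 (by linarith) q
  have hs2 := geom_Icc_le (9 * y) (by positivity) (by linarith) q
  have hs1' : ∑ p ∈ Finset.Icc 1 q, y ^ p ≤ 72 / 71 * y := by
    refine hs1.trans ?_
    rw [div_le_iff₀ (by linarith)]
    nlinarith
  have hs2' : ∑ p ∈ Finset.Icc 1 q, (9 * y) ^ p ≤ 8 / 7 * (9 * y) := by
    refine hs2.trans ?_
    rw [div_le_iff₀ (by linarith)]
    nlinarith
  have hsum : (1 / 2) * ∑ p ∈ Finset.Icc 1 q, y ^ p * ladC i k N' p =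
      H * (∑ p ∈ Finset.Icc 1 q, y ^ p + 67 / 2000 * ∑ p ∈ Finset.Icc 1 q, (9 * y) ^ p) := by
    rw [Finset.mul_sum, Finset.mul_sum, ← Finset.sum_add_distrib, Finset.mul_sum]
    refine Finset.sum_congr rfl fun p _ => ?_
    unfold ladC
    rw [mul_pow, ← hH]
    ring
  rw [hsum]
  apply mul_le_mul_of_nonneg_left _ hHpos.le
  -- `c ≤ (63/64) β'`
  have hβ := betaN_ge i N'
  have hqnn : (0 : ℝ) ≤ (q : ℝ) / N' := by positivity
  have hT : 2 * (q : ℝ) * ladT i N' = betaN i N' * ((q : ℝ) / N') := by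
    unfold ladT
    field_simp
  rw [hT]
  have h1 : ∑ p ∈ Finset.Icc 1 q, y ^ p + 67 / 2000 * ∑ p ∈ Finset.Icc 1 q, (9 * y) ^ p
      ≤ 136 / 100 * y := by
    nlinarith
  refine h1.trans ?_
  have h6 : y = w * ((q : ℝ) / N') := by rw [hy]; ring
  rw [h6]
  have h7 : 136 / 100 * w ≤ 63 / 64 * betaN i N' := by
    have : (1 / 50 : ℝ) * 4 ^ i * (136 / 100) ≤ 63 / 64 * (5 / 8 * betaInf i) := by
      rw [hbdef]
      have h4 : (0 : ℝ) < 4 ^ i := by positivity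
      nlinarith
    nlinarith
  calc 136 / 100 * (w * ((q : ℝ) / N')) = (136 / 100 * w) * ((q : ℝ) / N') := by ring
    _ ≤ (63 / 64 * betaN i N') * ((q : ℝ) / N') := mul_le_mul_of_nonneg_right h7 hqnn
    _ = 63 / 64 * (betaN i N' * ((q : ℝ) / N')) := by ring

/-- `e^{-y} ≤ 1 - y + y²/2` for `y ≥ 0`. -/
theorem exp_neg_le_quad (y : ℝ) (hy : 0 ≤ y) : exp (-y) ≤ 1 - y + y ^ 2 / 2 := by
  have h1 : 1 + y + y ^ 2 / 2 ≤ exp y := quadratic_le_exp_of_nonneg hy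
  have h2 : 0 < 1 + y + y ^ 2 / 2 := by positivity
  rw [exp_neg, inv_le_comm₀ (exp_pos _) (by nlinarith [sq_nonneg (y - 1)])]
  refine le_trans ?_ h1
  rw [inv_le_iff_one_le_mul₀ (by nlinarith [sq_nonneg (y - 1)])]
  nlinarith [sq_nonneg (y ^ 2)]

/-- The hypothesis `hA` of `charge`. -/
theorem lad_hA (i k q : ℕ) (N' : ℝ) (hN : 0 < N') (hq : 2 * q ≤ k)
    (hs : (k : ℝ) / (2 * N') < (32 * betaInf i)⁻¹) :
    ladA i k N' q + (1 / 2) * ∑ p ∈ Finset.Icc 1 q,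
        ((2 * thetaSeq i + thetaSeq i ^ 2) * (q : ℝ) / N') ^ p * ladC i k N' p ≤
      ladAbar i k N' := by
  have hsum := lad_sum_le i k q N' hN hq hs
  set x := ladX i k N' with hx
  set y := 2 * (q : ℝ) * ladT i N' with hy
  have hT := ladT_nonneg i N' hN
  have hy0 : 0 ≤ y := by positivity
  -- `y ≤ x ≤ 1/32`
  have hx1 := ladX_le i k N' hN hs
  have hyx : y ≤ x := by
    have h2 : (2 * q : ℝ) ≤ k := by exact_mod_cast hq
    rw [hy, hx]
    unfold ladX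
    nlinarith
  have hy1 : y ≤ 1 / 32 := hyx.trans hx1
  have hH := ladHat_pos i k N'
  have hquad := exp_neg_le_quad y hy0
  have hbound : exp (-y) + 63 / 64 * y ≤ 1 := by nlinarith
  have hE1 : 1 ≤ exp (9 / 2 * x ^ 2) := one_le_exp (by positivity)
  have hA : ladA i k N' q =
      ladHat i k N' * exp (11 / 10 * x ^ 2) * (exp (9 / 2 * x ^ 2) * exp (-y)) := by
    unfold ladA; rw [← hx, ← hy]; ring
  have hAbar : ladAbar i k N' =
      ladHat i k N' * exp (11 / 10 * x ^ 2) * exp (9 / 2 * x ^ 2) := by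
    unfold ladAbar
    rw [← hx, mul_assoc, ← exp_add]
    congr 2
    ring
  rw [hA, hAbar]
  set H := ladHat i k N' * exp (11 / 10 * x ^ 2) with hHdef
  have hHpos : 0 < H := mul_pos hH (exp_pos _)
  calc H * (exp (9 / 2 * x ^ 2) * exp (-y)) + _ ≤
      H * (exp (9 / 2 * x ^ 2) * exp (-y)) + H * (63 / 64 * y) := by
        exact add_le_add le_rfl hsum
    _ = H * (exp (9 / 2 * x ^ 2) * exp (-y) + 63 / 64 * y) := by ring
    _ ≤ H * exp (9 / 2 * x ^ 2) := by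
        apply mul_le_mul_of_nonneg_left _ hHpos.le
        have h3 : 0 ≤ 63 / 64 * y := by positivity
        nlinarith [exp_pos (-y)]

/-! ### The moments of `B = κ exp(t S²)` -/

section Moments

variable {α : Type*} [Fintype α] [Nonempty α]

omit [Nonempty α] in
theorem lad_Ex_B (S : α → ℝ) (κ t : ℝ) :
    Ex (fun a => κ * exp (t * S a ^ 2)) = κ * Ex (fun a => exp (t * S a ^ 2)) :=
  Ex_const_mul κ _

/-- The variance of `B`. -/
theorem lad_Var_B (S : α → ℝ) (κ t : ℝ) :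
    Ex (fun a => (κ * exp (t * S a ^ 2) - Ex (fun a => κ * exp (t * S a ^ 2))) ^ 2) =
      κ ^ 2 * (Ex (fun a => exp ((2 * t) * S a ^ 2)) - Ex (fun a => exp (t * S a ^ 2)) ^ 2) := by
  rw [lad_Ex_B]
  set F1 := Ex (fun a => exp (t * S a ^ 2)) with hF1
  set F2 := Ex (fun a => exp ((2 * t) * S a ^ 2)) with hF2
  have h : ∀ a, (κ * exp (t * S a ^ 2) - κ * F1) ^ 2 =
      κ ^ 2 * exp ((2 * t) * S a ^ 2) + (-(2 * κ ^ 2 * F1) * exp (t * S a ^ 2) + κ ^ 2 * F1 ^ 2) := by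
    intro a
    have : exp ((2 * t) * S a ^ 2) = exp (t * S a ^ 2) ^ 2 := by
      rw [← exp_nat_mul]; congr 1; push_cast; ring
    rw [this]; ring
  rw [Ex_congr h, Ex_add, Ex_add, Ex_const_mul, Ex_const_mul, Ex_const]
  rw [← hF1, ← hF2]
  ring

end Moments

/-- `(√(1-2u))⁻¹ ≤ exp(u + 1.1 u²)` for `0 ≤ u ≤ 1/32`. -/
theorem inv_sqrt_two_le (u : ℝ) (h0 : 0 ≤ u) (h1 : u ≤ 1 / 32) :
    (√(1 - 2 * u))⁻¹ ≤ exp (u + 11 / 10 * u ^ 2) := by
  have hpos : 0 < 1 - 2 * u := by linarith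
  have hs : 0 < √(1 - 2 * u) := Real.sqrt_pos.mpr hpos
  rw [inv_le_comm₀ hs (exp_pos _), ← exp_neg]
  apply Real.le_sqrt_of_sq_le
  rw [← exp_nat_mul]
  push_cast
  have hy : 0 ≤ 2 * u + 11 / 5 * u ^ 2 := by positivity
  have h2 := quadratic_le_exp_of_nonneg hy
  have h3 : exp (2 * -(u + 11 / 10 * u ^ 2)) = (exp (2 * u + 11 / 5 * u ^ 2))⁻¹ := by
    rw [← exp_neg]; congr 1; ring
  rw [h3, inv_le_iff_one_le_mul₀ (exp_pos _)]
  have h4 : 1 ≤ (1 - 2 * u) * (1 + (2 * u + 11 / 5 * u ^ 2) + (2 * u + 11 / 5 * u ^ 2) ^ 2 / 2) := by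
    have hu2 : 0 ≤ u ^ 2 := sq_nonneg u
    have hu3 : 0 ≤ u ^ 3 := by positivity
    have hu4 : 0 ≤ u ^ 4 := by positivity
    have hu5 : 0 ≤ u ^ 5 := by positivity
    have e1 : u ^ 3 ≤ u ^ 2 * (1 / 32) := by nlinarith
    have e2 : u ^ 4 ≤ u ^ 2 * (1 / 1024) := by nlinarith
    have e3 : u ^ 5 ≤ u ^ 2 * (1 / 32768) := by nlinarith [pow_nonneg h0 3]
    nlinarith
  calc 1 ≤ _ := h4
    _ ≤ _ := mul_le_mul_of_nonneg_left h2 hpos.le

/-- `(√(1-4u))⁻¹ ≤ exp(2u + 4.5 u²)` for `0 ≤ u ≤ 1/32`. -/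
theorem inv_sqrt_four_le (u : ℝ) (h0 : 0 ≤ u) (h1 : u ≤ 1 / 32) :
    (√(1 - 4 * u))⁻¹ ≤ exp (2 * u + 9 / 2 * u ^ 2) := by
  have hpos : 0 < 1 - 4 * u := by linarith
  have hs : 0 < √(1 - 4 * u) := Real.sqrt_pos.mpr hpos
  rw [inv_le_comm₀ hs (exp_pos _), ← exp_neg]
  apply Real.le_sqrt_of_sq_le
  rw [← exp_nat_mul]
  push_cast
  have hy : 0 ≤ 4 * u + 9 * u ^ 2 := by positivity
  have h2 := Real.sum_le_exp_of_nonneg hy 4
  simp only [Finset.sum_range_succ, Finset.sum_range_zero, pow_zero, pow_one, Nat.factorial] at h2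
  norm_num at h2
  have h3 : exp (2 * -(2 * u + 9 / 2 * u ^ 2)) = (exp (4 * u + 9 * u ^ 2))⁻¹ := by
    rw [← exp_neg]; congr 1; ring
  rw [h3, inv_le_iff_one_le_mul₀ (exp_pos _)]
  set y := 4 * u + 9 * u ^ 2 with hydef
  have h4 : 1 ≤ (1 - 4 * u) * (1 + y + y ^ 2 / 2 + y ^ 3 / 6) := by
    rw [hydef]
    have hu2 : 0 ≤ u ^ 2 := sq_nonneg u
    have e1 : u ^ 3 ≤ u ^ 2 * (1 / 32) := by nlinarith
    have e2 : u ^ 4 ≤ u ^ 2 * (1 / 1024) := by nlinarith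
    have e3 : u ^ 5 ≤ u ^ 2 * (1 / 32768) := by nlinarith [pow_nonneg h0 3]
    have e4 : u ^ 6 ≤ u ^ 2 * (1 / 1048576) := by nlinarith [pow_nonneg h0 3, pow_nonneg h0 4]
    have e5 : u ^ 7 ≤ u ^ 2 * (1 / 33554432) := by nlinarith [pow_nonneg h0 3, pow_nonneg h0 4, pow_nonneg h0 5]
    nlinarith
  calc 1 ≤ _ := h4
    _ ≤ _ := by
      apply mul_le_mul_of_nonneg_left _ hpos.le
      linarith

theorem lad_ha_aux (κ F1 F2 u : ℝ) (hκ : 0 < κ) (hu0 : 0 ≤ u) (hu : u ≤ 1 / 32) (h1 : exp u ≤ F1)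
    (h2 : F2 ≤ (√(1 - 4 * u))⁻¹) :
    κ * F1 + κ ^ 2 * (F2 - F1 ^ 2) / (κ * F1) ≤ κ * exp (u + 9 / 2 * u ^ 2) := by
  have hF1 : 0 < F1 := (exp_pos u).trans_le h1
  have h3 : κ * F1 + κ ^ 2 * (F2 - F1 ^ 2) / (κ * F1) = κ * (F2 / F1) := by
    field_simp
    ring
  rw [h3]
  apply mul_le_mul_of_nonneg_left _ hκ.le
  rw [div_le_iff₀ hF1]
  have h4 := inv_sqrt_four_le u hu0 hu
  calc F2 ≤ exp (2 * u + 9 / 2 * u ^ 2) := h2.trans h4
    _ = exp (u + 9 / 2 * u ^ 2) * exp u := by rw [← exp_add]; congr 1; ring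
    _ ≤ exp (u + 9 / 2 * u ^ 2) * F1 := mul_le_mul_of_nonneg_left h1 (exp_pos _).le

theorem lad_hC_aux (κ F1 F2 u : ℝ) (hκ : 0 < κ) (hu0 : 0 ≤ u) (hu : u ≤ 1 / 32) (h1 : exp u ≤ F1)
    (h1' : F1 ≤ (√(1 - 2 * u))⁻¹) (h2 : F2 ≤ (√(1 - 4 * u))⁻¹) (p : ℕ) :
    2 * (κ * F1) + √(κ ^ 2 * (F2 - F1 ^ 2)) * 9 ^ p ≤
      κ * exp (u + 11 / 10 * u ^ 2) * (2 + 67 / 1000 * 9 ^ p) := by
  have hF1 : 0 < F1 := (exp_pos u).trans_le h1
  have hz : exp (9 / 2 * u ^ 2) ≤ 1 + 67 ^ 2 / 1000 ^ 2 := by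
    have hu2 : u ^ 2 ≤ 1 / 1024 := by nlinarith
    have hz1 : 9 / 2 * u ^ 2 ≤ 9 / 2048 := by linarith
    have hz2 : exp (9 / 2 * u ^ 2) ≤ exp (9 / 2048) := exp_le_exp.mpr hz1
    have hz3 : (1 - 9 / 2048 : ℝ) ≤ exp (-(9 / 2048)) := by
      have := add_one_le_exp (-(9 / 2048) : ℝ); linarith
    have hz4 : exp (9 / 2048 : ℝ) ≤ (1 - 9 / 2048 : ℝ)⁻¹ := by
      rw [le_inv_comm₀ (exp_pos _) (by norm_num), ← exp_neg]
      exact hz3
    refine hz2.trans (hz4.trans ?_)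
    norm_num
  have hF2 : F2 ≤ F1 ^ 2 * (1 + 67 ^ 2 / 1000 ^ 2) := by
    calc F2 ≤ exp (2 * u + 9 / 2 * u ^ 2) := h2.trans (inv_sqrt_four_le u hu0 hu)
      _ = exp u ^ 2 * exp (9 / 2 * u ^ 2) := by
          rw [← exp_nat_mul, ← exp_add]; congr 1
      _ ≤ F1 ^ 2 * (1 + 67 ^ 2 / 1000 ^ 2) := by
          apply mul_le_mul (pow_le_pow_left₀ (exp_pos _).le h1 2) hz (exp_pos _).le (by positivity)
  have hsqrt : √(κ ^ 2 * (F2 - F1 ^ 2)) ≤ κ * F1 * (67 / 1000) := by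
    rw [Real.sqrt_le_iff]
    refine ⟨by positivity, ?_⟩
    have : κ ^ 2 * (F2 - F1 ^ 2) ≤ κ ^ 2 * (F1 ^ 2 * (67 ^ 2 / 1000 ^ 2)) := by
      apply mul_le_mul_of_nonneg_left _ (by positivity)
      linarith
    calc _ ≤ _ := this
      _ = _ := by ring
  have h9 : (0 : ℝ) < 9 ^ p := by positivity
  have hF1le : F1 ≤ exp (u + 11 / 10 * u ^ 2) := h1'.trans (inv_sqrt_two_le u hu0 hu)
  calc 2 * (κ * F1) + √(κ ^ 2 * (F2 - F1 ^ 2)) * 9 ^ p
      ≤ 2 * (κ * F1) + κ * F1 * (67 / 1000) * 9 ^ p := by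
        have := mul_le_mul_of_nonneg_right hsqrt h9.le
        linarith
    _ = κ * F1 * (2 + 67 / 1000 * 9 ^ p) := by ring
    _ ≤ κ * exp (u + 11 / 10 * u ^ 2) * (2 + 67 / 1000 * 9 ^ p) := by
        apply mul_le_mul_of_nonneg_right _ (by positivity)
        exact mul_le_mul_of_nonneg_left hF1le hκ.le

section Final

variable {α : Type*} [Fintype α] [Nonempty α]

/-- The hypothesis `ha` of `charge`, for an abstract sign sum with `m` terms with the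
moment bounds `hge`, `hle`. -/
theorem lad_ha (S : α → ℝ) (i k q m : ℕ) (N' : ℝ) (hN : 0 < N')
    (hs : (k : ℝ) / (2 * N') < (32 * betaInf i)⁻¹) (hm : m + 2 * q = k)
    (hge : ∀ t : ℝ, 0 ≤ t → exp (t * m) ≤ Ex (fun a => exp (t * S a ^ 2)))
    (hle : ∀ t : ℝ, 0 ≤ t → 2 * t * m < 1 →
      Ex (fun a => exp (t * S a ^ 2)) ≤ (√(1 - 2 * t * m))⁻¹) :
    Ex (fun a => ladKappa i k N' * exp (ladT i N' * S a ^ 2)) +
      Ex (fun a => (ladKappa i k N' * exp (ladT i N' * S a ^ 2) -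
        Ex (fun a => ladKappa i k N' * exp (ladT i N' * S a ^ 2))) ^ 2) /
      Ex (fun a => ladKappa i k N' * exp (ladT i N' * S a ^ 2)) ≤ ladA i k N' q := by
  set t := ladT i N' with ht
  have ht0 : 0 ≤ t := ladT_nonneg i N' hN
  have hx1 := ladX_le i k N' hN hs
  have hx0 := ladX_nonneg i k N' hN
  have hkm : (k : ℝ) = m + 2 * q := by rw [← hm]; push_cast; ring
  set u := t * (m : ℝ) with hu
  have hu0 : 0 ≤ u := by positivity
  have hux : u ≤ ladX i k N' := by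
    unfold ladX
    rw [← ht, hu, hkm]
    have : (0 : ℝ) ≤ q := by positivity
    nlinarith
  have hu1 : u ≤ 1 / 32 := hux.trans hx1
  rw [lad_Var_B, lad_Ex_B]
  have h1 := hge t ht0
  have h2 := hle (2 * t) (by positivity) (by rw [show 2 * (2 * t) * (m : ℝ) = 4 * u by rw [hu]; ring]; linarith)
  rw [show 1 - 2 * (2 * t) * (m : ℝ) = 1 - 4 * u by rw [hu]; ring] at h2
  have key := lad_ha_aux (ladKappa i k N') _ _ u (ladKappa_pos _ _ _) hu0 hu1 h1 h2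
  refine key.trans ?_
  -- `κ exp(u + 4.5 u²) ≤ a(q)`
  unfold ladA ladKappa ladHat
  rw [← ht, ← exp_add, ← exp_add, ← exp_add, ← exp_add]
  apply exp_le_exp.mpr
  have hdiff : betaN i N' * ((k : ℝ) * ((k : ℝ) - 1)) / (2 * N') =
      betaN i N' * ((k : ℝ) ^ 2 - 2 * k) / (2 * N') + t * k := by
    rw [ht]; unfold ladT; field_simp; ring
  have hu2 : u ^ 2 ≤ ladX i k N' ^ 2 := pow_le_pow_left₀ hu0 hux 2
  have hxsq : 0 ≤ ladX i k N' ^ 2 := sq_nonneg _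
  rw [hdiff, hkm, hu]
  rw [hu] at hu2
  have : t * (↑m + 2 * ↑q) = t * m + 2 * q * t := by ring
  rw [← hkm] at *
  nlinarith

/-- The hypothesis `hC` of `charge`. -/
theorem lad_hC (S : α → ℝ) (i k m : ℕ) (N' : ℝ) (hN : 0 < N')
    (hs : (k : ℝ) / (2 * N') < (32 * betaInf i)⁻¹) (hm : m ≤ k)
    (hge : ∀ t : ℝ, 0 ≤ t → exp (t * m) ≤ Ex (fun a => exp (t * S a ^ 2)))
    (hle : ∀ t : ℝ, 0 ≤ t → 2 * t * m < 1 →
      Ex (fun a => exp (t * S a ^ 2)) ≤ (√(1 - 2 * t * m))⁻¹) (p : ℕ) :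
    2 * Ex (fun a => ladKappa i k N' * exp (ladT i N' * S a ^ 2)) +
      √(Ex (fun a => (ladKappa i k N' * exp (ladT i N' * S a ^ 2) -
        Ex (fun a => ladKappa i k N' * exp (ladT i N' * S a ^ 2))) ^ 2)) * 9 ^ p ≤
      ladC i k N' p := by
  set t := ladT i N' with ht
  have ht0 : 0 ≤ t := ladT_nonneg i N' hN
  have hx1 := ladX_le i k N' hN hs
  have hx0 := ladX_nonneg i k N' hN
  have hmk : (m : ℝ) ≤ k := by exact_mod_cast hm
  set u := t * (m : ℝ) with hu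
  have hu0 : 0 ≤ u := by positivity
  have hux : u ≤ ladX i k N' := by
    unfold ladX
    rw [← ht, hu]
    exact mul_le_mul_of_nonneg_left hmk ht0
  have hu1 : u ≤ 1 / 32 := hux.trans hx1
  rw [lad_Var_B, lad_Ex_B]
  have h1 := hge t ht0
  have h1' := hle t ht0 (by rw [show 2 * t * (m : ℝ) = 2 * u by rw [hu]; ring]; linarith)
  rw [show 1 - 2 * t * (m : ℝ) = 1 - 2 * u by rw [hu]; ring] at h1'
  have h2 := hle (2 * t) (by positivity) (by rw [show 2 * (2 * t) * (m : ℝ) = 4 * u by rw [hu]; ring]; linarith)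
  rw [show 1 - 2 * (2 * t) * (m : ℝ) = 1 - 4 * u by rw [hu]; ring] at h2
  have key := lad_hC_aux (ladKappa i k N') _ _ u (ladKappa_pos _ _ _) hu0 hu1 h1 h1' h2 p
  refine key.trans ?_
  unfold ladC
  apply mul_le_mul_of_nonneg_right _ (by positivity)
  unfold ladKappa ladHat
  rw [← exp_add, ← exp_add]
  apply exp_le_exp.mpr
  have hdiff : betaN i N' * ((k : ℝ) * ((k : ℝ) - 1)) / (2 * N') =
      betaN i N' * ((k : ℝ) ^ 2 - 2 * k) / (2 * N') + t * k := by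
    rw [ht]; unfold ladT; field_simp; ring
  have hu2 : u ^ 2 ≤ ladX i k N' ^ 2 := pow_le_pow_left₀ hu0 hux 2
  rw [hdiff]
  have hX : ladX i k N' = t * k := rfl
  rw [hX] at hux hu2 ⊢
  linarith

end Final

end Crest.Agent.Thorp
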