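import Crest.Agent.Lib.Thorp.Cycle
import Crest.Agent.Lib.Thorp.Corr

/-!
# The moment bound for the weight `W` (blueprint section 7)
-/

set_option autoImplicit false

namespace Crest.Agent.Thorp

variable {K : Type*} [Fintype K] [DecidableEq K]

namespace Moment

section FG
variable {L : ℕ}

theorem fg_eq_some {A : Finset K} {y : K → Deck L} {s : K → Option (Deck L)} (hy : Set.InjOn y A)
    {τ ρ : K} : fg A y s τ = some ρ ↔ τ ∈ A ∧ ρ ∈ A ∧ s τ = some (y ρ) := by
  classical
  unfold fg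
  by_cases hτ : τ ∈ A
  · simp only [hτ, if_true, true_and]
    cases hs : s τ with
    | none => simp
    | some t =>
      simp only [Option.bind_some]
      split_ifs with h
      · have hc := Classical.choose_spec h
        constructor
        · intro e
          have e' : Classical.choose h = ρ := Option.some.inj e
          subst e'
          exact ⟨hc.1, by rw [hc.2]⟩
        · rintro ⟨hρ, e⟩
          have e2 : t = y ρ := Option.some.inj e
          have : Classical.choose h = ρ := hy hc.1 hρ (hc.2.trans e2)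
          rw [this]
      · constructor
        · intro e; cases e
        · rintro ⟨hρ, e⟩
          have e2 : t = y ρ := Option.some.inj e
          exact absurd ⟨ρ, hρ, e2.symm⟩ h
  · simp [hτ]

theorem fg_congr {A : Finset K} {y y' : K → Deck L} {s : K → Option (Deck L)}
    (hy : Set.InjOn y A) (h : ∀ c ∈ A, y c = y' c) : fg A y s = fg A y' s := by
  have hy' : Set.InjOn y' A := by
    intro a ha b hb hab
    apply hy ha hb
    rw [h a ha, h b hb, hab]
  funext τ
  apply Option.ext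
  intro ρ
  rw [fg_eq_some hy, fg_eq_some hy']
  constructor
  · rintro ⟨h1, h2, h3⟩
    exact ⟨h1, h2, by rw [h3, h ρ h2]⟩
  · rintro ⟨h1, h2, h3⟩
    exact ⟨h1, h2, by rw [h3, h ρ h2]⟩

theorem optStep_iterate_none (f : K → Option K) (n : ℕ) : (optStep f)^[n] none = none := by
  induction n with
  | zero => rfl
  | succ n ih => rw [Function.iterate_succ_apply]; exact ih

theorem cyc_le_card_of_none (f : K → Option K) (A : Finset K) (hf : ∀ τ, τ ∉ A → f τ = none) :
    cyc f ≤ A.card := by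
  classical
  unfold cyc cycles
  refine Finset.card_image_le.trans (Finset.card_le_card ?_)
  intro τ hτ
  simp only [Finset.mem_filter, Finset.mem_univ, true_and] at hτ
  by_contra hA
  obtain ⟨n, hn, h⟩ := hτ
  obtain ⟨m, rfl⟩ : ∃ m, n = m + 1 := ⟨n - 1, by omega⟩
  rw [Function.iterate_succ_apply] at h
  have h1 : optStep f (some τ) = none := hf τ hA
  rw [h1, optStep_iterate_none] at h
  cases h

theorem cyc_fg_le_card (A : Finset K) (y : K → Deck L) (s : K → Option (Deck L)) :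
    cyc (fg A y s) ≤ A.card := by
  apply cyc_le_card_of_none
  intro τ hτ
  simp [fg, hτ]

end FG

/-! ### positivity of the weight -/

theorem corr_nonneg (L a0 a1 : ℕ) : 0 ≤ corr L a0 a1 := by
  unfold corr; positivity

theorem Gam_nonneg {L : ℕ} (A : Finset K) (xb yb : K → Deck L) : 0 ≤ Gam A xb yb := by
  unfold Gam; positivity

theorem WW_nonneg : ∀ (L : ℕ) (ω : DΩ L) (A : Finset K) (x : K → Deck L), 0 ≤ WW L ω A x
  | 0, _, _, _ => by simp [WW]
  | L + 1, ω, A, x => by
      simp only [WW]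
      exact mul_nonneg (mul_nonneg (mul_nonneg (corr_nonneg _ _ _) (Gam_nonneg _ _ _))
        (WW_nonneg L _ _ _)) (WW_nonneg L _ _ _)


/-! ### The data of one induction step -/

section Step
variable {L : ℕ}

/-- Output site of a token in its block. -/
def yOf (ε : K → Bool) (v : K → Deck L) (m : Bool) (σM σO : Equiv.Perm (Deck L)) (c : K) : Deck L :=
  if ε c = m then σM (v c) else σO (v c)

/-- Final position of a token. -/
def yFull (e' : Flips L) (ε : K → Bool) (v : K → Deck L) (m : Bool) (σM σO : Equiv.Perm (Deck L))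
    (c : K) : Deck (L + 1) :=
  flipPerm e' (ε c, yOf ε v m σM σO c)

/-- Output site part of the target. -/
def sO (s : K → Option (Deck (L + 1))) (τ : K) : Option (Deck L) :=
  (s τ).map (fun t => t.2)

open Classical in
/-- The target of the pairing graph (independent of `σM`). -/
noncomputable def sX (AO : Finset K) (v : K → Deck L) (σO : Equiv.Perm (Deck L)) (τ : K) :
    Option (Deck L) :=
  if ∃ ρ ∈ AO, v ρ = v τ then some (σO (v τ)) else none

open Classical in
/-- Lookup of a token by its output position. -/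
noncomputable def lk (AO : Finset K) (y : K → Deck L) (t : Deck L) : Option K :=
  if h : ∃ ρ, ρ ∈ AO ∧ y ρ = t then some (Classical.choose h) else none

theorem lk_eq_some {AO : Finset K} {y : K → Deck L} (hy : Set.InjOn y AO) {ρ : K} (hρ : ρ ∈ AO) :
    lk AO y (y ρ) = some ρ := by
  classical
  unfold lk
  have h : ∃ ρ', ρ' ∈ AO ∧ y ρ' = y ρ := ⟨ρ, hρ, rfl⟩
  rw [dif_pos h]
  have hc := Classical.choose_spec h
  rw [hy hc.1 hρ hc.2]

/-- The walk inside the `O` child. -/
noncomputable def hStep (s : K → Option (Deck (L + 1))) (e' : Flips L) (m : Bool) (AO : Finset K)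
    (y : K → Deck L) (τ : K) : Option K :=
  (s τ).bind (fun t => if xor t.1 (e' t.2) = !m then lk AO y t.2 else none)

/-- `p` is the output site where the `O` walk from `τ` leaves to the `M` child. -/
def PP (s : K → Option (Deck (L + 1))) (e' : Flips L) (m : Bool) (AO : Finset K)
    (y : K → Deck L) (τ : K) (p : Deck L) : Prop :=
  ∃ (n : ℕ) (ρ : K) (b : Bool), (optStep (hStep s e' m AO y))^[n] (some τ) = some ρ ∧
    s ρ = some (b, p) ∧ xor b (e' p) = m

theorem PP_unique {s : K → Option (Deck (L + 1))} {e' : Flips L} {m : Bool} {AO : Finset K}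
    {y : K → Deck L} {τ : K} {p p' : Deck L} (h : PP s e' m AO y τ p) (h' : PP s e' m AO y τ p') :
    p = p' := by
  obtain ⟨n, ρ, b, h1, h2, h3⟩ := h
  obtain ⟨n', ρ', b', h1', h2', h3'⟩ := h'
  have key : ∀ {n n' : ℕ} {ρ ρ' : K} {b : Bool} {p : Deck L},
      (optStep (hStep s e' m AO y))^[n] (some τ) = some ρ →
      (optStep (hStep s e' m AO y))^[n'] (some τ) = some ρ' →
      s ρ = some (b, p) → xor b (e' p) = m → ¬ n < n' := by
    intro n n' ρ ρ' b p h1 h1' h2 h3 hlt
    obtain ⟨k, rfl⟩ : ∃ k, n' = k + 1 + n := ⟨n' - n - 1, by omega⟩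
    rw [Function.iterate_add_apply, h1, Function.iterate_succ_apply] at h1'
    have : optStep (hStep s e' m AO y) (some ρ) = none := by
      change hStep s e' m AO y ρ = none
      unfold hStep
      rw [h2]
      change (if xor b (e' p) = !m then lk AO y p else none) = none
      rw [if_neg]
      rw [h3]
      cases m <;> simp
    rw [this, optStep_iterate_none] at h1'
    cases h1'
  have hnn : n = n' := by
    have h4 := key h1 h1' h2 h3
    have h5 := key h1' h1 h2' h3'
    omega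
  subst hnn
  have hρ : ρ = ρ' := by
    rw [h1] at h1'
    exact Option.some.inj h1'
  subst hρ
  rw [h2] at h2'
  have := Option.some.inj h2'
  exact (Prod.mk.inj this).2

open Classical in
/-- First-return target (independent of `σM`). -/
noncomputable def sM (s : K → Option (Deck (L + 1))) (e' : Flips L) (m : Bool) (AO : Finset K)
    (y : K → Deck L) (τ : K) : Option (Deck L) :=
  if H : ∃ p, PP s e' m AO y τ p then some (Classical.choose H) else none

theorem sM_eq_some {s : K → Option (Deck (L + 1))} {e' : Flips L} {m : Bool} {AO : Finset K}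
    {y : K → Deck L} {τ : K} {p : Deck L} (h : PP s e' m AO y τ p) :
    sM s e' m AO y τ = some p := by
  classical
  unfold sM
  have H : ∃ p, PP s e' m AO y τ p := ⟨p, h⟩
  rw [dif_pos H]
  rw [PP_unique (Classical.choose_spec H) h]

/-- bit part of the target -/
def bOf (s : K → Option (Deck (L + 1))) (τ : K) : Bool :=
  ((s τ).map (fun t => t.1)).getD false

/-- site part of the target -/
def qOf (s : K → Option (Deck (L + 1))) (d₀ : Deck L) (τ : K) : Deck L :=
  ((s τ).map (fun t => t.2)).getD d₀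

variable {A : Finset K} {ε : K → Bool} {v : K → Deck L} {m : Bool}

theorem v_inj_M (hv : ∀ c ∈ A, ∀ d ∈ A, c ≠ d → v c = v d → ε c ≠ ε d) (b : Bool) :
    Set.InjOn v (A.filter (fun c => ε c = b)) := by
  intro c hc d hd hcd
  by_contra hne
  rw [Finset.mem_coe, Finset.mem_filter] at hc hd
  exact hv c hc.1 d hd.1 hne hcd (hc.2.trans hd.2.symm)

theorem perm_v_inj_M (hv : ∀ c ∈ A, ∀ d ∈ A, c ≠ d → v c = v d → ε c ≠ ε d) (b : Bool)
    (σ : Equiv.Perm (Deck L)) :
    Set.InjOn (fun c => σ (v c)) (A.filter (fun c => ε c = b)) := by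
  intro c hc d hd hcd
  exact v_inj_M hv b hc hd (σ.injective hcd)

theorem yOf_of_M {σM σO : Equiv.Perm (Deck L)} {c : K} (h : ε c = m) :
    yOf ε v m σM σO c = σM (v c) := by simp [yOf, h]

theorem yOf_of_O {σM σO : Equiv.Perm (Deck L)} {c : K} (h : ε c = !m) :
    yOf ε v m σM σO c = σO (v c) := by
  have : ε c ≠ m := by rw [h]; cases m <;> simp
  simp [yOf, this]

theorem yOf_inj (hv : ∀ c ∈ A, ∀ d ∈ A, c ≠ d → v c = v d → ε c ≠ ε d)
    (σM σO : Equiv.Perm (Deck L)) {c d : K} (hc : c ∈ A) (hd : d ∈ A) (he : ε c = ε d)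
    (h : yOf ε v m σM σO c = yOf ε v m σM σO d) : c = d := by
  by_contra hne
  have hvv : v c = v d := by
    unfold yOf at h
    by_cases hm : ε c = m
    · rw [if_pos hm, if_pos (he ▸ hm)] at h
      exact σM.injective h
    · rw [if_neg hm, if_neg (he ▸ hm)] at h
      exact σO.injective h
  exact hv c hc d hd hne hvv he

theorem yFull_inj (hv : ∀ c ∈ A, ∀ d ∈ A, c ≠ d → v c = v d → ε c ≠ ε d)
    (e' : Flips L) (σM σO : Equiv.Perm (Deck L)) : Set.InjOn (yFull e' ε v m σM σO) A := by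
  intro c hc d hd h
  have h1 := (flipPerm e').injective h
  have h2 := Prod.mk.inj h1
  exact yOf_inj hv σM σO hc hd h2.1 h2.2

theorem mem_AO_of_not_AM {τ : K} (hτ : τ ∈ A) (h : τ ∉ A.filter (fun c => ε c = m)) :
    τ ∈ A.filter (fun c => ε c = !m) := by
  simp only [Finset.mem_filter, hτ, true_and] at h ⊢
  cases hε : ε τ <;> cases m <;> simp_all

theorem not_AM_of_AO {τ : K} (h : τ ∈ A.filter (fun c => ε c = !m)) :
    τ ∉ A.filter (fun c => ε c = m) := by
  simp only [Finset.mem_filter, not_and] at h ⊢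
  intro _ h2
  have := h.2
  rw [h2] at this
  cases m <;> simp at this

theorem disj_AM_AO : Disjoint (A.filter (fun c => ε c = m)) (A.filter (fun c => ε c = !m)) := by
  rw [Finset.disjoint_left]
  intro a ha hb
  exact not_AM_of_AO hb ha

theorem AM_union_AO : A.filter (fun c => ε c = m) ∪ A.filter (fun c => ε c = !m) = A := by
  ext τ
  simp only [Finset.mem_union, Finset.mem_filter]
  constructor
  · rintro (h | h) <;> exact h.1
  · intro h
    cases hε : ε τ <;> cases m <;> simp_all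

theorem card_AM_add_AO : (A.filter (fun c => ε c = m)).card + (A.filter (fun c => ε c = !m)).card = A.card := by
  rw [← Finset.card_union_of_disjoint disj_AM_AO, AM_union_AO]


theorem mom_restr_eq_some {f : K → Option K} {O : Finset K} {τ ρ : K} :
    restr f O τ = some ρ ↔ τ ∈ O ∧ ρ ∈ O ∧ f τ = some ρ := by
  unfold restr
  by_cases hτ : τ ∈ O
  · simp only [hτ, if_true, true_and]
    cases hf : f τ with
    | none => simp
    | some r =>
      simp only [Option.bind_some]
      by_cases hr : r ∈ O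
      · simp only [hr, if_true, Option.some.injEq]
        constructor
        · rintro rfl; exact ⟨hr, rfl⟩
        · rintro ⟨_, h⟩; exact h
      · simp only [hr, if_false]
        constructor
        · intro h; cases h
        · rintro ⟨h1, h2⟩
          rw [Option.some.inj h2] at hr
          exact absurd h1 hr
  · simp [hτ]

theorem mom_mask_eq_some {g : K → Option K} {p : K → Prop} [DecidablePred p] {τ ρ : K} :
    mask g p τ = some ρ ↔ p τ ∧ g τ = some ρ := by
  unfold mask
  by_cases h : p τ <;> simp [h]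

variable (hv : ∀ c ∈ A, ∀ d ∈ A, c ≠ d → v c = v d → ε c ≠ ε d)
variable (s : K → Option (Deck (L + 1))) (e' : Flips L) (σM σO : Equiv.Perm (Deck L)) (d₀ : Deck L)

include hv in
theorem restr_eq_mask :
    restr (fg A (yFull e' ε v m σM σO) s) (A.filter (fun c => ε c = m))ᶜ =
      mask (fg (A.filter (fun c => ε c = !m)) (fun c => σO (v c)) (sO s))
        (fun τ => xor (bOf s τ) (e' (qOf s d₀ τ)) = !m) := by
  funext τ
  apply Option.ext
  intro ρ
  rw [mom_restr_eq_some, mom_mask_eq_some, fg_eq_some (yFull_inj hv e' σM σO),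
    fg_eq_some (perm_v_inj_M hv _ σO)]
  simp only [Finset.mem_compl]
  constructor
  · rintro ⟨h1, h2, h3, h4, h5⟩
    have hτO := mem_AO_of_not_AM h3 h1
    have hρO := mem_AO_of_not_AM h4 h2
    have hερ : ε ρ = !m := (Finset.mem_filter.1 hρO).2
    have hy : yFull e' ε v m σM σO ρ = (xor (!m) (e' (σO (v ρ))), σO (v ρ)) := by
      unfold yFull
      rw [yOf_of_O hερ, hερ]
      rfl
    rw [hy] at h5
    refine ⟨?_, hτO, hρO, ?_⟩
    · unfold bOf qOf
      rw [h5]
      change xor (xor (!m) (e' (σO (v ρ)))) (e' (σO (v ρ))) = !m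
      simp
    · unfold sO
      rw [h5]
      rfl
  · rintro ⟨hp, h3, h4, h5⟩
    have hτA := (Finset.mem_filter.1 h3).1
    have hρA := (Finset.mem_filter.1 h4).1
    have hερ : ε ρ = !m := (Finset.mem_filter.1 h4).2
    refine ⟨not_AM_of_AO h3, not_AM_of_AO h4, hτA, hρA, ?_⟩
    unfold sO at h5
    cases hs : s τ with
    | none => rw [hs] at h5; cases h5
    | some t =>
      rw [hs] at h5
      have ht2 : t.2 = σO (v ρ) := Option.some.inj h5
      unfold bOf qOf at hp
      rw [hs] at hp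
      change xor t.1 (e' t.2) = !m at hp
      have ht1 : t.1 = xor (!m) (e' (σO (v ρ))) := by
        rw [← ht2, ← hp]
        simp
      have hy : yFull e' ε v m σM σO ρ = (xor (!m) (e' (σO (v ρ))), σO (v ρ)) := by
        unfold yFull
        rw [yOf_of_O hερ, hερ]
        rfl
      rw [hy]
      congr 1
      exact Prod.ext ht1 ht2

include hv in
theorem firstReturn_hyp (τ ρ : K)
    (hτ : τ ∈ A.filter (fun c => ε c = m)) (hρ : ρ ∈ A.filter (fun c => ε c = m)) (n : ℕ)
    (hn : (optStep (fg A (yFull e' ε v m σM σO) s))^[n+1] (some τ) = some ρ)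
    (hint : ∀ j, 1 ≤ j → j ≤ n → ∃ σ, σ ∉ A.filter (fun c => ε c = m) ∧
      (optStep (fg A (yFull e' ε v m σM σO) s))^[j] (some τ) = some σ) :
    fg (A.filter (fun c => ε c = m)) (fun c => σM (v c))
      (sM s e' m (A.filter (fun c => ε c = !m)) (fun c => σO (v c))) τ = some ρ := by
  set f := fg A (yFull e' ε v m σM σO) s with hf
  set AO := A.filter (fun c => ε c = !m) with hAO
  set y := fun c => σO (v c) with hy
  have hfeq : ∀ {a b}, f a = some b → a ∈ A ∧ b ∈ A ∧ s a = some (yFull e' ε v m σM σO b) :=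
    fun h => (fg_eq_some (yFull_inj hv e' σM σO)).1 h
  -- the walks agree up to time n
  have hwalk : ∀ j, j ≤ n → (optStep (hStep s e' m AO y))^[j] (some τ) = (optStep f)^[j] (some τ) ∧
      ∃ σ, (optStep f)^[j] (some τ) = some σ := by
    intro j
    induction j with
    | zero => intro _; exact ⟨rfl, τ, rfl⟩
    | succ j ih =>
      intro hj
      obtain ⟨h1, σj, h2⟩ := ih (by omega)
      obtain ⟨σ', hσ', h3⟩ := hint (j + 1) (by omega) hj
      refine ⟨?_, σ', h3⟩
      rw [Function.iterate_succ_apply', h1, h3, h2]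
      rw [Function.iterate_succ_apply', h2] at h3
      change hStep s e' m AO y σj = some σ'
      obtain ⟨h4, h5, h6⟩ := hfeq h3
      have hO : σ' ∈ AO := mem_AO_of_not_AM h5 hσ'
      have hε' : ε σ' = !m := (Finset.mem_filter.1 hO).2
      have hyF : yFull e' ε v m σM σO σ' = (xor (!m) (e' (σO (v σ'))), σO (v σ')) := by
        unfold yFull
        rw [yOf_of_O hε', hε']
        rfl
      rw [hyF] at h6
      unfold hStep
      rw [h6]
      change (if xor (xor (!m) (e' (σO (v σ')))) (e' (σO (v σ'))) = !m then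
        lk AO y (σO (v σ')) else none) = some σ'
      rw [if_pos (by simp)]
      exact lk_eq_some (perm_v_inj_M hv _ σO) hO
  obtain ⟨h1, τn, h2⟩ := hwalk n le_rfl
  rw [Function.iterate_succ_apply', h2] at hn
  obtain ⟨h4, h5, h6⟩ := hfeq hn
  have hερ : ε ρ = m := (Finset.mem_filter.1 hρ).2
  have hyF : yFull e' ε v m σM σO ρ = (xor m (e' (σM (v ρ))), σM (v ρ)) := by
    unfold yFull
    rw [yOf_of_M hερ, hερ]
    rfl
  rw [hyF] at h6
  have hP : PP s e' m AO y τ (σM (v ρ)) :=
    ⟨n, τn, xor m (e' (σM (v ρ))), h1.trans h2, h6, by simp⟩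
  rw [fg_eq_some (perm_v_inj_M hv _ σM)]
  exact ⟨hτ, hρ, sM_eq_some hP⟩

include hv in
theorem cyc_f_le :
    cyc (fg A (yFull e' ε v m σM σO) s) ≤
      cyc (fg (A.filter (fun c => ε c = m)) (fun c => σM (v c))
        (sM s e' m (A.filter (fun c => ε c = !m)) (fun c => σO (v c)))) +
      cyc (mask (fg (A.filter (fun c => ε c = !m)) (fun c => σO (v c)) (sO s))
        (fun τ => xor (bOf s τ) (e' (qOf s d₀ τ)) = !m)) := by
  rw [← restr_eq_mask hv s e' σM σO d₀]
  exact cyc_le_firstReturn _ _ _ (fun τ hτ ρ hρ n hn hint =>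
    firstReturn_hyp hv s e' σM σO τ ρ hτ hρ n hn hint)

include hv in
theorem gam_le :
    Gam A v (yOf ε v m σM σO) ≤
      2 ^ cyc (fg (A.filter (fun c => ε c = m)) (fun c => σM (v c))
        (sX (A.filter (fun c => ε c = !m)) v σO)) := by
  have h1 := card_consSets_le (A.filter (fun c => ε c = m)) (A.filter (fun c => ε c = !m))
    disj_AM_AO v (yOf ε v m σM σO) (v_inj_M hv m) (v_inj_M hv _)
    (by
      intro c hc d hd h
      have hc' := Finset.mem_filter.1 (Finset.mem_coe.1 hc)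
      have hd' := Finset.mem_filter.1 (Finset.mem_coe.1 hd)
      exact yOf_inj hv σM σO hc'.1 hd'.1 (hc'.2.trans hd'.2.symm) h)
    (by
      intro c hc d hd h
      have hc' := Finset.mem_filter.1 (Finset.mem_coe.1 hc)
      have hd' := Finset.mem_filter.1 (Finset.mem_coe.1 hd)
      exact yOf_inj hv σM σO hc'.1 hd'.1 (hc'.2.trans hd'.2.symm) h)
    (sX (A.filter (fun c => ε c = !m)) v σO)
    (by
      intro τ _ ρ hρ h
      have hρ' := Finset.mem_filter.1 hρ
      rw [yOf_of_O hρ'.2, h]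
      unfold sX
      rw [if_pos ⟨ρ, hρ, h⟩])
    (by
      intro τ _ h
      unfold sX
      rw [if_neg]
      rintro ⟨ρ, hρ, h2⟩
      exact h ⟨ρ, hρ, h2⟩)
  rw [AM_union_AO] at h1
  rw [fg_congr (y' := fun c => σM (v c)) (s := sX (A.filter (fun c => ε c = !m)) v σO)
    (by
      intro c hc d hd h
      have hc' := Finset.mem_filter.1 (Finset.mem_coe.1 hc)
      have hd' := Finset.mem_filter.1 (Finset.mem_coe.1 hd)
      exact yOf_inj hv σM σO hc'.1 hd'.1 (hc'.2.trans hd'.2.symm) h)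
    (by
      intro c hc
      exact yOf_of_M (Finset.mem_filter.1 hc).2)] at h1
  exact h1

end Step


/-! ### Real-number lemmas -/

theorem one_lt_psi : 1 < psi := by
  unfold psi
  exact Real.one_lt_rpow (by norm_num) (by norm_num)

theorem psi_pos : 0 < psi := lt_trans one_pos one_lt_psi

theorem two_pow_rpow_eq (c : ℕ) : ((2 : ℝ) ^ c) ^ ((1 : ℝ) / 5) = psi ^ c := by
  unfold psi
  rw [← Real.rpow_natCast, ← Real.rpow_natCast, ← Real.rpow_mul (by norm_num),
    ← Real.rpow_mul (by norm_num), mul_comm]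

theorem rpow_le_psi_pow {G : ℝ} (h0 : 0 ≤ G) {c : ℕ} (h : G ≤ 2 ^ c) :
    G ^ ((1 : ℝ) / 5) ≤ psi ^ c := by
  rw [← two_pow_rpow_eq]
  exact Real.rpow_le_rpow h0 h (by norm_num)

/-- The interpolation weight. -/
noncomputable def lamZ (Z : ℝ) : ℝ := Real.log Z / (Real.log Z + Real.log psi)

theorem amgm_psi {Z : ℝ} (hZ : 1 ≤ Z) (c₁ c₂ : ℕ) :
    psi ^ c₂ * Z ^ c₁ ≤ lamZ Z * (Z * psi) ^ c₁ + (1 - lamZ Z) * (Z * psi) ^ c₂ := by
  have hZpos : 0 < Z := by linarith
  have hU : 0 ≤ Real.log Z := Real.log_nonneg hZ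
  have hV : 0 < Real.log psi := Real.log_pos one_lt_psi
  have hUV : 0 < Real.log Z + Real.log psi := by linarith
  have hl0 : 0 ≤ lamZ Z := div_nonneg hU hUV.le
  have hl1 : 0 ≤ 1 - lamZ Z := by
    have : lamZ Z ≤ 1 := by
      unfold lamZ
      rw [div_le_one hUV]
      linarith
    linarith
  have hconv := convexOn_exp.2 (Set.mem_univ ((c₁ : ℝ) * (Real.log Z + Real.log psi)))
    (Set.mem_univ ((c₂ : ℝ) * (Real.log Z + Real.log psi))) hl0 hl1 (by ring)
  simp only [smul_eq_mul] at hconv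
  have e1 : (Z * psi) ^ c₁ = Real.exp ((c₁ : ℝ) * (Real.log Z + Real.log psi)) := by
    rw [Real.exp_nat_mul, Real.exp_add, Real.exp_log hZpos, Real.exp_log psi_pos]
  have e2 : (Z * psi) ^ c₂ = Real.exp ((c₂ : ℝ) * (Real.log Z + Real.log psi)) := by
    rw [Real.exp_nat_mul, Real.exp_add, Real.exp_log hZpos, Real.exp_log psi_pos]
  rw [e1, e2]
  refine le_trans (le_of_eq ?_) hconv
  have e3 : lamZ Z * ((c₁ : ℝ) * (Real.log Z + Real.log psi)) +
      (1 - lamZ Z) * ((c₂ : ℝ) * (Real.log Z + Real.log psi)) =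
      (c₁ : ℝ) * Real.log Z + (c₂ : ℝ) * Real.log psi := by
    unfold lamZ
    field_simp
    ring
  rw [e3, Real.exp_add, Real.exp_nat_mul, Real.exp_nat_mul, Real.exp_log hZpos,
    Real.exp_log psi_pos, mul_comm]

theorem pow_mul_pow_le_avg {Y₁ Y₂ : ℝ} (h2 : 0 ≤ Y₂) (h12 : Y₂ ≤ Y₁) {a b : ℕ} (hab : a ≤ b) :
    Y₁ ^ a * Y₂ ^ b ≤ ((Y₁ + Y₂) / 2) ^ (a + b) := by
  obtain ⟨c, rfl⟩ := Nat.exists_eq_add_of_le hab
  have h1 : 0 ≤ Y₁ := h2.trans h12
  have h3 : Y₁ * Y₂ ≤ ((Y₁ + Y₂) / 2) ^ 2 := by nlinarith [sq_nonneg (Y₁ - Y₂)]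
  have h4 : Y₂ ≤ (Y₁ + Y₂) / 2 := by linarith
  calc Y₁ ^ a * Y₂ ^ (a + c) = (Y₁ * Y₂) ^ a * Y₂ ^ c := by ring
    _ ≤ (((Y₁ + Y₂) / 2) ^ 2) ^ a * ((Y₁ + Y₂) / 2) ^ c := by
        apply mul_le_mul (pow_le_pow_left₀ (mul_nonneg h1 h2) h3 a)
          (pow_le_pow_left₀ h2 h4 c) (by positivity) (by positivity)
    _ = ((Y₁ + Y₂) / 2) ^ (a + (a + c)) := by
        rw [← pow_mul, ← pow_add]
        congr 1
        ring

theorem xi_pos (L : ℕ) : 0 < xi L := Real.exp_pos _

theorem gam_pos : 0 < gam := by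
  unfold gam
  have := psi_pos
  positivity

theorem pp_pos : ∀ L, 0 < pp L
  | 0 => by simp [pp]
  | L + 1 => by
      simp only [pp]
      exact mul_pos (mul_pos (xi_pos L) gam_pos) (pp_pos L)

theorem qq_nonneg : ∀ L, 0 ≤ qq L
  | 0 => by simp [qq]
  | L + 1 => by
      simp only [qq]
      exact mul_nonneg (xi_pos L).le (add_nonneg (qq_nonneg L) (by have := pp_pos L; positivity))

/-! ### The core of the induction step -/

section Core
variable {L : ℕ}

/-- The induction hypothesis. -/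
def MomentIH (K : Type*) [Fintype K] [DecidableEq K] (L : ℕ) : Prop :=
  ∀ (A : Finset K) (x : K → Deck L), Set.InjOn x A → ∀ (s : K → Option (Deck L)) (Z : ℝ), 1 ≤ Z →
    Ex (fun ω : DΩ L => (WW L ω A x) ^ ((1 : ℝ) / 5) * Z ^ cyc (fg A (fun c => pi L ω (x c)) s)) ≤
      (pp L * Z + qq L) ^ A.card

theorem core_M (IH : MomentIH K L) {AM : Finset K} {v : K → Deck L} (hv : Set.InjOn v AM)
    (s₁ s₂ : K → Option (Deck L)) {Z : ℝ} (hZ : 1 ≤ Z) :
    Ex (fun ωM : DΩ L => (WW L ωM AM v) ^ ((1 : ℝ) / 5) *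
        (psi ^ cyc (fg AM (fun c => pi L ωM (v c)) s₂) * Z ^ cyc (fg AM (fun c => pi L ωM (v c)) s₁)))
      ≤ (pp L * (Z * psi) + qq L) ^ AM.card := by
  have hZ' : 1 ≤ Z * psi := by
    have := one_lt_psi
    nlinarith
  have h1 := IH AM v hv s₁ (Z * psi) hZ'
  have h2 := IH AM v hv s₂ (Z * psi) hZ'
  have hl0 : 0 ≤ lamZ Z := by
    have hU : 0 ≤ Real.log Z := Real.log_nonneg hZ
    have hV : 0 < Real.log psi := Real.log_pos one_lt_psi
    exact div_nonneg hU (by linarith)
  have hl1 : 0 ≤ 1 - lamZ Z := by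
    have hU : 0 ≤ Real.log Z := Real.log_nonneg hZ
    have hV : 0 < Real.log psi := Real.log_pos one_lt_psi
    have : lamZ Z ≤ 1 := by
      unfold lamZ
      rw [div_le_one (by linarith)]
      linarith
    linarith
  calc _ ≤ Ex (fun ωM : DΩ L =>
        lamZ Z * ((WW L ωM AM v) ^ ((1 : ℝ) / 5) * (Z * psi) ^ cyc (fg AM (fun c => pi L ωM (v c)) s₁)) +
        (1 - lamZ Z) * ((WW L ωM AM v) ^ ((1 : ℝ) / 5) * (Z * psi) ^ cyc (fg AM (fun c => pi L ωM (v c)) s₂))) := by
        apply Ex_mono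
        intro ωM
        have hW : 0 ≤ (WW L ωM AM v) ^ ((1 : ℝ) / 5) :=
          Real.rpow_nonneg (WW_nonneg _ _ _ _) _
        have := mul_le_mul_of_nonneg_left
          (amgm_psi hZ (cyc (fg AM (fun c => pi L ωM (v c)) s₁)) (cyc (fg AM (fun c => pi L ωM (v c)) s₂))) hW
        refine this.trans (le_of_eq ?_)
        ring
    _ = lamZ Z * Ex (fun ωM : DΩ L => (WW L ωM AM v) ^ ((1 : ℝ) / 5) * (Z * psi) ^ cyc (fg AM (fun c => pi L ωM (v c)) s₁)) +
        (1 - lamZ Z) * Ex (fun ωM : DΩ L => (WW L ωM AM v) ^ ((1 : ℝ) / 5) * (Z * psi) ^ cyc (fg AM (fun c => pi L ωM (v c)) s₂)) := by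
        rw [Ex_add, Ex_const_mul, Ex_const_mul]
    _ ≤ lamZ Z * (pp L * (Z * psi) + qq L) ^ AM.card + (1 - lamZ Z) * (pp L * (Z * psi) + qq L) ^ AM.card :=
        add_le_add (mul_le_mul_of_nonneg_left h1 hl0) (mul_le_mul_of_nonneg_left h2 hl1)
    _ = _ := by ring

variable {A : Finset K} {ε : K → Bool} {v : K → Deck L} {m : Bool}

theorem mask_hq (hv : ∀ c ∈ A, ∀ d ∈ A, c ≠ d → v c = v d → ε c ≠ ε d)
    (s : K → Option (Deck (L + 1))) (σO : Equiv.Perm (Deck L)) (d₀ : Deck L) (τ τ' : K)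
    (h : IsPer (fg (A.filter (fun c => ε c = !m)) (fun c => σO (v c)) (sO s)) τ)
    (h' : IsPer (fg (A.filter (fun c => ε c = !m)) (fun c => σO (v c)) (sO s)) τ')
    (hq : qOf s d₀ τ = qOf s d₀ τ') :
    fg (A.filter (fun c => ε c = !m)) (fun c => σO (v c)) (sO s) τ =
      fg (A.filter (fun c => ε c = !m)) (fun c => σO (v c)) (sO s) τ' := by
  have hinj := perm_v_inj_M hv (!m) σO
  have key : ∀ {τ : K}, IsPer (fg (A.filter (fun c => ε c = !m)) (fun c => σO (v c)) (sO s)) τ →
      ∃ r, fg (A.filter (fun c => ε c = !m)) (fun c => σO (v c)) (sO s) τ = some r ∧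
        r ∈ A.filter (fun c => ε c = !m) ∧ qOf s d₀ τ = σO (v r) := by
    intro τ ⟨n, hn, hper⟩
    obtain ⟨k, rfl⟩ : ∃ k, n = k + 1 := ⟨n - 1, by omega⟩
    rw [Function.iterate_succ_apply] at hper
    cases hg : fg (A.filter (fun c => ε c = !m)) (fun c => σO (v c)) (sO s) τ with
    | none =>
      have : optStep (fg (A.filter (fun c => ε c = !m)) (fun c => σO (v c)) (sO s)) (some τ) = none := hg
      rw [this, optStep_iterate_none] at hper
      cases hper
    | some r =>
      obtain ⟨_, h2, h3⟩ := (fg_eq_some hinj).1 hg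
      refine ⟨r, rfl, h2, ?_⟩
      unfold sO at h3
      unfold qOf
      rw [h3]
      rfl
  obtain ⟨r, h1, h2, h3⟩ := key h
  obtain ⟨r', h1', h2', h3'⟩ := key h'
  rw [h1, h1']
  rw [h3, h3'] at hq
  rw [hinj h2 h2' hq]

/-- One step with `m`, for fixed input flips. -/
theorem core (IH : MomentIH K L) (hv : ∀ c ∈ A, ∀ d ∈ A, c ≠ d → v c = v d → ε c ≠ ε d)
    (s : K → Option (Deck (L + 1))) {Z : ℝ} (hZ : 1 ≤ Z) :
    Ex (fun ωO : DΩ L => Ex (fun e' : Flips L => Ex (fun ωM : DΩ L =>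
      (Gam A v (yOf ε v m (pi L ωM) (pi L ωO))) ^ ((1 : ℝ) / 5) *
      (WW L ωM (A.filter (fun c => ε c = m)) v) ^ ((1 : ℝ) / 5) *
      (WW L ωO (A.filter (fun c => ε c = !m)) v) ^ ((1 : ℝ) / 5) *
      Z ^ cyc (fg A (yFull e' ε v m (pi L ωM) (pi L ωO)) s)))) ≤
    (pp L * (Z * psi) + qq L) ^ (A.filter (fun c => ε c = m)).card *
      (pp L * ((1 + Z) / 2) + qq L) ^ (A.filter (fun c => ε c = !m)).card := by
  classical
  obtain ⟨d₀⟩ := instNonemptyDeck L
  set AM := A.filter (fun c => ε c = m) with hAM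
  set AO := A.filter (fun c => ε c = !m) with hAO
  set Y₁ := (pp L * (Z * psi) + qq L) ^ AM.card with hY₁
  have hY₁0 : 0 ≤ Y₁ := by
    have := pp_pos L
    have := qq_nonneg L
    have := psi_pos
    positivity
  have hZpos : 0 < Z := by linarith
  -- fixed ωO, e'
  have step1 : ∀ (ωO : DΩ L) (e' : Flips L), Ex (fun ωM : DΩ L =>
      (Gam A v (yOf ε v m (pi L ωM) (pi L ωO))) ^ ((1 : ℝ) / 5) *
      (WW L ωM AM v) ^ ((1 : ℝ) / 5) *
      (WW L ωO AO v) ^ ((1 : ℝ) / 5) *
      Z ^ cyc (fg A (yFull e' ε v m (pi L ωM) (pi L ωO)) s)) ≤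
      Y₁ * ((WW L ωO AO v) ^ ((1 : ℝ) / 5) *
        Z ^ cyc (mask (fg AO (fun c => pi L ωO (v c)) (sO s))
          (fun τ => xor (bOf s τ) (e' (qOf s d₀ τ)) = !m))) := by
    intro ωO e'
    set WO := (WW L ωO AO v) ^ ((1 : ℝ) / 5) with hWO
    have hWO0 : 0 ≤ WO := Real.rpow_nonneg (WW_nonneg _ _ _ _) _
    set cM := cyc (mask (fg AO (fun c => pi L ωO (v c)) (sO s))
          (fun τ => xor (bOf s τ) (e' (qOf s d₀ τ)) = !m)) with hcM
    have hpt : ∀ ωM : DΩ L,
        (Gam A v (yOf ε v m (pi L ωM) (pi L ωO))) ^ ((1 : ℝ) / 5) *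
        (WW L ωM AM v) ^ ((1 : ℝ) / 5) * WO *
        Z ^ cyc (fg A (yFull e' ε v m (pi L ωM) (pi L ωO)) s) ≤
        (WO * Z ^ cM) * ((WW L ωM AM v) ^ ((1 : ℝ) / 5) *
          (psi ^ cyc (fg AM (fun c => pi L ωM (v c)) (sX AO v (pi L ωO))) *
            Z ^ cyc (fg AM (fun c => pi L ωM (v c)) (sM s e' m AO (fun c => pi L ωO (v c)))))) := by
      intro ωM
      have hG := rpow_le_psi_pow (Gam_nonneg A v (yOf ε v m (pi L ωM) (pi L ωO)))
        (gam_le hv (pi L ωM) (pi L ωO))
      have hc := cyc_f_le (m := m) hv s e' (pi L ωM) (pi L ωO) d₀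
      have hZc : Z ^ cyc (fg A (yFull e' ε v m (pi L ωM) (pi L ωO)) s) ≤
          Z ^ (cyc (fg AM (fun c => pi L ωM (v c)) (sM s e' m AO (fun c => pi L ωO (v c)))) + cM) :=
        pow_le_pow_right₀ hZ hc
      have hW : 0 ≤ (WW L ωM AM v) ^ ((1 : ℝ) / 5) := Real.rpow_nonneg (WW_nonneg _ _ _ _) _
      have hGnn : 0 ≤ (Gam A v (yOf ε v m (pi L ωM) (pi L ωO))) ^ ((1 : ℝ) / 5) :=
        Real.rpow_nonneg (Gam_nonneg _ _ _) _
      calc _ ≤ psi ^ cyc (fg AM (fun c => pi L ωM (v c)) (sX AO v (pi L ωO))) *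
              (WW L ωM AM v) ^ ((1 : ℝ) / 5) * WO *
              Z ^ (cyc (fg AM (fun c => pi L ωM (v c)) (sM s e' m AO (fun c => pi L ωO (v c)))) + cM) := by
            apply mul_le_mul _ hZc (by positivity) (by have := psi_pos; positivity)
            apply mul_le_mul_of_nonneg_right _ hWO0
            exact mul_le_mul_of_nonneg_right hG hW
        _ = _ := by rw [pow_add]; ring
    calc _ ≤ Ex (fun ωM : DΩ L => (WO * Z ^ cM) * ((WW L ωM AM v) ^ ((1 : ℝ) / 5) *
          (psi ^ cyc (fg AM (fun c => pi L ωM (v c)) (sX AO v (pi L ωO))) *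
            Z ^ cyc (fg AM (fun c => pi L ωM (v c)) (sM s e' m AO (fun c => pi L ωO (v c))))))) :=
          Ex_mono hpt
      _ = (WO * Z ^ cM) * Ex (fun ωM : DΩ L => ((WW L ωM AM v) ^ ((1 : ℝ) / 5) *
          (psi ^ cyc (fg AM (fun c => pi L ωM (v c)) (sX AO v (pi L ωO))) *
            Z ^ cyc (fg AM (fun c => pi L ωM (v c)) (sM s e' m AO (fun c => pi L ωO (v c))))))) :=
          Ex_const_mul _ _
      _ ≤ (WO * Z ^ cM) * Y₁ :=
          mul_le_mul_of_nonneg_left (core_M IH (v_inj_M hv m) _ _ hZ) (by positivity)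
      _ = _ := by ring
  -- fixed ωO
  have hZ₂ : 1 ≤ (1 + Z) / 2 := by linarith
  have step2 : ∀ ωO : DΩ L, Ex (fun e' : Flips L => Ex (fun ωM : DΩ L =>
      (Gam A v (yOf ε v m (pi L ωM) (pi L ωO))) ^ ((1 : ℝ) / 5) *
      (WW L ωM AM v) ^ ((1 : ℝ) / 5) *
      (WW L ωO AO v) ^ ((1 : ℝ) / 5) *
      Z ^ cyc (fg A (yFull e' ε v m (pi L ωM) (pi L ωO)) s))) ≤
      Y₁ * ((WW L ωO AO v) ^ ((1 : ℝ) / 5) *
        ((1 + Z) / 2) ^ cyc (fg AO (fun c => pi L ωO (v c)) (sO s))) := by
    intro ωO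
    have hWO0 : 0 ≤ (WW L ωO AO v) ^ ((1 : ℝ) / 5) := Real.rpow_nonneg (WW_nonneg _ _ _ _) _
    have hmask := Ex_cyc_mask (Q := Deck L) (fg AO (fun c => pi L ωO (v c)) (sO s)) (qOf s d₀)
      (bOf s) (!m) (fun τ τ' h h' hq => mask_hq hv s (pi L ωO) d₀ τ τ' h h' hq) Z hZ
    calc _ ≤ Ex (fun e' : Flips L => (Y₁ * (WW L ωO AO v) ^ ((1 : ℝ) / 5)) *
          Z ^ cyc (mask (fg AO (fun c => pi L ωO (v c)) (sO s))
            (fun τ => xor (bOf s τ) (e' (qOf s d₀ τ)) = !m))) := by
          apply Ex_mono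
          intro e'
          refine (step1 ωO e').trans (le_of_eq ?_)
          ring
      _ = (Y₁ * (WW L ωO AO v) ^ ((1 : ℝ) / 5)) * Ex (fun e' : Flips L =>
          Z ^ cyc (mask (fg AO (fun c => pi L ωO (v c)) (sO s))
            (fun τ => xor (bOf s τ) (e' (qOf s d₀ τ)) = !m))) := Ex_const_mul _ _
      _ ≤ (Y₁ * (WW L ωO AO v) ^ ((1 : ℝ) / 5)) *
            ((1 + Z) / 2) ^ cyc (fg AO (fun c => pi L ωO (v c)) (sO s)) :=
          mul_le_mul_of_nonneg_left hmask (by positivity)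
      _ = _ := by ring
  calc _ ≤ Ex (fun ωO : DΩ L => Y₁ * ((WW L ωO AO v) ^ ((1 : ℝ) / 5) *
        ((1 + Z) / 2) ^ cyc (fg AO (fun c => pi L ωO (v c)) (sO s)))) := Ex_mono step2
    _ = Y₁ * Ex (fun ωO : DΩ L => (WW L ωO AO v) ^ ((1 : ℝ) / 5) *
        ((1 + Z) / 2) ^ cyc (fg AO (fun c => pi L ωO (v c)) (sO s))) := Ex_const_mul _ _
    _ ≤ Y₁ * (pp L * ((1 + Z) / 2) + qq L) ^ AO.card :=
        mul_le_mul_of_nonneg_left (IH AO v (v_inj_M hv _) (sO s) _ hZ₂) hY₁0

end Core


/-! ### The induction -/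

theorem Ex_DΩ_succ (L : ℕ) (f : DΩ (L + 1) → ℝ) :
    Ex f = Ex (fun e : Flips L => Ex (fun ω0 : DΩ L => Ex (fun ω1 : DΩ L => Ex (fun e' : Flips L =>
      f (e, ω0, ω1, e'))))) := by
  change @Ex (Flips L × DΩ L × DΩ L × Flips L) _ f = _
  rw [Ex_prod]
  refine Ex_congr fun e => ?_
  rw [Ex_prod]
  refine Ex_congr fun ω0 => ?_
  rw [Ex_prod]

theorem WW_succ (L : ℕ) (e : Flips L) (ω0 ω1 : DΩ L) (e' : Flips L) (A : Finset K)
    (x : K → Deck (L + 1)) :
    WW (L + 1) (e, ω0, ω1, e') A x =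
      corr L (A.filter (fun c => childOf e x c = false)).card
        (A.filter (fun c => childOf e x c = true)).card *
      Gam A (siteOf x) (fun c => if childOf e x c then pi L ω1 (siteOf x c) else pi L ω0 (siteOf x c)) *
      WW L ω0 (A.filter (fun c => childOf e x c = false)) (siteOf x) *
      WW L ω1 (A.filter (fun c => childOf e x c = true)) (siteOf x) := rfl

theorem hv_of_injOn {L : ℕ} {A : Finset K} {x : K → Deck (L + 1)} (hx : Set.InjOn x A) (e : Flips L) :
    ∀ c ∈ A, ∀ d ∈ A, c ≠ d → siteOf x c = siteOf x d → childOf e x c ≠ childOf e x d := by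
  intro c hc d hd hne hs he
  apply hne
  apply hx hc hd
  unfold siteOf at hs
  unfold childOf at he
  rw [hs] at he
  have h1 : (x c).1 = (x d).1 := by
    cases h : e (x d).2 <;> simpa [h] using he
  exact Prod.ext h1 hs

theorem pi_succ_apply (L : ℕ) (e : Flips L) (ω0 ω1 : DΩ L) (e' : Flips L) (x : K → Deck (L + 1))
    (c : K) :
    pi (L + 1) (e, ω0, ω1, e') (x c) =
      flipPerm e' (childOf e x c,
        if childOf e x c then pi L ω1 (siteOf x c) else pi L ω0 (siteOf x c)) := rfl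

/-- One step of the induction for fixed input flips. -/
theorem step_fixed_e {L : ℕ} (IH : MomentIH K L) {A : Finset K} {x : K → Deck (L + 1)}
    (hx : Set.InjOn x A) (s : K → Option (Deck (L + 1))) {Z : ℝ} (hZ : 1 ≤ Z) (e : Flips L) :
    Ex (fun ω0 : DΩ L => Ex (fun ω1 : DΩ L => Ex (fun e' : Flips L =>
      (WW (L + 1) (e, ω0, ω1, e') A x) ^ ((1 : ℝ) / 5) *
        Z ^ cyc (fg A (fun c => pi (L + 1) (e, ω0, ω1, e') (x c)) s)))) ≤
    (corr L (A.filter (fun c => childOf e x c = false)).card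
        (A.filter (fun c => childOf e x c = true)).card) ^ ((1 : ℝ) / 5) *
      (((pp L * (Z * psi) + qq L) + (pp L * ((1 + Z) / 2) + qq L)) / 2) ^ A.card := by
  set ε := childOf e x with hε
  set v := siteOf x with hv'
  have hv := hv_of_injOn hx e
  set C := (corr L (A.filter (fun c => ε c = false)).card
        (A.filter (fun c => ε c = true)).card) ^ ((1 : ℝ) / 5) with hC
  have hC0 : 0 ≤ C := Real.rpow_nonneg (corr_nonneg _ _ _) _
  have hpp := pp_pos L
  have hqq := qq_nonneg L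
  have hpsi := one_lt_psi
  have hY2 : 0 ≤ pp L * ((1 + Z) / 2) + qq L := by positivity
  have hY12 : pp L * ((1 + Z) / 2) + qq L ≤ pp L * (Z * psi) + qq L := by
    have : (1 + Z) / 2 ≤ Z * psi := by nlinarith
    have := mul_le_mul_of_nonneg_left this hpp.le
    linarith
  have hsplit : ∀ ω0 ω1 : DΩ L,
      (WW (L + 1) (e, ω0, ω1, (fun _ => false : Flips L)) A x) ^ ((1 : ℝ) / 5) =
      C * (Gam A v (fun c => if ε c then pi L ω1 (v c) else pi L ω0 (v c))) ^ ((1 : ℝ) / 5) *
        (WW L ω0 (A.filter (fun c => ε c = false)) v) ^ ((1 : ℝ) / 5) *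
        (WW L ω1 (A.filter (fun c => ε c = true)) v) ^ ((1 : ℝ) / 5) := by
    intro ω0 ω1
    rw [WW_succ, Real.mul_rpow (mul_nonneg (mul_nonneg (corr_nonneg _ _ _) (Gam_nonneg _ _ _))
      (WW_nonneg _ _ _ _)) (WW_nonneg _ _ _ _), Real.mul_rpow (mul_nonneg (corr_nonneg _ _ _)
      (Gam_nonneg _ _ _)) (WW_nonneg _ _ _ _), Real.mul_rpow (corr_nonneg _ _ _) (Gam_nonneg _ _ _)]
  have hsplit' : ∀ (ω0 ω1 : DΩ L) (e' : Flips L),
      (WW (L + 1) (e, ω0, ω1, e') A x) ^ ((1 : ℝ) / 5) =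
      (WW (L + 1) (e, ω0, ω1, (fun _ => false : Flips L)) A x) ^ ((1 : ℝ) / 5) := fun _ _ _ => rfl
  by_cases hab : (A.filter (fun c => ε c = false)).card ≤ (A.filter (fun c => ε c = true)).card
  · -- `M` is the child `false`
    have hcore := core (A := A) (ε := ε) (v := v) (m := false) IH hv s hZ
    simp only [Bool.not_false] at hcore
    have hF : ∀ (ω0 ω1 : DΩ L) (e' : Flips L),
        (WW (L + 1) (e, ω0, ω1, e') A x) ^ ((1 : ℝ) / 5) *
          Z ^ cyc (fg A (fun c => pi (L + 1) (e, ω0, ω1, e') (x c)) s) =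
        C * ((Gam A v (yOf ε v false (pi L ω0) (pi L ω1))) ^ ((1 : ℝ) / 5) *
          (WW L ω0 (A.filter (fun c => ε c = false)) v) ^ ((1 : ℝ) / 5) *
          (WW L ω1 (A.filter (fun c => ε c = true)) v) ^ ((1 : ℝ) / 5) *
          Z ^ cyc (fg A (yFull e' ε v false (pi L ω0) (pi L ω1)) s)) := by
      intro ω0 ω1 e'
      rw [hsplit', hsplit]
      have h1 : (fun c => if ε c then pi L ω1 (v c) else pi L ω0 (v c)) =
          yOf ε v false (pi L ω0) (pi L ω1) := by
        funext c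
        unfold yOf
        cases ε c <;> simp
      have h2 : (fun c => pi (L + 1) (e, ω0, ω1, e') (x c)) = yFull e' ε v false (pi L ω0) (pi L ω1) := by
        funext c
        rw [pi_succ_apply]
        unfold yFull
        rw [← h1]
      rw [h1, h2]
      ring
    have hE : ∀ ω0 ω1 : DΩ L, Ex (fun e' : Flips L =>
        (WW (L + 1) (e, ω0, ω1, e') A x) ^ ((1 : ℝ) / 5) *
          Z ^ cyc (fg A (fun c => pi (L + 1) (e, ω0, ω1, e') (x c)) s)) =
        C * Ex (fun e' : Flips L => (Gam A v (yOf ε v false (pi L ω0) (pi L ω1))) ^ ((1 : ℝ) / 5) *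
          (WW L ω0 (A.filter (fun c => ε c = false)) v) ^ ((1 : ℝ) / 5) *
          (WW L ω1 (A.filter (fun c => ε c = true)) v) ^ ((1 : ℝ) / 5) *
          Z ^ cyc (fg A (yFull e' ε v false (pi L ω0) (pi L ω1)) s)) := by
      intro ω0 ω1
      rw [← Ex_const_mul]
      exact Ex_congr (hF ω0 ω1)
    have hE2 : Ex (fun ω0 : DΩ L => Ex (fun ω1 : DΩ L => Ex (fun e' : Flips L =>
        (WW (L + 1) (e, ω0, ω1, e') A x) ^ ((1 : ℝ) / 5) *
          Z ^ cyc (fg A (fun c => pi (L + 1) (e, ω0, ω1, e') (x c)) s)))) =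
        C * Ex (fun ω1 : DΩ L => Ex (fun e' : Flips L => Ex (fun ω0 : DΩ L =>
          (Gam A v (yOf ε v false (pi L ω0) (pi L ω1))) ^ ((1 : ℝ) / 5) *
          (WW L ω0 (A.filter (fun c => ε c = false)) v) ^ ((1 : ℝ) / 5) *
          (WW L ω1 (A.filter (fun c => ε c = true)) v) ^ ((1 : ℝ) / 5) *
          Z ^ cyc (fg A (yFull e' ε v false (pi L ω0) (pi L ω1)) s)))) := by
      rw [Ex_comm]
      rw [← Ex_const_mul]
      refine Ex_congr fun ω1 => ?_
      refine Eq.trans ?_ (congrArg (fun t => C * t) (Ex_comm _))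
      rw [← Ex_const_mul]
      refine Ex_congr fun ω0 => ?_
      exact hE ω0 ω1
    rw [hE2]
    apply mul_le_mul_of_nonneg_left _ hC0
    refine hcore.trans ?_
    have := pow_mul_pow_le_avg hY2 hY12 hab
    rwa [show (A.filter (fun c => ε c = false)).card + (A.filter (fun c => ε c = true)).card = A.card from
      card_AM_add_AO (A := A) (ε := ε) (m := false)] at this
  · -- `M` is the child `true`
    have hab' : (A.filter (fun c => ε c = true)).card ≤ (A.filter (fun c => ε c = false)).card := by omega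
    have hcore := core (A := A) (ε := ε) (v := v) (m := true) IH hv s hZ
    simp only [Bool.not_true] at hcore
    have hF : ∀ (ω0 ω1 : DΩ L) (e' : Flips L),
        (WW (L + 1) (e, ω0, ω1, e') A x) ^ ((1 : ℝ) / 5) *
          Z ^ cyc (fg A (fun c => pi (L + 1) (e, ω0, ω1, e') (x c)) s) =
        C * ((Gam A v (yOf ε v true (pi L ω1) (pi L ω0))) ^ ((1 : ℝ) / 5) *
          (WW L ω1 (A.filter (fun c => ε c = true)) v) ^ ((1 : ℝ) / 5) *
          (WW L ω0 (A.filter (fun c => ε c = false)) v) ^ ((1 : ℝ) / 5) *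
          Z ^ cyc (fg A (yFull e' ε v true (pi L ω1) (pi L ω0)) s)) := by
      intro ω0 ω1 e'
      rw [hsplit', hsplit]
      have h1 : (fun c => if ε c then pi L ω1 (v c) else pi L ω0 (v c)) =
          yOf ε v true (pi L ω1) (pi L ω0) := by
        funext c
        unfold yOf
        cases ε c <;> simp
      have h2 : (fun c => pi (L + 1) (e, ω0, ω1, e') (x c)) = yFull e' ε v true (pi L ω1) (pi L ω0) := by
        funext c
        rw [pi_succ_apply]
        unfold yFull
        rw [← h1]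
      rw [h1, h2]
      ring
    have hE : ∀ ω0 ω1 : DΩ L, Ex (fun e' : Flips L =>
        (WW (L + 1) (e, ω0, ω1, e') A x) ^ ((1 : ℝ) / 5) *
          Z ^ cyc (fg A (fun c => pi (L + 1) (e, ω0, ω1, e') (x c)) s)) =
        C * Ex (fun e' : Flips L => (Gam A v (yOf ε v true (pi L ω1) (pi L ω0))) ^ ((1 : ℝ) / 5) *
          (WW L ω1 (A.filter (fun c => ε c = true)) v) ^ ((1 : ℝ) / 5) *
          (WW L ω0 (A.filter (fun c => ε c = false)) v) ^ ((1 : ℝ) / 5) *
          Z ^ cyc (fg A (yFull e' ε v true (pi L ω1) (pi L ω0)) s)) := by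
      intro ω0 ω1
      rw [← Ex_const_mul]
      exact Ex_congr (hF ω0 ω1)
    have hE2 : Ex (fun ω0 : DΩ L => Ex (fun ω1 : DΩ L => Ex (fun e' : Flips L =>
        (WW (L + 1) (e, ω0, ω1, e') A x) ^ ((1 : ℝ) / 5) *
          Z ^ cyc (fg A (fun c => pi (L + 1) (e, ω0, ω1, e') (x c)) s)))) =
        C * Ex (fun ω0 : DΩ L => Ex (fun e' : Flips L => Ex (fun ω1 : DΩ L =>
          (Gam A v (yOf ε v true (pi L ω1) (pi L ω0))) ^ ((1 : ℝ) / 5) *
          (WW L ω1 (A.filter (fun c => ε c = true)) v) ^ ((1 : ℝ) / 5) *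
          (WW L ω0 (A.filter (fun c => ε c = false)) v) ^ ((1 : ℝ) / 5) *
          Z ^ cyc (fg A (yFull e' ε v true (pi L ω1) (pi L ω0)) s)))) := by
      rw [← Ex_const_mul]
      refine Ex_congr fun ω0 => ?_
      refine Eq.trans ?_ (congrArg (fun t => C * t) (Ex_comm _))
      rw [← Ex_const_mul]
      refine Ex_congr fun ω1 => ?_
      exact hE ω0 ω1
    rw [hE2]
    apply mul_le_mul_of_nonneg_left _ hC0
    refine hcore.trans ?_
    have := pow_mul_pow_le_avg hY2 hY12 hab'
    rwa [show (A.filter (fun c => ε c = true)).card + (A.filter (fun c => ε c = false)).card = A.card from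
      card_AM_add_AO (A := A) (ε := ε) (m := true)] at this

theorem xi_pow_eq (L : ℕ) (a : ℕ) :
    Real.exp ((17 / 50) * (a : ℝ) / 2 ^ (L + 1)) = xi L ^ a := by
  unfold xi
  rw [← Real.exp_nat_mul]
  congr 1
  ring

theorem avg_eq (L : ℕ) (Z : ℝ) :
    ((pp L * (Z * psi) + qq L) + (pp L * ((1 + Z) / 2) + qq L)) / 2 =
      pp L * gam * Z + (qq L + pp L / 4) := by
  unfold gam
  ring

end Moment

open Moment in
/-- **The moment bound.** -/
theorem moment_bound (L : ℕ) (A : Finset K) (x : K → Deck L) (hx : Set.InjOn x A)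
    (s : K → Option (Deck L)) (Z : ℝ) (hZ : 1 ≤ Z) :
    Ex (fun ω : DΩ L => (WW L ω A x) ^ ((1 : ℝ) / 5) * Z ^ cyc (fg A (fun c => pi L ω (x c)) s)) ≤
      (pp L * Z + qq L) ^ A.card := by
  induction L generalizing A Z with
  | zero =>
    have hpt : ∀ ω : DΩ 0, (WW 0 ω A x) ^ ((1 : ℝ) / 5) * Z ^ cyc (fg A (fun c => pi 0 ω (x c)) s) ≤
        Z ^ A.card := by
      intro ω
      have h0 : WW 0 ω A x = 1 := rfl
      rw [h0, Real.one_rpow, one_mul]
      exact pow_le_pow_right₀ hZ (cyc_fg_le_card _ _ _)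
    have : (Nonempty (DΩ 0)) := instNonemptyDΩ 0
    refine (Ex_mono hpt).trans ?_
    rw [Ex_const]
    simp [pp, qq]
  | succ L ih =>
    have IH : MomentIH K L := fun A x hx s Z hZ => ih A x hx s Z hZ
    rw [Ex_DΩ_succ]
    set W := ((pp L * (Z * psi) + qq L) + (pp L * ((1 + Z) / 2) + qq L)) / 2 with hW
    have hW0 : 0 ≤ W := by
      have := pp_pos L
      have := qq_nonneg L
      have := one_lt_psi
      have hZ0 : 0 < Z := by linarith
      have : 0 < psi := by linarith
      positivity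
    calc _ ≤ Ex (fun e : Flips L => (corr L (A.filter (fun c => childOf e x c = false)).card
            (A.filter (fun c => childOf e x c = true)).card) ^ ((1 : ℝ) / 5) * W ^ A.card) :=
          Ex_mono (fun e => step_fixed_e IH hx s hZ e)
      _ = W ^ A.card * Ex (fun e : Flips L => (corr L (A.filter (fun c => childOf e x c = false)).card
            (A.filter (fun c => childOf e x c = true)).card) ^ ((1 : ℝ) / 5)) := by
          rw [← Ex_const_mul]
          exact Ex_congr fun e => mul_comm _ _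
      _ ≤ W ^ A.card * xi L ^ A.card := by
          apply mul_le_mul_of_nonneg_left _ (by positivity)
          rw [← xi_pow_eq]
          exact Ex_corr_le L A x hx
      _ = (pp (L + 1) * Z + qq (L + 1)) ^ A.card := by
          rw [← mul_pow]
          congr 1
          rw [hW, avg_eq]
          simp only [pp, qq]
          ring


namespace Moment

/-! ### Numerics: `pp + qq ≤ 2` -/

theorem psi_pow_five : psi ^ 5 = 2 := by
  unfold psi
  rw [← Real.rpow_natCast, ← Real.rpow_mul (by norm_num)]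
  norm_num

theorem psi_le : psi ≤ 11487 / 10000 := by
  by_contra h
  rw [not_le] at h
  have h1 : ((11487 : ℝ) / 10000) ^ 5 < psi ^ 5 := pow_lt_pow_left₀ h (by norm_num) (by norm_num)
  rw [psi_pow_five] at h1
  norm_num at h1

theorem exp_34_le : Real.exp (17 / 50) ≤ 1405 / 1000 := by
  by_contra h
  rw [not_le] at h
  have h1 : ((1405 : ℝ) / 1000) ^ 50 < Real.exp (17 / 50) ^ 50 :=
    pow_lt_pow_left₀ h (by norm_num) (by norm_num)
  rw [← Real.exp_nat_mul] at h1
  have h2 : ((50 : ℕ) : ℝ) * (17 / 50) = ((17 : ℕ) : ℝ) * 1 := by norm_num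
  rw [h2, Real.exp_nat_mul] at h1
  have h3 : Real.exp 1 ^ 17 ≤ (2.7182818286 : ℝ) ^ 17 :=
    pow_le_pow_left₀ (Real.exp_pos 1).le Real.exp_one_lt_d9.le 17
  have h4 : (2.7182818286 : ℝ) ^ 17 ≤ ((1405 : ℝ) / 1000) ^ 50 := by norm_num
  linarith

/-- `ζ_L`. -/
noncomputable def zetaL (L : ℕ) : ℝ := Real.exp ((17 / 50) * (1 - (1 / 2) ^ L))

/-- `q_∞`. -/
noncomputable def qinf : ℝ := 1 / (4 * (1 - gam))

theorem gam_le_num : gam ≤ 82435 / 100000 := by
  have := psi_le
  unfold gam
  linarith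

theorem gam_ge : 3 / 4 ≤ gam := by
  have := one_lt_psi
  unfold gam
  linarith

theorem gam_lt_one : gam < 1 := by
  have := gam_le_num
  linarith

theorem qinf_mul : qinf * (1 - gam) = 1 / 4 := by
  unfold qinf
  have : 1 - gam ≠ 0 := by have := gam_lt_one; linarith
  field_simp

theorem zetaL_succ (L : ℕ) : zetaL (L + 1) = xi L * zetaL L := by
  unfold zetaL xi
  rw [← Real.exp_add]
  congr 1
  have h : (1 : ℝ) / 2 ^ (L + 1) = (1 / 2) ^ (L + 1) := by
    rw [one_div_pow]
  have h2 : ((17 : ℝ) / 50) / 2 ^ (L + 1) = (17 / 50) * (1 / 2 ^ (L + 1)) := by ring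
  rw [h2, h, pow_succ]
  ring

theorem pp_eq : ∀ L, pp L = zetaL L * gam ^ L
  | 0 => by simp [pp, zetaL]
  | L + 1 => by
      simp only [pp]
      rw [pp_eq L, zetaL_succ, pow_succ]
      ring

theorem qq_eq : ∀ L, qq L = zetaL L * ((1 - gam ^ L) * qinf)
  | 0 => by simp [qq, zetaL]
  | L + 1 => by
      simp only [qq]
      rw [qq_eq L, pp_eq L, zetaL_succ]
      have h := qinf_mul
      have h1 : qinf / 1 = qinf * (1 - gam) + qinf * gam := by ring
      have h2 : (1 - gam ^ (L + 1)) * qinf = (1 - gam ^ L) * qinf + gam ^ L / 4 := by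
        rw [pow_succ]
        have h3 : gam ^ L / 4 = gam ^ L * (qinf * (1 - gam)) := by rw [h]; ring
        rw [h3]
        ring
      rw [h2]
      ring

theorem pp_add_qq_le' (L : ℕ) : pp L + qq L ≤ 2 := by
  rw [pp_eq, qq_eq]
  have hg0 := gam_pos
  have hg1 := gam_lt_one
  have hg2 := gam_le_num
  have hg3 := gam_ge
  have h1g : 0 < 1 - gam := by linarith
  have hg0' : 0 < gam := hg0
  have hq1 : 1 ≤ qinf := by
    unfold qinf
    rw [le_div_iff₀ (by positivity)]
    linarith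
  have hq2 : qinf ≤ 142329 / 100000 := by
    unfold qinf
    rw [div_le_iff₀ (by positivity)]
    nlinarith
  have hp0 : 0 ≤ gam ^ L := by positivity
  have hp1 : gam ^ L ≤ 1 := pow_le_one₀ hg0.le hg1.le
  have hz0 : 0 < zetaL L := Real.exp_pos _
  have hz1 : zetaL L ≤ 1405 / 1000 := by
    refine le_trans ?_ exp_34_le
    unfold zetaL
    apply Real.exp_le_exp.2
    have : (0 : ℝ) ≤ (1 / 2) ^ L := by positivity
    linarith
  have hconv : gam ^ L + (1 - gam ^ L) * qinf ≤ qinf := by nlinarith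
  have hq0 : 0 ≤ qinf := by linarith
  calc zetaL L * gam ^ L + zetaL L * ((1 - gam ^ L) * qinf)
      = zetaL L * (gam ^ L + (1 - gam ^ L) * qinf) := by ring
    _ ≤ zetaL L * qinf := mul_le_mul_of_nonneg_left hconv hz0.le
    _ ≤ (1405 / 1000) * (142329 / 100000) := mul_le_mul hz1 hq2 hq0 (by norm_num)
    _ ≤ 2 := by norm_num

end Moment

open Moment in
theorem pp_add_qq_le (L : ℕ) : pp L + qq L ≤ 2 := Moment.pp_add_qq_le' L

open Moment in
theorem moment_main (L : ℕ) (A : Finset K) (x : K → Deck L) (hx : Set.InjOn x A) :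
    Ex (fun ω : DΩ L => (WW L ω A x) ^ ((1 : ℝ) / 5)) ≤ 2 ^ A.card := by
  have h := moment_bound L A x hx (fun _ => none) 1 le_rfl
  simp only [one_pow, mul_one] at h
  refine h.trans ?_
  apply pow_le_pow_left₀
  · have := pp_pos L
    have := qq_nonneg L
    positivity
  · exact pp_add_qq_le L

namespace Moment

/-! ### Positivity of `W` -/

theorem card_le_of_injOn {L : ℕ} {A : Finset K} {v : K → Deck L} (h : Set.InjOn v A) :
    A.card ≤ 2 ^ L := by
  rw [← card_deck L, ← Finset.card_image_of_injOn h]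
  exact Finset.card_le_univ _

theorem corr_pos {L a0 a1 : ℕ} (h0 : a0 ≤ 2 ^ L) (h1 : a1 ≤ 2 ^ L) : 0 < corr L a0 a1 := by
  unfold corr
  have e1 : 0 < Nat.descFactorial (2 ^ (L + 1)) (a0 + a1) :=
    Nat.descFactorial_pos.2 (by rw [pow_succ]; omega)
  have e2 : 0 < Nat.descFactorial (2 ^ L) a0 := Nat.descFactorial_pos.2 h0
  have e3 : 0 < Nat.descFactorial (2 ^ L) a1 := Nat.descFactorial_pos.2 h1
  have e1' : (0 : ℝ) < (Nat.descFactorial (2 ^ (L + 1)) (a0 + a1) : ℝ) := by exact_mod_cast e1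
  have e2' : (0 : ℝ) < (Nat.descFactorial (2 ^ L) a0 : ℝ) := by exact_mod_cast e2
  have e3' : (0 : ℝ) < (Nat.descFactorial (2 ^ L) a1 : ℝ) := by exact_mod_cast e3
  positivity

theorem Gam_pos_of_mem {L : ℕ} {A : Finset K} {xb yb : K → Deck L} {B : Finset K}
    (hB : B ∈ consSets A xb yb) : 0 < Gam A xb yb := by
  unfold Gam
  have : 0 < (consSets A xb yb).card := Finset.card_pos.2 ⟨B, hB⟩
  have : (0 : ℝ) < ((consSets A xb yb).card : ℝ) := by exact_mod_cast this
  positivity

end Moment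

open Moment in
theorem WW_pos : ∀ (L : ℕ) (ω : DΩ L) (A : Finset K) (x : K → Deck L), Set.InjOn x A →
    0 < WW L ω A x
  | 0, _, _, _, _ => by simp [WW]
  | L + 1, ω, A, x, hx => by
      obtain ⟨e, ω0, ω1, e'⟩ := ω
      rw [WW_succ]
      have hv := hv_of_injOn hx e
      have h0 := v_inj_M hv false
      have h1 := v_inj_M hv true
      have hcons : A.filter (fun c => childOf e x c = true) ∈ consSets A (siteOf x)
          (fun c => if childOf e x c then pi L ω1 (siteOf x c) else pi L ω0 (siteOf x c)) := by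
        unfold consSets
        rw [Finset.mem_filter, Finset.mem_powerset]
        refine ⟨Finset.filter_subset _ _, ?_⟩
        intro c hc d hd hne h
        have hεne : childOf e x c ≠ childOf e x d := by
          rcases h with h | h
          · exact hv c hc d hd hne h
          · intro he
            apply hv c hc d hd hne _ he
            simp only [← he] at h
            cases hcc : childOf e x c
            · simp only [hcc] at h
              simpa using h
            · simp only [hcc] at h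
              simpa using h
        simp only [Finset.mem_filter, hc, hd, true_and]
        cases h1 : childOf e x c <;> cases h2 : childOf e x d <;> simp_all
      have hc := corr_pos (L := L) (card_le_of_injOn h0) (card_le_of_injOn h1)
      have hG := Gam_pos_of_mem hcons
      have hW0 := WW_pos L ω0 _ _ h0
      have hW1 := WW_pos L ω1 _ _ h1
      positivity

end Crest.Agent.Thorp
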